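import Vale.Agent.P120.Defs

/-!
Elementary facts: cut-offs, upper regular measures, dyadic annulus estimates, packing.
-/

open MeasureTheory Metric Set Filter Topology
open scoped RealInnerProductSpace ENNReal NNReal

noncomputable section

namespace Vale.Agent.P120

variable {X : Type} [NormedAddCommGroup X] [InnerProductSpace ℝ X] [FiniteDimensional ℝ X]
  [MeasurableSpace X] [BorelSpace X]
variable {F : Type} [NormedAddCommGroup F] [InnerProductSpace ℝ F] [FiniteDimensional ℝ F]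

theorem J_nonneg (n : ℕ) (z : X) : 0 ≤ J n z := by
  unfold J; positivity

theorem J_neg (n : ℕ) (z : X) : J n (-z) = J n z := by
  rw [J, J, norm_neg]

theorem J_sub_comm (n : ℕ) (x y : X) : J n (x - y) = J n (y - x) := by
  rw [J, J, norm_sub_rev]

theorem measurable_J (n : ℕ) : Measurable (J n : X → ℝ) := by
  unfold J; fun_prop

theorem cut_nonneg (R t : ℝ) : 0 ≤ cut R t := by
  exact le_max_left _ _

theorem cut_le_one (R t : ℝ) : cut R t ≤ 1 := by
  exact max_le zero_le_one (min_le_left _ _)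

theorem cut_eq_one {R t : ℝ} (hR : 0 < R) (h : t ≤ R) : cut R t = 1 := by
  have : t / R ≤ 1 := (div_le_one hR).2 h
  rw [cut, min_eq_left (by linarith), max_eq_right zero_le_one]

theorem cut_eq_zero {R t : ℝ} (hR : 0 < R) (h : 2 * R ≤ t) : cut R t = 0 := by
  have : 2 ≤ t / R := (le_div_iff₀ hR).2 h
  exact max_eq_left ((min_le_right _ _).trans (by linarith))

theorem cut_lip {R : ℝ} (hR : 0 < R) (s t : ℝ) : |cut R s - cut R t| ≤ |s - t| / R := by
  have h1 := abs_max_sub_max_le_abs (min 1 (2 - s / R)) (min 1 (2 - t / R)) 0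
  have h2 := abs_min_sub_min_le_max 1 (2 - s / R) 1 (2 - t / R)
  rw [sub_self, abs_zero, max_eq_right (abs_nonneg _), sub_sub_sub_cancel_left, ← sub_div,
    abs_div, abs_of_pos hR, abs_sub_comm t] at h2
  rw [cut, cut, max_comm 0, max_comm 0]
  exact h1.trans h2

theorem continuous_cut (R : ℝ) : Continuous (cut R) := by
  unfold cut; fun_prop

theorem cut_mono {R R' t : ℝ} (hR : 0 < R) (h : R ≤ R') (ht : 0 ≤ t) : cut R t ≤ cut R' t := by
  have := div_le_div_of_nonneg_left ht hR h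
  exact max_le_max le_rfl (min_le_min le_rfl (by linarith))

theorem cut_div {R r : ℝ} (hr : 0 < r) (t : ℝ) : cut R (t / r) = cut (r * R) t := by
  rw [cut, cut, div_div]

theorem lipschitz_cut_dist {R : ℝ} (hR : 0 < R) (x : X) :
    LipschitzWith (Real.toNNReal R⁻¹) (fun y : X => cut R (dist y x)) := by
  refine LipschitzWith.of_dist_le' fun y z => (cut_lip hR _ _).trans ?_
  rw [div_eq_inv_mul]
  gcongr
  exact abs_dist_sub_le y z x

theorem LocLip.continuous {u : X → F} (hu : LocLip u) : Continuous u := by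
  refine continuous_iff_continuousAt.2 fun x => ?_
  obtain ⟨L, h⟩ := hu (‖x‖ + 1)
  exact h.continuousOn.continuousAt (isOpen_ball.mem_nhds (by simp))

theorem LocLip.on_ball {u : X → F} (hu : LocLip u) (x : X) (ρ : ℝ) :
    ∃ L, LipschitzOnWith L u (ball x ρ) := by
  obtain ⟨L, h⟩ := hu (ρ + dist x 0)
  exact ⟨L, h.mono (ball_subset_ball' le_rfl)⟩

theorem locLip_of_lipschitz {u : X → F} {L : ℝ≥0} (hu : LipschitzWith L u) : LocLip u := by
  exact fun _ => ⟨L, hu.lipschitzOnWith⟩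

theorem LocLip.sub {u v : X → F} (hu : LocLip u) (hv : LocLip v) : LocLip (fun y => u y - v y) := by
  intro R
  obtain ⟨L, h⟩ := hu R
  obtain ⟨L', h'⟩ := hv R
  refine ⟨_, LipschitzOnWith.of_dist_le' (K := L + L') fun x hx y hy => ?_⟩
  linarith [dist_sub_sub_le (u x) (v x) (u y) (v y), h.dist_le_mul x hx y hy,
    h'.dist_le_mul x hx y hy]

theorem LocLip.const_smul {u : X → F} (hu : LocLip u) (c : ℝ) : LocLip (fun y => c • u y) := by
  intro R
  obtain ⟨L, h⟩ := hu R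
  refine ⟨_, LipschitzOnWith.of_dist_le' (K := ‖c‖ * L) fun x hx y hy => ?_⟩
  rw [dist_smul₀, mul_assoc]
  exact mul_le_mul_of_nonneg_left (h.dist_le_mul x hx y hy) (norm_nonneg _)

/-- A Lipschitz cut-off times a locally Lipschitz map is Lipschitz. Cases: both points in the ball
(product rule, `u` and `φ` bounded there), one point outside (then `φ` vanishes there). -/
theorem lipschitz_smul_of_locLip {φ : X → ℝ} {K : ℝ≥0} (hφ : LipschitzWith K φ) {x : X} {ρ : ℝ}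
    (hz : ∀ y, ρ ≤ dist y x → φ y = 0) {u : X → F} (hu : LocLip u) :
    ∃ L, LipschitzWith L (fun y => φ y • u y) := by
  obtain ⟨L, h⟩ := hu.on_ball x ρ
  obtain ⟨M, hM⟩ := (isCompact_closedBall x ρ).exists_bound_of_continuousOn
    hu.continuous.continuousOn
  obtain ⟨M', hM'⟩ := (isCompact_closedBall x ρ).exists_bound_of_continuousOn
    hφ.continuous.continuousOn
  have h1 : ∀ y ∈ ball x ρ, ∀ z, ‖(φ y - φ z) • u y‖ ≤ K * dist y z * |M| := fun y hy z => by
    rw [norm_smul, ← dist_eq_norm]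
    exact mul_le_mul (hφ.dist_le_mul y z) ((hM y (ball_subset_closedBall hy)).trans (le_abs_self _))
      (norm_nonneg _) (by positivity)
  have h2 : ∀ y ∈ ball x ρ, ∀ z, dist (φ y • u y) (φ z • u z) ≤ (K * |M| + |M'| * L) * dist y z :=
    fun y hy z => by
      have h3 := h1 y hy z
      have h4 : ‖φ z • (u y - u z)‖ ≤ |M'| * (L * dist y z) := by
        by_cases hz' : z ∈ ball x ρ
        · rw [norm_smul, ← dist_eq_norm]
          exact mul_le_mul ((hM' z (ball_subset_closedBall hz')).trans (le_abs_self _))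
            (h.dist_le_mul y hy z hz') dist_nonneg (abs_nonneg _)
        · rw [hz z (not_lt.1 hz'), zero_smul, norm_zero]
          positivity
      rw [dist_eq_norm, show φ y • u y - φ z • u z = (φ y - φ z) • u y + φ z • (u y - u z) by
        module]
      linarith [norm_add_le ((φ y - φ z) • u y) (φ z • (u y - u z))]
  refine ⟨_, LipschitzWith.of_dist_le' (K := K * |M| + |M'| * L) fun y z => ?_⟩
  by_cases hy : y ∈ ball x ρ
  · exact h2 y hy z
  by_cases hz' : z ∈ ball x ρ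
  · rw [dist_comm, dist_comm y]
    exact h2 z hz' y
  · rw [hz y (not_lt.1 hy), hz z (not_lt.1 hz'), zero_smul, zero_smul, dist_self]
    positivity

theorem hasCompactSupport_of_zero {G : Type} [Zero G] [TopologicalSpace G] {ψ : X → G} {x : X}
    {ρ : ℝ} (hz : ∀ y, ρ ≤ dist y x → ψ y = 0) : HasCompactSupport ψ := by
  exact HasCompactSupport.intro (isCompact_closedBall x ρ) fun y hy => hz y (not_le.1 hy).le

/-- A Lipschitz map vanishing off a ball is bounded by `L ρ`. (If `X` is trivial this can fail, so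
we allow the extra hypothesis that some point lies at distance exactly `ρ`: here `Nontrivial X`.) -/
theorem norm_le_of_zero [Nontrivial X] {ψ : X → F} {L : ℝ≥0} (hψ : LipschitzWith L ψ) {x : X}
    {ρ : ℝ} (hρ : 0 < ρ) (hz : ∀ y, ρ ≤ dist y x → ψ y = 0) (y : X) : ‖ψ y‖ ≤ L * ρ := by
  obtain ⟨e, he⟩ := exists_norm_eq X hρ.le
  have h : ∀ e : X, ‖e‖ = ρ → ρ ≤ dist (y + e) x → ‖ψ y‖ ≤ L * ρ := fun e he h => by
    simpa [hz _ h, he] using hψ.dist_le_mul y (y + e)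
  have h1 := dist_triangle_right (y + e) (y + -e) x
  rw [dist_add_left, dist_eq_norm, sub_neg_eq_add, ← two_smul ℝ e, norm_smul, he,
    Real.norm_two] at h1
  by_cases h2 : ρ ≤ dist (y + e) x
  exacts [h e he h2, h (-e) (by rwa [norm_neg]) (by linarith)]

theorem Up.locFin {n : ℕ} {μ : Measure X} {C : ℝ} (h : Up n μ C) : IsLocallyFiniteMeasure μ := by
  exact ⟨fun y => ⟨ball y 1, ball_mem_nhds y one_pos, (h y 1 one_pos).trans_lt ENNReal.ofReal_lt_top⟩⟩

theorem Up.real_le {n : ℕ} {μ : Measure X} {C : ℝ} (h : Up n μ C) (hC : 0 < C) (y : X) {ρ : ℝ}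
    (hρ : 0 < ρ) : μ.real (ball y ρ) ≤ C * ρ ^ n := by
  exact ENNReal.toReal_le_of_le_ofReal (by positivity) (h y ρ hρ)

theorem Up.mono {n : ℕ} {μ : Measure X} {C C' : ℝ} (h : Up n μ C) (hC : C ≤ C') : Up n μ C' := by
  exact fun y ρ hρ => (h y ρ hρ).trans (ENNReal.ofReal_le_ofReal (by gcongr))

theorem Low.mono {n : ℕ} {μ : Measure X} {C : ℝ} {x x' : X} {W W' : ℝ} (h : Low n μ C x W)
    (hW : dist x' x + W' ≤ W) : Low n μ C x' W' := by
  exact fun y hy h1 ρ h2 h3 => h y hy (by linarith [dist_triangle y x' x]) ρ h2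
    (by linarith [dist_nonneg (x := x') (y := x)])

theorem Reg.mono {n : ℕ} {μ : Measure X} {C : ℝ} {x x' : X} {W W' : ℝ} (h : Reg n μ C x W)
    (hx : x' ∈ μ.support) (hW : dist x' x + W' ≤ W) : Reg n μ C x' W' := by
  exact ⟨h.up, h.low.mono hW, hx⟩

theorem Reg.real_ge {n : ℕ} {μ : Measure X} {C : ℝ} {x : X} {W : ℝ} (h : Reg n μ C x W)
    {y : X} (hy : y ∈ μ.support) (hyx : dist y x < W) {ρ : ℝ} (hρ : 0 < ρ) (hρW : ρ ≤ W) :
    ρ ^ n / C ≤ μ.real (ball y ρ) := by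
  exact (ENNReal.ofReal_le_iff_le_toReal
    ((h.up y ρ hρ).trans_lt ENNReal.ofReal_lt_top).ne).1 (h.low y hy hyx ρ hρ hρW)

/-- Lebesgue measure is regular of dimension `finrank`. Use `Measure.addHaar_ball`. -/
theorem reg_volume {n : ℕ} (hn : Module.finrank ℝ X = n) :
    ∃ C : ℝ, 0 < C ∧ ∀ (x : X) (W : ℝ), Reg n (volume : Measure X) C x W := by
  obtain ⟨v, hv, h⟩ : ∃ v : ℝ, 0 < v ∧ (volume : Measure X) (ball 0 1) = ENNReal.ofReal v :=
    ⟨_, ENNReal.toReal_pos (measure_ball_pos _ _ one_pos).ne' measure_ball_lt_top.ne,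
      (ENNReal.ofReal_toReal measure_ball_lt_top.ne).symm⟩
  have h1 : ∀ (y : X) (ρ : ℝ), 0 < ρ → volume (ball y ρ) = ENNReal.ofReal (ρ ^ n * v) :=
    fun y ρ hρ => by
      rw [Measure.addHaar_ball_of_pos _ y hρ, h, hn, ENNReal.ofReal_mul (by positivity)]
  refine ⟨max v v⁻¹, lt_max_of_lt_left hv, fun x W => ⟨fun y ρ hρ => ?_, fun y _ _ ρ hρ _ => ?_,
    by simp [Measure.support_eq_univ]⟩⟩ <;> rw [h1 y ρ hρ] <;> apply ENNReal.ofReal_le_ofReal
  · rw [mul_comm]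
    gcongr
    exact le_max_left _ _
  · rw [← div_inv_eq_mul]
    gcongr
    exact le_max_right _ _

theorem integrableOn_ball_of_continuous {G : Type} [NormedAddCommGroup G] {μ : Measure X}
    [IsLocallyFiniteMeasure μ] {f : X → G} (hf : Continuous f) (x : X) (ρ : ℝ) :
    IntegrableOn f (ball x ρ) μ := by
  exact (hf.continuousOn.integrableOn_compact (isCompact_closedBall x ρ)).mono_set
    ball_subset_closedBall

theorem Gr.mono {n : ℕ} {μ : Measure X} {u : X → F} {x : X} {ρ G G' : ℝ} (h : Gr n μ u x ρ G)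
    (hρ : 0 < ρ) (hG : G ≤ G') : Gr n μ u x ρ G' := by
  intro t ht
  have := hρ.trans_le ht
  exact (h t ht).trans (by gcongr)

theorem Gr.grow {n : ℕ} {μ : Measure X} {u : X → F} {x : X} {ρ ρ' G : ℝ} (h : Gr n μ u x ρ G)
    (hρ : 0 < ρ) (hρ' : ρ ≤ ρ') : Gr n μ u x ρ' (G * (ρ' / ρ) ^ (5 / 2 : ℝ)) := by
  intro t ht
  have h1 := hρ.trans_le hρ'
  have h2 := h1.trans_le ht
  refine (h t (hρ'.trans ht)).trans_eq ?_
  rw [show t / ρ = ρ' / ρ * (t / ρ') by field_simp, Real.mul_rpow (by positivity) (by positivity)]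
  ring

/-- Cauchy-Schwarz inequality. -/
theorem ann_cs {α : Type} [MeasurableSpace α] {μ : Measure α} {A B h : α → ℝ}
    (hA : Integrable A μ) (hB : Integrable B μ) (hh : Integrable h μ)
    (h0 : ∀ p, 0 ≤ A p ∧ 0 ≤ B p ∧ h p ^ 2 ≤ A p * B p) :
    |∫ p, h p ∂μ| ≤ √(∫ p, A p ∂μ) * √(∫ p, B p ∂μ) := by
  have := discrim_le_zero (a := ∫ p, A p ∂μ) (b := 2 * ∫ p, h p ∂μ) (c := ∫ p, B p ∂μ) fun t => by
    rw [← integral_mul_const, ← integral_const_mul, ← integral_mul_const,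
      ← integral_add (hA.mul_const _) ((hh.const_mul _).mul_const _),
      ← integral_add (f := fun a => A a * (t * t) + 2 * h a * t)
        ((hA.mul_const _).add ((hh.const_mul _).mul_const _)) hB]
    refine integral_nonneg fun p => ?_
    obtain ⟨h1, h2, h3⟩ := h0 p
    rcases h1.eq_or_lt with h4 | h4
    · have : h p = 0 := by rwa [← h4, zero_mul, sq_nonpos_iff] at h3
      simp [← h4, this, h2]
    · exact nonneg_of_mul_nonneg_right (a := A p) (by nlinarith [sq_nonneg (A p * t + h p)]) h4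
  rw [← Real.sqrt_mul (integral_nonneg fun p => (h0 p).1)]
  exact Real.abs_le_sqrt (by rw [discrim] at this; linarith)

theorem ann_aux {μ : Measure X} {f v : X → ℝ} (hf : Measurable f) (h0 : ∀ y, 0 ≤ f y)
    (hv : Measurable v) {s : Set X} {x : X} {r b m : ℕ → ℝ} (hb : ∀ i, 0 ≤ b i)
    (hs : ∀ y ∈ s, ∃ i, y ∈ ball x (r i) ∧ f y ≤ b i * v y)
    (hm : ∀ i, ∫⁻ y in ball x (r i), ENNReal.ofReal (v y) ∂μ ≤ ENNReal.ofReal (m i))
    {a q : ℝ} (ha : 0 ≤ a) (hq : 0 ≤ q) (hq1 : q < 1) (h : ∀ i, b i * m i ≤ a * q ^ i) :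
    IntegrableOn f s μ ∧ ∫ y in s, f y ∂μ ≤ a / (1 - q) := by
  have h1 : ∫⁻ y in s, ENNReal.ofReal (f y) ∂μ ≤ ENNReal.ofReal (a / (1 - q)) := by
    refine (lintegral_mono_set (t := ⋃ i, {y | y ∈ ball x (r i) ∧ f y ≤ b i * v y})
      fun y hy => mem_iUnion.2 (hs y hy)).trans ((lintegral_iUnion_le _ _).trans ?_)
    rw [div_eq_mul_inv, ← tsum_geometric_of_lt_one hq hq1, ← tsum_mul_left,
      ENNReal.ofReal_tsum_of_nonneg (fun i => by positivity)
        ((summable_geometric_of_lt_one hq hq1).mul_left a)]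
    refine ENNReal.tsum_le_tsum fun i => (setLIntegral_mono
      (g := fun y => ENNReal.ofReal (b i) * ENNReal.ofReal (v y)) (by fun_prop)
      fun y hy => ?_).trans ?_
    · rw [← ENNReal.ofReal_mul (hb i)]
      exact ENNReal.ofReal_le_ofReal hy.2
    · rw [lintegral_const_mul _ (by fun_prop)]
      refine le_trans ?_ (ENNReal.ofReal_le_ofReal (h i))
      rw [ENNReal.ofReal_mul (hb i)]
      gcongr
      exact (lintegral_mono_set fun y hy => hy.1).trans (hm i)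
  refine ⟨⟨hf.aestronglyMeasurable, (hasFiniteIntegral_iff_ofReal (ae_of_all _ h0)).2
    (h1.trans_lt ENNReal.ofReal_lt_top)⟩, ?_⟩
  rw [integral_eq_lintegral_of_nonneg_ae (ae_of_all _ h0) hf.aestronglyMeasurable]
  exact ENNReal.toReal_le_of_le_ofReal (div_nonneg ha (by linarith)) h1

theorem ann_dyadic {x y : X} {R : ℝ} (hR : 0 < R) (hy : y ∈ (ball x R)ᶜ) :
    ∃ i : ℕ, y ∈ ball x (2 * (R * 2 ^ i)) ∧ R * 2 ^ i ≤ ‖x - y‖ := by
  rw [mem_compl_iff, mem_ball_iff_norm', not_lt] at hy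
  obtain ⟨i, h1, h2⟩ := exists_nat_pow_near ((one_le_div hR).2 hy) one_lt_two
  rw [le_div_iff₀ hR] at h1
  rw [div_lt_iff₀ hR, pow_succ] at h2
  exact ⟨i, mem_ball_iff_norm'.2 (by linarith), by linarith⟩

/-- Dyadic annuli `ρ 2^(-i-1) ≤ |x-y| < ρ 2^(-i)`; the point `y = x` contributes `0`.
Do it with `lintegral` and `lintegral_iUnion_le`, then convert. -/
theorem ann_near (n : ℕ) {C : ℝ} (hC : 0 < C) : ∃ Ca : ℝ, 0 < Ca ∧ ∀ μ : Measure X, Up n μ C →
    ∀ (x : X) (ρ : ℝ), 0 < ρ →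
      IntegrableOn (fun y => J n (x - y) * ‖x - y‖ ^ 2) (ball x ρ) μ ∧
      ∫ y in ball x ρ, J n (x - y) * ‖x - y‖ ^ 2 ∂μ ≤ Ca * ρ := by
  refine ⟨C * 2 ^ (n + 1) * 2 ^ n * 2, by positivity, fun μ hU x ρ hρ => ?_⟩
  have := ann_aux (μ := μ) (f := fun y => J n (x - y) * ‖x - y‖ ^ 2) (v := fun _ => 1)
    (s := ball x ρ) (x := x) (r := fun i => 2 * (ρ * (1 / 2) ^ i))
    (b := fun i => ((ρ * (1 / 2) ^ i / 2) ^ (n + 1))⁻¹ * (ρ * (1 / 2) ^ i) ^ 2)
    (m := fun i => C * (2 * (ρ * (1 / 2) ^ i)) ^ n) (a := C * 2 ^ (n + 1) * 2 ^ n * ρ) (q := 1 / 2)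
    (by unfold J; fun_prop) (fun y => mul_nonneg (J_nonneg _ _) (sq_nonneg _)) measurable_const
    (fun i => by positivity) (fun y hy => ?_) (fun i => by simpa using hU x _ (by positivity))
    (by positivity) (by norm_num) (by norm_num) fun i => le_of_eq ?_
  · exact ⟨this.1, this.2.trans_eq (by ring)⟩
  · rcases eq_or_ne y x with rfl | h
    · exact ⟨0, mem_ball_self (by positivity), by simp; positivity⟩
    · have h0 : 0 < ‖x - y‖ := norm_sub_pos_iff.2 h.symm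
      obtain ⟨i, h1, h2⟩ := exists_nat_pow_near_of_lt_one (div_pos h0 hρ)
        ((div_le_one hρ).2 (mem_ball_iff_norm'.1 hy).le) one_half_pos one_half_lt_one
      rw [lt_div_iff₀ hρ, pow_succ] at h1
      rw [div_le_iff₀ hρ] at h2
      refine ⟨i, mem_ball_iff_norm'.2 (by linarith), ?_⟩
      rw [mul_one, J]
      gcongr <;> linarith
  · rw [mul_assoc _ ρ]
    have : 0 < ρ * (1 / 2) ^ i := by positivity
    generalize ρ * (1 / 2) ^ i = t at this
    rw [div_pow, mul_pow, pow_succ t n]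
    field_simp

/-- Dyadic annuli `ρ 2^i ≤ |x-y| < ρ 2^(i+1)`. -/
theorem ann_far (n : ℕ) {C : ℝ} (hC : 0 < C) : ∃ Ca : ℝ, 0 < Ca ∧ ∀ μ : Measure X, Up n μ C →
    ∀ (x : X) (ρ : ℝ), 0 < ρ →
      IntegrableOn (fun y => J n (x - y)) (ball x ρ)ᶜ μ ∧
      ∫ y in (ball x ρ)ᶜ, J n (x - y) ∂μ ≤ Ca / ρ := by
  refine ⟨C * 2 ^ n * 2, by positivity, fun μ hU x ρ hρ => ?_⟩
  have := ann_aux (μ := μ) (f := fun y => J n (x - y)) (v := fun _ => 1)
    (s := (ball x ρ)ᶜ) (x := x) (r := fun i => 2 * (ρ * 2 ^ i))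
    (b := fun i => ((ρ * 2 ^ i) ^ (n + 1))⁻¹)
    (m := fun i => C * (2 * (ρ * 2 ^ i)) ^ n) (a := C * 2 ^ n / ρ) (q := 1 / 2)
    (by unfold J; fun_prop) (fun y => J_nonneg _ _) measurable_const
    (fun i => by positivity) (fun y hy => ?_) (fun i => by simpa using hU x _ (by positivity))
    (by positivity) (by norm_num) (by norm_num) fun i => le_of_eq ?_
  · exact ⟨this.1, this.2.trans_eq (by ring)⟩
  · obtain ⟨i, h1, h2⟩ := ann_dyadic hρ hy
    refine ⟨i, h1, ?_⟩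
    rw [mul_one, J]
    gcongr
  · rw [one_div, inv_pow, mul_pow 2, pow_succ]
    field_simp

/-- On the annulus at radius `t = R 2^i`: Cauchy-Schwarz (or `2ab ≤ a²/s + s b²`) gives
`∫ ‖u‖ ≤ √(C (2t)^n) √(G (2t)^n (2t/ρ)^(5/2))`; the series is geometric of ratio `2^(-3/4)`. -/
theorem ann_gr (n : ℕ) {C : ℝ} (hC : 0 < C) : ∃ Ca : ℝ, 0 < Ca ∧ ∀ μ : Measure X, Up n μ C →
    ∀ u : X → F, Continuous u → ∀ (x : X) (ρ G : ℝ), 0 < ρ → 0 ≤ G → Gr n μ u x ρ G →
    ∀ R : ℝ, ρ ≤ R →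
      IntegrableOn (fun y => ‖u y‖ * (‖x - y‖ ^ (n + 2))⁻¹) (ball x R)ᶜ μ ∧
      ∫ y in (ball x R)ᶜ, ‖u y‖ * (‖x - y‖ ^ (n + 2))⁻¹ ∂μ ≤
        Ca * √G * (ρ ^ 2)⁻¹ * (ρ / R) ^ (3 / 4 : ℝ) := by
  have hq : (2 : ℝ) ^ (-(3 / 4) : ℝ) < 1 := Real.rpow_lt_one_of_one_lt_of_neg one_lt_two (by norm_num)
  have hq' := sub_pos.2 hq
  refine ⟨√C * 2 ^ n * 2 ^ (5 / 4 : ℝ) / (1 - 2 ^ (-(3 / 4) : ℝ)), by positivity,
    fun μ hU u hu x ρ G hρ hG hg R hR => ?_⟩
  have hR0 := hρ.trans_le hR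
  have := hU.locFin
  have := ann_aux (μ := μ) (f := fun y => ‖u y‖ * (‖x - y‖ ^ (n + 2))⁻¹) (v := fun y => ‖u y‖)
    (s := (ball x R)ᶜ) (x := x) (r := fun i => 2 * (R * 2 ^ i))
    (b := fun i => ((R * 2 ^ i) ^ (n + 2))⁻¹)
    (m := fun i => √C * √G * (2 * (R * 2 ^ i)) ^ n * (2 * (R * 2 ^ i) / ρ) ^ (5 / 4 : ℝ))
    (a := √C * 2 ^ n * 2 ^ (5 / 4 : ℝ) * √G * (ρ ^ 2)⁻¹ * (ρ / R) ^ (3 / 4 : ℝ))
    (q := 2 ^ (-(3 / 4) : ℝ)) (hu.norm.measurable.mul (by fun_prop)) (fun y => by positivity)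
    hu.norm.measurable (fun i => by positivity) (fun y hy => ?_) (fun i => ?_)
    (by positivity) (by positivity) hq fun i => le_of_eq ?_
  · exact ⟨this.1, this.2.trans_eq (by ring)⟩
  · obtain ⟨i, h1, h2⟩ := ann_dyadic hR0 hy
    refine ⟨i, h1, ?_⟩
    rw [mul_comm]
    gcongr
  · have h1 : ρ ≤ 2 * (R * 2 ^ i) := by nlinarith [one_le_pow₀ (n := i) (one_le_two (α := ℝ))]
    generalize 2 * (R * 2 ^ i) = t at h1
    have ht := hρ.trans_le h1
    rw [← ofReal_integral_eq_lintegral_ofReal (integrableOn_ball_of_continuous hu.norm x t)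
      (ae_of_all _ fun y => norm_nonneg _)]
    refine ENNReal.ofReal_le_ofReal ((le_abs_self _).trans ((ann_cs (A := fun _ => 1)
      (B := fun y => ‖u y‖ ^ 2) (integrableOn_ball_of_continuous continuous_const x t)
      (integrableOn_ball_of_continuous (by fun_prop) x t)
      (integrableOn_ball_of_continuous hu.norm x t) fun p => by simp).trans ?_))
    rw [setIntegral_const, smul_eq_mul, mul_one]
    refine (mul_le_mul (Real.sqrt_le_sqrt (hU.real_le hC x ht)) (Real.sqrt_le_sqrt (hg t h1))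
      (Real.sqrt_nonneg _) (Real.sqrt_nonneg _)).trans_eq ?_
    rw [Real.sqrt_mul hC.le, Real.sqrt_mul (by positivity), Real.sqrt_mul hG,
      Real.sqrt_eq_rpow ((t / ρ) ^ _), ← Real.rpow_mul (by positivity)]
    norm_num
    linear_combination √C * √G * (t / ρ) ^ (5 / 4 : ℝ) * Real.mul_self_sqrt (pow_pos ht n).le
  · have h1 : (ρ / R) ^ (3 / 4 : ℝ) * ((2 : ℝ) ^ (-(3 / 4) : ℝ)) ^ i =
        (R * 2 ^ i / ρ) ^ (5 / 4 : ℝ) / (R * 2 ^ i / ρ) ^ 2 := by
      rw [← Real.rpow_two, ← Real.rpow_sub (by positivity), Real.rpow_pow_comm zero_le_two,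
        ← inv_div R ρ, Real.inv_rpow (by positivity), ← Real.rpow_neg (by positivity),
        ← Real.mul_rpow (by positivity) (by positivity), div_mul_eq_mul_div]
      norm_num
    rw [mul_assoc _ ((ρ / R) ^ _), h1, mul_div_assoc 2, Real.mul_rpow (by positivity) (by positivity)]
    have : 0 < R * 2 ^ i := by positivity
    generalize R * 2 ^ i = t at this
    rw [mul_pow, pow_add t]
    field_simp

/-- Volume packing: the balls of radius `δ/2` are disjoint and lie in `ball x ((Λ+1) δ)`. -/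
theorem packing (X : Type) [NormedAddCommGroup X] [InnerProductSpace ℝ X] [FiniteDimensional ℝ X]
    (Λ : ℝ) : ∃ N : ℕ, ∀ (s : Finset X) (x : X) (δ : ℝ), 0 < δ →
    (∀ c ∈ s, dist c x ≤ Λ * δ) → (∀ c ∈ s, ∀ c' ∈ s, c ≠ c' → δ ≤ dist c c') → s.card ≤ N := by
  obtain ⟨t, ht, h⟩ := Metric.totallyBounded_iff.1
    (isCompact_closedBall (0 : X) Λ).totallyBounded (1 / 2) one_half_pos
  refine ⟨ht.toFinset.card, fun s x δ hδ h1 h2 => ?_⟩
  have h3 : ∀ c ∈ s, ∃ y ∈ t, δ⁻¹ • (c - x) ∈ ball y (1 / 2) := fun c hc => by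
    refine mem_iUnion₂.1 (h ?_) |>.imp fun y hy => ⟨hy.1, hy.2⟩
    rw [mem_closedBall_zero_iff, norm_smul, norm_inv, Real.norm_of_nonneg hδ.le, inv_mul_le_iff₀ hδ,
      ← dist_eq_norm, mul_comm]
    exact h1 c hc
  choose! f h4 h5 using h3
  refine Finset.card_le_card_of_injOn f (fun c hc => by simpa using h4 c hc)
    fun c hc c' hc' h6 => not_not.1 fun h7 => ?_
  have h8 := dist_triangle_right (δ⁻¹ • (c - x)) (δ⁻¹ • (c' - x)) (f c)
  have h9 := mem_ball.1 (h5 c' hc')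
  rw [dist_smul₀, dist_sub_right, norm_inv, Real.norm_of_nonneg hδ.le] at h8
  rw [← h6] at h9
  linarith [mem_ball.1 (h5 c hc), (one_le_inv_mul₀ hδ).2 (h2 c hc c' hc' h7)]

end Vale.Agent.P120
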