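import Vale.Agent.P120.Cacc

/-!
Uniform smallness of the doubly truncated form for approximate solutions and almost mean zero
test functions. This is what passes to vague limits.
-/

open MeasureTheory Metric Set Filter Topology
open scoped RealInnerProductSpace ENNReal NNReal

noncomputable section

namespace Vale.Agent.P120

variable {X : Type} [NormedAddCommGroup X] [InnerProductSpace ℝ X] [FiniteDimensional ℝ X]
  [MeasurableSpace X] [BorelSpace X]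
variable {F : Type} [NormedAddCommGroup F] [InnerProductSpace ℝ F] [FiniteDimensional ℝ F]

theorem approx_small {P : ℝ → Prop} (h : ∀ᶠ e in 𝓝 (0 : ℝ), P e) :
    ∃ s0, 0 < s0 ∧ ∀ s, 0 < s → s ≤ s0 → P s := by
  obtain ⟨ε, hε, h⟩ := Metric.eventually_nhds_iff.1 h
  exact ⟨ε / 2, half_pos hε, fun s h1 h2 => h (by rw [Real.dist_0_eq_abs, abs_of_pos h1]; linarith)⟩

theorem approx_ev {f : ℝ → ℝ} (hf : Continuous f) (h0 : f 0 = 0) {c : ℝ} (hc : 0 < c) :
    ∀ᶠ e in 𝓝 (0 : ℝ), f e ≤ c := (hf.tendsto' 0 0 h0).eventually_le_const hc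

theorem approx_int {n : ℕ} {μ : Measure X} {C : ℝ} (hU : Up n μ C) (hC : 0 < C) {u ψ : X → F}
    (hu : Continuous u) {M ρ : ℝ} (hρ : 0 < ρ) (hb : ∀ y, ‖ψ y‖ ≤ M)
    (hz : ∀ y, ρ ≤ dist y 0 → ψ y = 0) : ∫ y, ‖ψ y‖ ∂μ ≤ C * ρ ^ n * M ∧
      ∫ y, ‖u y‖ * ‖ψ y‖ ∂μ ≤ M * (C * ρ ^ n + ∫ y in ball 0 ρ, ‖u y‖ ^ 2 ∂μ) := by
  have := hU.locFin
  have hM := (norm_nonneg _).trans (hb 0)
  refine ⟨(integral_mono_of_nonneg (ae_of_all _ fun y => norm_nonneg _) (form_ind 0 ρ M)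
    (ae_of_all _ fun y => ?_)).trans (form_ind_le hU hC 0 hρ hM), (integral_mono_of_nonneg
      (g := (ball 0 ρ).indicator fun y => M * (1 + ‖u y‖ ^ 2)) (ae_of_all _ fun y => by positivity)
      ((integrableOn_ball_of_continuous (by fun_prop) 0 ρ).integrable_indicator measurableSet_ball)
      (ae_of_all _ fun y => ?_)).trans ?_⟩
  · by_cases hy : y ∈ ball (0 : X) ρ
    · simpa [hy] using hb y
    · simp [hy, hz y (not_lt.1 hy)]
  · by_cases hy : y ∈ ball (0 : X) ρ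
    · simp only [indicator_of_mem hy]
      rw [mul_comm]
      exact mul_le_mul (hb y) (by nlinarith [sq_nonneg (‖u y‖ - 1)]) (norm_nonneg _) hM
    · simp [hy, hz y (not_lt.1 hy)]
  · rw [integral_indicator measurableSet_ball, integral_const_mul, integral_add
      (integrableOn_ball_of_continuous continuous_const 0 ρ)
      (integrableOn_ball_of_continuous (by fun_prop) 0 ρ), setIntegral_const, smul_eq_mul, mul_one]
    gcongr
    exact hU.real_le hC 0 hρ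

theorem approx_bump {n : ℕ} {μ : Measure X} {C A : ℝ} (hR : Reg n μ C 0 A) (hC : 0 < C)
    (hA : 1 ≤ A) (a : F) {δ : ℝ} (ha : ‖a‖ ≤ δ) : ∃ ψ0 : X → F,
    LipschitzWith (2 * (C * 2 ^ n) * δ).toNNReal ψ0 ∧ (∀ y, 1 ≤ dist y 0 → ψ0 y = 0) ∧
      ∫ y, ψ0 y ∂μ = a := by
  have := hR.up.locFin
  have hz : ∀ y : X, 1 ≤ dist y 0 → cut (1 / 2) (dist y 0) = 0 := fun y hy =>
    cut_eq_zero one_half_pos (by linarith)
  have h1 : (1 / 2) ^ n / C ≤ ∫ y, cut (1 / 2) (dist y 0) ∂μ := by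
    refine (hR.real_ge hR.mem (by simpa using one_pos.trans_le hA) one_half_pos
      (by linarith)).trans ?_
    rw [← mul_one (μ.real _), ← smul_eq_mul, ← integral_indicator_const _ measurableSet_ball]
    refine integral_mono (form_ind 0 _ 1) (Continuous.integrable_of_hasCompactSupport
      (lipschitz_cut_dist one_half_pos 0).continuous (hasCompactSupport_of_zero hz)) fun y => ?_
    by_cases hy : y ∈ ball (0 : X) (1 / 2)
    · rw [indicator_of_mem hy, cut_eq_one one_half_pos (le_of_lt hy)]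
    · rw [indicator_of_notMem hy]
      exact cut_nonneg _ _
  generalize hm : ∫ y, cut (1 / 2) (dist y 0) ∂μ = m at h1
  have h2 : 0 < m := lt_of_lt_of_le (by positivity) h1
  have h3 : ‖m⁻¹ • a‖ ≤ C * 2 ^ n * δ := by
    rw [norm_smul, norm_inv, Real.norm_of_nonneg h2.le]
    refine mul_le_mul ((inv_anti₀ (by positivity) h1).trans_eq ?_) ha (norm_nonneg _)
      (by positivity)
    rw [one_div, inv_pow]
    field_simp
  refine ⟨fun y => cut (1 / 2) (dist y 0) • m⁻¹ • a, LipschitzWith.of_dist_le' fun y z => ?_,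
    fun y hy => by simp only [hz y hy, zero_smul], by
      rw [integral_smul_const, hm, smul_inv_smul₀ h2.ne']⟩
  rw [dist_eq_norm, ← sub_smul, norm_smul]
  have h4 := (cut_lip one_half_pos (dist y 0) (dist z 0)).trans
    (div_le_div_of_nonneg_right (abs_dist_sub_le y z 0) one_half_pos.le)
  exact (mul_le_mul h4 h3 (norm_nonneg _) (by positivity)).trans_eq (by ring)

/-- `φ0 y = cut (1/2) (dist y 0)`, `m0 = ∫ φ0 ≥ 2^(-n)/C`, `a = ∫ ψ`, `ψ0 = φ0 • (m0⁻¹ • a)`,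
`ψ' = ψ - ψ0` is a test function in `ball 0 ρ`, `(L+1)`-Lipschitz and bounded by a constant once
`δ` is small (if `X` is trivial, `En` vanishes identically; otherwise use `norm_le_of_zero`).
`En (cut R - cut s) u ψ = En (cut R) u ψ' + En (cut R) u ψ0 - En (cut s) u ψ`.
First: `osc_bound` at radius `ρ` (`Gr.grow`, `Osc.mono`, `EE_le`); the tail terms are `≤ η/4` for
`R ≥ R0`. Second: `En_cs`, `cacc` at radius `1 + 2R`, `EE_le` for `ψ0`: `≲ C(R) δ`.
Third: `En_cs`, `cacc` at radius `ρ + 2`, `En_near_le`: `≲ √s`. Take `A = 2 (ρ + 2 + 2R)`. -/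
theorem approx (n : ℕ) {C : ℝ} (hC : 0 < C) {G ρ : ℝ} (hG : 0 ≤ G) (hρ : 1 ≤ ρ) (L : ℝ≥0)
    {η : ℝ} (hη : 0 < η) : ∃ R0 : ℝ, ∀ R : ℝ, R0 ≤ R → ∃ s0 δ A : ℝ, 0 < s0 ∧ 0 < δ ∧
    ∀ s : ℝ, 0 < s → s ≤ s0 → ∀ μ : Measure X, Reg n μ C 0 A → ∀ u : X → F, LocLip u →
    Gr n μ u 0 1 G → Osc n μ u 0 A δ → ∀ ψ : X → F, LipschitzWith L ψ →
    (∀ y, ρ ≤ dist y 0 → ψ y = 0) → ‖∫ y, ψ y ∂μ‖ ≤ δ →
    |En n μ (fun t => cut R t - cut s t) u ψ| ≤ η := by
  rcases subsingleton_or_nontrivial X with hX | hX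
  · refine ⟨0, fun R _ => ⟨1, 1, 1, one_pos, one_pos, fun s _ _ μ _ u _ _ _ ψ _ _ _ => ?_⟩⟩
    simpa [En, Subsingleton.elim _ (0 : X)] using hη.le
  obtain ⟨Ct, hCt, h1⟩ := osc_bound (X := X) (F := F) n hC
  obtain ⟨Cc, hCc, h2⟩ := cacc (X := X) (F := F) n hC
  obtain ⟨Ce, hCe, h3⟩ := EE_le (X := X) (F := F) n hC
  obtain ⟨Cn, hCn, h4⟩ := En_near_le (X := X) (F := F) n hC
  have hρ0 := one_pos.trans_le hρ
  have hη4 : 0 < η / 4 := by positivity
  have t1 : Tendsto (fun R : ℝ => Ct * (R⁻¹ * ((L + 1) * ρ * (C * ρ ^ n +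
      G * ρ ^ n * (ρ / 1) ^ (5 / 2 : ℝ))) + √(G * (ρ / 1) ^ (5 / 2 : ℝ)) * ρ⁻¹ *
        (ρ / R) ^ (3 / 4 : ℝ) * (C * ρ ^ n * ((L + 1) * ρ)))) atTop (𝓝 0) := by
    have t2 := (tendsto_id.const_div_atTop ρ).rpow_const_nhds_zero (p := 3 / 4) (by norm_num)
    simpa using ((tendsto_inv_atTop_zero.mul_const _).add
      ((t2.const_mul _).mul_const _)).const_mul Ct
  obtain ⟨R0, h5⟩ := eventually_atTop.1
    ((t1.eventually_le_const hη4).and (eventually_ge_atTop (4 * ρ)))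
  refine ⟨R0, fun R hR => ?_⟩
  obtain ⟨h6, h7⟩ := h5 R hR
  have hR0 : 0 < R := by linarith
  obtain ⟨t, ht⟩ : ∃ t, t = ρ + 2 * R := ⟨_, rfl⟩
  obtain ⟨K, hK⟩ : ∃ K, K = Cc * (1 + G * (t / 1) ^ (5 / 2 : ℝ) * t ^ n / t) := ⟨_, rfl⟩
  have ht1 : 1 ≤ t := by linarith
  obtain ⟨δ, hδ, h8⟩ := approx_small
    (((approx_ev continuous_id rfl one_pos).and
      (approx_ev (f := fun e => 2 * (C * 2 ^ n) * e) (by fun_prop) (by simp) one_pos)).and
    ((approx_ev (f := fun e => √(e * (Ce * (L + 1) ^ 2 * ρ ^ (n + 1)))) (by fun_prop) (by simp)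
      hη4).and ((approx_ev (f := fun e => √K * √(Ce * (2 * (C * 2 ^ n) * e) ^ 2 * ρ ^ (n + 1)))
        (by fun_prop) (by simp) hη4).and
      (approx_ev (f := fun e => √K * √(Cn * L ^ 2 * ρ ^ n * e)) (by fun_prop) (by simp) hη4))))
  refine ⟨δ, δ, 2 * t, hδ, hδ, fun s hs hsδ μ hμ u hu hg ho ψ hψ hz ha => ?_⟩
  obtain ⟨⟨h9, h10⟩, h11, h12, -⟩ := h8 δ hδ le_rfl
  obtain ⟨⟨h13, -⟩, -, -, h14⟩ := h8 s hs hsδ
  have hU := hμ.up
  have := hU.locFin
  obtain ⟨ψ0, hL0, hz0, hm0⟩ := approx_bump hμ hC (by linarith) _ ha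
  replace hz0 : ∀ y, ρ ≤ dist y 0 → ψ0 y = 0 := fun y hy => hz0 y (hρ.trans hy)
  have hL' : LipschitzWith (L + 1) fun y => ψ y - ψ0 y :=
    (hψ.sub hL0).weaken (add_le_add le_rfl (Real.toNNReal_le_one.2 h10))
  have hz' : ∀ y, ρ ≤ dist y 0 → ψ y - ψ0 y = 0 := fun y hy => by rw [hz y hy, hz0 y hy, sub_zero]
  have hLE : LE n μ u 0 t ≤ K := by
    refine (h2 μ hU u hu 0 t _ δ (by linarith) (by positivity) hδ.le
      (hμ.low 0 hμ.mem (by simp; linarith) t (by linarith) (by linarith))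
      (hg.grow one_pos ht1) ho).trans ?_
    rw [hK]
    gcongr
    exact h9
  have e1 := h1 μ hU u hu 0 ρ _ δ hρ0 (by positivity) (hg.grow one_pos hρ)
    (ho.mono (by simp; linarith) le_rfl) _ ⟨⟨_, hL'⟩, hz', by
      rw [integral_sub (hψ.continuous.integrable_of_hasCompactSupport
        (hasCompactSupport_of_zero hz)) (hL0.continuous.integrable_of_hasCompactSupport
        (hasCompactSupport_of_zero hz0)), hm0, sub_self]⟩ R h7
  obtain ⟨e2, e3⟩ := approx_int hU hC hu.continuous hρ0 (norm_le_of_zero hL' hρ0 hz') hz'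
  have e4 := h3 μ hU _ _ hL' 0 ρ hρ0 hz'
  have hc := fun (R : ℝ) (hR : 0 < R) t (ht : 2 * R ≤ t) => cut_eq_zero hR ht
  have e5 := En_cs hU hC hu hL0 hz0 (continuous_cut R).measurable (cut_nonneg R) (cut_le_one R)
    (hc R hR0)
  have e6 := (En_self_le_EE hU hC hL0 hz0 (continuous_cut R).measurable (cut_nonneg R)
    (cut_le_one R)).2.trans (h3 μ hU _ _ hL0 0 ρ hρ0 hz0)
  have e7 := En_cs hU hC hu hψ hz (continuous_cut s).measurable (cut_nonneg s) (cut_le_one s)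
    (hc s hs)
  have e8 := (LE_mono hU hC hu (ball_subset_ball (x := 0) (ε₁ := ρ + 2 * s) (ε₂ := t)
    (by simp only [id] at h13; linarith))).trans hLE
  rw [NNReal.coe_add, NNReal.coe_one] at e2 e3 e4
  rw [Real.coe_toNNReal _ (by positivity)] at e6
  grw [hg ρ hρ] at e3
  grw [e2, e3, e4] at e1
  grw [← ht, hLE, e6] at e5
  grw [e8, h4 μ hU ψ L hψ 0 ρ hρ0 hz s hs] at e7
  rw [En_sub_right hU hC hu hψ hL0 hz hz0 (continuous_cut R).measurable
    (fun t => (abs_of_nonneg (cut_nonneg R t)).trans_le (cut_le_one R t)) (hc R hR0)] at e1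
  rw [En_sub_w hU hC hu hψ hz hR0 hs]
  have e9 := abs_le.1 (e1.trans (add_le_add h11 h6))
  have e10 := abs_le.1 (e5.trans h12)
  have e11 := abs_le.1 (e7.trans h14)
  exact abs_le.2 ⟨by linarith, by linarith⟩

end Vale.Agent.P120
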