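import Vale.Agent.P120.Lam

/-!
Carleson estimate for the oscillation of the Riesz transform (a Bessel system argument).
-/

open MeasureTheory Metric Set Filter Topology
open scoped RealInnerProductSpace ENNReal NNReal

noncomputable section

namespace Vale.Agent.P120

variable {X : Type} [NormedAddCommGroup X] [InnerProductSpace ℝ X] [FiniteDimensional ℝ X]
  [MeasurableSpace X] [BorelSpace X]
variable {F : Type} [NormedAddCommGroup F] [InnerProductSpace ℝ F] [FiniteDimensional ℝ F]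


/-- Lipschitz and vanishing off a ball. -/
def BesC (ψ : X → F) : Prop :=
  (∃ L, LipschitzWith L ψ) ∧ ∃ ρ : ℝ, ∀ y, ρ ≤ dist y 0 → ψ y = 0

omit [FiniteDimensional ℝ X] [BorelSpace X] [FiniteDimensional ℝ F] in
lemma Bessel_test {μ : Measure X} {ψ : X → F} {x : X} {ρ : ℝ} (h : Test μ ψ x ρ) : BesC ψ :=
  ⟨h.lip, ρ + dist x 0, fun y hy => h.zero y (by linarith [dist_triangle y x 0])⟩

omit [InnerProductSpace ℝ X] [FiniteDimensional ℝ X] [MeasurableSpace X] [BorelSpace X]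
  [InnerProductSpace ℝ F] [FiniteDimensional ℝ F] in
lemma Bessel_sum {ι : Type} (s : Finset ι) (ψ : ι → X → F) (h : ∀ i ∈ s, BesC (ψ i)) :
    BesC (fun y => ∑ i ∈ s, ψ i y) := by
  classical
  induction s using Finset.induction_on with
  | empty => exact ⟨⟨0, by simpa using LipschitzWith.const (0 : F)⟩, 0, fun y _ => by simp⟩
  | insert a s ha ih =>
    obtain ⟨⟨L, hL⟩, ρ, hρ⟩ := ih fun i hi => h i (Finset.mem_insert_of_mem hi)
    obtain ⟨⟨L', hL'⟩, ρ', hρ'⟩ := h a (Finset.mem_insert_self a s)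
    simp only [Finset.sum_insert ha]
    refine ⟨⟨L' + L, hL'.add hL⟩, max ρ ρ', fun y hy => ?_⟩
    have h1 := hρ y ((le_max_left _ _).trans hy)
    have h2 := hρ' y ((le_max_right _ _).trans hy)
    simp only at h1 ⊢
    rw [h1, h2, add_zero]

lemma BesC.cont {ψ : X → F} (h : BesC ψ) : Continuous ψ ∧ HasCompactSupport ψ := by
  obtain ⟨⟨L, hL⟩, ρ, hρ⟩ := h
  exact ⟨hL.continuous, hasCompactSupport_of_zero hρ⟩

lemma Bessel_int_inner {μ : Measure X} [IsLocallyFiniteMeasure μ] {ψ g : X → F} (hψ : BesC ψ)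
    (hg : Continuous g) : Integrable (fun y => ⟪ψ y, g y⟫) μ := by
  refine (hψ.cont.1.inner hg).integrable_of_hasCompactSupport ?_
  obtain ⟨_, ρ, hρ⟩ := hψ
  exact hasCompactSupport_of_zero (x := 0) (ρ := ρ) fun y hy => by rw [hρ y hy, inner_zero_left]

lemma Bessel_int_sq {μ : Measure X} [IsLocallyFiniteMeasure μ] {ψ : X → F} (hψ : BesC ψ) :
    Integrable (fun y => ‖ψ y‖ ^ 2) μ := by
  simpa only [real_inner_self_eq_norm_sq] using Bessel_int_inner (μ := μ) hψ hψ.cont.1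

lemma Bessel_cross1 {n : ℕ} {μ : Measure X} {C : ℝ} (hU : Up n μ C) (hC : 0 < C) {ψ g : X → F}
    {c : X} {ρ m : ℝ} (hψ : Test μ ψ c ρ) (hg : BesC g) (hρ : 0 < ρ) (hm : 0 < m)
    (hμ : m ≤ μ.real (ball c ρ)) {s : ℝ} (hs : 0 < s) :
    ∫ y, ⟪ψ y, g y⟫ ∂μ ≤
      (2 * ρ) ^ (n + 1) / m * (s / 2 * EE n μ ψ + 1 / (2 * s) * LE n μ g c ρ) := by
  have := hU.locFin
  obtain ⟨L, hL⟩ := hg.1
  have h1 := poincare hU hC (locLip_of_lipschitz hL) c hρ hm hμ
  have h2 := poincare_test hU hC hψ hρ hm hμ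
  set v : F := (μ.real (ball c ρ))⁻¹ • ∫ z in ball c ρ, g z ∂μ
  have hb := Bessel_test hψ
  have hψi : Integrable ψ μ := hb.cont.1.integrable_of_hasCompactSupport hb.cont.2
  have h3 : ∫ y, ⟪ψ y, v⟫ ∂μ = 0 := by
    simp only [real_inner_comm v]
    rw [integral_inner hψi, hψ.mean, inner_zero_right]
  have hgv : Continuous fun y => g y - v := hL.continuous.sub continuous_const
  have h4 : ∫ y, ⟪ψ y, g y⟫ ∂μ = ∫ y, ⟪ψ y, g y - v⟫ ∂μ := by
    simp only [inner_sub_right]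
    rw [integral_sub (Bessel_int_inner hb hL.continuous) (Bessel_int_inner hb continuous_const),
      h3, sub_zero]
  have hi2 : Integrable ((ball c ρ).indicator fun y => ‖g y - v‖ ^ 2) μ :=
    (integrableOn_ball_of_continuous (hgv.norm.pow 2) c ρ).integrable_indicator
      measurableSet_ball
  have h5 : ∫ y, ⟪ψ y, g y - v⟫ ∂μ ≤ ∫ y, (s / 2 * ‖ψ y‖ ^ 2 +
      1 / (2 * s) * (ball c ρ).indicator (fun y => ‖g y - v‖ ^ 2) y) ∂μ := by
    refine integral_mono (Bessel_int_inner hb hgv)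
      (((Bessel_int_sq hb).const_mul _).add (hi2.const_mul _)) fun y => ?_
    by_cases hy : y ∈ ball c ρ
    · simp only [indicator_of_mem hy]
      have e1 := real_inner_le_norm (ψ y) (g y - v)
      have e2 : ‖ψ y‖ * ‖g y - v‖ ≤ s / 2 * ‖ψ y‖ ^ 2 + 1 / (2 * s) * ‖g y - v‖ ^ 2 := by
        have : s / 2 * ‖ψ y‖ ^ 2 + 1 / (2 * s) * ‖g y - v‖ ^ 2 - ‖ψ y‖ * ‖g y - v‖ =
            (s * ‖ψ y‖ - ‖g y - v‖) ^ 2 / (2 * s) := by
          field_simp
          ring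
        have h0 : 0 ≤ (s * ‖ψ y‖ - ‖g y - v‖) ^ 2 / (2 * s) := by positivity
        linarith
      linarith
    · simp only [indicator_of_notMem hy]
      rw [hψ.zero y (not_lt.1 (by simpa [mem_ball] using hy))]
      simp
  rw [integral_add ((Bessel_int_sq hb).const_mul _) (hi2.const_mul _), integral_const_mul,
    integral_const_mul, integral_indicator measurableSet_ball] at h5
  have h6 := mul_le_mul_of_nonneg_left h2 (by positivity : 0 ≤ s / 2)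
  have h7 := mul_le_mul_of_nonneg_left h1 (by positivity : 0 ≤ 1 / (2 * s))
  rw [h4]
  nlinarith

/-- Bounded overlap of the balls. -/
def BesO (N : Finset X) (ρ : ℝ) (M : ℕ) : Prop :=
  ∀ (y : X) (s : Finset X), s ⊆ N → (∀ c ∈ s, dist y c < ρ) → s.card ≤ M

lemma Bessel_EE_sum {n : ℕ} {μ : Measure X} {C : ℝ} (hU : Up n μ C) (hC : 0 < C) {N : Finset X}
    {ρ : ℝ} {M : ℕ} (hO : BesO N ρ M) {ψ : X → X → F} (hψ : ∀ c ∈ N, Test μ (ψ c) c ρ) :
    EE n μ (fun y => ∑ c ∈ N, ψ c y) ≤ 2 * M * ∑ c ∈ N, EE n μ (ψ c) := by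
  classical
  have hi : ∀ c ∈ N, Integrable
      (fun p : X × X => J n (p.1 - p.2) * ‖ψ c p.1 - ψ c p.2‖ ^ 2) (μ.prod μ) := fun c hc => by
    obtain ⟨L, hL⟩ := (hψ c hc).lip
    exact EE_integrable hU hC hL (hψ c hc).zero
  unfold EE
  rw [← integral_finsetSum _ hi, ← integral_const_mul]
  refine integral_mono_of_nonneg (Eventually.of_forall fun p => ?_)
    ((integrable_finsetSum _ hi).const_mul _) (Eventually.of_forall fun p => ?_)
  · exact mul_nonneg (J_nonneg _ _) (sq_nonneg _)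
  · set T := N.filter (fun c => dist p.1 c < ρ) ∪ N.filter (fun c => dist p.2 c < ρ) with hT
    have hTN : T ⊆ N := Finset.union_subset (Finset.filter_subset _ _) (Finset.filter_subset _ _)
    have hcard : (T.card : ℝ) ≤ 2 * M := by
      have h1 := hO p.1 _ (Finset.filter_subset (fun c => dist p.1 c < ρ) N)
        fun c hc => (Finset.mem_filter.1 hc).2
      have h2 := hO p.2 _ (Finset.filter_subset (fun c => dist p.2 c < ρ) N)
        fun c hc => (Finset.mem_filter.1 hc).2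
      have h3 : T.card ≤ 2 * M := (Finset.card_union_le _ _).trans (by omega)
      exact_mod_cast h3
    have hs : ∑ c ∈ N, ψ c p.1 - ∑ c ∈ N, ψ c p.2 = ∑ c ∈ T, (ψ c p.1 - ψ c p.2) := by
      rw [← Finset.sum_sub_distrib]
      refine (Finset.sum_subset hTN fun c hc hcT => ?_).symm
      simp only [hT, Finset.mem_union, Finset.mem_filter, hc, true_and, not_or, not_lt] at hcT
      rw [(hψ c hc).zero _ hcT.1, (hψ c hc).zero _ hcT.2, sub_zero]
    have h1 : ‖∑ c ∈ T, (ψ c p.1 - ψ c p.2)‖ ^ 2 ≤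
        T.card * ∑ c ∈ T, ‖ψ c p.1 - ψ c p.2‖ ^ 2 :=
      (pow_le_pow_left₀ (norm_nonneg _) (norm_sum_le _ _) 2).trans sq_sum_le_card_mul_sum_sq
    have h2 : ∑ c ∈ T, ‖ψ c p.1 - ψ c p.2‖ ^ 2 ≤ ∑ c ∈ N, ‖ψ c p.1 - ψ c p.2‖ ^ 2 :=
      Finset.sum_le_sum_of_subset_of_nonneg hTN fun _ _ _ => sq_nonneg _
    have h3 : 0 ≤ ∑ c ∈ T, ‖ψ c p.1 - ψ c p.2‖ ^ 2 := Finset.sum_nonneg fun _ _ => sq_nonneg _
    have h4 := mul_le_mul hcard h2 h3 (by positivity)
    simp only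
    rw [hs, ← Finset.mul_sum, mul_left_comm]
    exact mul_le_mul_of_nonneg_left (h1.trans h4) (J_nonneg _ _)

lemma Bessel_LE_sum {n : ℕ} {μ : Measure X} {C : ℝ} (hU : Up n μ C) (hC : 0 < C) {N : Finset X}
    {ρ : ℝ} {M : ℕ} (hO : BesO N ρ M) {g : X → F} (hg : BesC g) :
    ∑ c ∈ N, LE n μ g c ρ ≤ M * EE n μ g := by
  classical
  obtain ⟨⟨L, hL⟩, r, hr⟩ := hg
  have hi := EE_integrable hU hC hL hr
  have hm : ∀ c : X, MeasurableSet (ball c ρ ×ˢ ball c ρ) := fun c =>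
    measurableSet_ball.prod measurableSet_ball
  unfold LE EE
  simp only [← integral_indicator (hm _)]
  rw [← integral_finsetSum _ fun c _ => hi.indicator (hm c), ← integral_const_mul]
  refine integral_mono (integrable_finsetSum _ fun c _ => hi.indicator (hm c))
    (hi.const_mul _) fun p => ?_
  have h0 : 0 ≤ J n (p.1 - p.2) * ‖g p.1 - g p.2‖ ^ 2 := mul_nonneg (J_nonneg _ _) (sq_nonneg _)
  have h1 := hO p.1 _ (Finset.filter_subset (fun c => dist p.1 c < ρ) N)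
    fun c hc => (Finset.mem_filter.1 hc).2
  have h2 : ((N.filter fun c => dist p.1 c < ρ).card : ℝ) ≤ M := by exact_mod_cast h1
  calc _ ≤ ∑ c ∈ N, if dist p.1 c < ρ then J n (p.1 - p.2) * ‖g p.1 - g p.2‖ ^ 2 else 0 := by
        refine Finset.sum_le_sum fun c _ => ?_
        by_cases hp : p ∈ ball c ρ ×ˢ ball c ρ
        · rw [indicator_of_mem hp, if_pos (mem_ball.1 hp.1)]
        · rw [indicator_of_notMem hp]
          split_ifs
          exacts [h0, le_rfl]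
    _ = _ * (J n (p.1 - p.2) * ‖g p.1 - g p.2‖ ^ 2) := by
        rw [← Finset.sum_filter, Finset.sum_const, nsmul_eq_mul]
    _ ≤ _ := mul_le_mul_of_nonneg_right h2 h0

lemma Bessel_geom1 (s : Finset ℕ) (f : ℕ → ℕ) (hf : Set.InjOn f s) :
    ∑ j ∈ s, (3 / 4 : ℝ) ^ f j ≤ 4 := by
  rw [← Finset.sum_image (f := fun i => (3 / 4 : ℝ) ^ i) hf]
  have h := hasSum_geometric_of_lt_one (r := (3 / 4 : ℝ)) (by norm_num) (by norm_num)
  exact (sum_le_hasSum _ (fun i _ => by positivity) h).trans (by norm_num)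

lemma Bessel_geom2 (s : Finset ℕ) (k : ℕ) :
    ∑ j ∈ s, (3 / 4 : ℝ) ^ ((k - j) + (j - k)) ≤ 8 := by
  rw [← Finset.sum_filter_add_sum_filter_not s (fun j => j ≤ k)]
  have h1 := Bessel_geom1 (s.filter fun j => j ≤ k) (fun j => (k - j) + (j - k))
    fun a ha b hb hab => by
      have := (Finset.mem_filter.1 ha).2
      have := (Finset.mem_filter.1 hb).2
      simp only at hab
      omega
  have h2 := Bessel_geom1 (s.filter fun j => ¬ j ≤ k) (fun j => (k - j) + (j - k))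
    fun a ha b hb hab => by
      have := (Finset.mem_filter.1 ha).2
      have := (Finset.mem_filter.1 hb).2
      simp only at hab
      omega
  linarith

lemma Bessel_l2 {μ : Measure X} [IsLocallyFiniteMeasure μ] (s : Finset ℕ) (G : ℕ → X → F)
    (hG : ∀ k ∈ s, BesC (G k)) {a : ℕ → ℝ} (ha : ∀ k, 0 ≤ a k) {Q : ℝ} (hQ : 0 ≤ Q)
    (h : ∀ k ∈ s, ∀ j ∈ s, j ≤ k →
      ∫ y, ⟪G k y, G j y⟫ ∂μ ≤ Q * ((3 / 4 : ℝ) ^ (k - j) * (a k + a j))) :
    ∫ y, ‖∑ k ∈ s, G k y‖ ^ 2 ∂μ ≤ 16 * Q * ∑ k ∈ s, a k := by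
  have hi : ∀ k ∈ s, ∀ j ∈ s, Integrable (fun y => ⟪G k y, G j y⟫) μ := fun k hk j hj =>
    Bessel_int_inner (hG k hk) (hG j hj).cont.1
  have h1 : ∫ y, ‖∑ k ∈ s, G k y‖ ^ 2 ∂μ = ∑ k ∈ s, ∑ j ∈ s, ∫ y, ⟪G k y, G j y⟫ ∂μ := by
    simp only [← real_inner_self_eq_norm_sq, sum_inner, inner_sum]
    rw [integral_finsetSum _ fun k hk => integrable_finsetSum _ fun j hj => hi j hj k hk,
      Finset.sum_comm]
    exact Finset.sum_congr rfl fun k hk => integral_finsetSum _ fun j hj => hi j hj k hk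
  have h2 : ∀ k ∈ s, ∀ j ∈ s, ∫ y, ⟪G k y, G j y⟫ ∂μ ≤
      Q * ((3 / 4 : ℝ) ^ ((k - j) + (j - k)) * a k) +
        Q * ((3 / 4 : ℝ) ^ ((j - k) + (k - j)) * a j) := by
    intro k hk j hj
    rcases le_total j k with hjk | hjk
    · have e : j - k = 0 := by omega
      rw [e, add_zero, zero_add]
      linarith [h k hk j hj hjk]
    · have e : k - j = 0 := by omega
      rw [e, add_zero, zero_add]
      simp only [real_inner_comm (G j _)]
      linarith [h j hj k hk hjk]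
  have h3 : ∑ k ∈ s, ∑ j ∈ s, Q * ((3 / 4 : ℝ) ^ ((k - j) + (j - k)) * a k) ≤
      8 * Q * ∑ k ∈ s, a k := by
    rw [Finset.mul_sum]
    refine Finset.sum_le_sum fun k _ => ?_
    rw [← Finset.mul_sum, ← Finset.sum_mul]
    have := mul_le_mul_of_nonneg_left (mul_le_mul_of_nonneg_right (Bessel_geom2 s k) (ha k)) hQ
    linarith
  have h4 := Finset.sum_le_sum fun k hk => Finset.sum_le_sum fun j hj => h2 k hk j hj
  simp only [Finset.sum_add_distrib] at h4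
  rw [Finset.sum_comm (f := fun k j => Q * ((3 / 4 : ℝ) ^ ((j - k) + (k - j)) * a j))] at h4
  linarith

/-- The set whose supremum is the oscillation constant. -/
def BesS (n : ℕ) (μ : Measure X) (c : X) (ρ : ℝ) : Set ℝ :=
  {t | ∃ ψ : X → X, Test μ ψ c ρ ∧
    t = En n μ (fun _ => 1) (fun y : X => y) ψ ^ 2 / EE n μ ψ}

omit [FiniteDimensional ℝ X] [BorelSpace X] [FiniteDimensional ℝ F] in
lemma Bessel_test_smul {μ : Measure X} {ψ : X → F} {x : X} {ρ : ℝ} (h : Test μ ψ x ρ) (t : ℝ) :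
    Test μ (fun y => t • ψ y) x ρ := by
  obtain ⟨L, hL⟩ := h.lip
  refine ⟨⟨_, (lipschitzWith_smul t).comp hL⟩, fun y hy => by rw [h.zero y hy, smul_zero], ?_⟩
  rw [integral_smul, h.mean, smul_zero]

omit [FiniteDimensional ℝ X] [BorelSpace X] in
lemma Bessel_zero_mem (n : ℕ) (μ : Measure X) (c : X) (ρ : ℝ) : (0 : ℝ) ∈ BesS n μ c ρ :=
  ⟨fun _ => 0, ⟨⟨0, LipschitzWith.const _⟩, fun _ _ => rfl, by simp⟩, by simp [En]⟩

lemma Bessel_one {n : ℕ} {μ : Measure X} {C W : ℝ} (hU : Up n μ C) (hC : 0 < C) (hRB : RB n μ C)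
    (hW : 0 < W) (hμ : μ (closedBall 0 W)ᶜ = 0) {c : X} {ρ m l : ℝ} (hρ : 0 < ρ) (hm : 0 < m)
    (hl : 0 < l) (hmρ : m ≤ μ.real (ball c ρ)) : ∃ (D : ℝ) (ψ : X → X), 0 ≤ D ∧
      Osc n μ (fun y : X => y) c ρ D ∧ Test μ ψ c ρ ∧ l * EE n μ ψ ≤ D / l ∧
      D / l ≤ 2 * En n μ (fun _ => 1) (fun y : X => y) ψ := by
  have := hU.locFin
  set B := 2 * C * √(C * (2 * W) ^ n)
  set P := (2 * ρ) ^ (n + 1) / m
  have hP : 0 ≤ P := by positivity
  have hb : ∀ ψ : X → X, Test μ ψ c ρ →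
      En n μ (fun _ => 1) (fun y : X => y) ψ ^ 2 ≤ B ^ 2 * P * EE n μ ψ := by
    intro ψ hψ
    obtain ⟨L, hL⟩ := hψ.lip
    have h1 := lam_bound hU hC hRB hW hμ hL hψ.zero
    have h2 := poincare_test hU hC hψ hρ hm hmρ
    have h3 : 0 ≤ ∫ y, ‖ψ y‖ ^ 2 ∂μ := integral_nonneg fun _ => sq_nonneg _
    have h4 := pow_le_pow_left₀ (abs_nonneg _) h1 2
    rw [sq_abs, mul_right_comm, mul_pow, Real.sq_sqrt h3] at h4
    have h5 := mul_le_mul_of_nonneg_left h2 (sq_nonneg B)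
    linarith
  have hbdd : BddAbove (BesS n μ c ρ) := by
    refine ⟨B ^ 2 * P, ?_⟩
    rintro _ ⟨ψ, hψ, rfl⟩
    exact div_le_of_le_mul₀ (EE_nonneg _ _ _) (by positivity) (hb ψ hψ)
  have hD0 : 0 ≤ sSup (BesS n μ c ρ) := le_csSup hbdd (Bessel_zero_mem n μ c ρ)
  obtain ⟨t, ⟨ψ, hψ, rfl⟩, ht⟩ : ∃ t ∈ BesS n μ c ρ, sSup (BesS n μ c ρ) / 2 ≤ t := by
    rcases hD0.eq_or_lt with h | h
    · exact ⟨0, Bessel_zero_mem n μ c ρ, by rw [← h]; simp⟩
    · obtain ⟨t, ht, hlt⟩ := exists_lt_of_lt_csSup ⟨0, Bessel_zero_mem n μ c ρ⟩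
        (half_lt_self h)
      exact ⟨t, ht, hlt.le⟩
  have ht2 := le_csSup hbdd ⟨ψ, hψ, rfl⟩
  refine ⟨sSup (BesS n μ c ρ), fun y => (En n μ (fun _ => 1) (fun y : X => y) ψ /
    (l * EE n μ ψ)) • ψ y, hD0, ?_, Bessel_test_smul hψ _, ?_, ?_⟩
  · intro φ hφ η hη
    refine ⟨2 * W, fun R hR => ?_⟩
    rw [En_cut_eq_one hW hμ hR]
    refine (Real.abs_le_sqrt ?_).trans (by linarith)
    rcases (EE_nonneg n μ φ).eq_or_lt with h | h
    · have := hb φ hφ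
      rw [← h] at this ⊢
      simpa using this
    · exact (div_le_iff₀ h).1 (le_csSup hbdd ⟨φ, hφ, rfl⟩)
  · rw [EE_smul]
    refine le_trans (le_of_eq ?_) (div_le_div_of_nonneg_right ht2 hl.le)
    rcases eq_or_ne (EE n μ ψ) 0 with h | h
    · simp [h]
    · field_simp
  · rw [En_smul_right]
    have h1 : sSup (BesS n μ c ρ) ≤ 2 * (En n μ (fun _ => 1) (fun y : X => y) ψ ^ 2 /
      EE n μ ψ) := by linarith
    refine (div_le_div_of_nonneg_right h1 hl.le).trans (le_of_eq ?_)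
    rcases eq_or_ne (EE n μ ψ) 0 with h | h
    · simp [h]
    · field_simp



/-- Write `Λ ψ = En 1 id ψ`, `ℓ k = θ^k`, `B(k,c) = ball c (A ℓ k)`.
`D k c = sSup {(Λ ψ)² / EE ψ | ψ test in B(k,c)}` for `c ∈ N k` (bounded above by `lam_bound`,
`poincare_test`; contains `0`), `0` otherwise. `Osc` holds by `En_cut_eq_one`
(if `EE ψ = 0` then `∫‖ψ‖² = 0` and `Λ ψ = 0`).
Fix `K`. For each `(k,c)` pick a test `ψ k c` with `EE = D/ℓ²` and `Λ ≥ D/(2ℓ)` (scale and flip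
sign of a near-optimal test; `0` if `D = 0`). `F k = ∑_c ψ k c`, `E k = ∑_c EE (ψ k c)`.
Overlap: a point lies in at most `N0` balls `B(k,c)` (`packing` with `δ = ℓ/4`, `Λ = 4A`), so
`EE (F j) ≤ 2 N0 E j` (at most `2 N0` nonzero terms at each pair of points) and
`∑_c LE (F j) c (Aℓ k) ≤ N0 EE (F j)`. For `j ≤ k`, using mean zero, `poincare`, `poincare_test`
and Cauchy-Schwarz twice: `∫⟪F k, F j⟫ ≤ C' ℓ k √(E k) √(E j) = C' θ^((k-j)/2) α k α j` with
`α k² = ℓ k E k = ∑_c D k c/ℓ k`. Hence `∫‖∑_k F k‖² ≤ C'' S` for `S = ∑_k α k²` (use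
`2 α k α j ≤ α k² + α j²` and `∑ (√θ)^i ≤ 1/(1-√(1/2))`), and
`S/2 ≤ Λ(∑ F k) ≤ C''' √S` by `lam_sum`, `lam_bound`. -/
theorem bessel (n : ℕ) {C θ A W : ℝ} (hC : 0 < C) (hθ : 0 < θ) (hθ1 : θ ≤ 1 / 2) (hA : 1 ≤ A)
    (hW : 0 < W) : ∃ C3 : ℝ, ∀ μ : Measure X, Up n μ C → RB n μ C →
    μ (closedBall 0 W)ᶜ = 0 → ∀ N : ℕ → Finset X,
    (∀ k, ∀ c ∈ N k, ∀ c' ∈ N k, c ≠ c' → θ ^ k / 4 ≤ dist c c') →
    (∀ k, ∀ c ∈ N k, ENNReal.ofReal ((θ ^ k) ^ n / C) ≤ μ (ball c (θ ^ k))) →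
    ∃ D : ℕ → X → ℝ, (∀ k c, 0 ≤ D k c) ∧
      (∀ k, ∀ c ∈ N k, Osc n μ (fun y : X => y) c (A * θ ^ k) (D k c)) ∧
      ∀ K : ℕ, ∑ k ∈ Finset.range K, ∑ c ∈ N k, D k c / θ ^ k ≤ C3 := by
  classical
  obtain ⟨M, hM⟩ := packing X (4 * A)
  set B := 2 * C * √(C * (2 * W) ^ n) with hB
  set P := (2 * A) ^ (n + 1) * C with hP
  have hP0 : 0 ≤ P := by positivity
  set Q := P * (1 + (M : ℝ) ^ 2) with hQ
  have hQ0 : 0 ≤ Q := by positivity
  refine ⟨64 * B ^ 2 * Q, fun μ hU hRB hμ N hsep hlow => ?_⟩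
  have := hU.locFin
  have hl : ∀ k : ℕ, 0 < θ ^ k := fun k => pow_pos hθ k
  have hρ : ∀ k : ℕ, 0 < A * θ ^ k := fun k => mul_pos (by linarith) (hl k)
  have hm : ∀ k : ℕ, 0 < (θ ^ k) ^ n / C := fun k => by have := hl k; positivity
  have hmρ : ∀ k, ∀ c ∈ N k, (θ ^ k) ^ n / C ≤ μ.real (ball c (A * θ ^ k)) := by
    intro k c hc
    have h1 : μ (ball c (θ ^ k)) ≤ μ (ball c (A * θ ^ k)) :=
      measure_mono (ball_subset_ball (le_mul_of_one_le_left (hl k).le hA))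
    exact (ENNReal.ofReal_le_iff_le_toReal measure_ball_lt_top.ne).1 ((hlow k c hc).trans h1)
  have hO : ∀ k, BesO (N k) (A * θ ^ k) M := by
    intro k y s hs hy
    refine hM s y (θ ^ k / 4) (by have := hl k; positivity) (fun c hc => ?_)
      fun c hc c' hc' hne => hsep k c (hs hc) c' (hs hc') hne
    rw [dist_comm]
    linarith [hy c hc]
  have hex : ∀ (k : ℕ) (c : X), ∃ (D : ℝ) (ψ : X → X), 0 ≤ D ∧ (c ∈ N k →
      Osc n μ (fun y : X => y) c (A * θ ^ k) D ∧ Test μ ψ c (A * θ ^ k) ∧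
      θ ^ k * EE n μ ψ ≤ D / θ ^ k ∧
      D / θ ^ k ≤ 2 * En n μ (fun _ => 1) (fun y : X => y) ψ) := by
    intro k c
    by_cases hc : c ∈ N k
    · obtain ⟨D, ψ, h0, h⟩ := Bessel_one hU hC hRB hW hμ (hρ k) (hm k) (hl k) (hmρ k c hc)
      exact ⟨D, ψ, h0, fun _ => h⟩
    · exact ⟨0, fun _ => 0, le_rfl, fun h => absurd h hc⟩
  choose D ψ hD0 hD using hex
  refine ⟨D, hD0, fun k c hc => (hD k c hc).1, fun K => ?_⟩
  have hT : ∀ k, ∀ c ∈ N k, Test μ (ψ k c) c (A * θ ^ k) := fun k c hc => (hD k c hc).2.1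
  set a : ℕ → ℝ := fun k => ∑ c ∈ N k, D k c / θ ^ k with ha
  have ha0 : ∀ k, 0 ≤ a k := fun k =>
    Finset.sum_nonneg fun c _ => div_nonneg (hD0 k c) (hl k).le
  have hE : ∀ k, θ ^ k * ∑ c ∈ N k, EE n μ (ψ k c) ≤ a k := fun k => by
    rw [Finset.mul_sum]
    exact Finset.sum_le_sum fun c hc => (hD k c hc).2.2.1
  set G : ℕ → X → X := fun k y => ∑ c ∈ N k, ψ k c y with hG
  have hGc : ∀ k, BesC (G k) := fun k => Bessel_sum _ _ fun c hc => Bessel_test (hT k c hc)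
  have hcross : ∀ k j, j ≤ k →
      ∫ y, ⟪G k y, G j y⟫ ∂μ ≤ Q * ((3 / 4 : ℝ) ^ (k - j) * (a k + a j)) := by
    intro k j hjk
    obtain ⟨i, rfl⟩ := Nat.exists_eq_add_of_le hjk
    rw [Nat.add_sub_cancel_left]
    set s : ℝ := (3 / 4) ^ i with hs
    have hs0 : 0 < s := by positivity
    have hPk : (2 * (A * θ ^ (j + i))) ^ (n + 1) / ((θ ^ (j + i)) ^ n / C) =
        P * θ ^ (j + i) := by
      have := hl (j + i)
      rw [hP, ← mul_assoc, mul_pow _ (θ ^ (j + i)), pow_succ (θ ^ (j + i))]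
      field_simp
    have h1 : ∫ y, ⟪G (j + i) y, G j y⟫ ∂μ = ∑ c ∈ N (j + i), ∫ y, ⟪ψ (j + i) c y, G j y⟫ ∂μ := by
      rw [← integral_finsetSum _ fun c hc =>
        Bessel_int_inner (Bessel_test (hT _ c hc)) (hGc j).cont.1]
      simp only [hG, sum_inner]
    have h2 := Finset.sum_le_sum fun c hc =>
      Bessel_cross1 hU hC (hT (j + i) c hc) (hGc j) (hρ _) (hm _) (hmρ _ c hc) hs0
    rw [hPk, ← Finset.mul_sum, Finset.sum_add_distrib, ← Finset.mul_sum, ← Finset.mul_sum,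
      ← h1] at h2
    have h3 := Bessel_LE_sum hU hC (hO (j + i)) (hGc j)
    have h4 : EE n μ (G j) ≤ _ := Bessel_EE_sum hU hC (hO j) (hT j)
    have h5 : θ ^ i ≤ s * s := by
      rw [hs, ← mul_pow]
      exact pow_le_pow_left₀ hθ.le (by linarith) i
    set E1 := ∑ c ∈ N (j + i), EE n μ (ψ (j + i) c)
    set E2 := ∑ c ∈ N j, EE n μ (ψ j c)
    set L := ∑ c ∈ N (j + i), LE n μ (G j) c (A * θ ^ (j + i))
    have hM0 : (0 : ℝ) ≤ M := Nat.cast_nonneg M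
    have h6 : L ≤ 2 * M ^ 2 * E2 := by nlinarith [mul_le_mul_of_nonneg_left h4 hM0]
    have h7 : θ ^ (j + i) * L ≤ s * s * (2 * M ^ 2 * a j) := by
      calc θ ^ (j + i) * L ≤ θ ^ (j + i) * (2 * M ^ 2 * E2) :=
            mul_le_mul_of_nonneg_left h6 (hl _).le
        _ = θ ^ i * (2 * M ^ 2 * (θ ^ j * E2)) := by rw [pow_add]; ring
        _ ≤ θ ^ i * (2 * M ^ 2 * a j) := by
            have := hE j
            have := hl i
            gcongr
        _ ≤ _ := mul_le_mul_of_nonneg_right h5 (by have := ha0 j; positivity)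
    have h8 : 1 / (2 * s) * (θ ^ (j + i) * L) ≤ s * (M ^ 2 * a j) := by
      refine (mul_le_mul_of_nonneg_left h7 (by positivity)).trans (le_of_eq ?_)
      field_simp
    have h9 := mul_le_mul_of_nonneg_left (hE (j + i)) (by positivity : 0 ≤ s / 2)
    have h10 : s / 2 * (θ ^ (j + i) * E1) + 1 / (2 * s) * (θ ^ (j + i) * L) ≤
        (1 + (M : ℝ) ^ 2) * (s * (a (j + i) + a j)) := by
      have e1 := mul_nonneg hs0.le (ha0 j)
      have e2 := mul_nonneg hs0.le (ha0 (j + i))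
      have e3 := mul_nonneg e2 (sq_nonneg (M : ℝ))
      nlinarith
    have h11 := mul_le_mul_of_nonneg_left h10 hP0
    rw [hQ]
    nlinarith
  have hL2 := Bessel_l2 (μ := μ) (Finset.range K) G (fun k _ => hGc k) ha0 hQ0
    fun k _ j _ hjk => hcross k j hjk
  have hsum : BesC (fun y => ∑ k ∈ Finset.range K, G k y) := Bessel_sum _ _ fun k _ => hGc k
  obtain ⟨⟨L, hL⟩, r, hr⟩ := hsum
  have hb := lam_bound hU hC hRB hW hμ hL hr
  rw [lam_sum hU hC hW hμ _ G (fun k _ => (hGc k).1) fun k _ => ⟨0, (hGc k).2⟩] at hb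
  have hlow2 : ∑ k ∈ Finset.range K, a k ≤
      2 * ∑ k ∈ Finset.range K, En n μ (fun _ => 1) (fun y : X => y) (G k) := by
    rw [Finset.mul_sum]
    refine Finset.sum_le_sum fun k _ => ?_
    rw [hG]
    simp only
    rw [lam_sum hU hC hW hμ _ (ψ k) (fun c hc => (hT k c hc).lip)
      fun c hc => ⟨c, _, (hT k c hc).zero⟩, Finset.mul_sum]
    exact Finset.sum_le_sum fun c hc => (hD k c hc).2.2.2
  change ∑ k ∈ Finset.range K, a k ≤ _
  set S := ∑ k ∈ Finset.range K, a k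
  have hS0 : 0 ≤ S := Finset.sum_nonneg fun k _ => ha0 k
  have h3 : 0 ≤ ∫ y, ‖∑ k ∈ Finset.range K, G k y‖ ^ 2 ∂μ := integral_nonneg fun _ => sq_nonneg _
  have h4 := pow_le_pow_left₀ (by positivity : 0 ≤ S / 2)
    (((by linarith : S / 2 ≤ _).trans (le_abs_self _)).trans hb) 2
  rw [mul_right_comm, mul_pow, Real.sq_sqrt h3, ← hB] at h4
  have h5 := mul_le_mul_of_nonneg_left hL2 (sq_nonneg B)
  rcases hS0.eq_or_lt with h | h
  · rw [← h]; positivity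
  · refine le_of_mul_le_mul_right ?_ h
    nlinarith

end Vale.Agent.P120
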