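import Vale.Agent.P120.Tail

/-!
Caccioppoli inequality.
-/

open MeasureTheory Metric Set Filter Topology
open scoped RealInnerProductSpace ENNReal NNReal

noncomputable section

namespace Vale.Agent.P120

variable {X : Type} [NormedAddCommGroup X] [InnerProductSpace ℝ X] [FiniteDimensional ℝ X]
  [MeasurableSpace X] [BorelSpace X]
variable {F : Type} [NormedAddCommGroup F] [InnerProductSpace ℝ F] [FiniteDimensional ℝ F]

theorem cacc_ker {μ : Measure X} [SFinite μ] {α : X → ℝ} (hαm : Measurable α)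
    (hα : Integrable α μ) (hα0 : ∀ y, 0 ≤ α y) {κ : X × X → ℝ} (hκ : Measurable κ)
    (hκ0 : ∀ p, 0 ≤ κ p) {M : ℝ} (hi : ∀ a, Integrable (fun b => κ (a, b)) μ)
    (hM : ∀ a, ∫ b, κ (a, b) ∂μ ≤ M) :
    Integrable (fun p : X × X => α p.1 * κ p) (μ.prod μ) ∧
      ∫ p : X × X, α p.1 * κ p ∂(μ.prod μ) ≤ M * ∫ y, α y ∂μ := by
  have hm : AEStronglyMeasurable (fun p : X × X => α p.1 * κ p) (μ.prod μ) :=
    ((hαm.comp measurable_fst).mul hκ).aestronglyMeasurable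
  have hb : ∀ a, ‖∫ b, ‖α a * κ (a, b)‖ ∂μ‖ ≤ M * α a := by
    intro a
    have e : ∀ b, ‖α a * κ (a, b)‖ = α a * κ (a, b) := fun b =>
      Real.norm_of_nonneg (mul_nonneg (hα0 a) (hκ0 _))
    simp only [e, integral_const_mul]
    rw [Real.norm_of_nonneg (mul_nonneg (hα0 a) (integral_nonneg fun b => hκ0 _)), mul_comm]
    exact mul_le_mul_of_nonneg_right (hM a) (hα0 a)
  have hI : Integrable (fun p : X × X => α p.1 * κ p) (μ.prod μ) := by
    rw [integrable_prod_iff hm]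
    refine ⟨Eventually.of_forall fun a => (hi a).const_mul (α a), ?_⟩
    exact (hα.const_mul M).mono' hm.norm.integral_prod_right' (Eventually.of_forall hb)
  refine ⟨hI, ?_⟩
  rw [integral_prod _ hI, ← integral_const_mul]
  refine integral_mono hI.integral_prod_left (hα.const_mul M) fun a => ?_
  simp only [integral_const_mul]
  rw [mul_comm]
  exact mul_le_mul_of_nonneg_right (hM a) (hα0 a)

/-- Near kernel. -/
def caccN (n : ℕ) (r : ℝ) (p : X × X) : ℝ :=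
  if dist p.2 p.1 < r then J n (p.1 - p.2) * ‖p.1 - p.2‖ ^ 2 else 0

/-- Far kernel. -/
def caccF (n : ℕ) (r : ℝ) (p : X × X) : ℝ :=
  if dist p.2 p.1 < r then 0 else J n (p.1 - p.2)

theorem caccN_nonneg (n : ℕ) (r : ℝ) (p : X × X) : 0 ≤ caccN n r p := by
  unfold caccN
  split_ifs
  · exact mul_nonneg (J_nonneg n _) (by positivity)
  · exact le_rfl

theorem caccF_nonneg (n : ℕ) (r : ℝ) (p : X × X) : 0 ≤ caccF n r p := by
  unfold caccF
  split_ifs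
  · exact le_rfl
  · exact J_nonneg n _

theorem caccN_swap (n : ℕ) (r : ℝ) (p : X × X) : caccN n r p.swap = caccN n r p := by
  unfold caccN
  simp only [Prod.fst_swap, Prod.snd_swap]
  rw [dist_comm, J_sub_comm, norm_sub_rev]

theorem cacc_near (n : ℕ) {C : ℝ} (hC : 0 < C) : ∃ Ca : ℝ, 0 < Ca ∧ ∀ μ : Measure X, Up n μ C →
    ∀ α : X → ℝ, Measurable α → Integrable α μ → (∀ y, 0 ≤ α y) → ∀ r : ℝ, 0 < r →
    Integrable (fun p : X × X => α p.1 * caccN n r p) (μ.prod μ) ∧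
      ∫ p : X × X, α p.1 * caccN n r p ∂(μ.prod μ) ≤ Ca * r * ∫ y, α y ∂μ := by
  obtain ⟨Ca, hCa, H⟩ := ann_near (X := X) n hC
  refine ⟨Ca, hCa, fun μ hU α hαm hα hα0 r hr => ?_⟩
  have := hU.locFin
  have e : ∀ a : X, (fun b : X => caccN n r (a, b)) =
      (ball a r).indicator fun y : X => J n (a - y) * ‖a - y‖ ^ 2 := by
    intro a
    funext b
    simp only [caccN, indicator, mem_ball]
  refine cacc_ker hαm hα hα0 ?_ (caccN_nonneg n r) (fun a => ?_) (fun a => ?_)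
  · unfold caccN
    exact Measurable.ite (measurableSet_lt (measurable_snd.dist measurable_fst) measurable_const)
      (((measurable_J n).comp (measurable_fst.sub measurable_snd)).mul
        ((measurable_fst.sub measurable_snd).norm.pow_const 2)) measurable_const
  · rw [e a]
    exact (integrable_indicator_iff measurableSet_ball).2 (H μ hU a r hr).1
  · rw [e a, integral_indicator measurableSet_ball]
    exact (H μ hU a r hr).2

theorem cacc_far (n : ℕ) {C : ℝ} (hC : 0 < C) : ∃ Ca : ℝ, 0 < Ca ∧ ∀ μ : Measure X, Up n μ C →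
    ∀ α : X → ℝ, Measurable α → Integrable α μ → (∀ y, 0 ≤ α y) → ∀ r : ℝ, 0 < r →
    Integrable (fun p : X × X => α p.1 * caccF n r p) (μ.prod μ) ∧
      ∫ p : X × X, α p.1 * caccF n r p ∂(μ.prod μ) ≤ Ca / r * ∫ y, α y ∂μ := by
  obtain ⟨Ca, hCa, H⟩ := ann_far (X := X) n hC
  refine ⟨Ca, hCa, fun μ hU α hαm hα hα0 r hr => ?_⟩
  have := hU.locFin
  have e : ∀ a : X, (fun b : X => caccF n r (a, b)) =
      (ball a r)ᶜ.indicator fun y : X => J n (a - y) := by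
    intro a
    funext b
    simp only [caccF, indicator, mem_compl_iff, mem_ball, ite_not]
  refine cacc_ker hαm hα hα0 ?_ (caccF_nonneg n r) (fun a => ?_) (fun a => ?_)
  · unfold caccF
    exact Measurable.ite (measurableSet_lt (measurable_snd.dist measurable_fst) measurable_const)
      measurable_const ((measurable_J n).comp (measurable_fst.sub measurable_snd))
  · rw [e a]
    exact (integrable_indicator_iff measurableSet_ball.compl).2 (H μ hU a r hr).1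
  · rw [e a, integral_indicator measurableSet_ball.compl]
    exact (H μ hU a r hr).2

theorem cacc_id (a b : F) (s t : ℝ) :
    ⟪s • a - t • b, s • a - t • b⟫ =
      ⟪a - b, s • s • a - t • t • b⟫ + (s - t) ^ 2 * ⟪a, b⟫ := by
  simp only [inner_sub_left, inner_sub_right, inner_smul_left, inner_smul_right,
    real_inner_comm a b, conj_trivial]
  ring

theorem cacc_sq (a b : F) {s t : ℝ} (ht0 : 0 ≤ t) (ht : t ≤ 1) :
    ‖s • a - t • b‖ ^ 2 ≤ 2 * ‖a - b‖ ^ 2 + 2 * ((s - t) ^ 2 * ‖a‖ ^ 2) := by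
  have e : s • a - t • b = t • (a - b) + (s - t) • a := by
    rw [smul_sub, sub_smul]
    abel
  have h1 : ‖s • a - t • b‖ ≤ ‖a - b‖ + |s - t| * ‖a‖ := by
    rw [e]
    refine (norm_add_le _ _).trans ?_
    rw [norm_smul, norm_smul, Real.norm_of_nonneg ht0, Real.norm_eq_abs]
    nlinarith [norm_nonneg (a - b)]
  have h2 : ‖s • a - t • b‖ ^ 2 ≤ (‖a - b‖ + |s - t| * ‖a‖) ^ 2 := by gcongr
  have h3 : (|s - t| * ‖a‖) ^ 2 = (s - t) ^ 2 * ‖a‖ ^ 2 := by rw [mul_pow, sq_abs]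
  nlinarith [sq_nonneg (‖a - b‖ - |s - t| * ‖a‖)]

theorem cacc_mean {μ : Measure X} {q : X → ℝ} {u : X → F} (hq0 : ∀ y, 0 ≤ q y)
    (hq : Integrable q μ) (hqu : Integrable (fun y => q y • u y) μ)
    (hqu2 : Integrable (fun y => q y * ‖u y‖ ^ 2) μ) (hA : 0 < ∫ y, q y ∂μ) :
    (∫ y, q y ∂μ) * ‖(∫ y, q y ∂μ)⁻¹ • ∫ y, q y • u y ∂μ‖ ^ 2 ≤ ∫ y, q y * ‖u y‖ ^ 2 ∂μ := by
  set A := ∫ y, q y ∂μ with hAd
  set m := A⁻¹ • ∫ y, q y • u y ∂μ with hm
  have e : ∫ y, q y • u y ∂μ = A • m := by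
    rw [hm, smul_smul, mul_inv_cancel₀ hA.ne', one_smul]
  have h1 : ∫ y, ⟪m, q y • u y⟫ ∂μ = A * ‖m‖ ^ 2 := by
    rw [integral_inner hqu, e, inner_smul_right, real_inner_self_eq_norm_sq]
  have h2 : ∫ y, ⟪m, q y • u y⟫ ∂μ ≤ ∫ y, (‖m‖ ^ 2 / 2 * q y + 1 / 2 * (q y * ‖u y‖ ^ 2)) ∂μ := by
    refine integral_mono (hqu.const_inner m) ((hq.const_mul _).add (hqu2.const_mul _)) fun y => ?_
    simp only [inner_smul_right]
    have h3 := real_inner_le_norm m (u y)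
    have h4 : ⟪m, u y⟫ ≤ (‖m‖ ^ 2 + ‖u y‖ ^ 2) / 2 := by
      nlinarith [sq_nonneg (‖m‖ - ‖u y‖)]
    nlinarith [mul_le_mul_of_nonneg_left h4 (hq0 y)]
  rw [integral_add (hq.const_mul _) (hqu2.const_mul _), integral_const_mul, integral_const_mul,
    h1, ← hAd] at h2
  linarith

theorem cacc_rpow {t : ℝ} (ht : 1 ≤ t) : t ^ (5 / 2 : ℝ) ≤ t ^ 3 := by
  rw [← Real.rpow_natCast]
  exact Real.rpow_le_rpow_of_exponent_le ht (by norm_num)

theorem cacc_gr {n : ℕ} {μ : Measure X} {u : X → F} {x : X} {ρ G : ℝ} (hρ : 0 < ρ) (hG : 0 ≤ G)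
    (h : Gr n μ u x ρ G) {k : ℝ} (hk : 1 ≤ k) :
    ∫ y in ball x (k * ρ), ‖u y‖ ^ 2 ∂μ ≤ k ^ (n + 3) * (G * ρ ^ n) := by
  refine (h (k * ρ) (by nlinarith)).trans ?_
  rw [mul_div_assoc, div_self hρ.ne', mul_one]
  have := cacc_rpow hk
  calc _ ≤ G * (k * ρ) ^ n * k ^ 3 := by gcongr
    _ = _ := by ring

/-- Comparison of a whole space integral with an integral over a ball. -/
theorem cacc_ball {μ : Measure X} [IsLocallyFiniteMeasure μ] {f g : X → ℝ} (hg : Continuous g)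
    {x : X} {r : ℝ} (hf0 : ∀ y, 0 ≤ f y) (h0 : ∀ y, r ≤ dist y x → f y = 0)
    (h : ∀ y, f y ≤ g y) : ∫ y, f y ∂μ ≤ ∫ y in ball x r, g y ∂μ := by
  rw [← integral_indicator measurableSet_ball]
  refine integral_mono_of_nonneg (Eventually.of_forall hf0)
    ((integrable_indicator_iff measurableSet_ball).2 (integrableOn_ball_of_continuous hg _ _))
    (Eventually.of_forall fun y => ?_)
  by_cases hy : y ∈ ball x r
  · rw [indicator_of_mem hy]
    exact h y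
  · rw [indicator_of_notMem hy]
    exact (h0 y (by simpa using hy)).le

/-- Existence of the centre `m` with the `L²` bound. -/
theorem cacc_centre (n : ℕ) {C : ℝ} (hC : 0 < C) : ∃ K : ℝ, 0 < K ∧ ∀ μ : Measure X, Up n μ C →
    ∀ u : X → F, Continuous u → ∀ (x : X) (ρ G : ℝ), 0 < ρ → 0 ≤ G →
    ENNReal.ofReal (ρ ^ n / C) ≤ μ (ball x ρ) → Gr n μ u x ρ G → ∃ m : F,
      ∫ y, cut ρ (dist y x) • cut ρ (dist y x) • (u y - m) ∂μ = 0 ∧
      ∫ y in ball x (18 * ρ), ‖u y - m‖ ^ 2 ∂μ ≤ K * (G * ρ ^ n) := by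
  refine ⟨2 * 18 ^ (n + 3) + 2 * (C * 2 ^ (n + 3)) * (C * 18 ^ n), by positivity, ?_⟩
  intro μ hU u hu x ρ G hρ hG hlow hGr
  have := hU.locFin
  set q : X → ℝ := fun y => cut ρ (dist y x) * cut ρ (dist y x) with hq
  have hφc : Continuous fun y : X => cut ρ (dist y x) :=
    (continuous_cut ρ).comp (continuous_id.dist continuous_const)
  have hqc : Continuous q := hφc.mul hφc
  have hq0 : ∀ y, 0 ≤ q y := fun y => mul_self_nonneg _
  have hq1 : ∀ y, q y ≤ 1 := fun y =>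
    mul_le_one₀ (cut_le_one _ _) (cut_nonneg _ _) (cut_le_one _ _)
  have hqz : ∀ y, 2 * ρ ≤ dist y x → q y = 0 := fun y hy => by
    simp only [hq, cut_eq_zero hρ hy, mul_zero]
  have hqs : HasCompactSupport q := hasCompactSupport_of_zero hqz
  have hqi : Integrable q μ := hqc.integrable_of_hasCompactSupport hqs
  have hqu : Integrable (fun y => q y • u y) μ :=
    (hqc.smul hu).integrable_of_hasCompactSupport hqs.smul_right
  have hqu2 : Integrable (fun y => q y * ‖u y‖ ^ 2) μ :=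
    (hqc.mul (hu.norm.pow 2)).integrable_of_hasCompactSupport hqs.mul_right
  have hA : ρ ^ n / C ≤ ∫ y, q y ∂μ := by
    have h1 : ρ ^ n / C ≤ μ.real (ball x ρ) :=
      (ENNReal.ofReal_le_iff_le_toReal measure_ball_lt_top.ne).1 hlow
    refine h1.trans ?_
    have h2 : ∫ y in ball x ρ, q y ∂μ = μ.real (ball x ρ) := by
      rw [setIntegral_congr_fun (g := fun _ => (1 : ℝ)) measurableSet_ball]
      · simp
      · intro y hy
        simp only [hq, cut_eq_one hρ (le_of_lt hy), mul_one]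
    rw [← h2]
    exact setIntegral_le_integral hqi (Eventually.of_forall hq0)
  have hA0 : 0 < ∫ y, q y ∂μ := lt_of_lt_of_le (by positivity) hA
  have hm := cacc_mean hq0 hqi hqu hqu2 hA0
  set A := ∫ y, q y ∂μ with hAd
  set m := A⁻¹ • ∫ y, q y • u y ∂μ with hmd
  refine ⟨m, ?_, ?_⟩
  · have e : ∀ y, cut ρ (dist y x) • cut ρ (dist y x) • (u y - m) = q y • u y - q y • m := by
      intro y
      rw [smul_smul, smul_sub]
    simp only [e]
    rw [integral_sub hqu (hqi.smul_const m), integral_smul_const, ← hAd, hmd, smul_smul,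
      mul_inv_cancel₀ hA0.ne', one_smul, sub_self]
  · have h1 : ∫ y, q y * ‖u y‖ ^ 2 ∂μ ≤ 2 ^ (n + 3) * (G * ρ ^ n) := by
      refine le_trans (cacc_ball (hu.norm.pow 2) (fun y => mul_nonneg (hq0 y) (by positivity))
        (fun y hy => by rw [hqz y hy, zero_mul]) (fun y => ?_)) (cacc_gr hρ hG hGr (by norm_num))
      exact mul_le_of_le_one_left (by positivity) (hq1 y)
    have h2 : ‖m‖ ^ 2 ≤ C * 2 ^ (n + 3) * G := by
      have h3 : ρ ^ n / C * ‖m‖ ^ 2 ≤ 2 ^ (n + 3) * (G * ρ ^ n) :=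
        le_trans (mul_le_mul_of_nonneg_right hA (by positivity)) (hm.trans h1)
      rw [div_mul_eq_mul_div, div_le_iff₀ hC] at h3
      have h4 : ρ ^ n * ‖m‖ ^ 2 ≤ ρ ^ n * (C * 2 ^ (n + 3) * G) := by linarith
      exact le_of_mul_le_mul_left h4 (by positivity)
    have h3 := cacc_gr hρ hG hGr (k := 18) (by norm_num)
    have h4 := hU.real_le hC x (ρ := 18 * ρ) (by positivity)
    have i1 : IntegrableOn (fun y => 2 * ‖u y‖ ^ 2) (ball x (18 * ρ)) μ :=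
      integrableOn_ball_of_continuous (continuous_const.mul (hu.norm.pow 2)) _ _
    have i2 : IntegrableOn (fun _ : X => 2 * ‖m‖ ^ 2) (ball x (18 * ρ)) μ :=
      integrableOn_ball_of_continuous continuous_const _ _
    calc ∫ y in ball x (18 * ρ), ‖u y - m‖ ^ 2 ∂μ
        ≤ ∫ y in ball x (18 * ρ), (2 * ‖u y‖ ^ 2 + 2 * ‖m‖ ^ 2) ∂μ := by
          refine integral_mono
            (integrableOn_ball_of_continuous ((hu.sub continuous_const).norm.pow 2) _ _)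
            (i1.add i2) fun y => ?_
          have h5 : ‖u y - m‖ ^ 2 ≤ (‖u y‖ + ‖m‖) ^ 2 := by
            gcongr
            exact norm_sub_le _ _
          nlinarith [sq_nonneg (‖u y‖ - ‖m‖)]
      _ = 2 * ∫ y in ball x (18 * ρ), ‖u y‖ ^ 2 ∂μ + μ.real (ball x (18 * ρ)) * (2 * ‖m‖ ^ 2) := by
          rw [integral_add i1 i2, integral_const_mul, setIntegral_const, smul_eq_mul]
      _ ≤ 2 * (18 ^ (n + 3) * (G * ρ ^ n)) + C * (18 * ρ) ^ n * (2 * (C * 2 ^ (n + 3) * G)) := by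
          gcongr
      _ = _ := by ring

theorem cacc_phi {ρ : ℝ} (hρ : 0 < ρ) (x a b : X) :
    (cut ρ (dist a x) - cut ρ (dist b x)) ^ 2 ≤ (ρ ^ 2)⁻¹ * ‖a - b‖ ^ 2 := by
  have h1 : |cut ρ (dist a x) - cut ρ (dist b x)| ≤ ‖a - b‖ / ρ := by
    refine (cut_lip hρ _ _).trans ?_
    gcongr
    rw [← dist_eq_norm]
    exact abs_dist_sub_le _ _ _
  calc _ = |cut ρ (dist a x) - cut ρ (dist b x)| ^ 2 := (sq_abs _).symm
    _ ≤ (‖a - b‖ / ρ) ^ 2 := by gcongr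
    _ = _ := by field_simp

theorem cacc_key (n : ℕ) {ρ : ℝ} (hρ : 0 < ρ) (x : X) (v : X → F) (p : X × X) :
    cut (8 * ρ) ‖p.1 - p.2‖ * (J n (p.1 - p.2) *
      ((cut ρ (dist p.1 x) - cut ρ (dist p.2 x)) ^ 2 * ⟪v p.1, v p.2⟫)) ≤ (2 * ρ ^ 2)⁻¹ *
      ((ball x (18 * ρ)).indicator (fun y => ‖v y‖ ^ 2) p.1 * caccN n (16 * ρ) p +
        (ball x (18 * ρ)).indicator (fun y => ‖v y‖ ^ 2) p.2 * caccN n (16 * ρ) p) := by
  have hN := caccN_nonneg n (16 * ρ) p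
  have hα0 : ∀ y, 0 ≤ (ball x (18 * ρ)).indicator (fun y => ‖v y‖ ^ 2) y :=
    fun y => indicator_nonneg (fun z _ => by positivity) y
  have hr : 0 ≤ (2 * ρ ^ 2)⁻¹ *
      ((ball x (18 * ρ)).indicator (fun y => ‖v y‖ ^ 2) p.1 * caccN n (16 * ρ) p +
        (ball x (18 * ρ)).indicator (fun y => ‖v y‖ ^ 2) p.2 * caccN n (16 * ρ) p) := by
    have := hα0 p.1
    have := hα0 p.2
    positivity
  by_cases hd : dist p.2 p.1 < 16 * ρ
  · by_cases hz : 2 * ρ ≤ dist p.1 x ∧ 2 * ρ ≤ dist p.2 x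
    · rw [cut_eq_zero hρ hz.1, cut_eq_zero hρ hz.2, sub_self, zero_pow two_ne_zero, zero_mul,
        mul_zero, mul_zero]
      exact hr
    · have t1 := dist_triangle p.1 p.2 x
      have t2 := dist_triangle p.2 p.1 x
      have t3 := dist_comm p.1 p.2
      have hin : dist p.1 x < 18 * ρ ∧ dist p.2 x < 18 * ρ := by
        rw [not_and_or, not_le, not_le] at hz
        rcases hz with hz | hz <;> constructor <;> linarith
      rw [indicator_of_mem (mem_ball.2 hin.1), indicator_of_mem (mem_ball.2 hin.2)]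
      simp only [caccN, if_pos hd]
      have h1 : ⟪v p.1, v p.2⟫ ≤ (‖v p.1‖ ^ 2 + ‖v p.2‖ ^ 2) / 2 := by
        nlinarith [real_inner_le_norm (v p.1) (v p.2), sq_nonneg (‖v p.1‖ - ‖v p.2‖)]
      have h2 := cacc_phi hρ x p.1 p.2
      have h3 := J_nonneg n (p.1 - p.2)
      have h4 := cut_le_one (8 * ρ) ‖p.1 - p.2‖
      have h5 := cut_nonneg (8 * ρ) ‖p.1 - p.2‖
      calc _ ≤ cut (8 * ρ) ‖p.1 - p.2‖ * (J n (p.1 - p.2) *
            ((cut ρ (dist p.1 x) - cut ρ (dist p.2 x)) ^ 2 *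
            ((‖v p.1‖ ^ 2 + ‖v p.2‖ ^ 2) / 2))) := by gcongr
        _ ≤ 1 * (J n (p.1 - p.2) * (((ρ ^ 2)⁻¹ * ‖p.1 - p.2‖ ^ 2) *
            ((‖v p.1‖ ^ 2 + ‖v p.2‖ ^ 2) / 2))) := by gcongr
        _ = _ := by field_simp
  · rw [cut_eq_zero (R := 8 * ρ) (by positivity)
      (by rw [← dist_eq_norm, dist_comm]; linarith [not_lt.1 hd]), zero_mul]
    exact hr

/-- The energy identity with the near error term. -/
theorem cacc_hid (n : ℕ) {C : ℝ} (hC : 0 < C) : ∃ Ca : ℝ, 0 < Ca ∧ ∀ μ : Measure X, Up n μ C →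
    ∀ v : X → F, LocLip v → ∀ (x : X) (ρ V : ℝ), 0 < ρ →
    ∫ y in ball x (18 * ρ), ‖v y‖ ^ 2 ∂μ ≤ V →
    En n μ (cut (8 * ρ)) (fun y => cut ρ (dist y x) • v y) (fun y => cut ρ (dist y x) • v y) ≤
      En n μ (cut (8 * ρ)) v (fun y => cut ρ (dist y x) • cut ρ (dist y x) • v y) +
        Ca * (V / ρ) := by
  obtain ⟨Ca, hCa, H3⟩ := cacc_near (X := X) n hC
  refine ⟨16 * Ca, by positivity, ?_⟩
  intro μ hU v hvL x ρ V hρ hV
  have := hU.locFin
  have hvc := hvL.continuous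
  have hφL := lipschitz_cut_dist hρ x
  have hφz : ∀ y, 2 * ρ ≤ dist y x → cut ρ (dist y x) = 0 := fun y hy => cut_eq_zero hρ hy
  obtain ⟨Lg, hgL⟩ : ∃ L, LipschitzWith L fun y => cut ρ (dist y x) • v y :=
    lipschitz_smul_of_locLip hφL hφz hvL
  obtain ⟨Lψ, hψL⟩ : ∃ L, LipschitzWith L fun y => cut ρ (dist y x) • cut ρ (dist y x) • v y :=
    lipschitz_smul_of_locLip hφL hφz (locLip_of_lipschitz hgL)
  have hgz : ∀ y, 2 * ρ ≤ dist y x → cut ρ (dist y x) • v y = 0 := fun y hy => by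
    rw [hφz y hy, zero_smul]
  have hψz : ∀ y, 2 * ρ ≤ dist y x → cut ρ (dist y x) • cut ρ (dist y x) • v y = 0 :=
    fun y hy => by rw [hφz y hy, zero_smul]
  have hw := (continuous_cut (8 * ρ)).measurable
  have hw1 : ∀ t, |cut (8 * ρ) t| ≤ 1 := fun t => by
    rw [abs_of_nonneg (cut_nonneg _ _)]; exact cut_le_one _ _
  have hwR : ∀ t, 16 * ρ ≤ t → cut (8 * ρ) t = 0 := fun t ht =>
    cut_eq_zero (by positivity) (by linarith)
  have i2 := En_integrable hU hC hvL hψL hψz hw hw1 hwR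
  have i1 := En_integrable hU hC (locLip_of_lipschitz hgL) hgL hgz hw hw1 hwR
  have key := cacc_key n hρ x v
  have iv : IntegrableOn (fun y => ‖v y‖ ^ 2) (ball x (18 * ρ)) μ :=
    integrableOn_ball_of_continuous (hvc.norm.pow 2) _ _
  have hαm : Measurable ((ball x (18 * ρ)).indicator fun y => ‖v y‖ ^ 2) :=
    (hvc.norm.pow 2).measurable.indicator measurableSet_ball
  have hαi : Integrable ((ball x (18 * ρ)).indicator fun y => ‖v y‖ ^ 2) μ :=
    (integrable_indicator_iff measurableSet_ball).2 iv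
  have hα0 : ∀ y, 0 ≤ (ball x (18 * ρ)).indicator (fun y => ‖v y‖ ^ 2) y :=
    fun y => indicator_nonneg (fun z _ => by positivity) y
  have hαV : ∫ y, (ball x (18 * ρ)).indicator (fun y => ‖v y‖ ^ 2) y ∂μ ≤ V := by
    rwa [integral_indicator measurableSet_ball]
  generalize (ball x (18 * ρ)).indicator (fun y => ‖v y‖ ^ 2) = α at key hαm hαi hα0 hαV
  obtain ⟨j1, j2⟩ := H3 μ hU α hαm hαi hα0 (16 * ρ) (by positivity)
  have j3 : Integrable (fun p : X × X => α p.2 * caccN n (16 * ρ) p) (μ.prod μ) := by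
    have := j1.swap
    refine this.congr (Eventually.of_forall fun p => ?_)
    simp only [Function.comp, Prod.fst_swap, caccN_swap]
  have j4 : ∫ p : X × X, α p.2 * caccN n (16 * ρ) p ∂(μ.prod μ) =
      ∫ p : X × X, α p.1 * caccN n (16 * ρ) p ∂(μ.prod μ) := by
    rw [← integral_prod_swap]
    simp only [Prod.snd_swap, caccN_swap]
  have i4 := (j1.add j3).const_mul (2 * ρ ^ 2)⁻¹
  have k1 := integral_mono i1 (i2.add i4) fun p => by
    have e := cacc_id (v p.1) (v p.2) (cut ρ (dist p.1 x)) (cut ρ (dist p.2 x))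
    have := key p
    simp only [Pi.add_apply, e]
    linarith
  simp only [Pi.add_apply] at k1 i4
  rw [integral_add i2 i4, integral_const_mul, integral_add j1 j3, j4] at k1
  refine k1.trans (add_le_add le_rfl ?_)
  have k2 : ∫ p : X × X, α p.1 * caccN n (16 * ρ) p ∂(μ.prod μ) ≤ Ca * (16 * ρ) * V :=
    j2.trans (by gcongr)
  calc _ ≤ (2 * ρ ^ 2)⁻¹ * (Ca * (16 * ρ) * V + Ca * (16 * ρ) * V) := by gcongr
    _ = _ := by field_simp; ring

theorem cacc_pt (n : ℕ) {ρ : ℝ} (hρ : 0 < ρ) (x : X) (g : X → F) (p : X × X) :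
    J n (p.1 - p.2) * ‖cut ρ (dist p.1 x) • g p.1 - cut ρ (dist p.2 x) • g p.2‖ ^ 2 ≤
      2 * (J n (p.1 - p.2) * ‖g p.1 - g p.2‖ ^ 2) +
        2 * ((ρ ^ 2)⁻¹ * (‖g p.1‖ ^ 2 * caccN n ρ p) + ‖g p.1‖ ^ 2 * caccF n ρ p) := by
  have h1 := cacc_sq (g p.1) (g p.2) (s := cut ρ (dist p.1 x)) (cut_nonneg ρ (dist p.2 x))
    (cut_le_one ρ (dist p.2 x))
  have h3 := J_nonneg n (p.1 - p.2)
  have h2 : J n (p.1 - p.2) * (cut ρ (dist p.1 x) - cut ρ (dist p.2 x)) ^ 2 ≤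
      (ρ ^ 2)⁻¹ * caccN n ρ p + caccF n ρ p := by
    unfold caccN caccF
    split_ifs
    · have := mul_le_mul_of_nonneg_left (cacc_phi hρ x p.1 p.2) h3
      linarith
    · have h4 : (cut ρ (dist p.1 x) - cut ρ (dist p.2 x)) ^ 2 ≤ 1 := by
        nlinarith [cut_nonneg ρ (dist p.1 x), cut_le_one ρ (dist p.1 x),
          cut_nonneg ρ (dist p.2 x), cut_le_one ρ (dist p.2 x)]
      have := mul_le_mul_of_nonneg_left h4 h3
      linarith
  have h5 := mul_le_mul_of_nonneg_left h1 h3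
  have h6 := mul_le_mul_of_nonneg_left h2 (sq_nonneg ‖g p.1‖)
  linarith

/-- Energy of the test function. -/
theorem cacc_psi (n : ℕ) {C : ℝ} (hC : 0 < C) : ∃ Cb : ℝ, 0 < Cb ∧ ∀ μ : Measure X, Up n μ C →
    ∀ (g : X → F) (L : ℝ≥0), LipschitzWith L g → ∀ (x : X) (ρ V : ℝ), 0 < ρ →
    (∀ y, 2 * ρ ≤ dist y x → g y = 0) → ∫ y, ‖g y‖ ^ 2 ∂μ ≤ V →
    EE n μ (fun y => cut ρ (dist y x) • g y) ≤ 2 * EE n μ g + 2 * (Cb * (V / ρ)) := by
  obtain ⟨Ca, hCa, H3⟩ := cacc_near (X := X) n hC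
  obtain ⟨Cb, hCb, H4⟩ := cacc_far (X := X) n hC
  refine ⟨Ca + Cb, by positivity, ?_⟩
  intro μ hU g L hgL x ρ V hρ hgz hg2
  have := hU.locFin
  have hφz : ∀ y, 2 * ρ ≤ dist y x → cut ρ (dist y x) = 0 := fun y hy => cut_eq_zero hρ hy
  obtain ⟨Lψ, hψL⟩ : ∃ L, LipschitzWith L fun y => cut ρ (dist y x) • g y :=
    lipschitz_smul_of_locLip (lipschitz_cut_dist hρ x) hφz (locLip_of_lipschitz hgL)
  have hψz : ∀ y, 2 * ρ ≤ dist y x → cut ρ (dist y x) • g y = 0 :=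
    fun y hy => by rw [hφz y hy, zero_smul]
  have hβm : Measurable fun y => ‖g y‖ ^ 2 := (hgL.continuous.norm.pow 2).measurable
  have hβi : Integrable (fun y => ‖g y‖ ^ 2) μ :=
    (hgL.continuous.norm.pow 2).integrable_of_hasCompactSupport
      (hasCompactSupport_of_zero (x := x) (ρ := 2 * ρ) fun y hy => by simp [hgz y hy])
  obtain ⟨l1, l2⟩ := H3 μ hU _ hβm hβi (fun y => by positivity) ρ hρ
  obtain ⟨l3, l4⟩ := H4 μ hU _ hβm hβi (fun y => by positivity) ρ hρ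
  have i3 := EE_integrable hU hC hgL hgz
  have i5 : Integrable (fun p : X × X => (ρ ^ 2)⁻¹ * (‖g p.1‖ ^ 2 * caccN n ρ p) +
      ‖g p.1‖ ^ 2 * caccF n ρ p) (μ.prod μ) := (l1.const_mul _).add l3
  have i6 : Integrable (fun p : X × X => 2 * (J n (p.1 - p.2) * ‖g p.1 - g p.2‖ ^ 2) +
      2 * ((ρ ^ 2)⁻¹ * (‖g p.1‖ ^ 2 * caccN n ρ p) + ‖g p.1‖ ^ 2 * caccF n ρ p)) (μ.prod μ) :=
    (i3.const_mul 2).add (i5.const_mul 2)
  have i7 := EE_integrable hU hC hψL hψz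
  have k1 := integral_mono i7 i6 fun p => cacc_pt n hρ x g p
  rw [integral_add (i3.const_mul 2) (i5.const_mul 2), integral_const_mul,
    integral_const_mul, integral_add (l1.const_mul _) l3, integral_const_mul] at k1
  have k2 := l2.trans (mul_le_mul_of_nonneg_left hg2 (by positivity))
  have k3 := l4.trans (mul_le_mul_of_nonneg_left hg2 (by positivity))
  have k4 := mul_le_mul_of_nonneg_left k2 (show 0 ≤ (ρ ^ 2)⁻¹ by positivity)
  have k5 : (ρ ^ 2)⁻¹ * (Ca * ρ * V) + Cb / ρ * V = (Ca + Cb) * (V / ρ) := by field_simp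
  unfold EE
  linarith

/-- The equation tested against `ψ`. -/
theorem cacc_osc (n : ℕ) {C : ℝ} (hC : 0 < C) {K1 : ℝ} (hK1 : 0 < K1) : ∃ K : ℝ, 0 < K ∧
    ∀ μ : Measure X, Up n μ C → ∀ u v ψ : X → F, LocLip u → Continuous v →
    ∀ (x : X) (ρ G D : ℝ), 0 < ρ → 0 ≤ G → Gr n μ u x ρ G → Osc n μ u x (2 * ρ) D →
    Test μ ψ x (2 * ρ) → (∀ y, ‖ψ y‖ ≤ ‖v y‖) →
    ∫ y in ball x (18 * ρ), ‖v y‖ ^ 2 ∂μ ≤ K1 * (G * ρ ^ n) →
    |En n μ (cut (8 * ρ)) u ψ| ≤ √(D * EE n μ ψ) + K * (G * ρ ^ n / ρ) := by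
  obtain ⟨Ct, hCt, H2⟩ := osc_bound (X := X) (F := F) n hC
  refine ⟨Ct * (2 ^ (n + 3) + 2 * K1 + 8 * (C * 18 ^ n)), by positivity, ?_⟩
  intro μ hU u v ψ hu hvc x ρ G D hρ hG hGr hO hT hψv hV'
  have := hU.locFin
  have huc := hu.continuous
  have hψz := hT.zero
  have iv : IntegrableOn (fun y => ‖v y‖ ^ 2) (ball x (18 * ρ)) μ :=
    integrableOn_ball_of_continuous (hvc.norm.pow 2) _ _
  have hb1 : ∫ y, ‖u y‖ * ‖ψ y‖ ∂μ ≤ (2 ^ (n + 3) + K1) * (G * ρ ^ n) := by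
    have iu : IntegrableOn (fun y => ‖u y‖ ^ 2) (ball x (2 * ρ)) μ :=
      integrableOn_ball_of_continuous (huc.norm.pow 2) _ _
    have iv2 : IntegrableOn (fun y => ‖v y‖ ^ 2) (ball x (2 * ρ)) μ :=
      integrableOn_ball_of_continuous (hvc.norm.pow 2) _ _
    refine le_trans (cacc_ball (g := fun y => ‖u y‖ ^ 2 + ‖v y‖ ^ 2) (r := 2 * ρ) (x := x)
      ((huc.norm.pow 2).add (hvc.norm.pow 2)) (fun y => by positivity)
      (fun y hy => by rw [hψz y hy]; simp) (fun y => ?_)) ?_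
    · have := hψv y
      nlinarith [sq_nonneg (‖u y‖ - ‖v y‖), norm_nonneg (u y), norm_nonneg (v y),
        mul_le_mul_of_nonneg_left this (norm_nonneg (u y))]
    · rw [integral_add iu iv2, add_mul]
      refine add_le_add (cacc_gr hρ hG hGr (by norm_num)) (le_trans ?_ hV')
      exact setIntegral_mono_set iv (Eventually.of_forall fun y => by positivity)
        (ball_subset_ball (by linarith)).eventuallyLE
  have hb2 : √(8 * G) * ∫ y, ‖ψ y‖ ∂μ ≤ (8 * (C * 18 ^ n) + K1) * (G * ρ ^ n) := by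
    rw [← integral_const_mul]
    have ic : IntegrableOn (fun _ : X => 8 * G) (ball x (18 * ρ)) μ :=
      integrableOn_ball_of_continuous continuous_const _ _
    refine le_trans (cacc_ball (g := fun y => 8 * G + ‖v y‖ ^ 2) (r := 18 * ρ) (x := x)
      (continuous_const.add (hvc.norm.pow 2)) (fun y => by positivity)
      (fun y hy => by rw [hψz y (by linarith)]; simp) (fun y => ?_)) ?_
    · have h1 := hψv y
      have h2 : √(8 * G) ^ 2 = 8 * G := Real.sq_sqrt (by positivity)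
      nlinarith [sq_nonneg (√(8 * G) - ‖v y‖), Real.sqrt_nonneg (8 * G), norm_nonneg (v y),
        mul_le_mul_of_nonneg_left h1 (Real.sqrt_nonneg (8 * G))]
    · rw [integral_add ic iv, add_mul, setIntegral_const, smul_eq_mul]
      refine add_le_add ?_ hV'
      have h4 := hU.real_le hC x (ρ := 18 * ρ) (by positivity)
      calc _ ≤ C * (18 * ρ) ^ n * (8 * G) := by gcongr
        _ = _ := by ring
  have hGr2 : Gr n μ u x (2 * ρ) (8 * G) := by
    refine (hGr.grow hρ (by linarith)).mono (by positivity) ?_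
    rw [mul_div_assoc, div_self hρ.ne', mul_one]
    have h1 := mul_le_mul_of_nonneg_left (cacc_rpow (t := 2) (by norm_num)) hG
    linarith
  refine (H2 μ hU u hu x (2 * ρ) (8 * G) D (by positivity) (by positivity) hGr2 hO ψ hT (8 * ρ)
    (by linarith)).trans (add_le_add le_rfl ?_)
  rw [mul_assoc Ct]
  refine mul_le_mul_of_nonneg_left ?_ hCt.le
  have h1 : (2 * ρ / (8 * ρ)) ^ (3 / 4 : ℝ) ≤ 1 :=
    Real.rpow_le_one (by positivity) (by rw [div_le_one (by positivity)]; linarith) (by norm_num)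
  have h2 : (8 * ρ)⁻¹ ≤ ρ⁻¹ := inv_anti₀ hρ (by linarith)
  have h3 : (2 * ρ)⁻¹ ≤ ρ⁻¹ := inv_anti₀ hρ (by linarith)
  have h4 : 0 ≤ ∫ y, ‖ψ y‖ ∂μ := integral_nonneg fun y => norm_nonneg _
  have h5 : 0 ≤ ∫ y, ‖u y‖ * ‖ψ y‖ ∂μ := integral_nonneg fun y => by positivity
  calc _ = (8 * ρ)⁻¹ * ∫ y, ‖u y‖ * ‖ψ y‖ ∂μ +
        (2 * ρ)⁻¹ * (2 * ρ / (8 * ρ)) ^ (3 / 4 : ℝ) * (√(8 * G) * ∫ y, ‖ψ y‖ ∂μ) := by ring
    _ ≤ ρ⁻¹ * ((2 ^ (n + 3) + K1) * (G * ρ ^ n)) +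
        ρ⁻¹ * 1 * ((8 * (C * 18 ^ n) + K1) * (G * ρ ^ n)) := by gcongr
    _ = _ := by field_simp; ring

/-- `φ y = cut ρ (dist y x)`, `m = (∫ φ²)⁻¹ • ∫ φ² • u`, `v = u - m`, `g = φ • v`, `ψ = φ • g`
(a test function in `ball x (2ρ)`; Lipschitz by `lipschitz_smul_of_locLip`).
`‖m‖² ≲ G` (Cauchy-Schwarz, `∫ φ² ≥ ρ^n/C`), so `∫_{ball x (18ρ)} ‖v‖² ≲ G ρ^n`.
Pointwise: `⟪v a - v b, φa² v a - φb² v b⟫ = ‖g a - g b‖² - ⟪v a, v b⟫ (φa - φb)²`. With `R = 8ρ`: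
`En (cut R) g g = En (cut R) u ψ + ∬ cut J ⟪v a, v b⟫ (φa-φb)²`; the last term lives on
`ball x (18ρ)²` and is `≲ ρ⁻² ∫‖v a‖² ∫ J |a-b|² ≲ G ρ^n/ρ` (`ann_near`).
`osc_bound` at radius `2ρ` (`Gr.grow`): `|En (cut R) u ψ| ≤ √(D EE ψ) + C G ρ^n/ρ`.
`EE ψ ≤ 2 EE g + C ‖g‖²/ρ` (write `φa ga - φb gb = φa (ga - gb) + (φa - φb) gb`, and
`∫ J (φa-φb)² dμ(a) ≲ 1/ρ` by `ann_near`, `ann_far`), `EE g ≤ En (cut R) g g + C‖g‖²/ρ`
(`EE_le_En_add`). So `E := EE g` satisfies `E ≤ √(D (2E + T)) + T`, hence `E ≤ C (D + T)`.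
Finally `LE u x ρ = LE g x ρ ≤ EE g` as `φ = 1` on the ball. -/
theorem cacc (n : ℕ) {C : ℝ} (hC : 0 < C) : ∃ Cc : ℝ, 0 < Cc ∧ ∀ μ : Measure X, Up n μ C →
    ∀ u : X → F, LocLip u → ∀ (x : X) (ρ G D : ℝ), 0 < ρ → 0 ≤ G → 0 ≤ D →
    ENNReal.ofReal (ρ ^ n / C) ≤ μ (ball x ρ) → Gr n μ u x ρ G → Osc n μ u x (2 * ρ) D →
    LE n μ u x ρ ≤ Cc * (D + G * ρ ^ n / ρ) := by
  obtain ⟨K1, hK1, H1⟩ := cacc_centre (X := X) (F := F) n hC
  obtain ⟨K2, hK2, H2⟩ := cacc_osc (X := X) (F := F) n hC hK1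
  obtain ⟨Ca, hCa, H3⟩ := cacc_hid (X := X) (F := F) n hC
  obtain ⟨Cb, hCb, H4⟩ := cacc_psi (X := X) (F := F) n hC
  obtain ⟨Cf, hCf, H5⟩ := EE_le_En_add (X := X) (F := F) n hC
  refine ⟨2 + 2 * (K2 + Ca * K1 + Cf * K1 + Cb * K1), by positivity, ?_⟩
  intro μ hU u hu x ρ G D hρ hG hD hlow hGr hO
  have := hU.locFin
  have huc := hu.continuous
  obtain ⟨m, hmean, hV⟩ := H1 μ hU u huc x ρ G hρ hG hlow hGr
  have hφL := lipschitz_cut_dist hρ x
  have hφz : ∀ y, 2 * ρ ≤ dist y x → cut ρ (dist y x) = 0 := fun y hy => cut_eq_zero hρ hy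
  have hsm : ∀ (t : ℝ) (a : F), ‖cut ρ t • a‖ ≤ ‖a‖ := fun t a => by
    rw [norm_smul, Real.norm_of_nonneg (cut_nonneg _ _)]
    exact mul_le_of_le_one_left (norm_nonneg _) (cut_le_one _ _)
  have hvL : LocLip fun y => u y - m := hu.sub (locLip_of_lipschitz (LipschitzWith.const m))
  have hvc := hvL.continuous
  obtain ⟨Lg, hgL⟩ : ∃ L, LipschitzWith L fun y => cut ρ (dist y x) • (u y - m) :=
    lipschitz_smul_of_locLip hφL hφz hvL
  obtain ⟨Lψ, hψL⟩ : ∃ L, LipschitzWith L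
      fun y => cut ρ (dist y x) • cut ρ (dist y x) • (u y - m) :=
    lipschitz_smul_of_locLip hφL hφz (locLip_of_lipschitz hgL)
  have hgz : ∀ y, 2 * ρ ≤ dist y x → cut ρ (dist y x) • (u y - m) = 0 := fun y hy => by
    rw [hφz y hy, zero_smul]
  have hψz : ∀ y, 2 * ρ ≤ dist y x → cut ρ (dist y x) • cut ρ (dist y x) • (u y - m) = 0 :=
    fun y hy => by rw [hφz y hy, zero_smul]
  have hT : Test μ (fun y => cut ρ (dist y x) • cut ρ (dist y x) • (u y - m)) x (2 * ρ) :=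
    ⟨⟨Lψ, hψL⟩, hψz, hmean⟩
  have hg2 : ∫ y, ‖cut ρ (dist y x) • (u y - m)‖ ^ 2 ∂μ ≤ K1 * (G * ρ ^ n) := by
    refine le_trans (cacc_ball (hvc.norm.pow 2) (fun y => by positivity)
      (fun y hy => by rw [hgz y (by linarith)]; simp) (fun y => ?_)) hV
    exact pow_le_pow_left₀ (norm_nonneg _) (hsm _ _) 2
  have hosc := H2 μ hU u _ _ hu hvc x ρ G D hρ hG hGr hO hT
    (fun y => (hsm _ _).trans (hsm _ _)) hV
  have hid := H3 μ hU _ hvL x ρ _ hρ hV
  rw [En_sub_const] at hid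
  have hEψ := H4 μ hU _ Lg hgL x ρ _ hρ hgz hg2
  have hE := (H5 μ hU _ Lg hgL x (2 * ρ) hgz (8 * ρ) (by positivity)).trans
    (add_le_add le_rfl (show _ ≤ Cf * (K1 * (G * ρ ^ n)) / ρ by gcongr; linarith))
  have hLE : LE n μ u x ρ ≤ EE n μ fun y => cut ρ (dist y x) • (u y - m) := by
    refine le_trans (le_of_eq ?_) (LE_le_EE hU hC hgL hgz x ρ)
    refine setIntegral_congr_fun (measurableSet_ball.prod measurableSet_ball) fun p hp => ?_
    have e1 : cut ρ (dist p.1 x) = 1 := cut_eq_one hρ (le_of_lt hp.1)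
    have e2 : cut ρ (dist p.2 x) = 1 := cut_eq_one hρ (le_of_lt hp.2)
    simp only [e1, e2, one_smul, sub_sub_sub_cancel_right]
  have h0 := EE_nonneg n μ fun y => cut ρ (dist y x) • cut ρ (dist y x) • (u y - m)
  generalize (fun y => cut ρ (dist y x) • cut ρ (dist y x) • (u y - m)) = ψ at hosc hid hEψ h0
  generalize (fun y => cut ρ (dist y x) • (u y - m)) = g at hid hEψ hE hLE
  have hsq : √(D * EE n μ ψ) ≤ D + EE n μ ψ / 4 := by
    rw [Real.sqrt_le_left (by positivity)]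
    nlinarith [sq_nonneg (D - EE n μ ψ / 4)]
  have hT0 : 0 ≤ G * ρ ^ n / ρ := by positivity
  have habs := le_abs_self (En n μ (cut (8 * ρ)) u ψ)
  rw [mul_div_assoc K1] at hid hEψ
  rw [mul_div_assoc Cf, mul_div_assoc K1] at hE
  generalize G * ρ ^ n / ρ = T at *
  have q1 : 0 ≤ Cb * (K1 * T) := by positivity
  have q2 : 0 ≤ (K2 + Ca * K1 + Cf * K1 + Cb * K1) * D := by positivity
  linarith

end Vale.Agent.P120
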