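import Vale.Agent.P120.Lim1

/-!
Elementary properties of `Flat` and its behaviour under vague limits.
-/

open MeasureTheory Metric Set Filter Topology
open scoped RealInnerProductSpace ENNReal NNReal

noncomputable section

namespace Vale.Agent.P120

variable {X : Type} [NormedAddCommGroup X] [InnerProductSpace ℝ X] [FiniteDimensional ℝ X]
  [MeasurableSpace X] [BorelSpace X]
variable {F : Type} [NormedAddCommGroup F] [InnerProductSpace ℝ F] [FiniteDimensional ℝ F]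

theorem norm_Nm_le (V : Submodule ℝ X) (y : X) : ‖Nm V y‖ ≤ ‖y‖ :=
  Vᗮ.norm_starProjection_apply_le y

theorem norm_Pr_le (V : Submodule ℝ X) (y : X) : ‖Pr V y‖ ≤ ‖y‖ :=
  V.norm_orthogonalProjectionOnto_apply_le y

theorem Pr_add_Nm (V : Submodule ℝ X) (y : X) : (Pr V y : X) + Nm V y = y :=
  V.starProjection_add_starProjection_orthogonal y

theorem Nm_eq_zero_iff (V : Submodule ℝ X) (y : X) : Nm V y = 0 ↔ y ∈ V := by
  rw [Submodule.starProjection_apply_eq_zero_iff, Submodule.orthogonal_orthogonal]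

/-- The normal component is the distance to `V`. -/
theorem norm_Nm_le_sub (V : Submodule ℝ X) (y : X) {v : X} (hv : v ∈ V) : ‖Nm V y‖ ≤ ‖y - v‖ := by
  have := norm_Nm_le V (y - v)
  rwa [map_sub, (Nm_eq_zero_iff V v).2 hv, sub_zero] at this

theorem flatA_cont (V : Submodule ℝ X) (p : X) : Continuous fun y : X => ‖Nm V (y - p)‖ ^ 2 := by
  fun_prop

theorem flatA_le {n : ℕ} {μ : Measure X} {C : ℝ} (hU : Up n μ C) (V : Submodule ℝ X) (p : X)
    {x x' : X} {t t' : ℝ} (h : dist x x' + t ≤ t') :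
    ∫ y in ball x t, ‖Nm V (y - p)‖ ^ 2 ∂μ ≤ ∫ y in ball x' t', ‖Nm V (y - p)‖ ^ 2 ∂μ := by
  have := hU.locFin
  exact setIntegral_mono_set (integrableOn_ball_of_continuous (flatA_cont V p) x' t')
    (Eventually.of_forall fun y => by positivity)
    (ball_subset_ball' (by linarith)).eventuallyLE

theorem flatA_triv {n : ℕ} {μ : Measure X} {C : ℝ} (hU : Up n μ C) (hC : 0 < C)
    (V : Submodule ℝ X) {x p : X} {t s : ℝ} (ht : 0 < t) (h : dist x p + t ≤ s) :
    ∫ y in ball x t, ‖Nm V (y - p)‖ ^ 2 ∂μ ≤ s ^ 2 * (C * t ^ n) := by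
  have := hU.locFin
  have h1 : ‖∫ y in ball x t, ‖Nm V (y - p)‖ ^ 2 ∂μ‖ ≤ s ^ 2 * μ.real (ball x t) := by
    refine norm_setIntegral_le_of_norm_le_const measure_ball_lt_top fun y hy => ?_
    rw [Real.norm_of_nonneg (by positivity)]
    gcongr
    refine (norm_Nm_le V _).trans ?_
    rw [← dist_eq_norm]
    linarith [dist_triangle y x p, mem_ball.1 hy]
  refine (le_abs_self _).trans (h1.trans ?_)
  gcongr
  exact hU.real_le hC x ht

theorem flatA_rpow {a : ℝ} (ha : 1 ≤ a) : a ^ (5 / 2 : ℝ) ≤ a ^ 3 := by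
  rw [← Real.rpow_natCast]
  exact Real.rpow_le_rpow_of_exponent_le ha (by norm_num)

theorem Flat.mono {n : ℕ} {μ : Measure X} {x : X} {r : ℝ} {V : Submodule ℝ X} {p : X} {β β' : ℝ}
    (h : Flat n μ x r V p β) (hr : 0 < r) (hβ : β ≤ β') : Flat n μ x r V p β' :=
  Gr.mono h hr (by gcongr)

theorem Flat.nonneg {n : ℕ} {μ : Measure X} {x : X} {r : ℝ} {V : Submodule ℝ X} {p : X} {β : ℝ}
    (h : Flat n μ x r V p β) (hr : 0 < r) : 0 ≤ β := by
  have h1 := (integral_nonneg fun y => by positivity).trans (h r le_rfl)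
  rw [div_self hr.ne', Real.one_rpow, mul_one, mul_assoc] at h1
  exact nonneg_of_mul_nonneg_left h1 (by positivity)

theorem flat_trivial {n : ℕ} {μ : Measure X} {C : ℝ} (hU : Up n μ C) (hC : 0 < C) (x : X) {r : ℝ}
    (hr : 0 < r) (V : Submodule ℝ X) : Flat n μ x r V x C := by
  intro t ht
  have ht0 : 0 < t := hr.trans_le ht
  refine (flatA_triv hU hC V ht0 (s := t) (by simp)).trans ?_
  have h1 : (t / r) ^ 2 ≤ (t / r) ^ (5 / 2 : ℝ) := by
    rw [← Real.rpow_natCast]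
    exact Real.rpow_le_rpow_of_exponent_le ((one_le_div hr).2 ht) (by norm_num)
  calc t ^ 2 * (C * t ^ n) = C * r ^ 2 * t ^ n * (t / r) ^ 2 := by field_simp
    _ ≤ _ := by gcongr

theorem Flat.shrink {n : ℕ} {μ : Measure X} {C : ℝ} (hU : Up n μ C) {x : X} {r : ℝ}
    {V : Submodule ℝ X} {p : X} {β : ℝ} (h : Flat n μ x r V p β) (hr : 0 < r) {θ : ℝ}
    (hθ : 0 < θ) (hθ1 : θ ≤ 1) : Flat n μ x (θ * r) V p (β / θ ^ (n + 2)) := by
  intro t ht
  have hβ := h.nonneg hr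
  have ht0 : 0 < t := lt_of_lt_of_le (by positivity) ht
  have e : β / θ ^ (n + 2) * (θ * r) ^ 2 = β * r ^ 2 / θ ^ n := by
    field_simp
    ring
  rw [e]
  have hn : θ ^ n ≤ 1 := pow_le_one₀ hθ.le hθ1
  rcases le_total r t with h1 | h1
  · refine (h t h1).trans ?_
    gcongr
    · exact le_div_self (by positivity) (by positivity) hn
    · nlinarith
  · refine (flatA_le hU V p (x' := x) (t' := r) (by simpa)).trans ((h r le_rfl).trans ?_)
    rw [div_self hr.ne', Real.one_rpow]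
    gcongr ?_ * ?_
    · rw [div_mul_eq_mul_div, le_div_iff₀ (by positivity), mul_assoc, ← mul_pow]
      gcongr
      rwa [mul_comm]
    · exact Real.one_le_rpow ((one_le_div (by positivity)).2 ht) (by norm_num)

theorem Flat.center {n : ℕ} {μ : Measure X} {C : ℝ} (hU : Up n μ C) {x x' : X} {r : ℝ}
    {V : Submodule ℝ X} {p : X} {β : ℝ} (h : Flat n μ x r V p β) (hr : 0 < r) {Λ : ℝ}
    (hΛ : 0 ≤ Λ) (hx : dist x' x ≤ Λ * r) : Flat n μ x' r V p ((1 + Λ) ^ (n + 3) * β) := by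
  intro t ht
  have hβ := h.nonneg hr
  have ht0 : 0 < t := hr.trans_le ht
  refine (flatA_le hU V p (x' := x) (t' := (1 + Λ) * t) (by nlinarith)).trans
    ((h _ (by nlinarith)).trans ?_)
  rw [mul_div_assoc, Real.mul_rpow (by positivity) (by positivity), mul_pow]
  calc β * r ^ 2 * ((1 + Λ) ^ n * t ^ n) * ((1 + Λ) ^ (5 / 2 : ℝ) * (t / r) ^ (5 / 2 : ℝ))
      ≤ β * r ^ 2 * ((1 + Λ) ^ n * t ^ n) * ((1 + Λ) ^ 3 * (t / r) ^ (5 / 2 : ℝ)) := by
        gcongr
        exact flatA_rpow (by linarith)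
    _ = _ := by ring

/-- If `‖Nm V (y-p)‖ > η r` (assume `η ≤ 1`) then the same holds with `η r/2` on `ball y (η r/2)`,
which has measure at least `(η r/2)^n/C` and lies in `ball x ((Λ+1) r)`. -/
theorem flat_sup (n : ℕ) {C Λ η : ℝ} (hC : 0 < C) (hΛ : 0 ≤ Λ) (hη : 0 < η) :
    ∃ ε : ℝ, 0 < ε ∧ ∀ μ : Measure X, Up n μ C → ∀ (x : X) (r : ℝ), 0 < r →
    Low n μ C x ((Λ + 1) * r) → ∀ (V : Submodule ℝ X) (p : X), Flat n μ x r V p ε →
    ∀ y ∈ μ.support, dist y x ≤ Λ * r → ‖Nm V (y - p)‖ ≤ η * r := by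
  obtain ⟨e, he, he1, heη⟩ : ∃ e : ℝ, 0 < e ∧ e ≤ 1 ∧ 2 * e ≤ η :=
    ⟨min 1 (η / 2), by positivity, min_le_left _ _, by linarith [min_le_right 1 (η / 2)]⟩
  refine ⟨e ^ (n + 2) / C / (2 * (Λ + 1) ^ (n + 3)), by positivity,
    fun μ hU x r hr hL V p hF y hy hyx => ?_⟩
  have := hU.locFin
  by_contra! hlt
  have h1 : (e * r) ^ n / C ≤ μ.real (ball y (e * r)) :=
    (ENNReal.ofReal_le_iff_le_toReal measure_ball_lt_top.ne).1
      (hL y hy (by nlinarith) _ (by positivity) (by nlinarith))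
  have h2 : (e * r) ^ 2 * μ.real (ball y (e * r)) ≤
      ∫ z in ball y (e * r), ‖Nm V (z - p)‖ ^ 2 ∂μ := by
    refine setIntegral_ge_of_const_le_real measurableSet_ball measure_ball_lt_top.ne
      (fun z hz => ?_) (integrableOn_ball_of_continuous (flatA_cont V p) _ _)
    gcongr
    have h3 : Nm V (y - p) = Nm V (z - p) + Nm V (y - z) := by
      rw [← map_add]
      congr 1
      abel
    have h4 := norm_Nm_le V (y - z)
    rw [← dist_eq_norm, dist_comm] at h4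
    have h5 := norm_add_le (Nm V (z - p)) (Nm V (y - z))
    have := mem_ball.1 hz
    rw [← h3] at h5
    nlinarith
  have h3 := (flatA_le hU V p (x := y) (t := e * r) (x' := x) (t' := (Λ + 1) * r)
    (by nlinarith)).trans (hF _ (by nlinarith))
  rw [mul_div_cancel_right₀ _ hr.ne'] at h3
  have h4 : (e * r) ^ 2 * ((e * r) ^ n / C) ≤
      e ^ (n + 2) / C / (2 * (Λ + 1) ^ (n + 3)) * r ^ 2 * ((Λ + 1) * r) ^ n * (Λ + 1) ^ 3 := by
    refine le_trans (by gcongr) (h2.trans (h3.trans ?_))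
    gcongr
    exact flatA_rpow (by linarith)
  have e1 : e ^ (n + 2) / C / (2 * (Λ + 1) ^ (n + 3)) * r ^ 2 * ((Λ + 1) * r) ^ n * (Λ + 1) ^ 3 =
      (e * r) ^ 2 * ((e * r) ^ n / C) / 2 := by
    rw [mul_pow, mul_pow, mul_pow]
    field_simp
    ring
  have : 0 < (e * r) ^ 2 * ((e * r) ^ n / C) := by positivity
  linarith

/-- `VL.near_supp` and `flat_sup` at the approximating point and at `0`. -/
theorem VL.supp_sub {n : ℕ} {C : ℝ} (hC : 0 < C) {l : Filter ℕ} [l.NeBot] {μs : ℕ → Measure X}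
    {ν : Measure X} (h : VL l μs ν) (hs : Seq n C l μs) (hν : Up n ν C) {V : Submodule ℝ X}
    {ps : ℕ → X} (hf : ∀ ε : ℝ, 0 < ε → ∀ᶠ k in l, Flat n (μs k) 0 1 V (ps k) ε) :
    ν.support ⊆ V := by
  intro y hy
  refine (Nm_eq_zero_iff V y).1 (norm_le_zero_iff.1 (le_of_forall_pos_le_add fun δ hδ => ?_))
  obtain ⟨ε, hε, H⟩ := flat_sup (X := X) n hC (Λ := ‖y‖ + 1) (η := δ / 3) (by positivity)
    (by positivity)
  obtain ⟨k, ⟨z, hz, hzy⟩, h1, h2⟩ := ((h.near_supp hν hy (δ := min 1 (δ / 3))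
    (by positivity)).and ((hs.low ((‖y‖ + 1 + 1) * 1)).and (hf ε hε))).exists
  have h3 := H _ (hs.up k) 0 1 one_pos h1 V _ h2
  have h4 := h3 0 (hs.mem k) (by rw [dist_self]; positivity)
  have h5 := h3 z hz (by
    have := dist_triangle z y 0
    rw [dist_zero_right y] at this
    linarith [min_le_left 1 (δ / 3)])
  have h6 : Nm V y = Nm V (z - ps k) - Nm V (0 - ps k) - Nm V (z - y) := by
    rw [← map_sub, ← map_sub]
    congr 1
    abel
  have h7 := norm_Nm_le V (z - y)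
  rw [← dist_eq_norm] at h7
  rw [h6]
  linarith [norm_sub_le (Nm V (z - ps k) - Nm V (0 - ps k)) (Nm V (z - y)),
    norm_sub_le (Nm V (z - ps k)) (Nm V (0 - ps k)), min_le_right 1 (δ / 3)]

/-- `x` from `VL.near_supp`. For `t ≥ t1 := r (4C/ε)²` the trivial bound `(2t)² C t^n` suffices.
For the finitely many `i` with `2^i r ≤ 4 t1` test with
`cut (2^i r) (dist y x0) * ‖Nm V (y - x0)‖²`; if `2^i r / 4 ≤ t ≤ 2^i r / 2` then
`ball x t ⊆ ball x0 (2^i r)`. -/
theorem vl_flat (n : ℕ) : ∃ C5 : ℝ, 0 < C5 ∧ ∀ C : ℝ, 0 < C → ∀ (l : Filter ℕ)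
    (μs : ℕ → Measure X) (ν : Measure X), VL l μs ν → (∀ k, Up n (μs k) C) → Up n ν C →
    ∀ x0 ∈ ν.support, ∀ r ε : ℝ, 0 < r → 0 < ε → ∀ V : Submodule ℝ X, Flat n ν x0 r V x0 ε →
    ∀ᶠ k in l, ∃ x ∈ (μs k).support, dist x x0 < r ∧ Flat n (μs k) x r V x0 (C5 * ε) := by
  refine ⟨2 * 6 ^ (n + 3), by positivity,
    fun C hC l μs ν h hU hν x0 hx0 r ε hr hε V hF => ?_⟩
  have key : ∀ s : ℝ, r ≤ s → ∀ᶠ k in l, ∫ y in ball x0 s, ‖Nm V (y - x0)‖ ^ 2 ∂(μs k) ≤
      2 * (ε * r ^ 2 * (2 * s) ^ n * (2 * s / r) ^ (5 / 2 : ℝ)) := fun s hs => by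
    have hs0 : 0 < s := hr.trans_le hs
    have hc : Continuous fun y => cut s (dist y x0) * ‖Nm V (y - x0)‖ ^ 2 :=
      ((continuous_cut s).comp (continuous_id.dist continuous_const)).mul (flatA_cont V x0)
    have hz : ∀ y, 2 * s ≤ dist y x0 → cut s (dist y x0) * ‖Nm V (y - x0)‖ ^ 2 = 0 :=
      fun y hy => by rw [cut_eq_zero hs0 hy, zero_mul]
    have hcs := hasCompactSupport_of_zero hz
    have h1 : ∫ y, cut s (dist y x0) * ‖Nm V (y - x0)‖ ^ 2 ∂ν ≤
        ε * r ^ 2 * (2 * s) ^ n * (2 * s / r) ^ (5 / 2 : ℝ) := by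
      have := hν.locFin
      refine le_trans ?_ (hF _ (by linarith))
      rw [← setIntegral_eq_integral_of_forall_compl_eq_zero (s := ball x0 (2 * s))
        fun y hy => hz y (not_lt.1 hy)]
      exact setIntegral_mono (integrableOn_ball_of_continuous hc _ _)
        (integrableOn_ball_of_continuous (flatA_cont V x0) _ _)
        fun y => mul_le_of_le_one_left (by positivity) (cut_le_one _ _)
    have h0 : 0 < ε * r ^ 2 * (2 * s) ^ n * (2 * s / r) ^ (5 / 2 : ℝ) := by positivity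
    filter_upwards [(h _ hc hcs).eventually (gt_mem_nhds (h1.trans_lt (lt_two_mul_self h0)))]
      with k hk
    have := (hU k).locFin
    refine le_trans ?_ hk.le
    rw [← setIntegral_congr_fun (f := fun y => cut s (dist y x0) * ‖Nm V (y - x0)‖ ^ 2)
      measurableSet_ball fun y hy => by
        simp only [cut_eq_one hs0 (mem_ball.1 hy).le, one_mul]]
    exact setIntegral_le_integral (hc.integrable_of_hasCompactSupport hcs)
      (Eventually.of_forall fun y => mul_nonneg (cut_nonneg _ _) (by positivity))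
  filter_upwards [h.near_supp hν hx0 hr,
    (Finset.range (⌈2 * (4 * C / ε) ^ 2⌉₊ + 1)).eventually_all.2 fun m _ =>
      key (((m : ℝ) + 1) * r) (by nlinarith [Nat.cast_nonneg (α := ℝ) m])] with k ⟨x, hx, hxx⟩ hk
  refine ⟨x, hx, hxx, fun t ht => ?_⟩
  have ht0 : 0 < t := hr.trans_le ht
  have htr : 1 ≤ t / r := (one_le_div hr).2 ht
  rcases le_total ((4 * C / ε) ^ 2) (t / r) with h1 | h1
  · refine (flatA_triv (hU k) hC V ht0 (s := 2 * t) (by linarith)).trans ?_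
    have h2 : 4 * C / ε ≤ (t / r) ^ (1 / 2 : ℝ) := by
      rw [← Real.sqrt_eq_rpow]
      exact Real.le_sqrt_of_sq_le h1
    have h3 : (t / r) ^ (5 / 2 : ℝ) = (t / r) ^ 2 * (t / r) ^ (1 / 2 : ℝ) := by
      rw [← Real.rpow_natCast, ← Real.rpow_add (by positivity)]
      norm_num
    have h4 : (1 : ℝ) ≤ 2 * 6 ^ (n + 3) := by
      linarith [one_le_pow₀ (n := n + 3) (by norm_num : (1 : ℝ) ≤ 6)]
    calc (2 * t) ^ 2 * (C * t ^ n) = 1 * ε * r ^ 2 * t ^ n * ((t / r) ^ 2 * (4 * C / ε)) := by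
          field_simp
          norm_num
      _ ≤ _ := by
          rw [h3]
          gcongr
  · have h2 : (⌊2 * (t / r)⌋₊ : ℝ) ≤ 2 * (t / r) := Nat.floor_le (by positivity)
    have h3 : 2 * (t / r) < (⌊2 * (t / r)⌋₊ : ℝ) + 1 := Nat.lt_floor_add_one _
    have h4 := hk ⌊2 * (t / r)⌋₊ (Finset.mem_range.2 (Nat.lt_succ_of_le
      ((Nat.floor_le_ceil _).trans (Nat.ceil_mono (by linarith)))))
    have e : t / r * r = t := div_mul_cancel₀ _ hr.ne'
    refine (flatA_le (hU k) V x0 (by nlinarith)).trans (h4.trans ?_)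
    have h5 : 2 * (((⌊2 * (t / r)⌋₊ : ℝ) + 1) * r) ≤ 6 * t := by nlinarith
    calc _ ≤ 2 * (ε * r ^ 2 * (6 * t) ^ n * (6 * t / r) ^ (5 / 2 : ℝ)) := by gcongr
      _ = 2 * (ε * r ^ 2 * (6 ^ n * t ^ n) * (6 ^ (5 / 2 : ℝ) * (t / r) ^ (5 / 2 : ℝ))) := by
          rw [mul_pow, mul_div_assoc, Real.mul_rpow (by norm_num) (by positivity)]
      _ ≤ 2 * (ε * r ^ 2 * (6 ^ n * t ^ n) * (6 ^ 3 * (t / r) ^ (5 / 2 : ℝ))) := by
          gcongr
          exact flatA_rpow (by norm_num)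
      _ = _ := by ring

end Vale.Agent.P120
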