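import Vale.Agent.P120.Lim1
import Vale.Agent.P120.Cacc
import Vale.Agent.P120.Flat

/-!
Blow-up of approximate solutions: the mollified limits.
-/

open MeasureTheory Metric Set Filter Topology
open scoped RealInnerProductSpace ENNReal NNReal

noncomputable section

namespace Vale.Agent.P120

variable {X : Type} [NormedAddCommGroup X] [InnerProductSpace ℝ X] [FiniteDimensional ℝ X]
  [MeasurableSpace X] [BorelSpace X]
variable {F : Type} [NormedAddCommGroup F] [InnerProductSpace ℝ F] [FiniteDimensional ℝ F]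

theorem blow1_cont (η : ℝ) (y : X) : Continuous fun z : X => cut η (dist y z) :=
  (continuous_cut η).comp (continuous_const.dist continuous_id)

theorem blow1_zero {η : ℝ} (hη : 0 < η) {y z : X} (h : 2 * η ≤ dist z y) : cut η (dist y z) = 0 :=
  cut_eq_zero hη (by rwa [dist_comm])

theorem blow1_far {η R : ℝ} (hη : 0 < η) (hη1 : η ≤ 1) {y z : X} (hy : y ∈ ball (0 : X) R)
    (h : R + 2 ≤ dist z 0) : cut η (dist y z) = 0 := by
  have h1 := dist_triangle z y 0
  have h2 : dist y 0 < R := hy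
  exact blow1_zero hη (by linarith)

theorem blow1_int {G : Type} [NormedAddCommGroup G] [NormedSpace ℝ G] {μ : Measure X}
    [IsLocallyFiniteMeasure μ] {η : ℝ} (hη : 0 < η) (y : X) {φ : X → G} (hφ : Continuous φ) :
    Integrable (fun z => cut η (dist y z) • φ z) μ :=
  ((blow1_cont η y).smul hφ).integrable_of_hasCompactSupport
    (hasCompactSupport_of_zero (x := y) (ρ := 2 * η) fun z hz => by
      show cut η (dist y z) • φ z = 0
      rw [blow1_zero hη hz, zero_smul])

theorem blow1_int1 {μ : Measure X} [IsLocallyFiniteMeasure μ] {η : ℝ} (hη : 0 < η) (y : X) :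
    Integrable (fun z => cut η (dist y z)) μ :=
  (blow1_cont η y).integrable_of_hasCompactSupport
    (hasCompactSupport_of_zero (x := y) (ρ := 2 * η) fun _ hz => blow1_zero hη hz)

theorem blow1_cs {n : ℕ} {C : ℝ} (hC : 0 < C) {μ : Measure X} (hU : Up n μ C) {η : ℝ} (hη : 0 < η)
    (y : X) {u : X → F} (hu : Continuous u) : ‖∫ z, cut η (dist y z) • u z ∂μ‖ ^ 2 ≤
      C * (2 * η) ^ n * ∫ z, cut η (dist y z) * ‖u z‖ ^ 2 ∂μ := by
  have := hU.locFin
  have h1 := ann_cs (blow1_int1 (μ := μ) hη y) (blow1_int (μ := μ) hη y (hu.norm.pow 2))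
    (blow1_int (μ := μ) hη y hu).norm fun z => by
      have h0 := cut_nonneg η (dist y z)
      refine ⟨h0, mul_nonneg h0 (sq_nonneg _), le_of_eq ?_⟩
      rw [norm_smul, Real.norm_of_nonneg h0, smul_eq_mul, Pi.pow_apply]
      ring
  have h2 := (norm_integral_le_integral_norm _).trans ((le_abs_self _).trans h1)
  have h3 : ∫ z, cut η (dist y z) ∂μ ≤ C * (2 * η) ^ n :=
    (lim1_int_le (fun z => ⟨cut_nonneg _ _, cut_le_one _ _⟩) fun z hz => blow1_zero hη hz).trans
      (hU.real_le hC y (by positivity))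
  have h4 : 0 ≤ ∫ z, cut η (dist y z) * ‖u z‖ ^ 2 ∂μ :=
    integral_nonneg fun z => mul_nonneg (cut_nonneg _ _) (sq_nonneg _)
  refine (pow_le_pow_left₀ (norm_nonneg _) h2 2).trans ?_
  rw [mul_pow, Real.sq_sqrt (integral_nonneg fun z => cut_nonneg _ _)]
  exact mul_le_mul h3 (Real.sq_sqrt h4).le (sq_nonneg _) (by positivity)

theorem blow1_wt {n : ℕ} {C : ℝ} (hC : 0 < C) {μ : Measure X} (hU : Up n μ C) {u : X → F}
    (hu : Continuous u) (hg : Gr n μ u 0 1 1) {t a : ℝ} (ht : 1 ≤ t) {φ : X → ℝ}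
    (h1 : ∀ z, |φ z| ≤ a) (h0 : ∀ z, t ≤ dist z 0 → φ z = 0) :
    ‖∫ z, φ z • u z ∂μ‖ ≤ a * (C * t ^ n + t ^ (n + 3)) := by
  have := hU.locFin
  have ha : 0 ≤ a := (abs_nonneg _).trans (h1 0)
  refine (norm_integral_le_integral_norm _).trans ((cacc_ball (g := fun z => a * (1 + ‖u z‖ ^ 2))
    (by fun_prop) (fun z => norm_nonneg _) (fun z hz => by rw [h0 z hz, zero_smul, norm_zero])
    fun z => ?_).trans ?_)
  · rw [norm_smul, Real.norm_eq_abs]
    exact mul_le_mul (h1 z) (by nlinarith [sq_nonneg (‖u z‖ - 1)]) (norm_nonneg _) ha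
  · have i1 : IntegrableOn (fun _ : X => (1 : ℝ)) (ball 0 t) μ :=
      integrableOn_ball_of_continuous continuous_const _ _
    have i2 : IntegrableOn (fun z => ‖u z‖ ^ 2) (ball 0 t) μ :=
      integrableOn_ball_of_continuous (hu.norm.pow 2) _ _
    rw [integral_const_mul, integral_add i1 i2, setIntegral_const, smul_eq_mul, mul_one]
    refine mul_le_mul_of_nonneg_left (add_le_add (hU.real_le hC 0 (by linarith)) ?_) ha
    simpa using cacc_gr one_pos zero_le_one hg ht

theorem blow1_bd {n : ℕ} {C : ℝ} (hC : 0 < C) {μ : Measure X} (hU : Up n μ C) {u : X → F}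
    (hu : Continuous u) (hg : Gr n μ u 0 1 1) {η : ℝ} (hη : 0 < η) (hη1 : η ≤ 1) (y : X) :
    ‖moll η μ u y‖ ≤ 1 * (C * (‖y‖ + 1 + 2) ^ n + (‖y‖ + 1 + 2) ^ (n + 3)) :=
  blow1_wt hC hU hu hg (by linarith [norm_nonneg y])
    (fun z => by rw [abs_of_nonneg (cut_nonneg _ _)]; exact cut_le_one _ _)
    fun z hz => blow1_far hη hη1 (by simp) hz

theorem blow1_cut_sub {η : ℝ} (hη : 0 < η) (y y' z : X) :
    |cut η (dist y z) - cut η (dist y' z)| ≤ dist y y' / η :=
  (cut_lip hη _ _).trans (div_le_div_of_nonneg_right (abs_dist_sub_le _ _ _) hη.le)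

theorem blow1_lip {n : ℕ} {C : ℝ} (hC : 0 < C) {μ : Measure X} (hU : Up n μ C) {u : X → F}
    (hu : Continuous u) (hg : Gr n μ u 0 1 1) {η : ℝ} (hη : 0 < η) (hη1 : η ≤ 1) {R : ℝ}
    {y y' : X} (hy : y ∈ ball (0 : X) R) (hy' : y' ∈ ball (0 : X) R) :
    dist (moll η μ u y) (moll η μ u y') ≤
      (C * (|R| + 2) ^ n + (|R| + 2) ^ (n + 3)) / η * dist y y' := by
  have := hU.locFin
  have h1 := blow1_wt hC hU hu hg (t := |R| + 2) (by linarith [abs_nonneg R])
    (blow1_cut_sub hη y y') fun z hz => by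
      rw [blow1_far hη hη1 (ball_subset_ball (le_abs_self R) hy) hz,
        blow1_far hη hη1 (ball_subset_ball (le_abs_self R) hy') hz, sub_zero]
  simp only [sub_smul] at h1
  rw [integral_sub (blow1_int hη y hu) (blow1_int hη y' hu)] at h1
  rw [dist_eq_norm]
  exact h1.trans_eq (by ring)

theorem blow1_locLip {G : X → F} {B : ℝ → ℝ} (hB : ∀ R, 0 ≤ B R)
    (h : ∀ R, ∀ y ∈ ball (0 : X) R, ∀ y' ∈ ball (0 : X) R,
      dist (G y) (G y') ≤ B R * dist y y') : LocLip G :=
  fun R => ⟨⟨B R, hB R⟩, LipschitzOnWith.of_dist_le_mul (h R)⟩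

theorem blow1_growth {n : ℕ} {C : ℝ} (hC : 0 < C) {μ : Measure X} (hU : Up n μ C) {u : X → F}
    (hu : Continuous u) {η : ℝ} (hη : 0 < η) (hη1 : η ≤ 1) (V : Submodule ℝ X) (t : ℝ) :
    ∫ q in ball (0 : V) t, ‖moll η μ u q‖ ^ 2 ≤ C * 2 ^ n *
      ((volume : Measure V).real (ball 0 2) * ∫ z in ball (0 : X) (t + 2), ‖u z‖ ^ 2 ∂μ) := by
  have := hU.locFin
  let a : V → ℝ := (ball (0 : V) t).indicator fun _ => 1
  let b : X → ℝ := (ball (0 : X) (t + 2)).indicator fun z => ‖u z‖ ^ 2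
  have ha : Integrable a := form_ind _ _ _
  have hb : Integrable b μ := (integrable_indicator_iff measurableSet_ball).2
    (integrableOn_ball_of_continuous (hu.norm.pow 2) _ _)
  let f : V → X → ℝ := fun q z => a q * (cut η (dist (q : X) z) * ‖u z‖ ^ 2)
  have ha0 : ∀ q, 0 ≤ a q := fun q => indicator_nonneg (fun _ _ => zero_le_one) q
  have hb0 : ∀ z, 0 ≤ b z := fun z => indicator_nonneg (fun _ _ => sq_nonneg _) z
  have hf0 : ∀ q z, 0 ≤ f q z := fun q z =>
    mul_nonneg (ha0 q) (mul_nonneg (cut_nonneg _ _) (sq_nonneg _))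
  have hf1 : ∀ q z, f q z ≤ a q * b z := by
    intro q z
    by_cases hq : q ∈ ball (0 : V) t
    · refine mul_le_mul_of_nonneg_left ?_ (ha0 q)
      by_cases hz : z ∈ ball (0 : X) (t + 2)
      · exact (mul_le_of_le_one_left (sq_nonneg _) (cut_le_one _ _)).trans_eq
          (indicator_of_mem hz fun z => ‖u z‖ ^ 2).symm
      · rw [blow1_far hη hη1 (R := t) (by simpa using hq) (not_lt.1 hz), zero_mul]
        exact hb0 z
    · simp only [f, a, indicator_of_notMem hq, zero_mul, le_refl]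
  have hf2 : ∀ q z, f q z ≤ b z := fun q z => (hf1 q z).trans (mul_le_of_le_one_left (hb0 z)
    (indicator_le_self' (fun _ _ => zero_le_one) q))
  have hfm : Measurable (Function.uncurry f) := by
    refine ((measurable_const.indicator measurableSet_ball).comp measurable_fst).mul
      (Continuous.measurable ?_)
    exact ((continuous_cut η).comp ((continuous_subtype_val.comp continuous_fst).dist
      continuous_snd)).mul ((hu.comp continuous_snd).norm.pow 2)
  have hfi : Integrable (Function.uncurry f) ((volume : Measure V).prod μ) :=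
    (ha.mul_prod hb).mono' hfm.aestronglyMeasurable (Eventually.of_forall fun p => by
      exact (Real.norm_of_nonneg (hf0 p.1 p.2)).trans_le (hf1 p.1 p.2))
  have h1 : ∫ z, (∫ q, f q z) ∂μ ≤ ∫ z, (volume : Measure V).real (ball 0 2) * b z ∂μ := by
    refine integral_mono_of_nonneg (Eventually.of_forall fun z => integral_nonneg fun q => hf0 q z)
      (hb.const_mul _) (Eventually.of_forall fun z => ?_)
    refine (cacc_ball (g := fun _ => b z) continuous_const (x := Pr V z) (r := 2)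
      (fun q => hf0 q z) (fun q hq => ?_) fun q => hf2 q z).trans_eq ?_
    · have h2 : dist q (Pr V z) ≤ dist z q := by
        have h3 := norm_Pr_le V ((q : X) - z)
        rw [map_sub, Submodule.orthogonalProjectionOnto_mem_subspace_eq_self] at h3
        rwa [dist_comm z, dist_eq_norm, dist_eq_norm]
      simp only [f, blow1_zero hη (show 2 * η ≤ dist z (q : X) by linarith), zero_mul, mul_zero]
    · rw [setIntegral_const, smul_eq_mul, Measure.addHaar_real_ball_center]
  rw [integral_const_mul, integral_indicator measurableSet_ball, ← integral_integral_swap hfi] at h1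
  refine le_trans ?_ (mul_le_mul_of_nonneg_left h1 (by positivity))
  rw [← integral_const_mul, ← integral_indicator measurableSet_ball]
  refine integral_mono_of_nonneg
    (Eventually.of_forall fun q => indicator_nonneg (fun _ _ => sq_nonneg _) q)
    (hfi.integral_prod_left.const_mul _) (Eventually.of_forall fun q => ?_)
  by_cases hq : q ∈ ball (0 : V) t
  · simp only [f, a, indicator_of_mem hq, one_mul]
    refine (blow1_cs hC hU hη _ hu).trans (mul_le_mul_of_nonneg_right ?_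
      (integral_nonneg fun z => mul_nonneg (cut_nonneg _ _) (sq_nonneg _)))
    gcongr
    linarith
  · simp only [indicator_of_notMem hq]
    exact mul_nonneg (by positivity) (integral_nonneg fun z => hf0 q z)

/-- On `ball 0 R`: `‖moll η (μs k) (hs k) y‖` and its Lipschitz constant are bounded uniformly in
`k` by `(1, 1/η) · ∫_{ball 0 (R+2)} ‖hs k‖ ≤ √(C t^n) √(t^n t^(5/2))`. Let `H y` be the limit along
the ultrafilter (bounded sets of `F` are relatively compact); `unif_of_equi`. Growth on `V`: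
`‖moll y‖² ≤ C (2η)^n ∫ cut η (dist y z) ‖h z‖² dμ(z)`; integrate over `q ∈ ball (0:V) t` with
Fubini, `∫_V cut η (dist q z) dq ≤ vol(ball (Pr V z) (2η))`, and pass to the uniform limit. -/
theorem blow_lim {n : ℕ} {C : ℝ} (hC : 0 < C) (𝒰 : Ultrafilter ℕ) {μs : ℕ → Measure X}
    {hs : ℕ → X → F} (h : BSeq n C 𝒰 μs hs) (V : Submodule ℝ X) {η : ℝ} (hη : 0 < η)
    (hη1 : η ≤ 1) : ∃ H : X → F, LocLip H ∧
      (∀ R : ℝ, TendstoUniformlyOn (fun k => moll η (μs k) (hs k)) H 𝒰 (ball 0 R)) ∧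
      ∃ G : ℝ, ∀ t : ℝ, 1 ≤ t →
        ∫ q in ball (0 : V) t, ‖H q‖ ^ 2 ≤ G * t ^ ((n : ℝ) + 2 * (5 / 4)) := by
  have hc := fun k => (h.lip k).continuous
  have h1 : ∀ y, ∃ x, Tendsto (fun k => moll η (μs k) (hs k) y) 𝒰 (𝓝 x) := by
    intro y
    obtain ⟨x, -, hx⟩ := (isCompact_closedBall (0 : F) _).ultrafilter_le_nhds
      (𝒰.map fun k => moll η (μs k) (hs k) y) (by
        rw [Ultrafilter.coe_map, le_principal_iff, mem_map]
        exact Eventually.of_forall fun k =>
          mem_closedBall_zero_iff.2 (blow1_bd hC (h.seq.up k) (hc k) (h.gr k) hη hη1 y))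
    exact ⟨x, hx⟩
  choose H hH using h1
  have hB : ∀ R : ℝ, 0 ≤ (C * (|R| + 2) ^ n + (|R| + 2) ^ (n + 3)) / η := fun R => by positivity
  have hL : LocLip H := blow1_locLip hB fun R y hy y' hy' => le_of_tendsto' ((hH y).dist (hH y'))
    fun k => blow1_lip hC (h.seq.up k) (hc k) (h.gr k) hη hη1 hy hy'
  have hT : ∀ R : ℝ, TendstoUniformlyOn (fun k => moll η (μs k) (hs k)) H 𝒰 (ball 0 R) := by
    intro R
    refine unif_of_equi (fun y _ => hH y) fun ε hε => ?_
    have h0 := hB R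
    refine ⟨ε / ((C * (|R| + 2) ^ n + (|R| + 2) ^ (n + 3)) / η + 1), by positivity,
      fun k y hy z hz hd => (blow1_lip hC (h.seq.up k) (hc k) (h.gr k) hη hη1 hy hz).trans ?_⟩
    rw [lt_div_iff₀ (by positivity)] at hd
    nlinarith [dist_nonneg (x := y) (y := z)]
  refine ⟨H, hL, hT, 2 * (C * 2 ^ n * ((volume : Measure V).real (ball 0 2) *
    (3 ^ n * 3 ^ (5 / 2 : ℝ)))) + 2, fun t ht => ?_⟩
  set v := (volume : Measure V).real (ball 0 t) with hv
  have hv0 : 0 ≤ v := measureReal_nonneg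
  obtain ⟨k, hk⟩ := (Metric.tendstoUniformlyOn_iff.1 (hT t) (1 / (1 + v)) (by positivity)).exists
  have := (h.seq.up k).locFin
  have hm : Continuous (moll η (μs k) (hs k)) := (blow1_locLip hB fun R y hy y' hy' =>
    blow1_lip hC (h.seq.up k) (hc k) (h.gr k) hη hη1 hy hy').continuous
  have hi : IntegrableOn (fun q : V => ‖moll η (μs k) (hs k) q‖ ^ 2) (ball 0 t) :=
    integrableOn_ball_of_continuous ((hm.comp continuous_subtype_val).norm.pow 2) _ _
  have h2 : ∫ q in ball (0 : V) t, ‖H q‖ ^ 2 ≤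
      ∫ q in ball (0 : V) t, (2 * ‖moll η (μs k) (hs k) q‖ ^ 2 + 2 * (1 / (1 + v)) ^ 2) := by
    refine setIntegral_mono_on (integrableOn_ball_of_continuous
      ((hL.continuous.comp continuous_subtype_val).norm.pow 2) _ _)
      ((hi.const_mul 2).add (integrableOn_const measure_ball_lt_top.ne)) measurableSet_ball
      fun q hq => ?_
    have h3 := (hk q (by simpa using hq)).le
    rw [dist_eq_norm] at h3
    have h4 := norm_le_norm_add_norm_sub' (H q) (moll η (μs k) (hs k) q)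
    have h5 := pow_le_pow_left₀ (norm_nonneg _) (h4.trans (add_le_add le_rfl h3)) 2
    nlinarith [sq_nonneg (‖moll η (μs k) (hs k) q‖ - 1 / (1 + v))]
  rw [integral_add (hi.const_mul 2) (integrableOn_const measure_ball_lt_top.ne),
    integral_const_mul, setIntegral_const, smul_eq_mul, ← hv] at h2
  have h3 : v * (2 * (1 / (1 + v)) ^ 2) ≤ 2 := by
    rw [div_pow, one_pow, mul_one_div, ← mul_div_assoc, div_le_iff₀ (by positivity)]
    nlinarith
  have h4 := blow1_growth hC (h.seq.up k) (hc k) hη hη1 V t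
  have h5 : ∫ z in ball (0 : X) (t + 2), ‖hs k z‖ ^ 2 ∂(μs k) ≤
      3 ^ n * 3 ^ (5 / 2 : ℝ) * t ^ ((n : ℝ) + 2 * (5 / 4)) := by
    refine (setIntegral_mono_set (integrableOn_ball_of_continuous ((hc k).norm.pow 2) 0 (3 * t))
      (Eventually.of_forall fun z => sq_nonneg _)
      (ball_subset_ball (by linarith)).eventuallyLE).trans ((h.gr k _ (by linarith)).trans_eq ?_)
    rw [Real.rpow_add (by linarith), Real.rpow_natCast, div_one,
      Real.mul_rpow (by norm_num) (by linarith), mul_pow]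
    norm_num
    ring
  have h6 : 1 ≤ t ^ ((n : ℝ) + 2 * (5 / 4)) := Real.one_le_rpow ht (by positivity)
  have h7 := mul_le_mul_of_nonneg_left (mul_le_mul_of_nonneg_left h5
    (measureReal_nonneg (μ := (volume : Measure V)) (s := ball 0 2)))
    (show 0 ≤ C * 2 ^ n by positivity)
  linarith

theorem blow1_osc {n : ℕ} {C : ℝ} (hC : 0 < C) {μ : Measure X} (hU : Up n μ C) {u : X → F}
    (hu : Continuous u) {η : ℝ} (hη : 0 < η) (hη1 : η ≤ 1) {y : X} (hy : y ∈ ball (0 : X) 1)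
    (hi : IntegrableOn (fun z => J n (y - z) * ‖u y - u z‖ ^ 2) (ball 0 3) μ) :
    ‖∫ z, cut η (dist y z) • (u y - u z) ∂μ‖ ^ 2 ≤ C * (2 * η) ^ n * (2 * η) ^ (n + 1) *
      ∫ z in ball (0 : X) 3, J n (y - z) * ‖u y - u z‖ ^ 2 ∂μ := by
  refine (blow1_cs hC hU hη y (u := fun z => u y - u z) (continuous_const.sub hu)).trans ?_
  rw [mul_assoc (C * (2 * η) ^ n), ← integral_const_mul ((2 * η) ^ (n + 1)),
    ← integral_indicator measurableSet_ball]
  refine mul_le_mul_of_nonneg_left (integral_mono_of_nonneg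
    (Eventually.of_forall fun z => mul_nonneg (cut_nonneg _ _) (sq_nonneg _))
    ((integrable_indicator_iff measurableSet_ball).2 (hi.const_mul _))
    (Eventually.of_forall fun z => ?_)) (by positivity)
  have h0 : 0 ≤ (2 * η) ^ (n + 1) * (J n (y - z) * ‖u y - u z‖ ^ 2) :=
    mul_nonneg (by positivity) (mul_nonneg (J_nonneg _ _) (sq_nonneg _))
  by_cases hz : z ∈ ball (0 : X) 3
  · simp only [indicator_of_mem hz]
    rcases le_or_gt (2 * η) (dist z y) with h1 | h1
    · rw [blow1_zero hη h1, zero_mul]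
      exact h0
    rcases eq_or_ne y z with rfl | h2
    · simp
    have h3 : 0 < ‖y - z‖ := norm_pos_iff.2 (sub_ne_zero.2 h2)
    rw [dist_comm, dist_eq_norm] at h1
    rw [← mul_assoc]
    refine mul_le_mul_of_nonneg_right ((cut_le_one _ _).trans ?_) (sq_nonneg _)
    rw [J, ← div_eq_mul_inv, one_le_div (by positivity)]
    exact pow_le_pow_left₀ h3.le h1.le _
  · simp only [indicator_of_notMem hz]
    rw [blow1_far hη hη1 hy (by norm_num; simpa using hz), zero_mul]

theorem blow1_main {n : ℕ} {C : ℝ} (hC : 0 < C) {μ : Measure X} (hU : Up n μ C) {u H : X → F}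
    (hu : LocLip u) (hg : Gr n μ u 0 1 1) {η c0 δ : ℝ} (hη : 0 < η) (hη1 : η ≤ 1) (hc0 : 0 < c0)
    (h1 : ∀ y ∈ μ.support, y ∈ ball (0 : X) 1 → |c0 - ∫ z, cut η (dist y z) ∂μ| ≤ δ)
    (h2 : ∀ y ∈ ball (0 : X) 1, ‖moll η μ u y - H y‖ ≤ δ) :
    ∫ y in ball 0 1, ‖u y - c0⁻¹ • H y‖ ^ 2 ∂μ ≤ 3 * c0⁻¹ ^ 2 *
      (C * (2 * η) ^ n * (2 * η) ^ (n + 1) * LE n μ u 0 3 + δ ^ 2 + δ ^ 2 * C) := by
  have := hU.locFin
  have hc := hu.continuous
  have hL := LE_integrable hU hC hu 0 3
  have hL' := hL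
  rw [IntegrableOn, ← Measure.prod_restrict] at hL'
  set K := C * (2 * η) ^ n * (2 * η) ^ (n + 1) with hK
  have hK0 : 0 ≤ K := by positivity
  let g : X → ℝ := fun y => ∫ z in ball (0 : X) 3, J n (y - z) * ‖u y - u z‖ ^ 2 ∂μ
  have hg3 : IntegrableOn g (ball 0 3) μ := hL'.integral_prod_left
  have hsub : ball (0 : X) 1 ⊆ ball 0 3 := ball_subset_ball (by norm_num)
  have hg1 : IntegrableOn g (ball 0 1) μ := hg3.mono_set hsub
  have hu1 : IntegrableOn (fun y => ‖u y‖ ^ 2) (ball 0 1) μ :=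
    integrableOn_ball_of_continuous (hc.norm.pow 2) _ _
  have hδ : IntegrableOn (fun _ : X => δ ^ 2) (ball 0 1) μ :=
    integrableOn_const measure_ball_lt_top.ne
  have h3 : ∫ y in ball 0 1, ‖u y - c0⁻¹ • H y‖ ^ 2 ∂μ ≤
      ∫ y in ball 0 1, 3 * c0⁻¹ ^ 2 * (K * g y + δ ^ 2 * ‖u y‖ ^ 2 + δ ^ 2) ∂μ := by
    refine integral_mono_of_nonneg (Eventually.of_forall fun y => sq_nonneg _)
      ((((hg1.const_mul K).add (hu1.const_mul _)).add hδ).const_mul _) ?_
    filter_upwards [ae_restrict_of_ae μ.support_mem_ae, ae_restrict_mem measurableSet_ball,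
      ae_mono (Measure.restrict_mono hsub le_rfl) hL'.prod_right_ae] with y hy hy1 hyi
    have e1 := blow1_osc hC hU hc hη hη1 hy1 hyi
    have e2 : u y - c0⁻¹ • H y = c0⁻¹ • ((∫ z, cut η (dist y z) • (u y - u z) ∂μ) +
        (c0 - ∫ z, cut η (dist y z) ∂μ) • u y + (moll η μ u y - H y)) := by
      simp only [smul_sub]
      rw [integral_sub (blow1_int hη y continuous_const) (blow1_int hη y hc), integral_smul_const,
        sub_smul, moll, ← sub_eq_zero]
      have e3 : u y = c0⁻¹ • c0 • u y := by rw [smul_smul, inv_mul_cancel₀ hc0.ne', one_smul]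
      nth_rewrite 1 [e3]
      rw [← smul_sub, ← smul_sub]
      abel_nf
      simp
    have e3 : ‖(c0 - ∫ z, cut η (dist y z) ∂μ) • u y‖ ≤ δ * ‖u y‖ := by
      rw [norm_smul, Real.norm_eq_abs]
      exact mul_le_mul_of_nonneg_right (h1 y hy hy1) (norm_nonneg _)
    have e4 := h2 y hy1
    rw [e2, norm_smul, mul_pow, Real.norm_of_nonneg (inv_pos.2 hc0).le, mul_comm 3, mul_assoc]
    refine mul_le_mul_of_nonneg_left ?_ (sq_nonneg _)
    have e5 := pow_le_pow_left₀ (norm_nonneg _)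
      ((norm_add₃_le (a := ∫ z, cut η (dist y z) • (u y - u z) ∂μ)).trans
        (add_le_add (add_le_add le_rfl e3) e4)) 2
    generalize ‖∫ z, cut η (dist y z) • (u y - u z) ∂μ‖ = a at e1 e5
    have e6 : a ^ 2 ≤ K * g y := e1
    nlinarith [sq_nonneg (a - δ * ‖u y‖), sq_nonneg (a - δ), sq_nonneg (δ * ‖u y‖ - δ)]
  refine h3.trans ?_
  have i1 : IntegrableOn (fun y => K * g y + δ ^ 2 * ‖u y‖ ^ 2) (ball 0 1) μ :=
    (hg1.const_mul K).add (hu1.const_mul _)
  rw [integral_const_mul, integral_add i1 hδ,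
    integral_add (hg1.const_mul K) (hu1.const_mul _), integral_const_mul, integral_const_mul,
    setIntegral_const, smul_eq_mul]
  refine mul_le_mul_of_nonneg_left (add_le_add (add_le_add (mul_le_mul_of_nonneg_left ?_ hK0)
    (mul_le_of_le_one_right (sq_nonneg _) ?_)) ?_) (by positivity)
  · rw [LE, setIntegral_prod _ hL]
    exact setIntegral_mono_set hg3 (Eventually.of_forall fun y => integral_nonneg fun z =>
      mul_nonneg (J_nonneg _ _) (sq_nonneg _)) hsub.eventuallyLE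
  · simpa using hg 1 le_rfl
  · rw [mul_comm]
    exact mul_le_mul_of_nonneg_left (by simpa using hU.real_le hC 0 one_pos) (sq_nonneg _)

/-- Let `I k y = ∫ cut η (dist y z) dμs k`, `c0 ≥ η^n/C` (`VL.reg`). Then
`c0 • h y - moll y = ∫ cut • (h y - h z) + (c0 - I k y) • h y`. First term: Cauchy-Schwarz,
`‖·‖² ≤ C (2η)^n (2η)^(n+1) ∫_{ball 0 3} J ‖h y - h z‖²`, and `cacc` at radius `3` (`Gr.grow`).
Second term: `I k → I` uniformly on `ball 0 2` (`VL.unif`), `I k` is Lipschitz uniformly in `k`,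
`I = c0` on `ν.support`, and `VL.supp_near`; so `|c0 - I k| ≤ o(1)` on the support of `μs k` in
`ball 0 1`. Finally `moll → H` uniformly on `ball 0 1`. -/
theorem blow_close (n : ℕ) {C : ℝ} (hC : 0 < C) : ∃ Cb : ℝ, 0 < Cb ∧ ∀ (l : Filter ℕ) [l.NeBot]
    (μs : ℕ → Measure X) (hs : ℕ → X → F) (ν : Measure X), BSeq n C l μs hs → VL l μs ν →
    Up n ν C → ∀ η c0 : ℝ, 0 < η → η ≤ 1 →
    (∀ y ∈ ν.support, ∫ z, cut η (dist y z) ∂ν = c0) → ∀ H : X → F, Continuous H →
    TendstoUniformlyOn (fun k => moll η (μs k) (hs k)) H l (ball 0 1) → ∀ η' : ℝ, 0 < η' →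
    ∀ᶠ k in l, ∫ y in ball 0 1, ‖hs k y - c0⁻¹ • H y‖ ^ 2 ∂(μs k) ≤ Cb * η + η' := by
  obtain ⟨Cc, hCc, hcc⟩ := cacc (X := X) (F := F) n hC
  set E := Cc * (1 + 1 * (3 / 1) ^ (5 / 2 : ℝ) * 3 ^ n / 3) with hE
  have hE0 : 0 < E := by positivity
  refine ⟨3 * C ^ 3 * 2 ^ n * 2 ^ (n + 1) * E, by positivity, ?_⟩
  intro l _ μs hs ν h hV hν η c0 hη hη1 hc H _ hT η' hη'
  have := hν.locFin
  have hR := hV.reg hC h.seq hν 1
  have hc1 : η ^ n / C ≤ c0 := by
    rw [← hc 0 hR.mem]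
    exact (hR.real_ge hR.mem (by simp) hη hη1).trans (lim1_le_int (blow1_cont η 0)
      (hasCompactSupport_of_zero (x := 0) (ρ := 2 * η) fun _ hz => blow1_zero hη hz)
      (fun z => cut_nonneg _ _) fun z hz => (cut_eq_one hη (by
        rw [dist_comm]; exact le_of_lt hz)).ge)
  have hc0 : 0 < c0 := lt_of_lt_of_le (by positivity) hc1
  obtain ⟨δ, hδ, hδ'⟩ : ∃ δ : ℝ, 0 < δ ∧ 3 * c0⁻¹ ^ 2 * (δ ^ 2 + δ ^ 2 * C) ≤ η' := by
    refine ⟨√(η' / (3 * c0⁻¹ ^ 2 * (1 + C))), by positivity, le_of_eq ?_⟩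
    rw [Real.sq_sqrt (by positivity)]
    field_simp
  have hI := hV.unif hC h.seq.up hν (Φ := fun p : X × X => cut η (dist p.1 p.2))
    ((continuous_cut η).comp (continuous_fst.dist continuous_snd)) (R := 1) (R' := 3)
    fun x hx y hy => blow1_far hη hη1 hx (by norm_num; exact hy)
  set δ' := min 1 (δ / 2 * η / (C * 4 ^ n)) with hδ1
  have hδ2 : 0 < δ' := lt_min one_pos (by positivity)
  filter_upwards [Metric.tendstoUniformlyOn_iff.1 hI (δ / 2) (by positivity),
    Metric.tendstoUniformlyOn_iff.1 hT δ hδ, hV.supp_near hC h.seq hν 1 hδ2, h.seq.low 3,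
    h.osc (2 * 3) 1 one_pos] with k k1 k2 k3 k4 k5
  have h1 := hcc (μs k) (h.seq.up k) (hs k) (h.lip k) 0 3 _ 1 (by norm_num) (by positivity)
    zero_le_one (k4 0 (h.seq.mem k) (by simp) 3 (by norm_num) le_rfl)
    ((h.gr k).grow one_pos (by norm_num)) k5
  have h2 := blow1_main hC (h.seq.up k) (h.lip k) (h.gr k) hη hη1 hc0 (H := H) (δ := δ)
    (fun y hy hy1 => ?_) fun y hy => ?_
  · refine h2.trans ?_
    have h3 : c0⁻¹ ^ 2 ≤ (C / η ^ n) ^ 2 := by
      refine pow_le_pow_left₀ (inv_pos.2 hc0).le ?_ 2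
      rw [← inv_div]
      exact inv_anti₀ (by positivity) hc1
    have h4 : 3 * c0⁻¹ ^ 2 * (C * (2 * η) ^ n * (2 * η) ^ (n + 1) * LE n (μs k) (hs k) 0 3) ≤
        3 * (C / η ^ n) ^ 2 * (C * (2 * η) ^ n * (2 * η) ^ (n + 1) * E) := by
      have := LE_nonneg n (μs k) (hs k) 0 3
      gcongr
    have h5 : 3 * (C / η ^ n) ^ 2 * (C * (2 * η) ^ n * (2 * η) ^ (n + 1) * E) =
        3 * C ^ 3 * 2 ^ n * 2 ^ (n + 1) * E * η := by
      rw [mul_pow, mul_pow, pow_succ η n]
      field_simp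
    linarith
  · obtain ⟨y', hy', hd⟩ := k3 y hy (mem_ball_zero_iff.1 hy1).le
    have e1 := (k1 y hy1).le
    rw [Real.dist_eq] at e1
    have e2 : y' ∈ ball (0 : X) 2 := by
      have e3 := dist_triangle y' y 0
      have e4 : dist y 0 < 1 := hy1
      have e5 := hd.le.trans (min_le_left _ _)
      rw [dist_comm] at e5
      show dist y' 0 < 2
      linarith
    have e3 := lim1_bound (μ := ν) (y := 0) (b := 2 + 2) (M := dist y' y / η)
      (f := fun z => cut η (dist y' z) - cut η (dist y z)) (fun z _ => blow1_cut_sub hη y' y z)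
      fun z hz => by
        rw [blow1_far hη hη1 e2 hz, blow1_far hη hη1 (ball_subset_ball one_le_two hy1) hz, sub_zero]
    rw [integral_sub (blow1_int1 hη y') (blow1_int1 hη y), hc y' hy', Real.norm_eq_abs] at e3
    have e4 : dist y' y / η * ν.real (ball 0 (2 + 2)) ≤ δ / 2 := by
      have e5 := hd.le.trans (min_le_right _ _)
      rw [le_div_iff₀ (by positivity), dist_comm] at e5
      have e6 := hν.real_le hC 0 (show (0 : ℝ) < 2 + 2 by norm_num)
      rw [show (2 + 2 : ℝ) = 4 by norm_num] at e6 ⊢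
      rw [div_mul_eq_mul_div, div_le_iff₀ hη]
      exact (mul_le_mul_of_nonneg_left e6 dist_nonneg).trans e5
    have e5 := abs_sub_le c0 (∫ z, cut η (dist y z) ∂ν) (∫ z, cut η (dist y z) ∂(μs k))
    linarith
  · rw [← dist_eq_norm, dist_comm]
    exact (k2 y hy).le

end Vale.Agent.P120
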