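import Vale.Agent.P120.Ann

/-!
Calculus of the smoothed kernel in dimension `n`: `je = - div Ke`.
-/

open MeasureTheory Metric Set Filter Topology
open scoped RealInnerProductSpace ENNReal NNReal

noncomputable section

namespace Vale.Agent.P120

variable {X : Type} [NormedAddCommGroup X] [InnerProductSpace ℝ X] [FiniteDimensional ℝ X]
  [MeasurableSpace X] [BorelSpace X]
variable {F : Type} [NormedAddCommGroup F] [InnerProductSpace ℝ F] [FiniteDimensional ℝ F]

theorem ker_pos {ε : ℝ} (hε : 0 < ε) (z : X) : 0 < √(ε ^ 2 + ‖z‖ ^ 2) := by positivity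

theorem ker_le {ε : ℝ} (z : X) : ‖z‖ ≤ √(ε ^ 2 + ‖z‖ ^ 2) :=
  Real.le_sqrt_of_sq_le (by nlinarith [sq_nonneg ε])

theorem je_neg (n : ℕ) (ε : ℝ) (z : X) : je n ε (-z) = je n ε z := by
  rw [je, je, norm_neg]

theorem continuous_je (n : ℕ) {ε : ℝ} (hε : 0 < ε) : Continuous (je n ε : X → ℝ) := by
  unfold je
  exact Continuous.div (by fun_prop) (by fun_prop) fun z => (pow_pos (ker_pos hε z) _).ne'

theorem continuous_Ke (n : ℕ) {ε : ℝ} (hε : 0 < ε) : Continuous (Ke n ε : X → X) := by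
  unfold Ke
  exact (Continuous.inv₀ (by fun_prop) fun z => (pow_pos (ker_pos hε z) _).ne').smul continuous_id

theorem je_le {n : ℕ} (hn : 1 ≤ n) {ε : ℝ} (hε : 0 < ε) {z : X} (hz : z ≠ 0) :
    |je n ε z| ≤ n * J n z := by
  have h0 := ker_pos hε z
  have h1 := ker_le (ε := ε) z
  have h2 : √(ε ^ 2 + ‖z‖ ^ 2) ^ 2 = ε ^ 2 + ‖z‖ ^ 2 := Real.sq_sqrt (by positivity)
  have h3 : 0 < ‖z‖ := norm_pos_iff.2 hz
  have h4 : (1 : ℝ) ≤ n := by exact_mod_cast hn
  unfold je J
  generalize √(ε ^ 2 + ‖z‖ ^ 2) = s at h0 h1 h2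
  have h5 : |‖z‖ ^ 2 - n * ε ^ 2| ≤ n * s ^ 2 := by
    rw [h2, abs_le]
    constructor <;> nlinarith [sq_nonneg ε, sq_nonneg ‖z‖]
  rw [abs_div, abs_of_pos (pow_pos h0 _), div_le_iff₀ (pow_pos h0 _)]
  refine h5.trans ?_
  have h6 : ‖z‖ ^ (n + 1) ≤ s ^ (n + 1) := pow_le_pow_left₀ h3.le h1 _
  have h7 : 1 ≤ (‖z‖ ^ (n + 1))⁻¹ * s ^ (n + 1) := by
    rw [inv_mul_eq_div, one_le_div (pow_pos h3 _)]
    exact h6
  rw [show s ^ (n + 3) = s ^ (n + 1) * s ^ 2 by ring]
  have h8 : 0 ≤ n * s ^ 2 := by positivity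
  nlinarith

theorem je_tendsto (n : ℕ) {z : X} (hz : z ≠ 0) :
    Tendsto (fun ε : ℝ => je n ε z) (𝓝[>] 0) (𝓝 (J n z)) := by
  have h3 : 0 < ‖z‖ := norm_pos_iff.2 hz
  have h1 : ContinuousAt (fun ε : ℝ => je n ε z) 0 := by
    unfold je
    exact ContinuousAt.div (by fun_prop) (by fun_prop) (by positivity)
  have h2 : je n 0 z = J n z := by
    unfold je J
    simp only [ne_eq, OfNat.ofNat_ne_zero, not_false_eq_true, zero_pow, mul_zero, sub_zero,
      zero_add, Real.sqrt_sq h3.le]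
    field_simp
    ring
  rw [← h2]
  exact h1.tendsto.mono_left nhdsWithin_le_nhds

theorem ker_far {n : ℕ} (hX : Module.finrank ℝ X = n) :
    IntegrableOn (J n : X → ℝ) (ball 0 1)ᶜ := by
  obtain ⟨C, hC, h⟩ := reg_volume hX
  obtain ⟨Ca, -, h1⟩ := ann_far (X := X) n hC
  simpa only [zero_sub, J_neg] using (h1 _ (h 0 1).up 0 1 one_pos).1

theorem ker_ne {z : X} (hz : z ∈ (ball (0 : X) 1)ᶜ) : z ≠ 0 := by
  rintro rfl
  exact hz (mem_ball_self one_pos)

/-- Bounded near `0`, `je_le` and `ann_far` with `reg_volume` at infinity. -/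
theorem je_integrable {n : ℕ} (hn : 1 ≤ n) (hX : Module.finrank ℝ X = n) {ε : ℝ} (hε : 0 < ε) :
    Integrable (je n ε : X → ℝ) := by
  rw [← integrableOn_univ, ← union_compl_self (ball (0 : X) 1)]
  refine (integrableOn_ball_of_continuous (continuous_je n hε) 0 1).union ?_
  refine Integrable.mono' ((ker_far hX).const_mul n) (continuous_je n hε).aestronglyMeasurable ?_
  filter_upwards [ae_restrict_mem measurableSet_ball.compl] with z hz
  exact je_le hn hε (ker_ne hz)

theorem ker_line (n : ℕ) {ε : ℝ} (hε : 0 < ε) (y x v : X) :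
    HasLineDerivAt ℝ (fun x => ⟪v, Ke n ε (x - y)⟫)
      ((√(ε ^ 2 + ‖x - y‖ ^ 2) ^ (n + 1))⁻¹ * ‖v‖ ^ 2 -
        (n + 1) * ⟪v, x - y⟫ ^ 2 / √(ε ^ 2 + ‖x - y‖ ^ 2) ^ (n + 3)) x v := by
  unfold HasLineDerivAt Ke
  have h0 := ker_pos hε (x - y)
  have h1 : HasDerivAt (fun t : ℝ => x + t • v - y) v 0 := by
    simpa using (((hasDerivAt_id (0 : ℝ)).smul_const v).const_add x).sub_const y
  have h2 := (h1.norm_sq.const_add (ε ^ 2)).sqrt (by positivity)
  have h3 := (h2.pow (n + 1)).inv (by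
    simp only [Pi.pow_apply]
    exact (pow_pos (ker_pos hε _) _).ne')
  have h4 := (hasDerivAt_const (0 : ℝ) v).inner ℝ h1
  have h5 := h3.mul h4
  simp only [real_inner_smul_right]
  refine HasDerivAt.congr_deriv h5 ?_
  simp only [zero_smul, add_zero, Pi.inv_apply, Pi.pow_apply, inner_zero_left,
    real_inner_self_eq_norm_sq, Nat.add_sub_cancel, real_inner_comm v (x - y)]
  generalize √(ε ^ 2 + ‖x - y‖ ^ 2) = s at h0
  push_cast
  field_simp
  ring

theorem ker_grad_cont {Ψ : X → ℝ} (hΨ : ContDiff ℝ 1 Ψ) : Continuous (gradient Ψ) :=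
  (InnerProductSpace.toDual ℝ X).symm.continuous.comp (hΨ.continuous_fderiv one_ne_zero)

theorem ker_grad_supp {Ψ : X → ℝ} (hc : HasCompactSupport Ψ) : HasCompactSupport (gradient Ψ) :=
  (hc.fderiv ℝ).comp_left (g := (InnerProductSpace.toDual ℝ X).symm) (map_zero _)

theorem ker_ibp {Ψ : X → ℝ} (hΨ : ContDiff ℝ 1 Ψ) (hc : HasCompactSupport Ψ) {g g' : X → ℝ}
    (hg : Continuous g) (hg' : Continuous g') {v : X} (h : ∀ x, HasLineDerivAt ℝ g (g' x) x v) :
    ∫ x, ⟪gradient Ψ x, v⟫ * g x = -∫ x, Ψ x * g' x := by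
  have h1 := integral_bilinear_hasLineDerivAt_right_eq_neg_left_of_integrable
    (μ := (volume : Measure X)) (f := Ψ) (f' := fun x => ⟪gradient Ψ x, v⟫) (g := g) (g' := g')
    (v := v) (B := ContinuousLinearMap.mul ℝ ℝ) ?_ ?_ ?_ (fun x _ => ?_) fun x _ => h x
  · simp only [ContinuousLinearMap.mul_apply'] at h1
    rw [h1, neg_neg]
  · refine Continuous.integrable_of_hasCompactSupport
      (((ker_grad_cont hΨ).inner continuous_const).mul hg) (HasCompactSupport.mul_right ?_)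
    exact (ker_grad_supp hc).comp_left (g := fun w => ⟪w, v⟫) (inner_zero_left _)
  · exact (hΨ.continuous.mul hg').integrable_of_hasCompactSupport hc.mul_right
  · exact (hΨ.continuous.mul hg).integrable_of_hasCompactSupport hc.mul_right
  · rw [inner_gradient_left]
    exact (hΨ.differentiable one_ne_zero x).hasFDerivAt.hasLineDerivAt v

/-- Expand in `b = stdOrthonormalBasis ℝ X`: `⟪gradient Ψ x, K⟫ = ∑ i, fderiv Ψ x (b i) * ⟪b i, K⟫`,
integrate by parts in each direction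
(`integral_mul_fderiv_eq_neg_fderiv_mul_of_integrable`), and sum
`∂_i (z_i s^(-n-1)) = s^(-n-1) - (n+1) z_i² s^(-n-3)` with `s = √(ε²+|z|²)`. -/
theorem je_ibp {n : ℕ} (hX : Module.finrank ℝ X = n) {ε : ℝ} (hε : 0 < ε) {Ψ : X → ℝ}
    (hΨ : ContDiff ℝ 1 Ψ) (hc : HasCompactSupport Ψ) (y : X) :
    ∫ x, ⟪gradient Ψ x, Ke n ε (x - y)⟫ = ∫ x, Ψ x * je n ε (x - y) := by
  let b := stdOrthonormalBasis ℝ X
  have hK : Continuous fun x => Ke n ε (x - y) := (continuous_Ke n hε).comp (by fun_prop)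
  have hd : ∀ v : X, Continuous fun x : X => (√(ε ^ 2 + ‖x - y‖ ^ 2) ^ (n + 1))⁻¹ * ‖v‖ ^ 2 -
      (n + 1) * ⟪v, x - y⟫ ^ 2 / √(ε ^ 2 + ‖x - y‖ ^ 2) ^ (n + 3) := fun v =>
    ((Continuous.inv₀ (by fun_prop) fun x => (pow_pos (ker_pos hε _) _).ne').mul
      continuous_const).sub
      (Continuous.div (by fun_prop) (by fun_prop) fun x => (pow_pos (ker_pos hε _) _).ne')
  have h1 := fun i => ker_ibp hΨ hc (continuous_const.inner hK) (hd (b i))
    fun x => ker_line n hε y x (b i)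
  rw [show (fun x => ⟪gradient Ψ x, Ke n ε (x - y)⟫) =
      fun x => ∑ i, ⟪gradient Ψ x, b i⟫ * ⟪b i, Ke n ε (x - y)⟫ from
    funext fun x => (b.sum_inner_mul_inner _ _).symm]
  rw [integral_finsetSum _ fun i _ => ?_, Finset.sum_congr rfl fun i _ => h1 i,
    Finset.sum_neg_distrib, ← integral_finsetSum _ fun i _ => ?_, ← integral_neg]
  · refine integral_congr_ae (ae_of_all _ fun x => ?_)
    have h0 := ker_pos hε (x - y)
    have h2 : √(ε ^ 2 + ‖x - y‖ ^ 2) ^ 2 = ε ^ 2 + ‖x - y‖ ^ 2 := Real.sq_sqrt (by positivity)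
    have h3 : ∑ i, ⟪b i, x - y⟫ ^ 2 = ‖x - y‖ ^ 2 := by
      rw [← real_inner_self_eq_norm_sq, ← b.sum_inner_mul_inner]
      exact Finset.sum_congr rfl fun i _ => by rw [real_inner_comm (b i), sq]
    simp only [je]
    rw [← Finset.mul_sum, Finset.sum_sub_distrib, ← Finset.sum_div, ← Finset.mul_sum,
      ← Finset.mul_sum, h3]
    simp only [b.orthonormal.1, one_pow, Finset.sum_const, Finset.card_univ, Fintype.card_fin, hX,
      nsmul_eq_mul, mul_one]
    generalize √(ε ^ 2 + ‖x - y‖ ^ 2) = s at h0 h2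
    have h4 : ε ^ 2 = s ^ 2 - ‖x - y‖ ^ 2 := by linarith
    rw [h4]
    field_simp
    ring
  · exact (hΨ.continuous.mul (hd (b i))).integrable_of_hasCompactSupport hc.mul_right
  · refine Continuous.integrable_of_hasCompactSupport
      (((ker_grad_cont hΨ).inner continuous_const).mul (continuous_const.inner hK))
      (HasCompactSupport.mul_right ?_)
    exact (ker_grad_supp hc).comp_left (g := fun w => ⟪w, b i⟫) (inner_zero_left _)

theorem ker_Ke_le (n : ℕ) {ε : ℝ} {z : X} (hz : 1 ≤ ‖z‖) : ‖Ke n ε z‖ ≤ 1 := by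
  have h1 := ker_le (ε := ε) z
  unfold Ke
  generalize √(ε ^ 2 + ‖z‖ ^ 2) = s at h1
  have h2 : 1 ≤ s := hz.trans h1
  rw [norm_smul, norm_inv, norm_pow, Real.norm_of_nonneg (by linarith), inv_mul_eq_div,
    div_le_one (by positivity), pow_succ]
  nlinarith [one_le_pow₀ (n := n) h2]

theorem ker_scale (n : ℕ) {ε : ℝ} (hε : 0 < ε) (z : X) :
    je n ε (ε • z) = (ε ^ (n + 1))⁻¹ * je n 1 z := by
  have h0 := ker_pos one_pos z
  unfold je
  rw [norm_smul, Real.norm_of_nonneg hε.le,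
    show ε ^ 2 + (ε * ‖z‖) ^ 2 = ε ^ 2 * (1 ^ 2 + ‖z‖ ^ 2) by ring, Real.sqrt_mul (sq_nonneg ε),
    Real.sqrt_sq hε.le]
  generalize √(1 ^ 2 + ‖z‖ ^ 2) = s at h0
  field_simp
  ring

/-- `je_ibp` with a bump: the integral is bounded uniformly in `ε`, and scales like `1/ε`. -/
theorem je_integral_zero {n : ℕ} (hn : 1 ≤ n) (hX : Module.finrank ℝ X = n) {ε : ℝ}
    (hε : 0 < ε) : ∫ z : X, je n ε z = 0 := by
  have hs : ∀ ε : ℝ, 0 < ε → ∫ z : X, je n 1 z = ε * ∫ z : X, je n ε z := by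
    intro ε hε
    have h1 := Measure.integral_comp_smul (volume : Measure X) (je n ε) ε
    simp only [ker_scale n hε] at h1
    rw [integral_const_mul, hX, abs_of_pos (by positivity), smul_eq_mul] at h1
    field_simp at h1
    have h2 : ε ^ n ≠ 0 := by positivity
    refine mul_left_cancel₀ h2 ?_
    rw [mul_comm, h1]
    ring
  let χ : ContDiffBump (0 : X) := ⟨2, 3, by norm_num, by norm_num⟩
  have hχ : ContDiff ℝ 1 χ := χ.contDiff
  have hb : ∀ ε : ℝ, 0 < ε → |∫ z : X, je n ε z| ≤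
      (∫ z, ‖gradient χ z‖) + ∫ z in (ball (0 : X) 1)ᶜ, n * J n z := by
    intro ε hε
    have h1 := je_ibp hX hε hχ χ.hasCompactSupport 0
    simp only [sub_zero] at h1
    have h2 : Integrable fun z : X => χ z * je n ε z :=
      (χ.continuous.mul (continuous_je n hε)).integrable_of_hasCompactSupport
        χ.hasCompactSupport.mul_right
    have h3 : ∫ z : X, je n ε z = (∫ z, χ z * je n ε z) + ∫ z, (je n ε z - χ z * je n ε z) := by
      rw [integral_sub (je_integrable hn hX hε) h2]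
      ring
    rw [h3, ← h1]
    refine (abs_add_le _ _).trans (add_le_add ?_ ?_)
    · rw [← Real.norm_eq_abs]
      refine norm_integral_le_of_norm_le (μ := (volume : Measure X))
        ((ker_grad_cont hχ).norm.integrable_of_hasCompactSupport
        (ker_grad_supp χ.hasCompactSupport).norm) (ae_of_all _ fun z => ?_)
      by_cases hz : 1 ≤ ‖z‖
      · exact (norm_inner_le_norm _ _).trans
          (mul_le_of_le_one_right (norm_nonneg _) (ker_Ke_le n hz))
      · have h4 : (χ : X → ℝ) =ᶠ[𝓝 z] 1 := χ.eventuallyEq_one_of_mem_ball (by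
          rw [mem_ball_zero_iff]
          show ‖z‖ < 2
          linarith [not_le.1 hz])
        have h5 : gradient χ z = 0 := by
          rw [h4.gradient_eq]
          exact gradient_fun_const z 1
        simp [h5]
    · rw [← integral_indicator measurableSet_ball.compl, ← Real.norm_eq_abs]
      refine norm_integral_le_of_norm_le
        (IntegrableOn.integrable_indicator ((ker_far hX).const_mul n) measurableSet_ball.compl)
        (ae_of_all _ fun z => ?_)
      by_cases hz : z ∈ (ball (0 : X) 1)ᶜ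
      · rw [indicator_of_mem hz, ← one_sub_mul, norm_mul]
        refine (mul_le_of_le_one_left (norm_nonneg _) ?_).trans (je_le hn hε (ker_ne hz))
        rw [Real.norm_of_nonneg (sub_nonneg.2 χ.le_one)]
        linarith [χ.nonneg (x := z)]
      · rw [indicator_of_notMem hz, χ.one_of_mem_closedBall
          (closedBall_subset_closedBall (show (1 : ℝ) ≤ 2 by norm_num)
            (ball_subset_closedBall (not_notMem.1 hz)))]
        simp
  generalize (∫ z, ‖gradient χ z‖) + ∫ z in (ball (0 : X) 1)ᶜ, n * J n z = M at hb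
  have h1 : |∫ z : X, je n 1 z| ≤ 0 := by
    have ht : Tendsto (fun δ : ℝ => δ * M) (𝓝[>] 0) (𝓝 0) := by
      have hc : Continuous fun δ : ℝ => δ * M := by fun_prop
      simpa using (hc.tendsto (0 : ℝ)).mono_left (nhdsWithin_le_nhds (s := Ioi 0))
    refine ge_of_tendsto ht (eventually_nhdsWithin_of_forall fun δ hδ => ?_)
    rw [hs δ hδ, abs_mul, abs_of_pos hδ]
    exact mul_le_mul_of_nonneg_left (hb δ hδ) (le_of_lt hδ)
  have h2 := hs ε hε
  rw [abs_nonpos_iff.1 h1] at h2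
  exact (mul_eq_zero.1 h2.symm).resolve_left hε.ne'

theorem integral_gradient_eq_zero {Ψ : X → ℝ} (hΨ : ContDiff ℝ 1 Ψ) (hc : HasCompactSupport Ψ) :
    ∫ x, gradient Ψ x = 0 := by
  refine ext_inner_left ℝ fun v => ?_
  have h1 := ker_ibp hΨ hc (g := fun _ => 1) (g' := fun _ => 0) continuous_const continuous_const
    (v := v) fun x => hasDerivAt_const (0 : ℝ) (1 : ℝ)
  rw [← integral_inner ((ker_grad_cont hΨ).integrable_of_hasCompactSupport (ker_grad_supp hc)),
    inner_zero_right]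
  simpa only [mul_one, mul_zero, integral_zero, neg_zero, real_inner_comm v] using h1

end Vale.Agent.P120
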