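import Vale.Agent.P120.Form
import Vale.Agent.P120.Ker

/-!
Fubini identities for convolutions, used in the proof that the density is constant.
-/

open MeasureTheory Metric Set Filter Topology
open scoped RealInnerProductSpace ENNReal NNReal

noncomputable section

namespace Vale.Agent.P120

variable {X : Type} [NormedAddCommGroup X] [InnerProductSpace ℝ X] [FiniteDimensional ℝ X]
  [MeasurableSpace X] [BorelSpace X]

theorem const_adj {f g h : X → ℝ} (hf : Integrable f) (hg : Integrable g) (hh : Measurable h)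
    {B : ℝ} (hB : ∀ y, |h y| ≤ B) :
    ∫ b, (∫ s, f s * g (b - s)) * h b = ∫ s, f s * ∫ y, g y * h (y + s) := by
  have h1 : Integrable (fun p : X × X => f p.2 * g (p.1 - p.2) * h p.1)
      ((volume : Measure X).prod volume) :=
    (hf.convolution_integrand (ContinuousLinearMap.mul ℝ ℝ) hg).mul_bdd
      (hh.comp measurable_fst).aestronglyMeasurable (ae_of_all _ fun p => hB p.1)
  simp only [← integral_mul_const]
  rw [integral_integral_swap (f := fun b s => f s * g (b - s) * h b) h1]
  refine integral_congr_ae (ae_of_all _ fun s => ?_)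
  simp only [mul_assoc]
  rw [integral_const_mul, ← integral_add_right_eq_self (fun b => g (b - s) * h b) s]
  simp only [add_sub_cancel_right]

theorem const_swap {f g : X → ℝ} (hf : Integrable f) (hg : Integrable g) {K : X → X → ℝ}
    (hK : Measurable fun p : X × X => K p.1 p.2) {B : ℝ} (hB : ∀ a b, |K a b| ≤ B) :
    ∫ a, f a * ∫ b, g b * K a b = ∫ b, g b * ∫ a, f a * K a b := by
  have h1 : Integrable (fun p : X × X => f p.1 * g p.2 * K p.1 p.2)
      ((volume : Measure X).prod volume) :=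
    (hf.mul_prod hg).mul_bdd hK.aestronglyMeasurable (ae_of_all _ fun p => hB p.1 p.2)
  simp only [← integral_const_mul, ← mul_assoc]
  rw [integral_integral_swap (f := fun a b => f a * g b * K a b) h1]
  simp only [mul_comm (f _)]

theorem const_bdd {m g : X → ℝ} (hm : Integrable m) {B : ℝ} (hB : ∀ y, |g y| ≤ B) (y : X) :
    |∫ s, m s * g (y - s)| ≤ (∫ s, |m s|) * B := by
  rw [← integral_mul_const, ← Real.norm_eq_abs]
  refine norm_integral_le_of_norm_le (hm.abs.mul_const B) (ae_of_all _ fun s => ?_)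
  rw [norm_mul]
  exact mul_le_mul_of_nonneg_left (hB _) (abs_nonneg _)

theorem const_tri {ψ m g k : X → ℝ} (hψ : Integrable ψ) (hm : Integrable m) (hmc : Continuous m)
    (hg : Integrable g) (hk : Continuous k) {B : ℝ} (hB : ∀ z, |k z| ≤ B) :
    ∫ y, g y * ∫ x, (∫ w, ψ w * m (w - x)) * k (x - y) =
      ∫ w, ψ w * ∫ b, (∫ s, m s * g (b - s)) * k (w - b) := by
  have hH : Measurable fun z : X => ∫ s, m s * k (z - s) :=
    (StronglyMeasurable.integral_prod_right' (ν := (volume : Measure X))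
      (f := fun p : X × X => m p.2 * k (p.1 - p.2))
      (Continuous.stronglyMeasurable (by fun_prop))).measurable
  have h1 : ∀ y, ∫ x, (∫ w, ψ w * m (w - x)) * k (x - y) =
      ∫ w, ψ w * ∫ s, m s * k (w - y - s) := by
    intro y
    have := const_adj (g := fun t => m (-t)) (h := fun x => k (x - y)) hψ hm.comp_neg
      (Continuous.measurable (by fun_prop)) fun x => hB _
    simp only [neg_sub] at this
    rw [this]
    refine integral_congr_ae (ae_of_all _ fun w => congrArg (ψ w * ·) ?_)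
    rw [← integral_neg_eq_self]
    refine integral_congr_ae (ae_of_all _ fun s => ?_)
    simp only [neg_neg]
    rw [show -s + w - y = w - y - s by abel]
  have h2 : ∀ w, ∫ b, (∫ s, m s * g (b - s)) * k (w - b) =
      ∫ y, g y * ∫ s, m s * k (w - y - s) := by
    intro w
    rw [const_adj (h := fun b => k (w - b)) hm hg (Continuous.measurable (by fun_prop))
      fun x => hB _, const_swap (K := fun s y => k (w - (y + s))) hm hg
        (Continuous.measurable (by fun_prop)) fun _ _ => hB _]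
    simp only [sub_sub]
  simp only [h1, h2]
  exact const_swap (K := fun y w => ∫ s, m s * k (w - y - s)) hg hψ
    (hH.comp (measurable_snd.sub measurable_fst)) fun _ _ => const_bdd hm hB _

theorem const_sym {ψ u k : X → ℝ} (hψ : Integrable ψ) (hu : Measurable u) {B : ℝ}
    (hB : ∀ y, |u y| ≤ B) (hk : Integrable k) (hn : ∀ z, k (-z) = k z) (h0 : ∫ z, k z = 0) :
    ∫ w, ψ w * ∫ b, u b * k (w - b) = -(1 / 2) * ∫ p : X × X,
      k (p.1 - p.2) * ((u p.1 - u p.2) * (ψ p.1 - ψ p.2)) ∂((volume : Measure X).prod volume) := by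
  have hs : ∀ a b : X, k (a - b) = k (b - a) := fun a b => by rw [← hn, neg_sub]
  have h1 : Integrable (fun p : X × X => ψ p.1 * k (p.1 - p.2))
      ((volume : Measure X).prod volume) := by
    simp only [hs (Prod.fst _)]
    exact (hψ.convolution_integrand (ContinuousLinearMap.mul ℝ ℝ) hk).swap
  have h2 := h1.mul_bdd (hu.comp measurable_fst).aestronglyMeasurable
    (ae_of_all _ fun p => hB p.1)
  have h3 := h1.mul_bdd (hu.comp measurable_snd).aestronglyMeasurable
    (ae_of_all _ fun p => hB p.2)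
  simp only [Function.comp] at h2 h3
  have h4 : ∫ p : X × X, ψ p.1 * k (p.1 - p.2) * u p.1 ∂((volume : Measure X).prod volume) = 0 := by
    rw [integral_prod _ h2]
    simp only [integral_mul_const, integral_const_mul, integral_sub_left_eq_self k volume, h0,
      mul_zero, zero_mul, integral_zero]
  have h5 : ∫ p : X × X, ψ p.1 * k (p.1 - p.2) * u p.2 ∂((volume : Measure X).prod volume) =
      ∫ w, ψ w * ∫ b, u b * k (w - b) := by
    rw [integral_prod _ h3]
    simp only [mul_assoc, integral_const_mul, mul_comm (k _)]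
  have h6 := integral_sub h2 h3
  have h7 := integral_prod_swap (μ := (volume : Measure X)) (ν := (volume : Measure X))
    fun p : X × X => ψ p.1 * k (p.1 - p.2) * u p.1 - ψ p.1 * k (p.1 - p.2) * u p.2
  have h8 := integral_add (h2.sub h3) (h2.sub h3).swap
  simp only [Pi.sub_apply, Function.comp] at h8
  rw [h7, h6, h4, h5] at h8
  have h9 : ∫ p : X × X, k (p.1 - p.2) * ((u p.1 - u p.2) * (ψ p.1 - ψ p.2))
      ∂((volume : Measure X).prod volume) = _ := (integral_congr_ae (ae_of_all _ fun p => by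
    simp only [Prod.fst_swap, Prod.snd_swap, hs p.2]
    ring)).trans h8
  rw [h9]
  ring

theorem const_Ke_le (n : ℕ) {ε : ℝ} (hε : 0 < ε) (z : X) : ‖Ke n ε z‖ ≤ (ε ^ n)⁻¹ := by
  have h1 := ker_le (ε := ε) z
  have h2 : ε ≤ √(ε ^ 2 + ‖z‖ ^ 2) := Real.le_sqrt_of_sq_le (by nlinarith [sq_nonneg ‖z‖])
  unfold Ke
  generalize √(ε ^ 2 + ‖z‖ ^ 2) = s at h1 h2
  have h3 : 0 < s := hε.trans_le h2
  rw [norm_smul, norm_inv, norm_pow, Real.norm_of_nonneg h3.le]
  refine (mul_le_mul_of_nonneg_left h1 (by positivity)).trans ?_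
  rw [pow_succ, mul_inv, mul_assoc, inv_mul_cancel₀ h3.ne', mul_one]
  exact inv_anti₀ (by positivity) (pow_le_pow_left₀ hε.le h2 n)

theorem const_je_le (n : ℕ) {ε : ℝ} (hε : 0 < ε) (z : X) :
    |je n ε z| ≤ (n + 1) * (ε ^ (n + 1))⁻¹ := by
  have h2 : ε ≤ √(ε ^ 2 + ‖z‖ ^ 2) := Real.le_sqrt_of_sq_le (by nlinarith [sq_nonneg ‖z‖])
  have h4 : √(ε ^ 2 + ‖z‖ ^ 2) ^ 2 = ε ^ 2 + ‖z‖ ^ 2 := Real.sq_sqrt (by positivity)
  unfold je
  generalize √(ε ^ 2 + ‖z‖ ^ 2) = s at h2 h4
  have h3 : 0 < s := hε.trans_le h2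
  have h5 : |‖z‖ ^ 2 - n * ε ^ 2| ≤ (n + 1) * s ^ 2 := by
    have : (0 : ℝ) ≤ n := Nat.cast_nonneg n
    rw [h4, abs_le]
    constructor <;> nlinarith [sq_nonneg ε, sq_nonneg ‖z‖]
  rw [abs_div, abs_of_pos (pow_pos h3 _), div_le_iff₀ (pow_pos h3 _)]
  refine h5.trans ?_
  have h7 : 1 ≤ (ε ^ (n + 1))⁻¹ * s ^ (n + 1) := by
    rw [inv_mul_eq_div, one_le_div (pow_pos hε _)]
    exact pow_le_pow_left₀ hε.le h2 _
  rw [show s ^ (n + 3) = s ^ (n + 1) * s ^ 2 by ring]
  have h8 : 0 ≤ (n + 1) * s ^ 2 := by positivity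
  nlinarith

theorem const_Psi {m ψ : X → ℝ} (hm : ContDiff ℝ 1 m) (hmc : HasCompactSupport m)
    (hψ : Continuous ψ) (hψc : HasCompactSupport ψ) :
    ContDiff ℝ 1 (fun x => ∫ w, ψ w * m (w - x)) ∧
      HasCompactSupport fun x => ∫ w, ψ w * m (w - x) := by
  have h1 : (fun x => ∫ w, ψ w * m (w - x)) =
      convolution ψ (fun t => m (-t)) (ContinuousLinearMap.mul ℝ ℝ) volume := by
    funext x
    simp only [convolution, ContinuousLinearMap.mul_apply', neg_sub]
  have h2 : HasCompactSupport fun t => m (-t) := hmc.comp_homeomorph (Homeomorph.neg X)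
  rw [h1]
  exact ⟨h2.contDiff_convolution_right (n := 1) _ hψ.locallyIntegrable (hm.comp contDiff_neg),
    hψc.convolution _ h2⟩

theorem const_int {g : X → ℝ} (hg : Measurable g) {B S : ℝ} (hB : ∀ y, |g y| ≤ B)
    (hS : ∀ y, S ≤ ‖y‖ → g y = 0) : Integrable g := by
  refine (form_ind (μ := (volume : Measure X)) 0 S B).mono' hg.aestronglyMeasurable
    (ae_of_all _ fun y => ?_)
  by_cases hy : y ∈ ball (0 : X) S
  · rw [indicator_of_mem hy]
    exact hB y
  · rw [indicator_of_notMem hy, hS y (by simpa using hy), norm_zero]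

theorem const_lip {m g : X → ℝ} (hm : ContDiff ℝ 1 m) (hmc : HasCompactSupport m)
    (hg : Measurable g) {B S : ℝ} (hB : ∀ y, |g y| ≤ B) (hS : ∀ y, S ≤ ‖y‖ → g y = 0) :
    ∃ L, LipschitzWith L fun y => ∫ s, m s * g (y - s) := by
  have h2 : HasCompactSupport g :=
    hasCompactSupport_of_zero (x := 0) (ρ := S) fun y hy => hS y (by simpa using hy)
  exact ContDiff.lipschitzWith_of_hasCompactSupport
    (hmc.convolution (ContinuousLinearMap.mul ℝ ℝ) (μ := volume) h2)
    (hmc.contDiff_convolution_left (n := 1) (ContinuousLinearMap.mul ℝ ℝ) hm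
      (const_int hg hB hS).locallyIntegrable) one_ne_zero

theorem const_inner (a b : ℝ) : ⟪a, b⟫ = a * b := by
  simp [mul_comm]

/-- Integrability of the full form and the size of its tail. -/
theorem const_tail {n : ℕ} (hX : Module.finrank ℝ X = n) : ∃ Cf : ℝ, 0 < Cf ∧
    ∀ (u ψ : X → ℝ) (L L' : ℝ≥0) (B ρ : ℝ), LipschitzWith L' u → (∀ y, |u y| ≤ B) →
      LipschitzWith L ψ → (∀ y, ρ ≤ dist y 0 → ψ y = 0) →
      Integrable (fun p : X × X => J n (p.1 - p.2) * ((u p.1 - u p.2) * (ψ p.1 - ψ p.2)))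
        ((volume : Measure X).prod volume) ∧
      ∀ R : ℝ, 0 < R → |En n (volume : Measure X) (cut R) u ψ -
        En n (volume : Measure X) (fun _ => 1) u ψ| ≤ Cf * (B * ∫ y, |ψ y|) / R := by
  obtain ⟨C, hC, hv⟩ := reg_volume hX
  have hU := (hv 0 1).up
  obtain ⟨Cf, hCf, h⟩ := form_dom (X := X) n hC
  refine ⟨Cf * 2, by positivity, fun u ψ L L' B ρ hu hB hψ hz => ?_⟩
  have hB0 : 0 ≤ B := (abs_nonneg _).trans (hB 0)
  have hψi : Integrable ψ :=
    hψ.continuous.integrable_of_hasCompactSupport (hasCompactSupport_of_zero hz)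
  have hfar : ∀ p : X × X, |J n (p.1 - p.2) * ((u p.1 - u p.2) * (ψ p.1 - ψ p.2))| ≤
      (2 * B * |ψ p.1| + 2 * B * |ψ p.2|) * J n (p.1 - p.2) := by
    intro p
    rw [abs_mul, abs_of_nonneg (J_nonneg _ _), mul_comm, abs_mul, ← mul_add]
    refine mul_le_mul_of_nonneg_right (mul_le_mul ?_ (abs_sub _ _) (abs_nonneg _)
      (by positivity)) (J_nonneg _ _)
    linarith [abs_sub (u p.1) (u p.2), hB p.1, hB p.2]
  have hm : Measurable fun p : X × X => J n (p.1 - p.2) * ((u p.1 - u p.2) * (ψ p.1 - ψ p.2)) := by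
    have := hu.continuous
    have := hψ.continuous
    exact ((measurable_J n).comp measurable_sub).mul (Continuous.measurable (by fun_prop))
  have hI : Integrable (fun p : X × X => J n (p.1 - p.2) * ((u p.1 - u p.2) * (ψ p.1 - ψ p.2)))
      ((volume : Measure X).prod volume) := by
    refine (h _ hU _ _ (form_ind 0 ρ (L' * L)) (hψi.abs.const_mul (2 * B))
      (indicator_nonneg fun _ _ => by positivity) (fun _ => by positivity) 1 one_pos _
      hm.aestronglyMeasurable (fun p _ => ?_) fun p _ => hfar p).1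
    refine form_pair (by positivity) (mul_nonneg (J_nonneg _ _) (sq_nonneg _)) (fun _ => ?_)
      fun h1 h2 => by simp [hz _ h1, hz _ h2]
    have := form_lip (n := n) (hu.norm_sub_le p.1 p.2) (hψ.norm_sub_le p.1 p.2) abs_one.le
    rwa [one_mul, const_inner] at this
  refine ⟨hI, fun R hR => ?_⟩
  have hc : Measurable fun p : X × X => cut R ‖p.1 - p.2‖ :=
    (continuous_cut R).measurable.comp measurable_sub.norm
  have hI' := hI.bdd_mul (c := 1) hc.aestronglyMeasurable (ae_of_all _ fun p => by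
    rw [Real.norm_of_nonneg (cut_nonneg _ _)]; exact cut_le_one _ _)
  simp only [En, const_inner, one_mul]
  rw [← integral_sub hI' hI]
  refine abs_integral_le_integral_abs.trans ((h _ hU 0 _ (integrable_zero _ _ _)
    (hψi.abs.const_mul (2 * B)) (fun _ => le_rfl) (fun _ => by positivity) R hR _
    ((hc.mul hm).sub hm).abs.aestronglyMeasurable (fun p hp => ?_) fun p _ => ?_).2.trans_eq ?_)
  · simp [cut_eq_one hR hp.le]
  · simp only [Pi.sub_apply, Pi.mul_apply]
    rw [abs_abs, ← sub_one_mul, abs_mul]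
    refine (mul_le_of_le_one_left (abs_nonneg _) ?_).trans (hfar p)
    rw [abs_le]
    constructor <;> linarith [cut_nonneg R ‖p.1 - p.2‖, cut_le_one R ‖p.1 - p.2‖]
  · simp only [Pi.zero_apply, integral_zero, mul_zero, zero_add, integral_const_mul]
    ring

theorem const_dct {n : ℕ} (hn : 1 ≤ n) {u ψ : X → ℝ} (hu : Continuous u) (hψ : Continuous ψ)
    (hI : Integrable (fun p : X × X => J n (p.1 - p.2) * ((u p.1 - u p.2) * (ψ p.1 - ψ p.2)))
      ((volume : Measure X).prod volume)) :
    Tendsto (fun ε : ℝ => ∫ p : X × X, je n ε (p.1 - p.2) * ((u p.1 - u p.2) * (ψ p.1 - ψ p.2))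
      ∂((volume : Measure X).prod volume)) (𝓝[>] 0)
      (𝓝 (∫ p : X × X, J n (p.1 - p.2) * ((u p.1 - u p.2) * (ψ p.1 - ψ p.2))
        ∂((volume : Measure X).prod volume))) := by
  refine tendsto_integral_filter_of_dominated_convergence _
    (eventually_nhdsWithin_of_forall fun ε hε => ?_)
    (eventually_nhdsWithin_of_forall fun ε hε => ae_of_all _ fun p => ?_)
    (hI.norm.const_mul n) (ae_of_all _ fun p => ?_)
  · have := continuous_je (X := X) n hε
    exact Continuous.aestronglyMeasurable (by fun_prop)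
  · by_cases hp : p.1 - p.2 = 0
    · simp [sub_eq_zero.1 hp]
    · rw [norm_mul, norm_mul (J _ _), ← mul_assoc, Real.norm_of_nonneg (J_nonneg _ _)]
      exact mul_le_mul_of_nonneg_right (je_le hn hε hp) (norm_nonneg _)
  · by_cases hp : p.1 - p.2 = 0
    · simp [sub_eq_zero.1 hp]
    · exact (je_tendsto n hp).mul_const _

end Vale.Agent.P120
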