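import Vale.Agent.P120.Cacc

/-!
Liouville theorem for the half Laplacian modulo constants, by Caccioppoli and finite differences.
-/

open MeasureTheory Metric Set Filter Topology
open scoped RealInnerProductSpace ENNReal NNReal

noncomputable section

namespace Vale.Agent.P120

variable {X : Type} [NormedAddCommGroup X] [InnerProductSpace ℝ X] [FiniteDimensional ℝ X]
  [MeasurableSpace X] [BorelSpace X]
variable {F : Type} [NormedAddCommGroup F] [InnerProductSpace ℝ F] [FiniteDimensional ℝ F]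


lemma Liou_locLip_add {U : X → F} (hU : LocLip U) (v : X) : LocLip fun q => U (q + v) := by
  intro R
  obtain ⟨L, hL⟩ := hU.on_ball v R
  refine ⟨L, LipschitzOnWith.of_dist_le_mul fun x hx y hy => ?_⟩
  have h1 : ∀ z ∈ ball (0 : X) R, z + v ∈ ball v R := fun z hz => by
    simpa [mem_ball, dist_eq_norm] using hz
  simpa using hL.dist_le_mul _ (h1 x hx) _ (h1 y hy)

lemma Liou_En_add (n : ℕ) (w : ℝ → ℝ) (U ψ : X → F) (v : X) :
    En n (volume : Measure X) w (fun q => U (q + v)) ψ =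
      En n (volume : Measure X) w U (fun q => ψ (q - v)) := by
  unfold En
  rw [← integral_add_right_eq_self (μ := (volume : Measure X).prod volume) (fun p : X × X =>
    w ‖p.1 - p.2‖ * (J n (p.1 - p.2) * ⟪U p.1 - U p.2, ψ (p.1 - v) - ψ (p.2 - v)⟫)) (v, v)]
  simp



/-- Translation invariance: `En (cut R) (U(·+v)) ψ = En (cut R) U (ψ(·-v))` and the same for `EE`
(`MeasurePreserving.prod` of translations), `En_sub_left`, `Test.mono`. -/
theorem har_diff_osc {n : ℕ} (hX : Module.finrank ℝ X = n) {U : X → F} {a : ℝ} (h : Har n U a)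
    (v : X) (A : ℝ) : Osc n (volume : Measure X) (fun q => U (q + v) - U q) 0 A 0 := by
  obtain ⟨C, hC, hreg⟩ := reg_volume hX
  have hU := (hreg 0 0).up
  intro ψ hψ η hη
  obtain ⟨L, hL⟩ := hψ.lip
  have hψ' : Test volume (fun q => ψ (q - v)) 0 (A + ‖v‖) := by
    refine ⟨⟨L, LipschitzWith.of_dist_le_mul fun x y => ?_⟩, fun y hy => hψ.zero _ ?_, ?_⟩
    · simpa using hL.dist_le_mul (x - v) (y - v)
    · rw [dist_zero_right] at hy ⊢
      linarith [norm_sub_norm_le y v]
    · rw [integral_sub_right_eq_self ψ v, hψ.mean]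
  obtain ⟨R1, h1⟩ := h.har _ ψ hψ (η / 2) (half_pos hη)
  obtain ⟨R2, h2⟩ := h.har _ _ hψ' (η / 2) (half_pos hη)
  refine ⟨max 1 (max R1 R2), fun R hR => ?_⟩
  simp only [max_le_iff] at hR
  have e1 := h1 R hR.2.1
  have e2 := h2 R hR.2.2
  rw [En_sub_left hU hC (Liou_locLip_add h.lip v) h.lip hL hψ.zero (continuous_cut R).measurable
    (fun s => by rw [abs_of_nonneg (cut_nonneg _ _)]; exact cut_le_one _ _) (R := 2 * R)
    (fun s hs => cut_eq_zero (by linarith) hs), Liou_En_add]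
  rw [zero_mul, Real.sqrt_zero, zero_add] at e1 e2 ⊢
  linarith [abs_sub (En n volume (cut R) U fun q => ψ (q - v)) (En n volume (cut R) U ψ)]

/-- `cacc` with `reg_volume`, `G = G0 ρ^(2a)` (as `2a ≤ 5/2`, `t^(2a) ≤ ρ^(2a) (t/ρ)^(5/2)`). -/
theorem har_energy {n : ℕ} (hX : Module.finrank ℝ X = n) {U : X → F} {a : ℝ} (ha : a ≤ 5 / 4)
    (h : Har n U a) : ∃ G : ℝ, ∀ ρ : ℝ, 1 ≤ ρ →
      LE n (volume : Measure X) U 0 ρ ≤ G * ρ ^ ((n : ℝ) + 2 * a - 1) := by
  obtain ⟨C, hC, hreg⟩ := reg_volume hX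
  obtain ⟨Cc, hCc, hc⟩ := cacc (X := X) (F := F) n hC
  obtain ⟨G, hG⟩ := h.gr
  have hG0 : 0 ≤ G := by
    have h1 := hG 1 le_rfl
    rw [Real.one_rpow, mul_one] at h1
    exact (integral_nonneg fun _ => sq_nonneg _).trans h1
  refine ⟨Cc * G, fun ρ hρ => ?_⟩
  have hρ0 : 0 < ρ := by linarith
  have hgr : Gr n volume U 0 ρ (G * ρ ^ (2 * a)) := by
    intro t ht
    have ht0 : 0 < t := by linarith
    refine (hG t (by linarith)).trans ?_
    have h1 : (t / ρ) ^ (2 * a) ≤ (t / ρ) ^ (5 / 2 : ℝ) :=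
      Real.rpow_le_rpow_of_exponent_le ((one_le_div hρ0).2 ht) (by linarith)
    have h2 : t ^ (2 * a) = ρ ^ (2 * a) * (t / ρ) ^ (2 * a) := by
      rw [← Real.mul_rpow hρ0.le (by positivity), mul_div_cancel₀ _ hρ0.ne']
    rw [Real.rpow_add ht0, Real.rpow_natCast, h2]
    have h3 := mul_le_mul_of_nonneg_left h1 (by positivity : 0 ≤ G * ρ ^ (2 * a) * t ^ n)
    linarith
  have h1 := hc volume (hreg 0 ρ).up U h.lip 0 ρ _ 0 hρ0 (by positivity) le_rfl
    ((hreg 0 ρ).low 0 (hreg 0 ρ).mem (by simpa using hρ0) ρ hρ0 le_rfl) hgr (h.har _)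
  refine h1.trans (le_of_eq ?_)
  rw [Real.rpow_sub hρ0, Real.rpow_add hρ0, Real.rpow_natCast, Real.rpow_one]
  ring


lemma Liou_mp {α : Type} [MeasurableSpace α] {μ : Measure α} {f : α → α}
    (hf : MeasurePreserving f μ μ) {g : α → ℝ} (hg : Integrable g μ) :
    Integrable (fun x => g (f x)) μ ∧ ∫ x, g (f x) ∂μ = ∫ x, g x ∂μ := by
  refine ⟨hf.integrable_comp_of_integrable hg, ?_⟩
  rw [← integral_map hf.measurable.aemeasurable (by rw [hf.map_eq]; exact hg.aestronglyMeasurable),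
    hf.map_eq]

lemma Liou_J (n : ℕ) (U : X → F) {a b : X} {s : ℝ} (h : ‖a - b‖ ≤ s) :
    ‖U a - U b‖ ^ 2 ≤ s ^ (n + 1) * (J n (a - b) * ‖U a - U b‖ ^ 2) := by
  rcases eq_or_ne a b with rfl | hab
  · simp
  have h0 : 0 < ‖a - b‖ := norm_pos_iff.2 (sub_ne_zero.2 hab)
  rw [← mul_assoc]
  refine le_mul_of_one_le_left (sq_nonneg _) ?_
  rw [J, ← div_eq_mul_inv, one_le_div (by positivity)]
  exact pow_le_pow_left₀ h0.le h _

lemma Liou_diff_le {n : ℕ} (hX : Module.finrank ℝ X = n) {U : X → F} (hU : LocLip U) {v : X}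
    (hv : v ≠ 0) : ∃ K : ℝ, 0 ≤ K ∧ ∀ t : ℝ, ∫ q in ball (0 : X) t, ‖U (q + v) - U q‖ ^ 2 ≤
      K * LE n (volume : Measure X) U 0 (t + 2 * ‖v‖) := by
  obtain ⟨C, hC, hreg⟩ := reg_volume hX
  have hs : 0 < ‖v‖ := norm_pos_iff.2 hv
  have hm : 0 < (volume : Measure X).real (ball 0 ‖v‖) :=
    ENNReal.toReal_pos (measure_ball_pos _ _ hs).ne' measure_ball_lt_top.ne
  refine ⟨4 * (2 * ‖v‖) ^ (n + 1) / (volume : Measure X).real (ball 0 ‖v‖), by positivity,
    fun t => ?_⟩
  have hB : MeasurableSet (ball (0 : X) (t + 2 * ‖v‖) ×ˢ ball (0 : X) (t + 2 * ‖v‖)) :=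
    measurableSet_ball.prod measurableSet_ball
  have hH := (LE_integrable (hreg 0 0).up hC hU 0 (t + 2 * ‖v‖)).integrable_indicator hB
  have hLE := integral_indicator (μ := (volume : Measure X).prod volume)
    (f := fun p : X × X => J n (p.1 - p.2) * ‖U p.1 - U p.2‖ ^ 2) hB
  set H := (ball (0 : X) (t + 2 * ‖v‖) ×ˢ ball (0 : X) (t + 2 * ‖v‖)).indicator
    fun p : X × X => J n (p.1 - p.2) * ‖U p.1 - U p.2‖ ^ 2 with hHdef
  have hH0 : ∀ p, 0 ≤ H p := fun p =>
    indicator_nonneg (fun _ _ => mul_nonneg (J_nonneg _ _) (sq_nonneg _)) _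
  have m1 := measurePreserving_prod_add (volume : Measure X) (volume : Measure X)
  have m2 := ((measurePreserving_add_right (volume : Measure X) v).prod
    (MeasurePreserving.id (volume : Measure X))).comp m1
  obtain ⟨i1, e1⟩ := Liou_mp m1 hH
  obtain ⟨i2, e2⟩ := Liou_mp m2 hH
  simp only [Function.comp_apply, Prod.map, id] at i2 e2
  have key := integral_mono_of_nonneg (μ := (volume : Measure X).prod volume)
    (f := fun p : X × X => (ball (0 : X) t).indicator (fun q => ‖U (q + v) - U q‖ ^ 2) p.1 *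
      (ball (0 : X) ‖v‖).indicator (1 : X → ℝ) p.2)
    (Eventually.of_forall fun p => mul_nonneg (indicator_nonneg (fun _ _ => sq_nonneg _) _)
      (indicator_nonneg (by simp) _))
    ((i1.add i2).const_mul (2 * (2 * ‖v‖) ^ (n + 1))) (Eventually.of_forall fun p => by
      have h0 := hH0 (p.1, p.1 + p.2)
      have h0' := hH0 (p.1 + v, p.1 + p.2)
      simp only [Pi.add_apply]
      by_cases h1 : p.1 ∈ ball (0 : X) t
      swap
      · rw [indicator_of_notMem h1, zero_mul]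
        positivity
      by_cases h2 : p.2 ∈ ball (0 : X) ‖v‖
      swap
      · rw [indicator_of_notMem h2, mul_zero]
        positivity
      rw [indicator_of_mem h1, indicator_of_mem h2, Pi.one_apply, mul_one]
      rw [mem_ball_zero_iff] at h1 h2
      have b1 : p.1 ∈ ball (0 : X) (t + 2 * ‖v‖) := mem_ball_zero_iff.2 (by linarith)
      have b2 : p.1 + p.2 ∈ ball (0 : X) (t + 2 * ‖v‖) :=
        mem_ball_zero_iff.2 (by linarith [norm_add_le p.1 p.2])
      have b3 : p.1 + v ∈ ball (0 : X) (t + 2 * ‖v‖) :=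
        mem_ball_zero_iff.2 (by linarith [norm_add_le p.1 v])
      rw [hHdef, indicator_of_mem (mk_mem_prod b1 b2), indicator_of_mem (mk_mem_prod b3 b2)]
      have j1 := Liou_J n U (a := p.1) (b := p.1 + p.2) (s := 2 * ‖v‖) (by
        rw [sub_add_cancel_left, norm_neg]; linarith)
      have j2 := Liou_J n U (a := p.1 + v) (b := p.1 + p.2) (s := 2 * ‖v‖) (by
        rw [add_sub_add_left_eq_sub]; linarith [norm_sub_le v p.2])
      have j3 : ‖U (p.1 + v) - U p.1‖ ≤
          ‖U (p.1 + v) - U (p.1 + p.2)‖ + ‖U p.1 - U (p.1 + p.2)‖ := by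
        simpa only [dist_eq_norm] using dist_triangle_right (U (p.1 + v)) (U p.1) (U (p.1 + p.2))
      have j4 := pow_le_pow_left₀ (norm_nonneg _) j3 2
      nlinarith [sq_nonneg (‖U (p.1 + v) - U (p.1 + p.2)‖ - ‖U p.1 - U (p.1 + p.2)‖)])
  rw [integral_prod_mul ((ball (0 : X) t).indicator fun q => ‖U (q + v) - U q‖ ^ 2)
    ((ball (0 : X) ‖v‖).indicator (1 : X → ℝ)), integral_indicator measurableSet_ball,
    integral_indicator_one measurableSet_ball, integral_const_mul, integral_add' i1 i2, e1, e2,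
    hLE] at key
  rw [div_mul_eq_mul_div, le_div_iff₀ hm]
  unfold LE
  linarith



/-- For `v ≠ 0`, `s = ‖v‖`: average `‖U(q+v) - U q‖² ≤ 2‖U(q+v) - U z‖² + 2‖U z - U q‖²` over
`z ∈ ball q s`, use `‖·‖² ≤ (2s)^(n+1) J ‖·‖²`, and translate: `∫_{ball 0 t} ‖U(·+v) - U‖² ≲
s · LE U 0 (t + 2s)`; finally `(t + 2s)^b ≤ max 1 ((1+2s)^b) t^b` for `t ≥ 1`. -/
theorem har_diff {n : ℕ} (hX : Module.finrank ℝ X = n) {U : X → F} {a : ℝ} (ha : a ≤ 5 / 4)
    (h : Har n U a) (v : X) : Har n (fun q => U (q + v) - U q) (a - 1 / 2) := by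
  refine ⟨(Liou_locLip_add h.lip v).sub h.lip, ?_, har_diff_osc hX h v⟩
  rcases eq_or_ne v 0 with rfl | hv
  · exact ⟨0, fun t _ => by simp⟩
  obtain ⟨K, hK0, hK⟩ := Liou_diff_le hX h.lip hv
  obtain ⟨G, hG⟩ := har_energy hX ha h
  have hG0 : 0 ≤ G := by
    have h1 := hG 1 le_rfl
    rw [Real.one_rpow, mul_one] at h1
    exact (LE_nonneg _ _ _ _ _).trans h1
  have hs := norm_nonneg v
  set b := (n : ℝ) + 2 * a - 1 with hb
  refine ⟨K * (G * (1 + (1 + 2 * ‖v‖) ^ b)), fun t ht => ?_⟩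
  have e : (n : ℝ) + 2 * (a - 1 / 2) = b := by rw [hb]; ring
  have h1 : (t + 2 * ‖v‖) ^ b ≤ (1 + (1 + 2 * ‖v‖) ^ b) * t ^ b := by
    have p1 : 0 ≤ t ^ b := by positivity
    have p2 : 0 ≤ (1 + 2 * ‖v‖) ^ b * t ^ b := by positivity
    rcases le_total 0 b with h0 | h0
    · have : (t + 2 * ‖v‖) ^ b ≤ ((1 + 2 * ‖v‖) * t) ^ b :=
        Real.rpow_le_rpow (by positivity) (by nlinarith) h0
      rw [Real.mul_rpow (by positivity) (by positivity)] at this
      linarith
    · have : (t + 2 * ‖v‖) ^ b ≤ t ^ b :=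
        Real.rpow_le_rpow_of_nonpos (by linarith) (by linarith) h0
      linarith
  rw [e]
  calc _ ≤ K * (G * (t + 2 * ‖v‖) ^ b) :=
        (hK t).trans (mul_le_mul_of_nonneg_left (hG _ (by linarith)) hK0)
    _ ≤ K * (G * ((1 + (1 + 2 * ‖v‖) ^ b) * t ^ b)) := by gcongr
    _ = _ := by ring


lemma Liou_nonpos {x K b : ℝ} (hb : b < 0) {R : ℝ}
    (h : ∀ k : ℕ, R ≤ k → x ≤ K * (k : ℝ) ^ b) : x ≤ 0 := by
  have h1 := ((tendsto_rpow_neg_atTop (neg_pos.2 hb)).comp
    tendsto_natCast_atTop_atTop).const_mul K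
  rw [mul_zero, neg_neg] at h1
  refine ge_of_tendsto h1 ?_
  filter_upwards [(tendsto_natCast_atTop_atTop (R := ℝ)).eventually_ge_atTop R] with k hk
  exact h k hk

lemma Liou_base {n : ℕ} {U : X → F} {a : ℝ} (ha : (n : ℝ) + 2 * a < 0) (h : Har n U a) (q : X) :
    U q = 0 := by
  obtain ⟨G, hG⟩ := h.gr
  have hc : Continuous fun y => ‖U y‖ ^ 2 := h.lip.continuous.norm.pow 2
  have h0 : ∀ y, 0 ≤ ‖U y‖ ^ 2 := fun _ => sq_nonneg _
  have h1 : ∫ y in ball (0 : X) (‖q‖ + 1), ‖U y‖ ^ 2 ≤ 0 := by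
    refine Liou_nonpos (K := G) ha (R := ‖q‖ + 1) fun k hk => ?_
    refine le_trans ?_ (hG k (by linarith [norm_nonneg q]))
    exact setIntegral_mono_set (integrableOn_ball_of_continuous hc _ _) (Eventually.of_forall h0)
      (ball_subset_ball hk).eventuallyLE
  have h2 := (setIntegral_eq_zero_iff_of_nonneg_ae (Eventually.of_forall h0)
    (integrableOn_ball_of_continuous hc _ _)).1 (le_antisymm h1 (integral_nonneg h0))
  have h3 := Measure.eqOn_open_of_ae_eq h2 isOpen_ball hc.continuousOn continuousOn_const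
    (mem_ball_zero_iff.2 (lt_add_one ‖q‖))
  simpa using h3

lemma Liou_step {n : ℕ} (hX : Module.finrank ℝ X = n) {U : X → F} {a : ℝ} (ha : a < 1)
    (h : Har n U a) {v : X} {B : F} (hB : ∀ q, U (q + v) = U q + B) : B = 0 := by
  obtain ⟨C, hC, hreg⟩ := reg_volume hX
  obtain ⟨G, hG⟩ := h.gr
  have hc : Continuous fun y => ‖U y‖ ^ 2 := h.lip.continuous.norm.pow 2
  have hk : ∀ (k : ℕ) (q : X), U (q + (k : ℝ) • v) = U q + (k : ℝ) • B := by
    intro k
    induction k with
    | zero => simp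
    | succ k ih =>
      intro q
      rw [Nat.cast_succ, add_smul, add_smul, one_smul, one_smul, ← add_assoc, hB, ih, add_assoc]
  have hs := norm_nonneg v
  have key : ‖B‖ ^ 2 ≤ 0 := by
    refine Liou_nonpos (K := 4 * C * G * (1 + ‖v‖) ^ ((n : ℝ) + 2 * a)) (b := 2 * a - 2)
      (by linarith) (R := 1) fun k hk1 => ?_
    have hk0 : (0 : ℝ) < k := by linarith
    have hi := (integrableOn_ball_of_continuous (μ := volume) hc 0
      ((1 + ‖v‖) * k)).integrable_indicator measurableSet_ball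
    have h1 := hG ((1 + ‖v‖) * k) (by nlinarith)
    rw [← integral_indicator measurableSet_ball] at h1
    set H := (ball (0 : X) ((1 + ‖v‖) * k)).indicator fun y => ‖U y‖ ^ 2 with hH
    have hH0 : ∀ y, 0 ≤ H y := fun y => indicator_nonneg (fun _ _ => sq_nonneg _) _
    have h2 := integral_mono_of_nonneg (μ := volume)
      (f := (ball (0 : X) k).indicator fun _ => (k : ℝ) ^ 2 * ‖B‖ ^ 2)
      (Eventually.of_forall fun y => indicator_nonneg (fun _ _ => by positivity) _)
      (((hi.comp_add_right ((k : ℝ) • v)).add hi).const_mul 2) (Eventually.of_forall fun y => by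
        have p1 := hH0 y
        have p2 := hH0 (y + (k : ℝ) • v)
        simp only [Pi.add_apply]
        by_cases hy : y ∈ ball (0 : X) k
        swap
        · rw [indicator_of_notMem hy]
          positivity
        rw [indicator_of_mem hy]
        rw [mem_ball_zero_iff] at hy
        have b1 : y ∈ ball (0 : X) ((1 + ‖v‖) * k) := mem_ball_zero_iff.2 (by nlinarith)
        have b2 : y + (k : ℝ) • v ∈ ball (0 : X) ((1 + ‖v‖) * k) := mem_ball_zero_iff.2 (by
          have := norm_add_le y ((k : ℝ) • v)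
          rw [norm_smul, Real.norm_of_nonneg hk0.le] at this
          linarith)
        rw [hH, indicator_of_mem b1, indicator_of_mem b2]
        have j1 : k * ‖B‖ ≤ ‖U (y + (k : ℝ) • v)‖ + ‖U y‖ := by
          have := norm_sub_le (U (y + (k : ℝ) • v)) (U y)
          rwa [hk k y, add_sub_cancel_left, norm_smul, Real.norm_of_nonneg hk0.le,
            ← hk k y] at this
        have j2 := pow_le_pow_left₀ (by positivity) j1 2
        nlinarith [sq_nonneg (‖U (y + (k : ℝ) • v)‖ - ‖U y‖)])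
    rw [integral_indicator_const _ measurableSet_ball, smul_eq_mul, integral_const_mul,
      integral_add' (hi.comp_add_right _) hi, integral_add_right_eq_self H] at h2
    have h3 := (hreg 0 k).real_ge (hreg 0 k).mem (by simpa using hk0) hk0 le_rfl
    have h4 := mul_le_mul_of_nonneg_right h3 (by positivity : 0 ≤ (k : ℝ) ^ 2 * ‖B‖ ^ 2)
    have h5 : (k : ℝ) ^ ((n : ℝ) + 2 * a) = k ^ (2 * a - 2) * (k ^ n * k ^ 2) := by
      rw [← Real.rpow_natCast _ n, ← Real.rpow_natCast _ 2, ← Real.rpow_add hk0,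
        ← Real.rpow_add hk0]
      congr 1
      push_cast
      ring
    rw [Real.mul_rpow (by positivity) hk0.le, h5] at h1
    have h6 : (k : ℝ) ^ n / C * (k ^ 2 * ‖B‖ ^ 2) ≤
        4 * (G * ((1 + ‖v‖) ^ ((n : ℝ) + 2 * a) * (k ^ (2 * a - 2) * (k ^ n * k ^ 2)))) := by
      linarith
    rw [div_mul_eq_mul_div, div_le_iff₀ hC] at h6
    refine le_of_mul_le_mul_right ?_ (by positivity : (0 : ℝ) < k ^ n * k ^ 2)
    linarith
  simpa using le_antisymm key (sq_nonneg _)

lemma Liou_ind {n : ℕ} (hX : Module.finrank ℝ X = n) (j : ℕ) : ∀ (U : X → F) (a : ℝ), a < 1 →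
    (n : ℝ) + 2 * a < j → Har n U a → ∀ q, U q = U 0 := by
  induction j with
  | zero =>
    intro U a _ hj h q
    rw [Liou_base (by simpa using hj) h q, Liou_base (by simpa using hj) h 0]
  | succ j ih =>
    intro U a ha hj h v
    have h1 := ih _ (a - 1 / 2) (by linarith) (by push_cast at hj; linarith)
      (har_diff hX (by linarith) h v)
    have h2 := Liou_step hX ha h (v := v) (B := U v - U 0) fun q => by
      have := h1 q
      rw [zero_add] at this
      rw [← this, add_sub_cancel]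
    exact sub_eq_zero.1 h2



/-- Induction on `j`: for all `a < 1` with `n + 2a - 1 < j`. If `n + 2a - 1 < 0` then
`LE U 0 ρ → 0`, `LE` is monotone (`LE_mono`), so it vanishes and the continuous `U` is constant.
Step: `U(·+v) - U` is a constant `B`, so `U(q + k v) = U q + k B`, and
`k² ‖B‖² vol(ball 0 k) ≲ k^(n+2a)` forces `B = 0`. -/
theorem liou_const {n : ℕ} (hX : Module.finrank ℝ X = n) {U : X → F} {a : ℝ} (ha : a < 1)
    (h : Har n U a) (q : X) : U q = U 0 := by
  obtain ⟨j, hj⟩ := exists_nat_gt ((n : ℝ) + 2 * a)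
  exact Liou_ind hX j U a ha hj h q

/-- `v ↦ U v - U 0` is additive and continuous (`AddMonoidHom.toRealLinearMap`). -/
theorem liou_affine {n : ℕ} (hX : Module.finrank ℝ X = n) {U : X → F} (h : Har n U (5 / 4)) :
    ∃ T : X →L[ℝ] F, ∀ q, U q = U 0 + T q := by
  have h1 : ∀ q v, U (q + v) - U q = U v - U 0 := fun q v => by
    simpa using liou_const hX (by norm_num) (har_diff hX le_rfl h v) q
  let T : X →+ F := AddMonoidHom.mk' (fun v => U v - U 0) fun q v => by
    rw [← h1 q v]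
    abel
  exact ⟨T.toRealLinearMap (h.lip.continuous.sub continuous_const), fun q =>
    (add_sub_cancel (U 0) (U q)).symm⟩

end Vale.Agent.P120
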