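import Vale.Agent.P120.Weak
import Vale.Agent.P120.Ker
import Vale.Agent.P120.Liou
import Vale.Agent.P120.ConstA

/-!
The density of a reflectionless measure in dimension `n` is constant.
-/

open MeasureTheory Metric Set Filter Topology
open scoped RealInnerProductSpace ENNReal NNReal

noncomputable section

namespace Vale.Agent.P120

variable {X : Type} [NormedAddCommGroup X] [InnerProductSpace ℝ X] [FiniteDimensional ℝ X]
  [MeasurableSpace X] [BorelSpace X]
variable {F : Type} [NormedAddCommGroup F] [InnerProductSpace ℝ F] [FiniteDimensional ℝ F]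

/-- Bilinear identity. With `Ψ x = ∫ ψ w * m (w - x) dw` (a convolution, `C¹` with compact support,
`HasCompactSupport.contDiff_convolution_right`) and `g' y = ∫ m s * g (y - s) ds`:
`∬ g(y) ⟪∇Ψ x, Ke(x-y)⟫ = ∬ Ψ(x) je(x-y) g(y) = ∬ ψ(w) je(w-y) g'(y)` (`je_ibp`, Fubini,
translation) `= -½ ∬ je(a-b) (g' a - g' b)(ψ a - ψ b)` (`je_integral_zero`, `je_neg`), which tends
to `-½ En 1 g' ψ` (dominated convergence with `je_le`, `je_tendsto`; `g'` is bounded Lipschitz). -/
theorem conv_limit {n : ℕ} (hn : 1 ≤ n) (hX : Module.finrank ℝ X = n) {m : X → ℝ}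
    (hm : ContDiff ℝ 1 m) (hmc : HasCompactSupport m) {ψ : X → ℝ} {L : ℝ≥0}
    (hψ : LipschitzWith L ψ) {ρ : ℝ} (hz : ∀ y, ρ ≤ dist y 0 → ψ y = 0) {g : X → ℝ}
    (hg : Measurable g) {B S : ℝ} (hB : ∀ y, |g y| ≤ B) (hS : ∀ y, S ≤ ‖y‖ → g y = 0) :
    Tendsto (fun ε : ℝ => ∫ p : X × X,
        g p.2 * ⟪gradient (fun x => ∫ w, ψ w * m (w - x)) p.1, Ke n ε (p.1 - p.2)⟫
          ∂((volume : Measure X).prod volume)) (𝓝[>] 0)
      (𝓝 (-(1 / 2) * En n (volume : Measure X) (fun _ => 1)
        (fun y => ∫ s, m s * g (y - s)) ψ)) := by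
  have hψc := hasCompactSupport_of_zero hz
  have hψi : Integrable ψ := hψ.continuous.integrable_of_hasCompactSupport hψc
  have hmi : Integrable m := hm.continuous.integrable_of_hasCompactSupport hmc
  have hgi := const_int hg hB hS
  obtain ⟨h1, h2⟩ := const_Psi hm hmc hψ.continuous hψc
  obtain ⟨L', hL'⟩ := const_lip hm hmc hg hB hS
  have hB' := const_bdd hmi hB
  obtain ⟨Cf, -, ht⟩ := const_tail hX
  have hI := (ht _ ψ L L' _ ρ hL' hB' hψ hz).1
  have hid : ∀ ε : ℝ, 0 < ε → ∫ p : X × X,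
      g p.2 * ⟪gradient (fun x => ∫ w, ψ w * m (w - x)) p.1, Ke n ε (p.1 - p.2)⟫
        ∂((volume : Measure X).prod volume) = -(1 / 2) * ∫ p : X × X, je n ε (p.1 - p.2) *
          (((∫ s, m s * g (p.1 - s)) - ∫ s, m s * g (p.2 - s)) * (ψ p.1 - ψ p.2))
            ∂((volume : Measure X).prod volume) := by
    intro ε hε
    rw [← const_sym hψi hL'.continuous.measurable hB' (je_integrable hn hX hε) (je_neg n ε)
      (je_integral_zero hn hX hε),
      ← const_tri hψi hmi hm.continuous hgi (continuous_je n hε) (const_je_le n hε),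
      integral_prod_symm]
    · simp only [integral_const_mul, je_ibp hX hε h1 h2]
    · have a1 := ker_grad_cont h1
      have a2 := continuous_Ke (X := X) n hε
      refine ((((a1.norm.integrable_of_hasCompactSupport (ker_grad_supp h2).norm).mul_prod
        hgi.norm).mul_const (ε ^ n)⁻¹)).mono' ((hg.comp measurable_snd).mul
          (Continuous.measurable (by fun_prop))).aestronglyMeasurable (ae_of_all _ fun p => ?_)
      rw [norm_mul, mul_comm, mul_right_comm]
      exact mul_le_mul_of_nonneg_right ((norm_inner_le_norm _ _).trans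
        (mul_le_mul_of_nonneg_left (const_Ke_le n hε _) (norm_nonneg _))) (norm_nonneg _)
  refine Tendsto.congr' (eventually_nhdsWithin_of_forall fun ε hε => (hid ε hε).symm)
    (Tendsto.const_mul _ ?_)
  simp only [En, const_inner, one_mul]
  exact const_dct hn hL'.continuous hψ.continuous hI

/-- `θ' y = ∫ m s * θ (y - s) ds` is bounded and Lipschitz. For a test `ψ`, let `Φ = ∇Ψ`,
`f = θ⁻¹ • Φ` (bounded, measurable, `∫ f dσ = ∫ Φ = 0` by `integral_gradient_eq_zero`). By
`weak_zero` (rewrite `σ.prod σ` with `prod_withDensity` or by Fubini) and `conv_limit` with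
`g = cut S ‖·‖ * θ`: `|En 1 g' ψ| ≤ 2η` for `S ≥ S0`. And `g' = θ'` on `ball 0 (S - M)` (`M` the
radius of the support of `m`), so for `S ≥ ρ + 2R + M`, `En (cut R) θ' ψ = En (cut R) g' ψ`
differs from `En 1 g' ψ` by `≲ sup|g'| ∫|ψ| / R` (`ann_far`). -/
theorem dens_har {n : ℕ} (hn : 1 ≤ n) (hX : Module.finrank ℝ X = n) {σ : Measure X} {C : ℝ}
    (hU : Up n σ C) (hC : 0 < C) (hRB : RB n σ C) (hR : Ref n σ) (h0 : (0 : X) ∈ σ.support)
    {θ : X → ℝ} {c C' : ℝ} (hθ : Measurable θ) (hc : 0 < c) (hb : ∀ y, c ≤ θ y ∧ θ y ≤ C')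
    (hσ : σ = (volume : Measure X).withDensity (fun y => ENNReal.ofReal (θ y))) {m : X → ℝ}
    (hm : ContDiff ℝ 1 m) (hmc : HasCompactSupport m) :
    Har n (fun y => ∫ s, m s * θ (y - s)) 0 := by
  have hmi : Integrable m := hm.continuous.integrable_of_hasCompactSupport hmc
  have hθ0 : ∀ y, 0 < θ y := fun y => hc.trans_le (hb y).1
  have hθB : ∀ y, |θ y| ≤ C' := fun y => (abs_of_pos (hθ0 y)).trans_le (hb y).2
  obtain ⟨M, hM0, hM⟩ := hmc.isCompact.isBounded.exists_pos_norm_le
  have hgm : ∀ S : ℝ, Measurable fun y : X => cut S ‖y‖ * θ y := fun S =>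
    ((continuous_cut S).measurable.comp measurable_norm).mul hθ
  have hgB : ∀ (S : ℝ) (y : X), |cut S ‖y‖ * θ y| ≤ C' := fun S y => by
    rw [abs_mul, abs_of_nonneg (cut_nonneg _ _)]
    exact (mul_le_of_le_one_left (abs_nonneg _) (cut_le_one _ _)).trans (hθB y)
  have hgS : ∀ S : ℝ, 0 < S → ∀ y : X, 2 * S ≤ ‖y‖ → cut S ‖y‖ * θ y = 0 := fun S hS y hy => by
    rw [cut_eq_zero hS hy, zero_mul]
  have hloc : ∀ (S : ℝ) (y : X), ‖y‖ + M ≤ S →
      ∫ s, m s * θ (y - s) = ∫ s, m s * (cut S ‖y - s‖ * θ (y - s)) := by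
    intro S y hy
    refine integral_congr_ae (ae_of_all _ fun s => ?_)
    by_cases hs : s ∈ tsupport m
    · have := norm_sub_le y s
      have := hM s hs
      have := norm_nonneg y
      simp only
      rw [cut_eq_one (by linarith) (by linarith), one_mul]
    · simp [image_eq_zero_of_notMem_tsupport hs]
  refine ⟨fun R => ?_, ?_, fun A ψ hψ η hη => ?_⟩
  · obtain ⟨L, hL⟩ := const_lip hm hmc (hgm (|R| + M)) (hgB _) (hgS _ (by positivity))
    refine ⟨L, fun a ha b hb' => ?_⟩
    rw [mem_ball_zero_iff] at ha hb'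
    have := le_abs_self R
    simp only
    rw [hloc (|R| + M) a (by linarith), hloc (|R| + M) b (by linarith)]
    exact hL a b
  · obtain ⟨Cv, hCv, hv⟩ := reg_volume hX
    refine ⟨Cv * ((∫ s, |m s|) * C') ^ 2, fun t ht => ?_⟩
    have h1 := norm_setIntegral_le_of_norm_le_const (μ := (volume : Measure X))
      (s := ball (0 : X) t) (f := fun y => ‖∫ s, m s * θ (y - s)‖ ^ 2)
      (C := ((∫ s, |m s|) * C') ^ 2) measure_ball_lt_top fun y _ => by
        rw [norm_pow, norm_norm]
        exact pow_le_pow_left₀ (norm_nonneg _) (const_bdd hmi hθB y) 2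
    refine (le_abs_self _).trans (h1.trans ?_)
    rw [mul_zero, add_zero, Real.rpow_natCast, mul_right_comm, mul_comm]
    exact mul_le_mul_of_nonneg_right ((hv 0 1).up.real_le hCv 0 (by linarith)) (sq_nonneg _)
  · obtain ⟨⟨L, hL⟩, hz, -⟩ := hψ
    obtain ⟨h1, h2⟩ := const_Psi hm hmc hL.continuous (hasCompactSupport_of_zero hz)
    have h3 := ker_grad_cont h1
    have h4 := ker_grad_supp h2
    have h5 := integral_gradient_eq_zero h1 h2
    have hlim := fun (S : ℝ) (hS : 0 < S) =>
      conv_limit hn hX hm hmc hL hz (hgm S) (hgB S) (hgS S hS)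
    generalize gradient (fun x => ∫ w, ψ w * m (w - x)) = Φ at h3 h4 h5 hlim
    obtain ⟨B, hB⟩ := h4.exists_bound_of_continuous h3
    obtain ⟨ρ, hρ0, hρ⟩ := h4.isCompact.isBounded.exists_pos_norm_lt
    obtain ⟨S0, hS0⟩ := weak_zero hU hC hRB hR h0 (f := fun y => (θ y)⁻¹ • Φ y)
      (hθ.inv.smul h3.measurable) (B := c⁻¹ * B) hρ0 (fun y => by
        rw [norm_smul, norm_inv, Real.norm_of_nonneg (hθ0 y).le]
        exact mul_le_mul (inv_anti₀ hc (hb y).1) (hB y) (norm_nonneg _) (by positivity))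
      (fun y hy => by
        rw [image_eq_zero_of_notMem_tsupport fun h => (hρ y h).not_ge hy, smul_zero])
      (by
        rw [hσ, integral_withDensity_eq_integral_toReal_smul hθ.ennreal_ofReal
          (ae_of_all _ fun _ => ENNReal.ofReal_lt_top), ← h5]
        refine integral_congr_ae (ae_of_all _ fun y => ?_)
        simp only
        rw [ENNReal.toReal_ofReal (hθ0 y).le, smul_smul, mul_inv_cancel₀ (hθ0 y).ne', one_smul])
      (η := η / 4) (by positivity)
    have hE : ∀ S : ℝ, 0 < S → S0 ≤ S → |En n (volume : Measure X) (fun _ => 1)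
        (fun y => ∫ s, m s * (cut S ‖y - s‖ * θ (y - s))) ψ| ≤ η / 2 := by
      intro S hS hS'
      have h6 := le_of_tendsto (hlim S hS).abs ((hS0 S hS').mono fun ε hε => le_of_eq_of_le ?_ hε)
      · rw [abs_mul] at h6
        norm_num at h6
        linarith
      · rw [hσ, prod_withDensity hθ.ennreal_ofReal hθ.ennreal_ofReal,
          integral_withDensity_eq_integral_toReal_smul
            (f := fun z : X × X => ENNReal.ofReal (θ z.1) * ENNReal.ofReal (θ z.2))
            ((hθ.ennreal_ofReal.comp measurable_fst).mul (hθ.ennreal_ofReal.comp measurable_snd))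
            (ae_of_all _ fun _ => ENNReal.mul_lt_top ENNReal.ofReal_lt_top ENNReal.ofReal_lt_top)]
        refine congrArg abs (integral_congr_ae (ae_of_all _ fun p => ?_))
        have := (hθ0 p.1).ne'
        simp only [ENNReal.toReal_mul, ENNReal.toReal_ofReal (hθ0 _).le, smul_eq_mul,
          real_inner_smul_left]
        field_simp
    obtain ⟨Cf, hCf, ht⟩ := const_tail hX
    refine ⟨max 1 (Cf * ((∫ s, |m s|) * C' * ∫ y, |ψ y|) / (η / 2)), fun R hR => ?_⟩
    have hR0 : 0 < R := one_pos.trans_le ((le_max_left _ _).trans hR)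
    obtain ⟨S, hS1, hS2⟩ : ∃ S, S0 ≤ S ∧ |A| + 2 * R + M ≤ S :=
      ⟨max S0 _, le_max_left _ _, le_max_right _ _⟩
    have hS : 0 < S := lt_of_lt_of_le (by positivity) hS2
    obtain ⟨L', hL'⟩ := const_lip hm hmc (hgm S) (hgB _) (hgS _ hS)
    have h7 := (ht _ ψ L L' _ A hL' (const_bdd hmi (hgB S)) hL hz).2 R hR0
    have h8 : En n (volume : Measure X) (cut R) (fun y => ∫ s, m s * θ (y - s)) ψ =
        En n (volume : Measure X) (cut R)
          (fun y => ∫ s, m s * (cut S ‖y - s‖ * θ (y - s))) ψ := by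
      refine integral_congr_ae (ae_of_all _ fun p => ?_)
      simp only
      by_cases a1 : 2 * R ≤ ‖p.1 - p.2‖
      · rw [cut_eq_zero hR0 a1, zero_mul, zero_mul]
      by_cases a2 : p.1 ∈ ball (0 : X) A ∨ p.2 ∈ ball (0 : X) A
      · obtain ⟨a3, a4⟩ := form_both (not_le.1 a1) a2
        rw [mem_ball_zero_iff] at a3 a4
        have := le_abs_self A
        rw [hloc S p.1 (by linarith), hloc S p.2 (by linarith)]
      · rw [not_or] at a2
        simp [hz _ (not_lt.1 a2.1), hz _ (not_lt.1 a2.2)]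
    have h9 : Cf * ((∫ s, |m s|) * C' * ∫ y, |ψ y|) / R ≤ η / 2 := by
      rw [div_le_iff₀ hR0, mul_comm (η / 2), ← div_le_iff₀ (by positivity)]
      exact (le_max_right _ _).trans hR
    rw [h8, zero_mul, Real.sqrt_zero, zero_add]
    have h10 := hE S hS hS1
    rw [abs_le] at h7 h10 ⊢
    constructor <;> linarith [h7.1, h7.2, h10.1, h10.2]

/-- By `liou_const`, `∫ f (y + q) θ y dy` does not depend on `q` for smooth compactly supported
`f`. With `m0` a normed bump and `c0 = ∫ m0 s θ(-s) ds`: `∫ f θ = c0 ∫ f` (Fubini), so `θ = c0`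
a.e. by `ae_eq_of_integral_contDiff_smul_eq`. -/
theorem dens_const {n : ℕ} (hn : 1 ≤ n) (hX : Module.finrank ℝ X = n) {σ : Measure X} {C : ℝ}
    (hU : Up n σ C) (hC : 0 < C) (hRB : RB n σ C) (hR : Ref n σ) (h0 : (0 : X) ∈ σ.support)
    {θ : X → ℝ} {c C' : ℝ} (hθ : Measurable θ) (hc : 0 < c) (hb : ∀ y, c ≤ θ y ∧ θ y ≤ C')
    (hσ : σ = (volume : Measure X).withDensity (fun y => ENNReal.ofReal (θ y))) :
    ∃ c0 : ℝ, 0 < c0 ∧ σ = ENNReal.ofReal c0 • (volume : Measure X) := by
  have hθ0 : ∀ y, 0 < θ y := fun y => hc.trans_le (hb y).1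
  have hθB : ∀ y, |θ y| ≤ C' := fun y => (abs_of_pos (hθ0 y)).trans_le (hb y).2
  have hL : ∀ m : X → ℝ, ContDiff ℝ 1 m → HasCompactSupport m → ∀ q,
      ∫ s, m s * θ (q - s) = ∫ s, m s * θ (0 - s) := fun m hm hmc q =>
    liou_const hX one_pos (dens_har hn hX hU hC hRB hR h0 hθ hc hb hσ hm hmc) q
  let χ : ContDiffBump (0 : X) := ⟨1, 2, by norm_num, by norm_num⟩
  have h1 := hL (χ.normed volume) χ.contDiff_normed χ.hasCompactSupport_normed
  generalize ∫ s, χ.normed volume s * θ (0 - s) = c0 at h1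
  have hae : ∀ᵐ y : X, θ y = c0 := by
    refine ae_eq_of_integral_contDiff_smul_eq (fun x => ?_) (locallyIntegrable_const c0)
      fun f hf hfc => ?_
    · refine ⟨ball x 1, ball_mem_nhds x one_pos, ?_⟩
      exact Measure.integrableOn_of_bounded measure_ball_lt_top.ne hθ.aestronglyMeasurable
        (ae_of_all _ hθB)
    · have h2 : ∀ q, ∫ s, f s * θ (s - q) = ∫ s, f s * θ s := by
        intro q
        have := hL (fun s => f (-s)) ((hf.of_le (by simp)).comp contDiff_neg)
          (hfc.comp_homeomorph (Homeomorph.neg X)) (-q)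
        rw [← integral_neg_eq_self, ← integral_neg_eq_self (fun s => f (-s) * θ (0 - s))] at this
        simpa only [neg_neg, sub_neg_eq_add, neg_add_eq_sub, zero_add] using this
      have h3 := const_swap (K := fun a b => θ (a - b))
        (hf.continuous.integrable_of_hasCompactSupport hfc) (χ.integrable_normed (μ := volume))
        (hθ.comp measurable_sub) fun _ _ => hθB _
      simp only [h1, h2, integral_mul_const, χ.integral_normed, one_mul] at h3
      simp only [smul_eq_mul, integral_mul_const, h3]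
  obtain ⟨y, hy⟩ := hae.exists
  refine ⟨c0, hy ▸ hθ0 y, ?_⟩
  rw [hσ, ← withDensity_const]
  exact withDensity_congr_ae (hae.mono fun y hy => by simp only [hy])

end Vale.Agent.P120
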