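import Vale.Agent.P120.Dens
import Vale.Agent.P120.Const

/-!
A reflectionless regular measure carried by an `n`-plane is a multiple of Lebesgue measure.
-/

open MeasureTheory Metric Set Filter Topology
open scoped RealInnerProductSpace ENNReal NNReal

noncomputable section

namespace Vale.Agent.P120

variable {X : Type} [NormedAddCommGroup X] [InnerProductSpace ℝ X] [FiniteDimensional ℝ X]
  [MeasurableSpace X] [BorelSpace X]
variable {F : Type} [NormedAddCommGroup F] [InnerProductSpace ℝ F] [FiniteDimensional ℝ F]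

theorem lemF_closed (V : Submodule ℝ X) : IsClosed (V : Set X) :=
  V.closed_of_finiteDimensional

theorem lemF_emb (V : Submodule ℝ X) : MeasurableEmbedding (fun q : V => (q : X)) :=
  MeasurableEmbedding.subtype_coe (lemF_closed V).measurableSet

theorem lemF_ball {V : Submodule ℝ X} (σ : Measure V) (y : V) (ρ : ℝ) :
    σ.map (fun q : V => (q : X)) (ball (y : X) ρ) = σ (ball y ρ) :=
  (lemF_emb V).map_apply σ _

theorem lemF_supp {V : Submodule ℝ X} (σ : Measure V) (y : V) :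
    (y : X) ∈ (σ.map (fun q : V => (q : X))).support ↔ y ∈ σ.support := by
  rw [nhds_basis_ball.mem_measureSupport, nhds_basis_ball.mem_measureSupport]
  simp only [lemF_ball]

theorem lemF_prod {V : Submodule ℝ X} (σ : Measure V) [SFinite σ] (Φ : X × X → ℝ) :
    ∫ p, Φ p ∂((σ.map (fun q : V => (q : X))).prod (σ.map (fun q : V => (q : X)))) =
      ∫ p : V × V, Φ (p.1, p.2) ∂(σ.prod σ) := by
  rw [Measure.map_prod_map _ _ (lemF_emb V).measurable (lemF_emb V).measurable,
    ((lemF_emb V).prodMap (lemF_emb V)).integral_map]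
  rfl

/-- Extension of a function on `V` that vanishes off a ball. -/
theorem lemF_ext {G : Type} [NormedAddCommGroup G] [NormedSpace ℝ G] {V : Submodule ℝ X}
    {ψ : V → G} {R : ℝ} (hR : 0 < R) (hz : ∀ q, R ≤ dist q 0 → ψ q = 0) (q : V) :
    cut R (dist (q : X) 0) • ψ (Pr V q) = ψ q := by
  rw [Submodule.orthogonalProjectionOnto_mem_subspace_eq_self]
  by_cases h : R ≤ dist q 0
  · rw [hz q h, smul_zero]
  · rw [cut_eq_one (t := dist (q : X) 0) hR (not_le.1 h).le, one_smul]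

theorem lemF_ext2 {G : Type} [NormedAddCommGroup G] [NormedSpace ℝ G] {V : Submodule ℝ X}
    {ψ : V → G} (h1 : Continuous ψ) (h2 : HasCompactSupport ψ) :
    ∃ φ : X → G, Continuous φ ∧ HasCompactSupport φ ∧ ∀ q : V, φ q = ψ q := by
  obtain ⟨R, hR, hs⟩ := h2.isCompact.isBounded.subset_ball_lt 0 (0 : V)
  refine ⟨fun y => cut R (dist y 0) • ψ (Pr V y),
    ((continuous_cut R).comp (by fun_prop)).smul (h1.comp (Pr V).continuous),
    hasCompactSupport_of_zero (x := 0) (ρ := 2 * R) fun y hy => ?_,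
    lemF_ext hR fun q hq => image_eq_zero_of_notMem_tsupport fun h => not_lt.2 hq (hs h)⟩
  rw [cut_eq_zero hR hy, zero_smul]

/-- `σ = ν.comap (↑)`; `MeasurableEmbedding.subtype_coe`, `map_comap`, and `ν (Vᶜ) = 0`. -/
theorem exists_sub {n : ℕ} {ν : Measure X} {C : ℝ} (hU : Up n ν C) {V : Submodule ℝ X}
    (hs : ν.support ⊆ V) : ∃ σ : Measure V, ν = σ.map (fun q : V => (q : X)) := by
  refine ⟨ν.comap (fun q : V => (q : X)), ?_⟩
  rw [(lemF_emb V).map_comap, Measure.restrict_eq_self_of_ae_mem]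
  filter_upwards [Measure.support_mem_ae (μ := ν)] with y hy using ⟨⟨y, hs hy⟩, rfl⟩

theorem sub_reg {n : ℕ} {C : ℝ} {V : Submodule ℝ X} {σ : Measure V} {W : ℝ}
    (h : Reg n (σ.map (fun q : V => (q : X))) C 0 W) : Reg n σ C 0 W := by
  refine ⟨fun y ρ hρ => ?_, fun y hy h1 ρ hρ h2 => ?_, (lemF_supp σ 0).1 h.mem⟩
  · rw [← lemF_ball]
    exact h.up y ρ hρ
  · rw [← lemF_ball]
    exact h.low y ((lemF_supp σ y).2 hy) h1 ρ hρ h2

/-- Extend `f`, `g` by `y ↦ cut 1 ‖Nm V y‖ • (f (Pr V y) : X)`; these are continuous with compact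
support and agree with `f`, `g` on `V`. Use `integral_map` for the closed embedding and
`Measure.map_prod_map`. -/
theorem sub_rb {n : ℕ} {C : ℝ} {V : Submodule ℝ X} {σ : Measure V} (hU : Up n σ C)
    (h : RB n (σ.map (fun q : V => (q : X))) C) : RB n σ C := by
  intro ε hε f g f1 f2 g1 g2
  have := hU.locFin
  obtain ⟨f', a1, a2, a3⟩ := lemF_ext2 (ψ := fun q => (f q : X)) (continuous_subtype_val.comp f1)
    (f2.comp_left (g := fun q : V => (q : X)) rfl)
  obtain ⟨g', b1, b2, b3⟩ := lemF_ext2 g1 g2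
  have h1 := h ε hε f' g' a1 a2 b1 b2
  rw [lemF_prod, (lemF_emb V).integral_map, (lemF_emb V).integral_map] at h1
  simp only [a3, b3] at h1
  exact h1

/-- Extend a test function in `ball 0 A` by `y ↦ cut (max A 1) (dist y 0) • (ψ (Pr V y) : X)`
(Lipschitz by `lipschitz_smul_of_locLip`). -/
theorem sub_ref {n : ℕ} {C : ℝ} {V : Submodule ℝ X} {σ : Measure V} (hU : Up n σ C)
    (h : Ref n (σ.map (fun q : V => (q : X)))) : Ref n σ := by
  intro A ψ hψ η hη
  have := hU.locFin
  have hR : 0 < max A 1 := lt_max_of_lt_right one_pos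
  obtain ⟨L, hL⟩ := hψ.lip
  have h1 : ∀ q : V, cut (max A 1) (dist (q : X) 0) • (ψ (Pr V q) : X) = ψ q :=
    lemF_ext (ψ := fun q => (ψ q : X)) hR fun q hq => by
      simp only [hψ.zero q ((le_max_left _ _).trans hq), Submodule.coe_zero]
  have h2 : Test (σ.map (fun q : V => (q : X)))
      (fun y : X => cut (max A 1) (dist y 0) • (ψ (Pr V y) : X)) 0 (2 * max A 1) := by
    refine ⟨lipschitz_smul_of_locLip (lipschitz_cut_dist hR 0) (x := 0) (ρ := 2 * max A 1)
      (fun y hy => cut_eq_zero hR hy) (locLip_of_lipschitz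
        ((LipschitzWith.subtype_val _).comp (hL.comp (Pr V).lipschitz))), fun y hy => ?_, ?_⟩
    · rw [cut_eq_zero hR hy, zero_smul]
    · rw [(lemF_emb V).integral_map]
      simp only [h1]
      exact (V.subtypeₗᵢ.integral_comp_comm ψ).trans (by rw [hψ.mean, map_zero])
  obtain ⟨R0, h3⟩ := h _ _ h2 η hη
  refine ⟨R0, fun R hR' => ?_⟩
  have h4 := h3 R hR'
  rw [zero_mul] at h4 ⊢
  rw [En, lemF_prod] at h4
  simp only [h1] at h4
  exact h4

theorem lemF {n : ℕ} (hn : 1 ≤ n) {ν : Measure X} {C : ℝ} (hC : 0 < C)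
    (hreg : ∀ W, Reg n ν C 0 W) (hRB : RB n ν C) (hR : Ref n ν) {V : Submodule ℝ X}
    (hV : Module.finrank ℝ V = n) (hs : ν.support ⊆ V) : ∃ c : ℝ, 0 < c ∧ ν = leb V c := by
  obtain ⟨σ, rfl⟩ := exists_sub (hreg 0).up hs
  have h1 : ∀ W, Reg n σ C 0 W := fun W => sub_reg (hreg W)
  have h2 := sub_ref (h1 0).up hR
  obtain ⟨θ, c, C', hθ, hc, hb, hσ⟩ := exists_density hV hC h1 (full_support hV hC h1 h2)
  obtain ⟨c0, hc0, h3⟩ := dens_const hn hV (h1 0).up hC (sub_rb (h1 0).up hRB) h2 (h1 0).mem hθ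
    hc hb hσ
  exact ⟨c0, hc0, by rw [h3, Measure.map_smul, leb]⟩

theorem leb_integral {G : Type} [NormedAddCommGroup G] [NormedSpace ℝ G] (V : Submodule ℝ X)
    {c : ℝ} (hc : 0 ≤ c) (f : X → G) : ∫ y, f y ∂(leb V c) = c • ∫ q : V, f q := by
  rw [leb, integral_smul_measure, (lemF_emb V).integral_map, ENNReal.toReal_ofReal hc]

theorem leb_support (V : Submodule ℝ X) {c : ℝ} : (leb V c).support ⊆ V := by
  refine Measure.support_subset_of_isClosed (lemF_closed V) (Measure.ae_smul_measure ?_ _)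
  exact (lemF_emb V).ae_map_iff.2 (ae_of_all _ fun q => q.2)

end Vale.Agent.P120
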