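import Vale.Agent.P120.Lim2
import Vale.Agent.P120.LemF

/-!
Blow-up of approximate solutions: the mollified limit solves the equation on the plane.
-/

open MeasureTheory Metric Set Filter Topology
open scoped RealInnerProductSpace ENNReal NNReal

noncomputable section

namespace Vale.Agent.P120

variable {X : Type} [NormedAddCommGroup X] [InnerProductSpace ℝ X] [FiniteDimensional ℝ X]
  [MeasurableSpace X] [BorelSpace X]
variable {F : Type} [NormedAddCommGroup F] [InnerProductSpace ℝ F] [FiniteDimensional ℝ F]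

theorem blow2_hcs {G : Type} [Zero G] [TopologicalSpace G] {ψ : X → G} {ρ : ℝ}
    (hz : ∀ y, ρ ≤ ‖y‖ → ψ y = 0) : HasCompactSupport ψ :=
  hasCompactSupport_of_zero (x := 0) (ρ := ρ) fun y hy => hz y (by rwa [dist_zero_right] at hy)

theorem blow2_hcs2 {Y Y' G : Type} [NormedAddCommGroup Y] [ProperSpace Y] [NormedAddCommGroup Y']
    [ProperSpace Y'] [Zero G] [TopologicalSpace G] {Φ : Y × Y' → G} {S S' : ℝ}
    (h1 : ∀ p : Y × Y', S ≤ ‖p.1‖ → Φ p = 0) (h2 : ∀ p : Y × Y', S' ≤ ‖p.2‖ → Φ p = 0) :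
    HasCompactSupport Φ := by
  refine HasCompactSupport.intro ((isCompact_closedBall (0 : Y) S).prod
    (isCompact_closedBall (0 : Y') S')) fun p hp => ?_
  by_contra hne
  refine hp ⟨mem_closedBall_zero_iff.2 ?_, mem_closedBall_zero_iff.2 ?_⟩
  · by_contra h; exact hne (h1 p (not_le.1 h).le)
  · by_contra h; exact hne (h2 p (not_le.1 h).le)

theorem blow2_sq (a b : F) : ‖a + b‖ ^ 2 ≤ 2 * ‖a‖ ^ 2 + 2 * ‖b‖ ^ 2 := by
  have h := norm_add_le a b
  have h2 : ‖a + b‖ ^ 2 ≤ (‖a‖ + ‖b‖) ^ 2 := pow_le_pow_left₀ (norm_nonneg _) h 2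
  nlinarith [sq_nonneg (‖a‖ - ‖b‖)]

theorem pair_limit {n : ℕ} {C : ℝ} (hC : 0 < C) {l : Filter ℕ} [l.NeBot] {μs : ℕ → Measure X}
    {hs : ℕ → X → F} {ν : Measure X} (h : BSeq n C l μs hs) (hV : VL l μs ν) (hν : Up n ν C)
    {G1 : ℕ → X → F} {G G' : X → F} {R : ℝ} (hG1 : ∀ k, Continuous (G1 k)) (hG : Continuous G)
    (hG' : Continuous G') (hz1 : ∀ k y, R ≤ ‖y‖ → G1 k y = 0) (hz : ∀ y, R ≤ ‖y‖ → G y = 0)
    (hz' : ∀ y, R ≤ ‖y‖ → G' y = 0) (hu : TendstoUniformlyOn G1 G l (ball 0 R))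
    (he : ∀ y ∈ ν.support, G y = G' y) :
    Tendsto (fun k => ∫ y, ⟪hs k y, G1 k y⟫ ∂(μs k) - ∫ y, ⟪hs k y, G' y⟫ ∂(μs k)) l (𝓝 0) := by
  rw [Metric.tendsto_nhds]
  intro ε hε
  set S := max R 1 with hS
  have hS1 : 1 ≤ S := le_max_right _ _
  have hRS : R ≤ S := le_max_left _ _
  set H := S ^ n * S ^ (5 / 2 : ℝ) with hH
  have hH0 : 0 < H := by positivity
  set τ := ε / (4 * H) with hτ
  have hτ0 : 0 < τ := by positivity
  set δ := √(τ * ε / (8 * (C * S ^ n))) with hδ
  have hδ0 : 0 < δ := Real.sqrt_pos.2 (by positivity)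
  have hlim := hV (fun y => ‖G y - G' y‖ ^ 2) (by fun_prop)
    (blow2_hcs (ρ := R) fun y hy => by rw [hz y hy, hz' y hy]; simp)
  have h0 : ∫ y, ‖G y - G' y‖ ^ 2 ∂ν = 0 := by
    refine integral_eq_zero_of_ae ?_
    filter_upwards [Measure.support_mem_ae (μ := ν)] with y hy
    rw [he y hy]; simp
  rw [h0] at hlim
  filter_upwards [Metric.tendstoUniformlyOn_iff.1 hu δ hδ0,
    hlim.eventually (Iio_mem_nhds (show (0 : ℝ) < τ * ε / 8 by positivity))] with k hk1 hk2
  have := (h.seq.up k).locFin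
  have hc := (h.lip k).continuous
  have hc1 := hG1 k
  have i1 : Integrable (fun y => ⟪hs k y, G1 k y⟫) (μs k) :=
    Continuous.integrable_of_hasCompactSupport (by fun_prop)
      (blow2_hcs (ρ := R) fun y hy => by rw [hz1 k y hy, inner_zero_right])
  have i2 : Integrable (fun y => ⟪hs k y, G' y⟫) (μs k) :=
    Continuous.integrable_of_hasCompactSupport (by fun_prop)
      (blow2_hcs (ρ := R) fun y hy => by rw [hz' y hy, inner_zero_right])
  have i3 : Integrable (fun y => ‖G y - G' y‖ ^ 2) (μs k) :=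
    Continuous.integrable_of_hasCompactSupport (by fun_prop)
      (blow2_hcs (ρ := R) fun y hy => by rw [hz y hy, hz' y hy]; simp)
  have i4 : IntegrableOn (fun y => τ * ‖hs k y‖ ^ 2 + τ⁻¹ * (2 * δ ^ 2)) (ball 0 S) (μs k) :=
    integrableOn_ball_of_continuous (by fun_prop) 0 S
  rw [dist_zero_right, ← integral_sub i1 i2]
  have hb : ∀ y, ‖⟪hs k y, G1 k y⟫ - ⟪hs k y, G' y⟫‖ ≤
      (ball (0 : X) S).indicator (fun y => τ * ‖hs k y‖ ^ 2 + τ⁻¹ * (2 * δ ^ 2)) y +
        τ⁻¹ * (2 * ‖G y - G' y‖ ^ 2) := by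
    intro y
    by_cases hy : y ∈ ball (0 : X) R
    · rw [indicator_of_mem (ball_subset_ball hRS hy), ← inner_sub_right]
      have h1 := norm_inner_le_norm (𝕜 := ℝ) (hs k y) (G1 k y - G' y)
      have h2 := blow2_sq (G1 k y - G y) (G y - G' y)
      rw [sub_add_sub_cancel] at h2
      have h3 : ‖G1 k y - G y‖ ≤ δ := by
        rw [← dist_eq_norm, dist_comm]; exact (hk1 y hy).le
      have h4 := pow_le_pow_left₀ (norm_nonneg _) h3 2
      have h5 : ‖hs k y‖ * ‖G1 k y - G' y‖ ≤ τ * ‖hs k y‖ ^ 2 + τ⁻¹ * ‖G1 k y - G' y‖ ^ 2 := by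
        have e : τ * ‖hs k y‖ ^ 2 + τ⁻¹ * ‖G1 k y - G' y‖ ^ 2 - 2 * (‖hs k y‖ * ‖G1 k y - G' y‖) =
            τ⁻¹ * (τ * ‖hs k y‖ - ‖G1 k y - G' y‖) ^ 2 := by field_simp; ring
        have : 0 ≤ τ⁻¹ * (τ * ‖hs k y‖ - ‖G1 k y - G' y‖) ^ 2 := by positivity
        have : 0 ≤ ‖hs k y‖ * ‖G1 k y - G' y‖ := by positivity
        linarith
      have h6 : τ⁻¹ * ‖G1 k y - G' y‖ ^ 2 ≤ τ⁻¹ * (2 * δ ^ 2 + 2 * ‖G y - G' y‖ ^ 2) :=
        mul_le_mul_of_nonneg_left (by linarith) (by positivity)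
      linarith
    · have hy' : R ≤ ‖y‖ := by rwa [mem_ball_zero_iff, not_lt] at hy
      rw [hz1 k y hy', hz' y hy', inner_zero_right, sub_self, norm_zero]
      have : 0 ≤ (ball (0 : X) S).indicator
          (fun y => τ * ‖hs k y‖ ^ 2 + τ⁻¹ * (2 * δ ^ 2)) y :=
        indicator_nonneg (fun _ _ => by positivity) y
      positivity
  have i5 := (integrable_indicator_iff measurableSet_ball).2 i4
  refine lt_of_le_of_lt (norm_integral_le_of_norm_le (i5.add ((i3.const_mul 2).const_mul τ⁻¹))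
    (Eventually.of_forall hb)) ?_
  rw [integral_add' i5 ((i3.const_mul 2).const_mul τ⁻¹), integral_indicator measurableSet_ball,
    integral_add (integrableOn_ball_of_continuous (by fun_prop) 0 S)
      (integrableOn_ball_of_continuous (by fun_prop) 0 S), integral_const_mul, integral_const_mul,
    integral_const_mul, integral_const_mul, setIntegral_const, smul_eq_mul]
  have g1 := h.gr k S hS1
  rw [div_one, one_mul, ← hH] at g1
  have g2 := (h.seq.up k).real_le hC 0 (show 0 < S by linarith)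
  have g3 : δ ^ 2 = τ * ε / (8 * (C * S ^ n)) := Real.sq_sqrt (by positivity)
  have g4 : τ * ∫ y in ball 0 S, ‖hs k y‖ ^ 2 ∂(μs k) ≤ ε / 4 := by
    calc _ ≤ τ * H := mul_le_mul_of_nonneg_left g1 hτ0.le
      _ = ε / 4 := by rw [hτ]; field_simp
  have g5 : τ⁻¹ * (2 * ((μs k).real (ball 0 S) * δ ^ 2)) ≤ ε / 4 := by
    calc _ ≤ τ⁻¹ * (2 * (C * S ^ n * δ ^ 2)) := by gcongr
      _ = ε / 4 := by rw [g3]; field_simp; norm_num
  have g6 : τ⁻¹ * (2 * ∫ y, ‖G y - G' y‖ ^ 2 ∂(μs k)) ≤ ε / 4 := by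
    calc _ ≤ τ⁻¹ * (2 * (τ * ε / 8)) := by gcongr
      _ = ε / 4 := by field_simp; norm_num
  rw [integral_const_mul]
  linarith

/-- Doubly truncated kernel. -/
def bker (n : ℕ) (R s : ℝ) (z : X) : ℝ := (cut R ‖z‖ - cut s ‖z‖) * J n z

/-- The truncated operator. -/
def bop (n : ℕ) (μ : Measure X) (R s : ℝ) (Ψ : X → F) (x : X) : F :=
  ∫ y, bker n R s (x - y) • (Ψ x - Ψ y) ∂μ

theorem bker_cont (n : ℕ) {R s : ℝ} (hs : 0 < s) (hsR : s ≤ R) :
    Continuous (bker n R s : X → ℝ) := continuous_trunc n hs hsR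

theorem bker_zero (n : ℕ) {R s : ℝ} (hs : 0 < s) (hsR : s ≤ R) {z : X} (hz : 2 * R ≤ ‖z‖) :
    bker n R s z = 0 := by
  rw [bker, cut_eq_zero (hs.trans_le hsR) hz, cut_eq_zero hs (by linarith), sub_self, zero_mul]

theorem bop_int_zero (n : ℕ) {R s ρ : ℝ} (hs : 0 < s) (hsR : s ≤ R) {Ψ : X → F}
    (hz : ∀ y, ρ ≤ ‖y‖ → Ψ y = 0) {x y : X} (h : ρ + 2 * R ≤ ‖x‖ ∨ ρ + 2 * R ≤ ‖y‖) :
    bker n R s (x - y) • (Ψ x - Ψ y) = 0 := by
  by_cases h1 : 2 * R ≤ ‖x - y‖
  · rw [bker_zero n hs hsR h1, zero_smul]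
  · have h2 := norm_sub_norm_le x y
    have h3 := norm_sub_norm_le y x
    rw [norm_sub_rev] at h3
    rw [hz x (by rcases h with h | h <;> linarith), hz y (by rcases h with h | h <;> linarith),
      sub_self, smul_zero]

theorem bop_zero (n : ℕ) (μ : Measure X) {R s ρ : ℝ} (hs : 0 < s) (hsR : s ≤ R) {Ψ : X → F}
    (hz : ∀ y, ρ ≤ ‖y‖ → Ψ y = 0) {x : X} (h : ρ + 2 * R ≤ ‖x‖) : bop n μ R s Ψ x = 0 := by
  unfold bop
  simp only [bop_int_zero n hs hsR hz (Or.inl h), integral_zero]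

theorem bop_cont (n : ℕ) (μ : Measure X) [IsLocallyFiniteMeasure μ] {R s ρ : ℝ} (hs : 0 < s)
    (hsR : s ≤ R) {Ψ : X → F} (hΨ : Continuous Ψ) (hz : ∀ y, ρ ≤ ‖y‖ → Ψ y = 0) :
    Continuous (bop n μ R s Ψ) := by
  have hk := bker_cont (X := X) n hs hsR
  have h := continuous_parametric_integral_of_continuous (μ := μ)
    (f := fun x y : X => bker n R s (x - y) • (Ψ x - Ψ y))
    (by unfold Function.uncurry; fun_prop) (isCompact_closedBall (0 : X) (ρ + 2 * R))
  refine h.congr fun x => setIntegral_eq_integral_of_forall_compl_eq_zero fun y hy => ?_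
  rw [mem_closedBall_zero_iff, not_le] at hy
  exact bop_int_zero n hs hsR hz (Or.inr hy.le)

theorem En_eq_bop (n : ℕ) (μ : Measure X) [IsLocallyFiniteMeasure μ] {R s ρ : ℝ} (hs : 0 < s)
    (hsR : s ≤ R) {u Ψ : X → F} (hu : Continuous u) (hΨ : Continuous Ψ)
    (hz : ∀ y, ρ ≤ ‖y‖ → Ψ y = 0) :
    En n μ (fun t => cut R t - cut s t) u Ψ = 2 * ∫ x, ⟪u x, bop n μ R s Ψ x⟫ ∂μ := by
  have hk := bker_cont (X := X) n hs hsR
  have e : ∀ p : X × X, (cut R ‖p.1 - p.2‖ - cut s ‖p.1 - p.2‖) *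
      (J n (p.1 - p.2) * ⟪u p.1, Ψ p.1 - Ψ p.2⟫) =
      ⟪u p.1, bker n R s (p.1 - p.2) • (Ψ p.1 - Ψ p.2)⟫ := by
    intro p; rw [inner_smul_right, bker, mul_assoc]
  have hi : Integrable (fun p : X × X => ⟪u p.1, bker n R s (p.1 - p.2) • (Ψ p.1 - Ψ p.2)⟫)
      (μ.prod μ) := by
    refine Continuous.integrable_of_hasCompactSupport (by fun_prop)
      (blow2_hcs2 (S := ρ + 2 * R) (S' := ρ + 2 * R) (fun p hp => ?_) fun p hp => ?_)
    · rw [bop_int_zero n hs hsR hz (Or.inl hp), inner_zero_right]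
    · rw [bop_int_zero n hs hsR hz (Or.inr hp), inner_zero_right]
  rw [En_sym2 (by simp only [e]; exact hi)]
  simp only [e]
  rw [integral_prod _ hi]
  congr 1
  refine integral_congr_ae (Eventually.of_forall fun x => ?_)
  refine integral_inner (Continuous.integrable_of_hasCompactSupport (by fun_prop)
    (blow2_hcs (ρ := ρ + 2 * R) fun y hy => bop_int_zero n hs hsR hz (Or.inr hy))) (u x)

/-- Mollifying extension from the plane to the space. -/
def bext (V : Submodule ℝ X) (η : ℝ) (g : V → F) (y : X) : F :=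
  ∫ q : V, cut η (dist y q) • g q

theorem bext_lip (V : Submodule ℝ X) {η : ℝ} (hη : 0 < η) {g : V → F} (hg : Integrable g) :
    ∃ L, LipschitzWith L (bext V η g) := by
  have hI : 0 ≤ ∫ q, ‖g q‖ := integral_nonneg fun _ => norm_nonneg _
  have hi : ∀ y : X, Integrable (fun q : V => cut η (dist y q) • g q) := fun y => by
    refine hg.bdd_smul 1 ?_ (Eventually.of_forall fun q => ?_)
    · exact Continuous.aestronglyMeasurable ((continuous_cut η).comp (by fun_prop))
    · rw [Real.norm_of_nonneg (cut_nonneg _ _)]; exact cut_le_one _ _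
  refine ⟨⟨η⁻¹ * ∫ q, ‖g q‖, by positivity⟩, LipschitzWith.of_dist_le_mul fun y y' => ?_⟩
  rw [dist_eq_norm, bext, bext, ← integral_sub (hi y) (hi y')]
  refine (norm_integral_le_of_norm_le (hg.norm.const_mul (η⁻¹ * dist y y'))
    (Eventually.of_forall fun q => ?_)).trans (le_of_eq ?_)
  · rw [← sub_smul, norm_smul]
    refine mul_le_mul_of_nonneg_right ((cut_lip hη _ _).trans ?_) (norm_nonneg _)
    rw [div_eq_inv_mul]
    exact mul_le_mul_of_nonneg_left (abs_dist_sub_le _ _ _) (by positivity)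
  · rw [integral_const_mul]
    show _ = (η⁻¹ * ∫ q, ‖g q‖) * dist y y'
    ring

theorem bext_int_zero (V : Submodule ℝ X) {η ρ : ℝ} (hη : 0 < η) {g : V → F}
    (hz : ∀ q, ρ ≤ ‖q‖ → g q = 0) {y : X} (hy : ρ + 2 * η ≤ ‖y‖) (q : V) :
    cut η (dist y q) • g q = 0 := by
  by_cases h : ρ ≤ ‖q‖
  · rw [hz q h, smul_zero]
  · have h1 := norm_sub_norm_le y (q : X)
    rw [← dist_eq_norm, ← Submodule.coe_norm] at h1
    rw [cut_eq_zero hη (by linarith), zero_smul]

theorem bext_zero (V : Submodule ℝ X) {η ρ : ℝ} (hη : 0 < η) {g : V → F}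
    (hz : ∀ q, ρ ≤ ‖q‖ → g q = 0) {y : X} (hy : ρ + 2 * η ≤ ‖y‖) : bext V η g y = 0 := by
  unfold bext
  simp only [bext_int_zero V hη hz hy, integral_zero]

theorem bext_coe (V : Submodule ℝ X) (η : ℝ) (g : V → F) (x : V) :
    bext V η g x = ∫ z : V, cut η ‖z‖ • g (x + z) := by
  rw [bext, ← integral_add_left_eq_self _ x]
  refine integral_congr_ae (Eventually.of_forall fun z => ?_)
  simp only [Submodule.coe_add, dist_self_add_right, Submodule.coe_norm]

theorem bext_pair (V : Submodule ℝ X) {η ρ : ℝ} (hη : 0 < η) {g : V → F} (hg : Continuous g)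
    (hz : ∀ q, ρ ≤ ‖q‖ → g q = 0) (μ : Measure X) [IsLocallyFiniteMeasure μ] {h : X → F}
    (hh : Continuous h) :
    Integrable (fun q : V => ⟪moll η μ h q, g q⟫) ∧
      ∫ y, ⟪h y, bext V η g y⟫ ∂μ = ∫ q : V, ⟪moll η μ h q, g q⟫ := by
  have hc := continuous_cut η
  have hi : Integrable (fun p : X × V => ⟪h p.1, cut η (dist p.1 p.2) • g p.2⟫)
      (μ.prod volume) := by
    refine Continuous.integrable_of_hasCompactSupport (by fun_prop)
      (blow2_hcs2 (S := ρ + 2 * η) (S' := ρ) (fun p hp => ?_) fun p hp => ?_)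
    · rw [bext_int_zero V hη hz hp, inner_zero_right]
    · rw [hz _ hp, smul_zero, inner_zero_right]
  have e1 : ∀ q : V, ∫ y, ⟪h y, cut η (dist y q) • g q⟫ ∂μ = ⟪moll η μ h q, g q⟫ := by
    intro q
    have i1 : Integrable (fun y : X => cut η (dist (q : X) y) • h y) μ := by
      refine Continuous.integrable_of_hasCompactSupport (by fun_prop)
        (hasCompactSupport_of_zero (x := (q : X)) (ρ := 2 * η) fun y hy => ?_)
      rw [dist_comm, cut_eq_zero hη hy, zero_smul]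
    rw [moll, real_inner_comm, ← integral_inner i1]
    refine integral_congr_ae (Eventually.of_forall fun y => ?_)
    simp only [inner_smul_right, dist_comm y, real_inner_comm]
  have e2 : ∀ y : X, ∫ q : V, ⟪h y, cut η (dist y q) • g q⟫ = ⟪h y, bext V η g y⟫ := by
    intro y
    refine integral_inner (Continuous.integrable_of_hasCompactSupport (by fun_prop)
      (blow2_hcs (ρ := ρ) fun q hq => by rw [hz q hq, smul_zero])) (h y)
  constructor
  · have := hi.integral_prod_right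
    simp only [e1] at this
    exact this
  · have h1 := integral_prod _ hi
    have h2 := integral_prod_symm _ hi
    simp only [e1, e2] at h1 h2
    rw [← h1, h2]

theorem bext_mean (V : Submodule ℝ X) {η ρ : ℝ} (hη : 0 < η) {g : V → F} (hg : Continuous g)
    (hz : ∀ q, ρ ≤ ‖q‖ → g q = 0) (hm : ∫ q, g q = 0) : ∫ x : V, bext V η g x = 0 := by
  have hc := continuous_cut η
  simp only [bext_coe]
  have hi : Integrable (fun p : V × V => cut η ‖p.2‖ • g (p.1 + p.2))
      ((volume : Measure V).prod volume) := by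
    refine Continuous.integrable_of_hasCompactSupport (by fun_prop)
      (blow2_hcs2 (S := ρ + 2 * η) (S' := 2 * η) (fun p hp => ?_) fun p hp => ?_)
    · by_cases h : 2 * η ≤ ‖p.2‖
      · rw [cut_eq_zero hη h, zero_smul]
      · have h1 := norm_sub_le (p.1 + p.2) p.2
        rw [add_sub_cancel_right] at h1
        rw [hz _ (by linarith), smul_zero]
    · rw [cut_eq_zero hη hp, zero_smul]
  rw [← integral_prod _ hi, integral_prod_symm _ hi]
  simp only [integral_smul, integral_add_right_eq_self, hm, smul_zero, integral_zero]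

theorem bop_bext (n : ℕ) (V : Submodule ℝ X) {η R s c : ℝ} (hη : 0 < η) (hs : 0 < s)
    (hsR : s ≤ R) (hc0 : 0 ≤ c) {ψ : V → F} (hψ : Continuous ψ) (x : V) :
    bop n (leb V c) R s (bext V η ψ) x = c • bext V η (bop n volume R s ψ) x := by
  have hc := continuous_cut η
  have hk := bker_cont (X := V) n hs hsR
  rw [bop, leb_integral V hc0]
  congr 1
  have e0 : ∀ q : V, bker n R s ((x : X) - q) = bker n R s (x - q) := fun q => rfl
  have i0 : ∀ y : V, Integrable (fun z : V => cut η ‖z‖ • ψ (y + z)) := fun y =>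
    Continuous.integrable_of_hasCompactSupport (by fun_prop)
      (blow2_hcs (ρ := 2 * η) fun z hz => by rw [cut_eq_zero hη hz, zero_smul])
  have hi : Integrable (fun p : V × V => cut η ‖p.2‖ •
      (bker n R s (x - p.1) • (ψ (x + p.2) - ψ (p.1 + p.2)))) ((volume : Measure V).prod volume) := by
    refine Continuous.integrable_of_hasCompactSupport (by fun_prop)
      (blow2_hcs2 (S := ‖x‖ + 2 * R) (S' := 2 * η) (fun p hp => ?_) fun p hp => ?_)
    · have h1 := norm_sub_norm_le p.1 x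
      rw [norm_sub_rev] at h1
      rw [bker_zero n hs hsR (by linarith), zero_smul, smul_zero]
    · rw [cut_eq_zero hη hp, zero_smul]
  have e1 : ∀ q : V, bker n R s ((x : X) - q) • (bext V η ψ x - bext V η ψ q) =
      ∫ z : V, cut η ‖z‖ • (bker n R s (x - q) • (ψ (x + z) - ψ (q + z))) := by
    intro q
    rw [e0, bext_coe, bext_coe, ← integral_sub (i0 x) (i0 q), ← integral_smul]
    refine integral_congr_ae (Eventually.of_forall fun z => ?_)
    simp only [← smul_sub]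
    rw [smul_comm]
  have e2 : ∀ z : V, cut η ‖z‖ • bop n volume R s ψ (x + z) =
      ∫ q : V, cut η ‖z‖ • (bker n R s (x - q) • (ψ (x + z) - ψ (q + z))) := by
    intro z
    rw [integral_smul, bop, ← integral_add_right_eq_self _ z]
    simp only [add_sub_add_right_eq_sub]
  simp only [e1]
  rw [bext_coe]
  simp only [e2]
  rw [← integral_prod _ hi, integral_prod_symm _ hi]

theorem blow_har {n : ℕ} {C : ℝ} (hC : 0 < C) {l : Filter ℕ} [l.NeBot] {μs : ℕ → Measure X}
    {hs : ℕ → X → F} (h : BSeq n C l μs hs) {V : Submodule ℝ X} (hV : Module.finrank ℝ V = n)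
    {c : ℝ} (hc : 0 < c) (hVL : VL l μs (leb V c)) (hν : Up n (leb V c) C) {η : ℝ} (hη : 0 < η)
    {H : X → F} (hH : LocLip H)
    (hu : ∀ R : ℝ, TendstoUniformlyOn (fun k => moll η (μs k) (hs k)) H l (ball 0 R)) (A : ℝ) :
    Osc n (volume : Measure V) (fun q : V => H q) 0 A 0 := by
  obtain ⟨C', hC', hvol⟩ := reg_volume (X := V) hV
  have hHV : LocLip (fun q : V => H q) := by
    intro R
    obtain ⟨L, hL⟩ := hH R
    refine ⟨L, fun q hq q' hq' => ?_⟩
    exact hL (mem_ball_zero_iff.2 (mem_ball_zero_iff.1 hq))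
      (mem_ball_zero_iff.2 (mem_ball_zero_iff.1 hq'))
  refine osc_zero_of_trunc (hvol 0 1).up hC' hHV fun ψ hψ η0 hη0 => ?_
  obtain ⟨L0, hL0⟩ := hψ.lip
  have hψc := hL0.continuous
  set ρ := max A 1 with hρ
  have hρ1 : 1 ≤ ρ := le_max_right _ _
  have hz : ∀ q : V, ρ ≤ ‖q‖ → ψ q = 0 := fun q hq =>
    hψ.zero q (by rw [dist_zero_right]; exact (le_max_left _ _).trans hq)
  obtain ⟨L, hL⟩ := bext_lip V hη (hψc.integrable_of_hasCompactSupport (blow2_hcs hz))
  have hΨz : ∀ y : X, ρ + 2 * η ≤ ‖y‖ → bext V η ψ y = 0 := fun y hy => bext_zero V hη hz hy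
  obtain ⟨R0, hR0⟩ := approx (X := X) (F := F) n hC (G := 1) (ρ := ρ + 2 * η) zero_le_one
    (by linarith) L (η := c * η0) (by positivity)
  refine ⟨max R0 1, fun R hR => ?_⟩
  obtain ⟨s0, δ, A', hs0, hδ, happ⟩ := hR0 R ((le_max_left _ _).trans hR)
  refine ⟨min s0 1, lt_min hs0 one_pos, fun s hsp hs1 => ?_⟩
  have hsR : s ≤ R := (hs1.trans (min_le_right _ _)).trans ((le_max_right _ _).trans hR)
  have := hν.locFin
  have hmean : Tendsto (fun k => ∫ y, bext V η ψ y ∂(μs k)) l (𝓝 0) := by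
    have h1 := hVL.vec h.seq.up hν hL.continuous (blow2_hcs hΨz)
    rwa [leb_integral V hc.le, bext_mean V hη hψc hz hψ.mean, smul_zero] at h1
  have hbd : ∀ᶠ k in l,
      |En n (μs k) (fun t => cut R t - cut s t) (hs k) (bext V η ψ)| ≤ c * η0 := by
    filter_upwards [h.seq.low A', h.osc A' δ hδ, Metric.tendsto_nhds.1 hmean δ hδ]
      with k hk1 hk2 hk3
    rw [dist_zero_right] at hk3
    exact happ s hsp (hs1.trans (min_le_left _ _)) (μs k) ⟨h.seq.up k, hk1, h.seq.mem k⟩ (hs k)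
      (h.lip k) (h.gr k) hk2 _ hL (fun y hy => hΨz y (by rwa [dist_zero_right] at hy)) hk3.le
  obtain ⟨g, hg⟩ : ∃ g : V → F, g = bop n volume R s ψ := ⟨_, rfl⟩
  have hgc : Continuous g := by rw [hg]; exact bop_cont n _ hsp hsR hψc hz
  have hgz : ∀ q : V, ρ + 2 * R ≤ ‖q‖ → g q = 0 := fun q hq => by
    rw [hg]; exact bop_zero n _ hsp hsR hz hq
  have hgi : Integrable g := hgc.integrable_of_hasCompactSupport (blow2_hcs hgz)
  obtain ⟨L2, hL2⟩ := bext_lip V hη hgi
  have hk := bker_cont (X := X) n hsp hsR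
  have hΨc := hL.continuous
  have hun := hVL.unif hC h.seq.up hν
    (Φ := fun p : X × X => bker n R s (p.1 - p.2) • (bext V η ψ p.1 - bext V η ψ p.2))
    (by fun_prop) (R := ρ + 2 * η + 2 * R) (R' := ρ + 2 * η + 2 * R)
    (fun x _ y hy => bop_int_zero n hsp hsR hΨz (Or.inr hy))
  have hp := pair_limit hC h hVL hν (G1 := fun k => bop n (μs k) R s (bext V η ψ))
    (G := bop n (leb V c) R s (bext V η ψ)) (G' := fun y => c • bext V η g y)
    (R := ρ + 2 * η + 2 * R)
    (fun k => by have := (h.seq.up k).locFin; exact bop_cont n _ hsp hsR hΨc hΨz)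
    (bop_cont n _ hsp hsR hΨc hΨz) (hL2.continuous.const_smul c)
    (fun k y hy => bop_zero n _ hsp hsR hΨz hy) (fun y hy => bop_zero n _ hsp hsR hΨz hy)
    (fun y hy => by rw [bext_zero V hη hgz (by linarith), smul_zero]) hun
    (fun y hy => by
      have := bop_bext n V hη hsp hsR hc.le hψc ⟨y, leb_support V hy⟩
      rw [← hg] at this
      exact this)
  have hHc := hH.continuous
  have hq : Tendsto (fun k => ∫ q : V, ⟪moll η (μs k) (hs k) q, g q⟫) l
      (𝓝 (∫ q : V, ⟪H q, g q⟫)) := by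
    rw [Metric.tendsto_nhds]
    intro ε hε
    have hI : 0 ≤ ∫ q, ‖g q‖ := integral_nonneg fun _ => norm_nonneg _
    filter_upwards [Metric.tendstoUniformlyOn_iff.1 (hu (ρ + 2 * R)) (ε / ((∫ q, ‖g q‖) + 1))
      (by positivity)] with k hk1
    have := (h.seq.up k).locFin
    have i1 := (bext_pair V hη hgc hgz (μs k) (h.lip k).continuous).1
    have i2 : Integrable (fun q : V => ⟪H q, g q⟫) :=
      Continuous.integrable_of_hasCompactSupport (by fun_prop)
        (blow2_hcs (ρ := ρ + 2 * R) fun q hq => by rw [hgz q hq, inner_zero_right])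
    rw [dist_eq_norm, ← integral_sub i1 i2]
    refine lt_of_le_of_lt (norm_integral_le_of_norm_le
      (hgi.norm.const_mul (ε / ((∫ q, ‖g q‖) + 1))) (Eventually.of_forall fun q => ?_)) ?_
    · by_cases hq : ρ + 2 * R ≤ ‖q‖
      · rw [hgz q hq]; simp
      · rw [← inner_sub_left]
        refine (norm_inner_le_norm (𝕜 := ℝ) _ _).trans
          (mul_le_mul_of_nonneg_right ?_ (norm_nonneg _))
        rw [← dist_eq_norm, dist_comm]
        exact (hk1 q (mem_ball_zero_iff.2 (not_le.1 hq))).le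
    · rw [integral_const_mul, div_mul_eq_mul_div, div_lt_iff₀ (by positivity)]
      nlinarith
  have hlim : Tendsto (fun k => En n (μs k) (fun t => cut R t - cut s t) (hs k) (bext V η ψ)) l
      (𝓝 (c * En n (volume : Measure V) (fun t => cut R t - cut s t) (fun q : V => H q) ψ)) := by
    have h1 := (hp.add (hq.const_mul c)).const_mul 2
    rw [En_eq_bop n volume hsp hsR hHV.continuous hψc hz, ← hg]
    rw [zero_add, ← mul_assoc, mul_comm 2 c, mul_assoc] at h1
    refine h1.congr fun k => ?_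
    have := (h.seq.up k).locFin
    rw [En_eq_bop n (μs k) hsp hsR (h.lip k).continuous hΨc hΨz,
      ← (bext_pair V hη hgc hgz (μs k) (h.lip k).continuous).2]
    simp only [inner_smul_right, integral_const_mul, sub_add_cancel]
  have h2 := le_of_tendsto hlim.abs hbd
  rw [abs_mul, abs_of_pos hc] at h2
  exact le_of_mul_le_mul_left h2 hc

end Vale.Agent.P120
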