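import Vale.Agent.P120.Blow1
import Vale.Agent.P120.Blow2

/-!
Blow-up of approximate solutions: approximation by an affine map.
-/

open MeasureTheory Metric Set Filter Topology
open scoped RealInnerProductSpace ENNReal NNReal

noncomputable section

namespace Vale.Agent.P120

variable {X : Type} [NormedAddCommGroup X] [InnerProductSpace ℝ X] [FiniteDimensional ℝ X]
  [MeasurableSpace X] [BorelSpace X]
variable {F : Type} [NormedAddCommGroup F] [InnerProductSpace ℝ F] [FiniteDimensional ℝ F]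

/-- Choose `η` with `Cb η ≤ η'/8`; `blow_lim`, `blow_har`, `liou_affine` on `V` give
`H q = H 0 + T q` on `V`; `c0 = c ∫_V cut η ‖q‖ dq` (translation invariance, `leb_integral`,
`leb_support`); `blow_close`; and `∫ cut 1 ‖y‖ ‖H y - H (Pr V y)‖² dμs k → 0` by `VL`. -/
theorem blowup {n : ℕ} {C : ℝ} (hC : 0 < C) (𝒰 : Ultrafilter ℕ) {μs : ℕ → Measure X}
    {hs : ℕ → X → F} (h : BSeq n C 𝒰 μs hs) {V : Submodule ℝ X} (hV : Module.finrank ℝ V = n)
    {c : ℝ} (hc : 0 < c) (hVL : VL 𝒰 μs (leb V c)) (hν : Up n (leb V c) C) {η' : ℝ}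
    (hη' : 0 < η') : ∃ (a : F) (T : V →L[ℝ] F),
      ∀ᶠ k in (𝒰 : Filter ℕ),
        ∫ y in ball 0 1, ‖hs k y - (a + T (Pr V y))‖ ^ 2 ∂(μs k) ≤ η' := by
  obtain ⟨Cb, hCb, hb⟩ := blow_close (X := X) (F := F) n hC
  obtain ⟨η, hη, hη1, hη2⟩ : ∃ η : ℝ, 0 < η ∧ η ≤ 1 ∧ Cb * η ≤ η' / 8 := by
    refine ⟨min 1 (η' / 8 / Cb), lt_min one_pos (by positivity), min_le_left _ _, ?_⟩
    rw [← le_div_iff₀' hCb]
    exact min_le_right _ _
  obtain ⟨H, hH, hu, hG⟩ := blow_lim hC 𝒰 h V hη hη1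
  have hlip : LocLip (fun q : V => H q) := by
    intro R
    obtain ⟨L, hL⟩ := hH R
    refine ⟨L, fun x hx y hy => ?_⟩
    have := hL (x := (x : X)) (by simpa using hx) (y := (y : X)) (by simpa using hy)
    exact this
  obtain ⟨T, hT⟩ := liou_affine hV (U := fun q : V => H q)
    ⟨hlip, hG, fun A => blow_har hC h hV hc hVL hν hη hH hu A⟩
  obtain ⟨c0, hc0⟩ : ∃ c0, c0 = c • ∫ q : V, cut η (dist (0 : V) q) := ⟨_, rfl⟩
  have hHc := hH.continuous
  have h1 := hb 𝒰 μs hs (leb V c) h hVL hν η c0 hη hη1 (fun y hy => by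
    rw [leb_integral V hc.le, hc0]
    congr 1
    rw [← integral_add_left_eq_self _ (⟨y, leb_support V hy⟩ : V)]
    refine integral_congr_ae (Eventually.of_forall fun q => ?_)
    simp) H hHc (hu 1) (η' / 8) (by positivity)
  have hc1 := continuous_cut 1
  have hfc : Continuous fun y : X => cut 1 ‖y‖ * ‖c0⁻¹ • (H y - H (Pr V y))‖ ^ 2 := by fun_prop
  have hfs : HasCompactSupport fun y : X => cut 1 ‖y‖ * ‖c0⁻¹ • (H y - H (Pr V y))‖ ^ 2 :=
    hasCompactSupport_of_zero (x := 0) (ρ := 2) fun y hy => by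
      rw [dist_zero_right] at hy
      rw [cut_eq_zero one_pos (by linarith), zero_mul]
  have h2 := hVL _ hfc hfs
  rw [leb_integral V hc.le] at h2
  simp only [Submodule.orthogonalProjectionOnto_mem_subspace_eq_self, sub_self, smul_zero,
    norm_zero, ne_eq, OfNat.ofNat_ne_zero, not_false_eq_true, zero_pow, mul_zero,
    integral_zero] at h2
  refine ⟨c0⁻¹ • H 0, c0⁻¹ • T, ?_⟩
  filter_upwards [h1, h2.eventually (gt_mem_nhds (show (0 : ℝ) < η' / 8 by positivity))]
    with k k1 k2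
  haveI := (h.seq.up k).locFin
  have hk := (h.lip k).continuous
  have i1 := integrableOn_ball_of_continuous (μ := μs k)
    (f := fun y => ‖hs k y - c0⁻¹ • H y‖ ^ 2) (by fun_prop) (0 : X) 1
  have i2 := hfc.integrable_of_hasCompactSupport (μ := μs k) hfs
  have i3 := integrableOn_ball_of_continuous (μ := μs k)
    (f := fun y => ‖hs k y - (c0⁻¹ • H 0 + (c0⁻¹ • T) (Pr V y))‖ ^ 2) (by fun_prop) (0 : X) 1
  have k3 := setIntegral_le_integral (s := ball (0 : X) 1) i2
    (Eventually.of_forall fun y => mul_nonneg (cut_nonneg _ _) (by positivity))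
  have k4 := setIntegral_mono_on i3 ((i1.const_mul 2).add (i2.integrableOn.const_mul 2))
    measurableSet_ball fun y hy => by
      rw [mem_ball_zero_iff] at hy
      have e1 : hs k y - (c0⁻¹ • H 0 + (c0⁻¹ • T) (Pr V y)) =
          (hs k y - c0⁻¹ • H y) + c0⁻¹ • (H y - H (Pr V y)) := by
        rw [hT (Pr V y)]
        simp only [ContinuousLinearMap.smul_apply, ZeroMemClass.coe_zero]
        module
      rw [Pi.add_apply, e1, cut_eq_one one_pos hy.le, one_mul]
      have a1 := pow_le_pow_left₀ (norm_nonneg _)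
        (norm_add_le (hs k y - c0⁻¹ • H y) (c0⁻¹ • (H y - H (Pr V y)))) 2
      nlinarith [sq_nonneg (‖hs k y - c0⁻¹ • H y‖ - ‖c0⁻¹ • (H y - H (Pr V y))‖)]
  simp only [Pi.add_apply] at k4
  rw [integral_add (i1.const_mul 2) (i2.integrableOn.const_mul 2), integral_const_mul,
    integral_const_mul] at k4
  linarith

end Vale.Agent.P120
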