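import Vale.Agent.P120.CubeApi

/-!
Abstract summation of the flatness recursion over cubes.
-/

open MeasureTheory Metric Set Filter Topology
open scoped RealInnerProductSpace ENNReal NNReal

noncomputable section

namespace Vale.Agent.P120

variable {X : Type} [NormedAddCommGroup X] [InnerProductSpace ℝ X] [FiniteDimensional ℝ X]
  [MeasurableSpace X] [BorelSpace X]
variable {F : Type} [NormedAddCommGroup F] [InnerProductSpace ℝ F] [FiniteDimensional ℝ F]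

theorem carl1_seq1 {N B : ℕ → ℝ} {m Bt γ : ℝ} {j0 : ℕ} (hγ : 0 < γ) (h0 : ∀ k, 0 ≤ N k)
    (h1 : ∀ k, N k ≤ m) (h2 : ∀ k, 0 ≤ B k) (h3 : ∀ K, ∑ k ∈ Finset.range K, B k ≤ Bt)
    (h4 : ∀ k, N (j0 + k) ≤ (1 - γ) * N k + ∑ i ∈ Finset.range (j0 + 1), B (i + k)) (K : ℕ) :
    ∑ k ∈ Finset.range K, N k ≤ (j0 * m + (j0 + 1) * Bt) / γ := by
  have a1 : ∑ k ∈ Finset.range K, N k ≤ ∑ k ∈ Finset.range (j0 + K), N k :=
    Finset.sum_le_sum_of_subset_of_nonneg (Finset.range_subset_range.2 (by omega))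
      fun k _ _ => h0 k
  rw [Finset.sum_range_add] at a1
  have a2 : ∑ k ∈ Finset.range j0, N k ≤ j0 * m := by
    have := Finset.sum_le_sum fun k (_ : k ∈ Finset.range j0) => h1 k
    simpa using this
  have a3 := Finset.sum_le_sum fun k (_ : k ∈ Finset.range K) => h4 k
  rw [Finset.sum_add_distrib, ← Finset.mul_sum, Finset.sum_comm] at a3
  have a4 : ∑ i ∈ Finset.range (j0 + 1), ∑ k ∈ Finset.range K, B (i + k) ≤ (j0 + 1) * Bt := by
    have : ∀ i ∈ Finset.range (j0 + 1), ∑ k ∈ Finset.range K, B (i + k) ≤ Bt := by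
      intro i _
      have b1 := h3 (i + K)
      rw [Finset.sum_range_add] at b1
      have b2 : 0 ≤ ∑ k ∈ Finset.range i, B k := Finset.sum_nonneg fun k _ => h2 k
      linarith
    have := Finset.sum_le_sum this
    simpa using this
  rw [le_div_iff₀ hγ]
  linarith

theorem carl1_seq2 {I D N : ℕ → ℝ} {a B Dt Nt : ℝ} (hB : 0 ≤ B) (h0 : ∀ k, 0 ≤ I k)
    (h1 : I 0 ≤ a) (h2 : ∀ k, 0 ≤ D k) (h3 : ∀ K, ∑ k ∈ Finset.range K, D k ≤ Dt)
    (h4 : ∀ K, ∑ k ∈ Finset.range K, N k ≤ Nt)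
    (h5 : ∀ k, I (k + 1) ≤ I k / 2 + D (k + 1) + B * N k) (K : ℕ) :
    ∑ k ∈ Finset.range K, I k ≤ 2 * (a + Dt + B * Nt) := by
  have a1 : ∑ k ∈ Finset.range K, I k ≤ ∑ k ∈ Finset.range (K + 1), I k := by
    rw [Finset.sum_range_succ]
    linarith [h0 K]
  rw [Finset.sum_range_succ'] at a1
  have a3 := Finset.sum_le_sum fun k (_ : k ∈ Finset.range K) => h5 k
  rw [Finset.sum_add_distrib, Finset.sum_add_distrib, ← Finset.mul_sum, ← Finset.sum_div] at a3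
  have a4 := h3 (K + 1)
  rw [Finset.sum_range_succ'] at a4
  have a5 := mul_le_mul_of_nonneg_left (h4 K) hB
  linarith [h2 0]

section

variable {n : ℕ} {μ : Measure X} {C θ : ℝ} (Q : Cubes μ.support θ)

theorem carl1_fin (hU : Up n μ C) {S : Set X} (hS : S ⊆ Q.Z) : μ S ≠ ⊤ := by
  have h1 : S ⊆ ball 0 3 := fun y hy => by
    have := Q.norm_le (hS hy)
    rw [mem_ball_zero_iff]
    linarith
  exact ((measure_mono h1).trans_lt ((hU 0 3 (by norm_num)).trans_lt ENNReal.ofReal_lt_top)).ne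

theorem carl1_le (hU : Up n μ C) (hC : 0 < C) {S : Set X} (hS : S ⊆ Q.Z) :
    μ.real S ≤ C * 3 ^ n := by
  have h1 : S ⊆ ball 0 3 := fun y hy => by
    have := Q.norm_le (hS hy)
    rw [mem_ball_zero_iff]
    linarith
  exact (measureReal_mono h1
    ((hU 0 3 (by norm_num)).trans_lt ENNReal.ofReal_lt_top).ne).trans (hU.real_le hC 0 (by norm_num))

open Classical in
theorem carl1_pred (hU : Up n μ C) (k : ℕ) (P : X → Prop) :
    μ.real {y | y ∈ Q.Z ∧ P (Q.ad k y)} =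
      ∑ c ∈ Q.N k, (if P c then 1 else 0) * μ.real (Q.fib k c) := by
  rw [Measure.real, Q.measure_pred μ k P, ENNReal.toReal_sum
    fun c _ => carl1_fin Q hU (S := Q.fib k c) fun y hy => hy.1, Finset.sum_filter]
  refine Finset.sum_congr rfl fun c _ => ?_
  by_cases h : P c <;> simp [h, Measure.real]

theorem carl1_pull (hU : Up n μ C) (k : ℕ) (f : X → ℝ) :
    ∑ c ∈ Q.N (k + 1), f (Q.ad k c) * μ.real (Q.fib (k + 1) c) =
      ∑ c ∈ Q.N k, f c * μ.real (Q.fib k c) := by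
  classical
  rw [← Finset.sum_fiberwise_of_maps_to (g := Q.ad k) (t := Q.N k)
    fun c hc => Q.ad_mem k c (Q.N_sub _ c hc)]
  refine Finset.sum_congr rfl fun c _ => ?_
  have h1 := carl1_pred Q hU (k + 1) (fun c' => Q.ad k c' = c)
  have h2 : {y | y ∈ Q.Z ∧ Q.ad k (Q.ad (k + 1) y) = c} = Q.fib k c := by
    ext y
    exact and_congr_right fun hy => by rw [Q.nest k (k + 1) (Nat.le_succ k) y hy]
  rw [h2] at h1
  rw [h1, Finset.sum_filter, Finset.mul_sum]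
  refine Finset.sum_congr rfl fun c' _ => ?_
  by_cases h : Q.ad k c' = c <;> simp [h]

theorem carl1_fib_le (hθ : 0 < θ) (hU : Up n μ C) (hC : 0 < C) (k : ℕ) (c : X) :
    μ.real (Q.fib k c) ≤ C * 3 ^ n * (θ ^ k) ^ n :=
  ENNReal.toReal_le_of_le_ofReal (by positivity) (Q.fib_le hθ hU k c)

theorem carl1_fib_ge {W : ℝ} (hθ : 0 < θ) (hθ1 : θ ≤ 1) (hreg : Reg n μ C 0 W) (hW : 3 ≤ W)
    {k : ℕ} {c : X} (hc : c ∈ Q.N k) : (θ ^ k) ^ n / (4 ^ n * C) ≤ μ.real (Q.fib k c) :=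
  (ENNReal.ofReal_le_iff_le_toReal (carl1_fin Q hreg.up fun _ hy => hy.1)).1
    (Q.fib_ge hθ hθ1 hreg hW hc)

/-- the recursion for the mass of the points that are not flat -/
theorem carl1_nonflat {W ε1 δ δ' γ : ℝ} {j0 : ℕ} (hC : 0 < C) (hθ : 0 < θ) (hθ1 : θ ≤ 1)
    (hreg : Reg n μ C 0 W) (hW : 3 ≤ W) (h1 : δ' ≤ δ) (h2 : δ' ≤ ε1 / 2) (hγ1 : γ ≤ 1)
    (hγ : γ ≤ (θ ^ j0) ^ n / (12 ^ n * C ^ 2)) {b d : ℕ → X → ℝ}
    (hrec : ∀ k, ∀ c ∈ Q.N (k + 1), b k (Q.ad k c) ≤ ε1 →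
      b (k + 1) c ≤ b k (Q.ad k c) / 2 + d (k + 1) c)
    (hfp : ∀ k, ∀ c ∈ Q.N k, d k c ≤ δ →
      ∃ j, k ≤ j ∧ j ≤ k + j0 ∧ ∃ c' ∈ Q.N j, Q.ad k c' = c ∧ b j c' ≤ ε1) (k : ℕ) :
    μ.real {y | y ∈ Q.Z ∧ ε1 < b (j0 + k) (Q.ad (j0 + k) y)} ≤
      (1 - γ) * μ.real {y | y ∈ Q.Z ∧ ε1 < b k (Q.ad k y)} +
        ∑ i ∈ Finset.range (j0 + 1),
          μ.real {y | y ∈ Q.Z ∧ δ' < d (i + k) (Q.ad (i + k) y)} := by
  classical
  have hU := hreg.up
  have hch : ∀ c : X, ∃ (j : ℕ) (c' : X), c ∈ Q.N k → d k c ≤ δ →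
      k ≤ j ∧ j ≤ k + j0 ∧ c' ∈ Q.N j ∧ Q.ad k c' = c ∧ b j c' ≤ ε1 := by
    intro c
    by_cases h : c ∈ Q.N k ∧ d k c ≤ δ
    · obtain ⟨j, a1, a2, c', a3⟩ := hfp k c h.1 h.2
      exact ⟨j, c', fun _ _ => ⟨a1, a2, a3⟩⟩
    · exact ⟨0, 0, fun a b => absurd ⟨a, b⟩ h⟩
  choose j c' hj using hch
  let T := (Q.N k).filter (fun c => ε1 < b k c ∧ d k c ≤ δ)
  have s1 : {y | y ∈ Q.Z ∧ ε1 < b (j0 + k) (Q.ad (j0 + k) y)} ⊆
      (⋃ c ∈ T, Q.fib k c \ Q.fib (j c) (c' c)) ∪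
        ⋃ i ∈ Finset.range (j0 + 1), {y | y ∈ Q.Z ∧ δ' < d (i + k) (Q.ad (i + k) y)} := by
    rintro y ⟨hy, hb⟩
    by_cases h : ∃ i ∈ Finset.range (j0 + 1), δ' < d (i + k) (Q.ad (i + k) y)
    · obtain ⟨i, a1, a2⟩ := h
      exact Or.inr (mem_iUnion₂.2 ⟨i, a1, hy, a2⟩)
    have hd : ∀ i, k ≤ i → i ≤ j0 + k → d i (Q.ad i y) ≤ δ' := fun i a1 a2 => by
      obtain ⟨l, rfl⟩ := Nat.exists_eq_add_of_le' a1
      exact not_lt.1 fun a3 => h ⟨l, Finset.mem_range.2 (by omega), a3⟩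
    have hnf : ∀ i, k ≤ i → i ≤ j0 + k → ε1 < b i (Q.ad i y) := by
      intro i a1 a2
      by_contra a3
      have a4 : ∀ l, i ≤ l → l ≤ j0 + k → b l (Q.ad l y) ≤ ε1 := by
        intro l hl
        induction l, hl using Nat.le_induction with
        | base => exact fun _ => not_lt.1 a3
        | succ l hl ih =>
          intro a5
          have b1 := ih (by omega)
          have b2 := hrec l _ (Q.ad_mem (l + 1) y hy)
          rw [Q.nest l (l + 1) (Nat.le_succ l) y hy] at b2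
          have b3 := b2 b1
          have b4 := hd (l + 1) (by omega) a5
          linarith
      exact absurd hb (not_lt.2 (a4 _ a2 le_rfl))
    have b1 := Q.ad_mem k y hy
    have b2 := (hd k le_rfl (by omega)).trans h1
    obtain ⟨c1, c2, _, _, c5⟩ := hj _ b1 b2
    refine Or.inl (mem_iUnion₂.2 ⟨Q.ad k y,
      Finset.mem_filter.2 ⟨b1, hnf k le_rfl (by omega), b2⟩, ⟨hy, rfl⟩, fun hf => ?_⟩)
    have b3 := hnf _ c1 (by omega)
    rw [hf.2] at b3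
    linarith
  have f1 : μ ((⋃ c ∈ T, Q.fib k c \ Q.fib (j c) (c' c)) ∪
      ⋃ i ∈ Finset.range (j0 + 1), {y | y ∈ Q.Z ∧ δ' < d (i + k) (Q.ad (i + k) y)}) ≠ ⊤ := by
    refine carl1_fin Q hU (union_subset (iUnion₂_subset fun c _ y hy => hy.1.1)
      (iUnion₂_subset fun c _ y hy => hy.1))
  refine (measureReal_mono s1 f1).trans ((measureReal_union_le _ _).trans
    (add_le_add ((measureReal_biUnion_finset_le _ _).trans ?_)
      (measureReal_biUnion_finset_le _ _)))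
  rw [carl1_pred Q hU k (fun c => ε1 < b k c), Finset.mul_sum, Finset.sum_filter]
  refine Finset.sum_le_sum fun c hc => ?_
  have w0 : 0 ≤ μ.real (Q.fib k c) := measureReal_nonneg
  split_ifs with a1 a2 a3
  · obtain ⟨c1, c2, c3, c4, _⟩ := hj c hc a1.2
    have b1 : Q.fib (j c) (c' c) ⊆ Q.fib k c := fun y hy =>
      ⟨hy.1, by rw [← Q.nest k (j c) c1 y hy.1, hy.2, c4]⟩
    rw [measureReal_diff b1 (Q.meas _ _) (carl1_fin Q hU fun _ hy => hy.1)]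
    have b2 := carl1_fib_ge Q hθ hθ1 hreg hW c3
    have b3 := carl1_fib_le Q hθ hU hC k c
    have b4 : (θ ^ (k + j0)) ^ n ≤ (θ ^ j c) ^ n :=
      pow_le_pow_left₀ (by positivity) (pow_le_pow_of_le_one hθ.le hθ1 c2) n
    have b5 : γ * μ.real (Q.fib k c) ≤ (θ ^ j c) ^ n / (4 ^ n * C) :=
      calc γ * μ.real (Q.fib k c)
          ≤ (θ ^ j0) ^ n / (12 ^ n * C ^ 2) * (C * 3 ^ n * (θ ^ k) ^ n) :=
            mul_le_mul hγ b3 w0 (by positivity)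
        _ = (θ ^ (k + j0)) ^ n / (4 ^ n * C) := by
            rw [show (12 : ℝ) = 4 * 3 by norm_num, mul_pow, pow_add, mul_pow]
            field_simp
        _ ≤ _ := div_le_div_of_nonneg_right b4 (by positivity)
    linarith
  · exact absurd a1.1 a2
  · exact mul_nonneg (by linarith) (by linarith)
  · simp

end

/-- Work with `m S = μ.real S`, functions of points `b k (ad k y)`, and `Cubes.measure_pred`,
`fib_le`, `fib_ge`. Let `Nk = m {ε1 < b k}`, `Bk = m {δ < d k} ≤ C 3^n C3k/δ` where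
`C3k = ∑_c d k c θ^(kn)`. We may assume `δ ≤ ε1/2`. If `d i ≤ δ` along `y` for `k ≤ i ≤ k + j0` and
`b i ≤ ε1` for one such `i`, then `b (k+j0) ≤ ε1` (hypothesis `hrec`). Hence a point that is not
flat at level `k + j0` is bad at some level in `[k, k+j0]`, or lies in `fib k c \ fib j c'` for a
non flat `c` with `d k c ≤ δ` and the pair `(j, c')` from `hfp`; and
`m (fib j c') ≥ γ m (fib k c)`, `γ = θ^(j0 n)/(12^n C²)`. So
`N(k+j0) ≤ (1-γ) Nk + ∑_{i ∈ [k,k+j0]} Bi`, and `γ ∑_{k<K} Nk ≤ j0 m Z + (j0+1) ∑ Bi`.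
Finally `I(k+1) ≤ I k/2 + ∫ d (k+1) + B Nk` for `I k = ∑_c b k c m(fib k c)`. -/
theorem carl_sum (n : ℕ) {C θ B ε1 δ C3 : ℝ} (hC : 0 < C) (hθ : 0 < θ) (hθ1 : θ ≤ 1)
    (hε : 0 < ε1) (hδ : 0 < δ) (j0 : ℕ) : ∃ C4 : ℝ, ∀ (μ : Measure X) (W : ℝ), 3 ≤ W →
    Reg n μ C 0 W → ∀ (Q : Cubes μ.support θ) (b d : ℕ → X → ℝ), (∀ k c, 0 ≤ b k c) →
    (∀ k c, 0 ≤ d k c) → (∀ k, ∀ c ∈ Q.N k, b k c ≤ B) →
    (∀ k, ∀ c ∈ Q.N (k + 1), b k (Q.ad k c) ≤ ε1 →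
      b (k + 1) c ≤ b k (Q.ad k c) / 2 + d (k + 1) c) →
    (∀ k, ∀ c ∈ Q.N k, d k c ≤ δ →
      ∃ j, k ≤ j ∧ j ≤ k + j0 ∧ ∃ c' ∈ Q.N j, Q.ad k c' = c ∧ b j c' ≤ ε1) →
    (∀ K : ℕ, ∑ k ∈ Finset.range K, ∑ c ∈ Q.N k, d k c * (θ ^ k) ^ n ≤ C3) →
    ∀ K : ℕ, ∑ k ∈ Finset.range K, ∑ c ∈ Q.N k, b k c * (θ ^ k) ^ n ≤ C4 := by
  classical
  obtain ⟨δ', hδ', h1, h2⟩ : ∃ δ' : ℝ, 0 < δ' ∧ δ' ≤ δ ∧ δ' ≤ ε1 / 2 :=
    ⟨min δ (ε1 / 2), by positivity, min_le_left _ _, min_le_right _ _⟩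
  obtain ⟨γ, hγ0, hγ1, hγ⟩ : ∃ γ : ℝ, 0 < γ ∧ γ ≤ 1 ∧ γ ≤ (θ ^ j0) ^ n / (12 ^ n * C ^ 2) :=
    ⟨min 1 ((θ ^ j0) ^ n / (12 ^ n * C ^ 2)), by positivity, min_le_left _ _, min_le_right _ _⟩
  refine ⟨4 ^ n * C * (2 * (|B| * (C * 3 ^ n) + C * 3 ^ n * C3 +
    |B| * ((j0 * (C * 3 ^ n) + (j0 + 1) * (C * 3 ^ n * C3 / δ')) / γ))),
    fun μ W hW hreg Q b d hb hd hB hrec hfp hC3 K => ?_⟩
  have hU := hreg.up
  have w0 : ∀ k c, 0 ≤ μ.real (Q.fib k c) := fun _ _ => measureReal_nonneg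
  have hD : ∀ K, ∑ k ∈ Finset.range K, ∑ c ∈ Q.N k, d k c * μ.real (Q.fib k c) ≤
      C * 3 ^ n * C3 := by
    intro K
    refine le_trans ?_ (mul_le_mul_of_nonneg_left (hC3 K) (by positivity))
    rw [Finset.mul_sum]
    refine Finset.sum_le_sum fun k _ => ?_
    rw [Finset.mul_sum]
    refine Finset.sum_le_sum fun c _ => ?_
    have := mul_le_mul_of_nonneg_left (carl1_fib_le Q hθ hU hC k c) (hd k c)
    linarith
  have hN := carl1_seq1 (N := fun k => μ.real {y | y ∈ Q.Z ∧ ε1 < b k (Q.ad k y)})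
    (B := fun k => μ.real {y | y ∈ Q.Z ∧ δ' < d k (Q.ad k y)}) (m := C * 3 ^ n)
    (Bt := C * 3 ^ n * C3 / δ') (j0 := j0) hγ0 (fun _ => measureReal_nonneg)
    (fun _ => carl1_le Q hU hC fun _ hy => hy.1) (fun _ => measureReal_nonneg)
    (fun K => by
      refine le_trans ?_ (div_le_div_of_nonneg_right (hD K) hδ'.le)
      rw [Finset.sum_div]
      refine Finset.sum_le_sum fun k _ => ?_
      rw [carl1_pred Q hU k (fun c => δ' < d k c), Finset.sum_div]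
      refine Finset.sum_le_sum fun c _ => ?_
      rw [mul_div_right_comm]
      refine mul_le_mul_of_nonneg_right ?_ (w0 k c)
      split_ifs with a
      · exact (one_le_div hδ').2 a.le
      · exact div_nonneg (hd k c) hδ'.le)
    (carl1_nonflat Q hC hθ hθ1 hreg hW h1 h2 hγ1 hγ hrec hfp)
  have hI := carl1_seq2 (I := fun k => ∑ c ∈ Q.N k, b k c * μ.real (Q.fib k c))
    (D := fun k => ∑ c ∈ Q.N k, d k c * μ.real (Q.fib k c)) (a := |B| * (C * 3 ^ n))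
    (abs_nonneg B) (fun k => Finset.sum_nonneg fun c _ => mul_nonneg (hb k c) (w0 k c))
    (by
      rw [Q.zero, Finset.sum_singleton]
      refine mul_le_mul ((hB 0 0 ?_).trans (le_abs_self B))
        (carl1_le Q hU hC fun _ hy => hy.1) (w0 0 0) (abs_nonneg B)
      rw [Q.zero]
      exact Finset.mem_singleton_self 0)
    (fun k => Finset.sum_nonneg fun c _ => mul_nonneg (hd k c) (w0 k c)) hD hN
    (fun k => by
      rw [carl1_pred Q hU k (fun c => ε1 < b k c), ← carl1_pull Q hU k (b k),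
        ← carl1_pull Q hU k (fun c => if ε1 < b k c then 1 else 0), Finset.sum_div,
        Finset.mul_sum, ← Finset.sum_add_distrib, ← Finset.sum_add_distrib]
      refine Finset.sum_le_sum fun c hc => ?_
      have a1 : b (k + 1) c ≤ b k (Q.ad k c) / 2 + d (k + 1) c +
          |B| * (if ε1 < b k (Q.ad k c) then 1 else 0) := by
        split_ifs with a
        · linarith [hB _ c hc, le_abs_self B, hb k (Q.ad k c), hd (k + 1) c]
        · linarith [hrec k c hc (not_lt.1 a)]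
      have a2 := mul_le_mul_of_nonneg_right a1 (w0 (k + 1) c)
      linarith) K
  refine le_trans ?_ (mul_le_mul_of_nonneg_left hI (by positivity))
  rw [Finset.mul_sum]
  refine Finset.sum_le_sum fun k _ => ?_
  rw [Finset.mul_sum]
  refine Finset.sum_le_sum fun c hc => ?_
  have a1 := carl1_fib_ge Q hθ hθ1 hreg hW hc
  rw [div_le_iff₀ (by positivity)] at a1
  have a2 := mul_le_mul_of_nonneg_left a1 (hb k c)
  linarith

end Vale.Agent.P120
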