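import Vale.Agent.P120.Lim1
import Vale.Agent.P120.Approx

/-!
Double integrals, the bound `RB` and reflectionlessness pass to vague limits.
-/

open MeasureTheory Metric Set Filter Topology
open scoped RealInnerProductSpace ENNReal NNReal

noncomputable section

namespace Vale.Agent.P120

variable {X : Type} [NormedAddCommGroup X] [InnerProductSpace ℝ X] [FiniteDimensional ℝ X]
  [MeasurableSpace X] [BorelSpace X]
variable {F : Type} [NormedAddCommGroup F] [InnerProductSpace ℝ F] [FiniteDimensional ℝ F]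

/-- Fubini; `g k x = ∫ Φ(x,y) dμs k(y) → g x` uniformly (`VL.unif`), `g` is continuous with compact
support, masses of a fixed ball are bounded. -/
theorem VL.double {n : ℕ} {C : ℝ} (hC : 0 < C) {l : Filter ℕ} [l.NeBot] {μs : ℕ → Measure X}
    {ν : Measure X} (h : VL l μs ν) (hU : ∀ k, Up n (μs k) C) (hν : Up n ν C) {Φ : X × X → ℝ}
    (hΦ : Continuous Φ) (hc : HasCompactSupport Φ) :
    Tendsto (fun k => ∫ p, Φ p ∂((μs k).prod (μs k))) l (𝓝 (∫ p, Φ p ∂(ν.prod ν))) := by
  obtain ⟨R, hR, hz⟩ : ∃ R : ℝ, 0 < R ∧ ∀ p : X × X, R ≤ ‖p‖ → Φ p = 0 := by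
    obtain ⟨R, hR, h1⟩ := hc.isCompact.isBounded.subset_ball_lt 0 (0 : X × X)
    refine ⟨R, hR, fun p hp => ?_⟩
    by_contra h2
    have := h1 (subset_tsupport _ h2)
    rw [mem_ball_zero_iff] at this
    linarith
  have hz1 : ∀ x y, R ≤ ‖x‖ → Φ (x, y) = 0 := fun x y hx => hz _ (hx.trans (norm_fst_le (x, y)))
  have hz2 : ∀ x y, R ≤ ‖y‖ → Φ (x, y) = 0 := fun x y hy => hz _ (hy.trans (norm_snd_le (x, y)))
  have hcont : ∀ μ : Measure X, Up n μ C → Continuous (fun x => ∫ y, Φ (x, y) ∂μ) := by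
    intro μ hμ
    haveI := hμ.locFin
    rw [← continuousOn_univ]
    refine continuousOn_integral_of_compact_support (k := closedBall 0 R) (isCompact_closedBall _ _)
      (f := fun x y => Φ (x, y)) hΦ.continuousOn fun x y _ hy => hz2 x y ?_
    rw [mem_closedBall_zero_iff] at hy
    linarith
  have hzero : ∀ (μ : Measure X) x, R ≤ dist x 0 → ∫ y, Φ (x, y) ∂μ = 0 := fun μ x hx => by
    rw [dist_zero_right] at hx
    simp [hz1 x _ hx]
  have hfub : ∀ μ : Measure X, Up n μ C →
      ∫ p, Φ p ∂(μ.prod μ) = ∫ x, ∫ y, Φ (x, y) ∂μ ∂μ := by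
    intro μ hμ
    haveI := hμ.locFin
    exact integral_prod _ (hΦ.integrable_of_hasCompactSupport hc)
  have h1 := h _ (hcont ν hν) (hasCompactSupport_of_zero (hzero ν))
  have h2 := h.unif hC hU hν hΦ (R := R) (R' := R) fun x _ y hy => hz2 x y hy
  have h3 : Tendsto (fun k => ∫ x, ∫ y, Φ (x, y) ∂(μs k) ∂(μs k) - ∫ x, ∫ y, Φ (x, y) ∂ν ∂(μs k))
      l (𝓝 0) := by
    rw [Metric.tendsto_nhds]
    intro ε hε
    have hp : 0 < C * R ^ n := by positivity
    filter_upwards [Metric.tendstoUniformlyOn_iff.1 h2 (ε / 2 / (C * R ^ n)) (by positivity)]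
      with k hk
    haveI := (hU k).locFin
    rw [dist_zero_right, ← integral_sub
      ((hcont _ (hU k)).integrable_of_hasCompactSupport (hasCompactSupport_of_zero (hzero _)))
      ((hcont _ hν).integrable_of_hasCompactSupport (hasCompactSupport_of_zero (hzero _)))]
    refine lt_of_le_of_lt (lim1_bound (y := 0) (b := R) (M := ε / 2 / (C * R ^ n))
      (fun z hz => ?_) fun z hz => ?_) ?_
    · rw [← dist_eq_norm, dist_comm]
      exact (hk z hz).le
    · rw [hzero _ z hz, hzero _ z hz, sub_zero]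
    · refine lt_of_le_of_lt (mul_le_mul_of_nonneg_left ((hU k).real_le hC 0 hR) (by positivity)) ?_
      rw [div_mul_cancel₀ _ hp.ne']
      linarith
  have h4 := h3.add h1
  rw [zero_add, ← hfub ν hν] at h4
  refine h4.congr fun k => ?_
  rw [sub_add_cancel, hfub _ (hU k)]

theorem lim2_Ke (n : ℕ) {ε : ℝ} (hε : 0 < ε) : Continuous (Ke n ε : X → X) := by
  unfold Ke
  refine Continuous.smul (Continuous.inv₀ (by fun_prop) fun z => ?_) continuous_id
  have : 0 < √(ε ^ 2 + ‖z‖ ^ 2) := Real.sqrt_pos.2 (by positivity)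
  positivity

theorem VL.rb {n : ℕ} {C : ℝ} (hC : 0 < C) {l : Filter ℕ} [l.NeBot] {μs : ℕ → Measure X}
    {ν : Measure X} (h : VL l μs ν) (hU : ∀ k, Up n (μs k) C) (hν : Up n ν C)
    (hR : ∀ k, RB n (μs k) C) : RB n ν C := by
  intro ε hε f g hf hfc hg hgc
  have hK := lim2_Ke (X := X) n hε
  have h1 := h.double hC hU hν (Φ := fun p => g p.2 * ⟪f p.1, Ke n ε (p.1 - p.2)⟫) (by fun_prop)
    (HasCompactSupport.intro (hfc.isCompact.prod hgc.isCompact) fun p hp => by
      rw [Set.mem_prod, not_and_or] at hp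
      rcases hp with hp | hp
      · rw [image_eq_zero_of_notMem_tsupport hp, inner_zero_left, mul_zero]
      · rw [image_eq_zero_of_notMem_tsupport hp, zero_mul])
  have h2 := h (fun y => ‖f y‖ ^ 2) (by fun_prop) (HasCompactSupport.intro hfc.isCompact
    fun y hy => by simp [image_eq_zero_of_notMem_tsupport hy])
  have h3 := h (fun y => g y ^ 2) (by fun_prop) (HasCompactSupport.intro hgc.isCompact
    fun y hy => by simp [image_eq_zero_of_notMem_tsupport hy])
  exact le_of_tendsto_of_tendsto' h1.abs ((h2.sqrt.const_mul C).mul h3.sqrt)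
    fun k => hR k ε hε f g hf hfc hg hgc

/-- The doubly truncated kernel is continuous (it vanishes near `z = 0`). -/
theorem continuous_trunc (n : ℕ) {R s : ℝ} (hs : 0 < s) (hsR : s ≤ R) :
    Continuous (fun z : X => (cut R ‖z‖ - cut s ‖z‖) * J n z) := by
  rw [continuous_iff_continuousAt]
  intro z
  by_cases hz : z = 0
  · refine (continuousAt_const (y := (0 : ℝ))).congr ?_
    filter_upwards [ball_mem_nhds z hs] with y hy
    rw [hz, mem_ball_zero_iff] at hy
    rw [cut_eq_one (hs.trans_le hsR) (hy.le.trans hsR), cut_eq_one hs hy.le, sub_self, zero_mul]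
  · refine ContinuousAt.mul (((continuous_cut R).comp continuous_norm).sub
      ((continuous_cut s).comp continuous_norm)).continuousAt ?_
    unfold J
    exact ContinuousAt.inv₀ (by fun_prop) (pow_ne_zero _ (norm_ne_zero_iff.2 hz))

theorem lim2_gr {n : ℕ} {μ : Measure X} {C : ℝ} (hU : Up n μ C) (hC : 0 < C) :
    Gr n μ (fun y : X => y) 0 1 C := by
  intro t ht
  haveI := hU.locFin
  have ht0 : 0 < t := by linarith
  have h1 := norm_setIntegral_le_of_norm_le_const (μ := μ) (s := ball (0 : X) t)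
    (f := fun y => ‖y‖ ^ 2) (C := t ^ 2) measure_ball_lt_top fun y hy => by
      rw [mem_ball_zero_iff] at hy
      rw [Real.norm_eq_abs, abs_of_nonneg (by positivity)]
      exact pow_le_pow_left₀ (norm_nonneg _) hy.le 2
  have h2 : t ^ 2 ≤ (t / 1) ^ (5 / 2 : ℝ) := by
    rw [div_one, ← Real.rpow_natCast]
    exact Real.rpow_le_rpow_of_exponent_le ht (by norm_num)
  refine ((le_abs_self _).trans h1).trans ?_
  rw [mul_comm]
  exact mul_le_mul (hU.real_le hC 0 ht0) h2 (by positivity) (by positivity)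

/-- `osc_zero_of_trunc`: for a test `ψ` of `ν` (enlarge its radius to `ρ ≥ 1`), `approx` with
`u = id`, `G = C` (`∫_{ball 0 t} |y|² ≤ C t^(n+2)`) bounds `En (μs k) (cut R - cut s) id ψ`
eventually (`VL.vec` gives `∫ ψ dμs k → 0`), and `VL.double` passes to the limit. -/
theorem VL.ref {n : ℕ} {C : ℝ} (hC : 0 < C) {l : Filter ℕ} [l.NeBot] {μs : ℕ → Measure X}
    {ν : Measure X} (h : VL l μs ν) (hs : Seq n C l μs) (hν : Up n ν C)
    (ho : ∀ A δ : ℝ, 0 < δ → ∀ᶠ k in l, Osc n (μs k) (fun y : X => y) 0 A δ) : Ref n ν := by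
  intro A
  have hid : LocLip (fun y : X => y) := locLip_of_lipschitz LipschitzWith.id
  refine osc_zero_of_trunc hν hC hid fun ψ hψ η hη => ?_
  obtain ⟨L, hL⟩ := hψ.lip
  have hz : ∀ y, max A 1 ≤ dist y 0 → ψ y = 0 := fun y hy =>
    hψ.zero y ((le_max_left _ _).trans hy)
  obtain ⟨R0, hR0⟩ := approx (X := X) (F := X) n hC hC.le (le_max_right A 1) L hη
  refine ⟨max R0 1, fun R hR => ?_⟩
  obtain ⟨s0, δ, A', hs0, hδ, H⟩ := hR0 R ((le_max_left _ _).trans hR)
  have hR1 : 0 < R := lt_of_lt_of_le one_pos ((le_max_right _ _).trans hR)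
  refine ⟨min s0 R, lt_min hs0 hR1, fun s hs1 hs2 => ?_⟩
  have hsR : s ≤ R := hs2.trans (min_le_right _ _)
  have hψc := hL.continuous
  have h1 := h.vec hs.up hν hψc (hasCompactSupport_of_zero hz)
  rw [hψ.mean] at h1
  have hk := continuous_trunc (X := X) n hs1 hsR
  have h2 := h.double hC hs.up hν (Φ := fun p : X × X => (cut R ‖p.1 - p.2‖ - cut s ‖p.1 - p.2‖) *
      (J n (p.1 - p.2) * ⟪p.1 - p.2, ψ p.1 - ψ p.2⟫))
    (by
      simp only [← mul_assoc]
      exact (hk.comp (continuous_fst.sub continuous_snd)).mul (by fun_prop))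
    (HasCompactSupport.intro ((isCompact_closedBall (0 : X) (max A 1 + 2 * R)).prod
      (isCompact_closedBall (0 : X) (max A 1 + 2 * R))) fun p hp => by
      by_cases hd : 2 * R ≤ ‖p.1 - p.2‖
      · rw [cut_eq_zero hR1 hd, cut_eq_zero hs1 (by linarith), sub_self, zero_mul]
      · rw [Set.mem_prod, mem_closedBall_zero_iff, mem_closedBall_zero_iff, not_and_or] at hp
        have a1 := norm_sub_norm_le p.1 p.2
        have a2 := norm_sub_norm_le p.2 p.1
        rw [norm_sub_rev p.2] at a2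
        rw [hz p.1 (by rw [dist_zero_right]; rcases hp with hp | hp <;> linarith),
          hz p.2 (by rw [dist_zero_right]; rcases hp with hp | hp <;> linarith)]
        simp)
  refine le_of_tendsto h2.abs ?_
  filter_upwards [hs.low A', ho A' δ hδ, Metric.tendsto_nhds.1 h1 δ hδ] with k k1 k2 k3
  rw [dist_zero_right] at k3
  exact H s hs1 (hs2.trans (min_le_left _ _)) (μs k) ⟨hs.up k, k1, hs.mem k⟩ _ hid
    (lim2_gr (hs.up k) hC) k2 ψ hL hz k3.le

end Vale.Agent.P120
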