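import Vale.Agent.P120.Form

/-!
Invariance under similarities. `sim U x0 r` is a homeomorphism for `r > 0`; package it as a
`Homeomorph` and a `MeasurableEquiv` and use `integral_map_equiv`, `Measure.map_prod_map`.
-/

open MeasureTheory Metric Set Filter Topology
open scoped RealInnerProductSpace ENNReal NNReal

noncomputable section

namespace Vale.Agent.P120

variable {X : Type} [NormedAddCommGroup X] [InnerProductSpace ℝ X] [FiniteDimensional ℝ X]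
  [MeasurableSpace X] [BorelSpace X]
variable {F : Type} [NormedAddCommGroup F] [InnerProductSpace ℝ F] [FiniteDimensional ℝ F]

/-- The similarity as a homeomorphism. -/
def simH (U : X ≃ₗᵢ[ℝ] X) (x0 : X) {r : ℝ} (hr : 0 < r) : X ≃ₜ X where
  toFun := sim U x0 r
  invFun z := x0 + U.symm (r • z)
  left_inv y := by simp [sim, smul_inv_smul₀ hr.ne']
  right_inv z := by simp [sim, inv_smul_smul₀ hr.ne']
  continuous_toFun := by unfold sim; fun_prop
  continuous_invFun := by fun_prop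

theorem sim_sub (U : X ≃ₗᵢ[ℝ] X) (x0 : X) (r : ℝ) (y z : X) :
    sim U x0 r y - sim U x0 r z = r⁻¹ • U (y - z) := by
  rw [sim, sim, ← smul_sub, ← map_sub, sub_sub_sub_cancel_right]

theorem sim_norm (U : X ≃ₗᵢ[ℝ] X) {r : ℝ} (hr : 0 < r) (z : X) : ‖r⁻¹ • U z‖ = ‖z‖ / r := by
  rw [norm_smul, U.norm_map, norm_inv, Real.norm_of_nonneg hr.le, div_eq_inv_mul]

theorem sim_dist (U : X ≃ₗᵢ[ℝ] X) (x0 : X) {r : ℝ} (hr : 0 < r) (y z : X) :
    dist (sim U x0 r y) (sim U x0 r z) = dist y z / r := by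
  rw [dist_eq_norm, sim_sub, sim_norm U hr, dist_eq_norm]

theorem sim_self (U : X ≃ₗᵢ[ℝ] X) (x0 : X) (r : ℝ) : sim U x0 r x0 = 0 := by
  simp [sim]

theorem sim_surj (U : X ≃ₗᵢ[ℝ] X) (x0 : X) {r : ℝ} (hr : 0 < r) :
    Function.Surjective (sim U x0 r) := by
  exact (simH U x0 hr).surjective

theorem sim_pre (U : X ≃ₗᵢ[ℝ] X) (x0 : X) {r : ℝ} (hr : 0 < r) (x : X) (t : ℝ) :
    sim U x0 r ⁻¹' ball (sim U x0 r x) t = ball x (t * r) := by
  ext y
  rw [mem_preimage, mem_ball, mem_ball, sim_dist U x0 hr, div_lt_iff₀ hr]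

/-- Valid for every set `S`, since `sim` is a measurable equivalence. -/
theorem blow_apply (n : ℕ) (μ : Measure X) (U : X ≃ₗᵢ[ℝ] X) (x0 : X) {r : ℝ} (hr : 0 < r)
    (S : Set X) : blow n μ U x0 r S = ENNReal.ofReal ((r ^ n)⁻¹) * μ (sim U x0 r ⁻¹' S) := by
  exact congrArg (_ * ·) ((simH U x0 hr).toMeasurableEquiv.map_apply S)

theorem blow_integral {G : Type} [NormedAddCommGroup G] [NormedSpace ℝ G] (n : ℕ) (μ : Measure X)
    (U : X ≃ₗᵢ[ℝ] X) (x0 : X) {r : ℝ} (hr : 0 < r) (f : X → G) :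
    ∫ y, f y ∂(blow n μ U x0 r) = (r ^ n)⁻¹ • ∫ y, f (sim U x0 r y) ∂μ := by
  rw [blow, integral_smul_measure, ENNReal.toReal_ofReal (by positivity)]
  exact congrArg _ (integral_map_equiv (simH U x0 hr).toMeasurableEquiv f)

theorem blow_mem_support (n : ℕ) (μ : Measure X) (U : X ≃ₗᵢ[ℝ] X) (x0 : X) {r : ℝ} (hr : 0 < r)
    (y : X) : sim U x0 r y ∈ (blow n μ U x0 r).support ↔ y ∈ μ.support := by
  have h0 : 0 < ENNReal.ofReal (r ^ n)⁻¹ := ENNReal.ofReal_pos.2 (by positivity)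
  simp only [Measure.mem_support_iff_forall, blow_apply n μ U x0 hr, ENNReal.mul_pos_iff, h0,
    true_and]
  refine ⟨fun h V hV => ?_, fun h V hV => h _ ((simH U x0 hr).continuous.continuousAt hV)⟩
  exact (h _ ((simH U x0 hr).isOpenMap.image_mem_nhds hV)).trans_eq
    (congrArg μ (preimage_image_eq V (simH U x0 hr).injective))

theorem blow_up {n : ℕ} {μ : Measure X} {C : ℝ} (h : Up n μ C) (U : X ≃ₗᵢ[ℝ] X) (x0 : X) {r : ℝ}
    (hr : 0 < r) : Up n (blow n μ U x0 r) C := by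
  intro y ρ hρ
  obtain ⟨x, rfl⟩ := sim_surj U x0 hr y
  rw [blow_apply n μ U x0 hr, sim_pre U x0 hr]
  grw [h x _ (mul_pos hρ hr)]
  rw [← ENNReal.ofReal_mul (by positivity), mul_pow]
  exact le_of_eq (congrArg _ (by field_simp))

theorem blow_reg {n : ℕ} {μ : Measure X} {C : ℝ} {x : X} {W : ℝ} (h : Reg n μ C x W)
    (U : X ≃ₗᵢ[ℝ] X) (x0 : X) {r : ℝ} (hr : 0 < r) :
    Reg n (blow n μ U x0 r) C (sim U x0 r x) (W / r) := by
  refine ⟨blow_up h.up U x0 hr, fun y hy h1 ρ hρ h2 => ?_, (blow_mem_support n μ U x0 hr x).2 h.mem⟩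
  obtain ⟨z, rfl⟩ := sim_surj U x0 hr y
  rw [sim_dist U x0 hr, div_lt_div_iff_of_pos_right hr] at h1
  rw [blow_apply n μ U x0 hr, sim_pre U x0 hr]
  grw [← h.low z ((blow_mem_support n μ U x0 hr z).1 hy) h1 _ (mul_pos hρ hr)
    ((le_div_iff₀ hr).1 h2)]
  rw [← ENNReal.ofReal_mul (by positivity), mul_pow]
  exact le_of_eq (congrArg _ (by rw [div_eq_mul_inv, div_eq_mul_inv]; field_simp))

theorem sim_prod (n : ℕ) (μ : Measure X) [SFinite μ] (U : X ≃ₗᵢ[ℝ] X) (x0 : X) {r : ℝ}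
    (hr : 0 < r) (f : X × X → ℝ) : ∫ p, f p ∂((blow n μ U x0 r).prod (blow n μ U x0 r)) =
      (r ^ n)⁻¹ * ((r ^ n)⁻¹ * ∫ p : X × X, f (sim U x0 r p.1, sim U x0 r p.2) ∂(μ.prod μ)) := by
  have hm : Measurable (sim U x0 r) := (simH U x0 hr).continuous.measurable
  rw [blow, Measure.prod_smul_left, Measure.prod_smul_right, integral_smul_measure,
    integral_smul_measure, ENNReal.toReal_ofReal (by positivity), Measure.map_prod_map _ _ hm hm]
  exact congrArg (fun t => (r ^ n)⁻¹ * ((r ^ n)⁻¹ * t)) (integral_map_equiv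
    ((simH U x0 hr).prodCongr (simH U x0 hr)).toMeasurableEquiv f)

theorem sim_Ke (n : ℕ) (U : X ≃ₗᵢ[ℝ] X) {r : ℝ} (hr : 0 < r) (ε : ℝ) (z : X) :
    Ke n ε (r⁻¹ • U z) = r ^ n • U (Ke n (r * ε) z) := by
  rw [Ke, Ke, sim_norm U hr, map_smul, smul_smul, smul_smul,
    show ε ^ 2 + (‖z‖ / r) ^ 2 = ((r * ε) ^ 2 + ‖z‖ ^ 2) / r ^ 2 by field_simp,
    Real.sqrt_div' _ (sq_nonneg r), Real.sqrt_sq hr.le, div_pow, inv_div, pow_succ r,
    div_mul_eq_mul_div, mul_inv_cancel_right₀ hr.ne', div_eq_mul_inv]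

theorem sim_J (n : ℕ) (U : X ≃ₗᵢ[ℝ] X) {r : ℝ} (hr : 0 < r) (z : X) :
    J n (r⁻¹ • U z) = r ^ (n + 1) * J n z := by
  rw [J, J, sim_norm U hr, div_pow, inv_div, div_eq_mul_inv]

/-- `Ke n ε (r⁻¹ • U z) = r^n • U (Ke n (r ε) z)`; apply `RB` for `μ` to `U.symm ∘ f ∘ sim` and
`g ∘ sim`. -/
theorem blow_rb {n : ℕ} {μ : Measure X} {C : ℝ} (hU : Up n μ C) (h : RB n μ C)
    (U : X ≃ₗᵢ[ℝ] X) (x0 : X) {r : ℝ} (hr : 0 < r) : RB n (blow n μ U x0 r) C := by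
  intro ε hε f g hf hf' hg hg'
  have := hU.locFin
  have h1 := h (r * ε) (mul_pos hr hε) (U.symm ∘ f ∘ simH U x0 hr) (g ∘ simH U x0 hr)
    (by fun_prop) ((hf'.comp_homeomorph _).comp_left (map_zero _)) (by fun_prop)
    (hg'.comp_homeomorph _)
  have h2 : ∀ p : X × X, g (sim U x0 r p.2) * ⟪f (sim U x0 r p.1),
      Ke n ε (sim U x0 r p.1 - sim U x0 r p.2)⟫ = r ^ n * ((g ∘ simH U x0 hr) p.2 *
        ⟪(U.symm ∘ f ∘ simH U x0 hr) p.1, Ke n (r * ε) (p.1 - p.2)⟫) := fun p => by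
    rw [sim_sub, sim_Ke n U hr, real_inner_smul_right, ← U.symm.inner_map_map, U.symm_apply_apply,
      mul_left_comm]
    rfl
  have h3 : 0 < (r ^ n)⁻¹ := by positivity
  rw [sim_prod n μ U x0 hr, blow_integral n μ U x0 hr, blow_integral n μ U x0 hr]
  simp only [h2, smul_eq_mul]
  rw [integral_const_mul, inv_mul_cancel_left₀ (by positivity), abs_mul, abs_of_pos h3,
    Real.sqrt_mul h3.le, Real.sqrt_mul h3.le]
  simp only [Function.comp, LinearIsometryEquiv.norm_map] at h1 ⊢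
  refine (mul_le_mul_of_nonneg_left h1 h3.le).trans_eq ?_
  simp only [simH, Homeomorph.homeomorph_mk_coe, Equiv.coe_fn_mk]
  linear_combination -(C * √(∫ y, ‖f (sim U x0 r y)‖ ^ 2 ∂μ) * √(∫ y, g (sim U x0 r y) ^ 2 ∂μ)) *
    Real.mul_self_sqrt h3.le

/-- For a test `ψ'` put `ψ = U.symm ∘ ψ' ∘ sim`. Then
`En' (cut R) id ψ' = r^(-n) En (cut (r R)) id ψ` (`cut_div`) and `EE' ψ' = r^(1-n) EE ψ`. -/
theorem blow_osc {n : ℕ} {μ : Measure X} {C : ℝ} (hU : Up n μ C) {x : X} {ρ D : ℝ}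
    (h : Osc n μ (fun y : X => y) x ρ D) (U : X ≃ₗᵢ[ℝ] X) (x0 : X) {r : ℝ} (hr : 0 < r) :
    Osc n (blow n μ U x0 r) (fun y : X => y) (sim U x0 r x) (ρ / r) (D / r ^ (n + 1)) := by
  intro ψ hψ η hη
  have := hU.locFin
  obtain ⟨L, hL⟩ := hψ.lip
  have h3 : 0 < (r ^ n)⁻¹ := by positivity
  obtain ⟨R0, h1⟩ := h (fun y => U.symm (ψ (sim U x0 r y))) ⟨⟨_, U.symm.lipschitz.comp (hL.comp
    (LipschitzWith.of_dist_le' (K := r⁻¹) fun y z => by rw [sim_dist U x0 hr, div_eq_inv_mul]))⟩,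
    fun y hy => by rw [hψ.zero _ (by rw [sim_dist U x0 hr]; gcongr), map_zero], by
      have h2 := hψ.mean
      rw [blow_integral n μ U x0 hr, smul_eq_zero_iff_right h3.ne'] at h2
      exact (U.symm.toLinearIsometry.integral_comp_comm _).trans (by rw [h2, map_zero])⟩
    (r ^ n * η) (by positivity)
  refine ⟨R0 / r, fun R hR => ?_⟩
  have h4 : En n (blow n μ U x0 r) (cut R) (fun y => y) ψ = (r ^ n)⁻¹ *
      En n μ (cut (r * R)) (fun y => y) fun y => U.symm (ψ (sim U x0 r y)) := by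
    rw [En, En, sim_prod n μ U x0 hr, ← integral_const_mul _ (fun p : X × X => cut R _ * _)]
    refine congrArg _ (integral_congr_ae (ae_of_all _ fun p => ?_))
    simp only [sim_sub, sim_norm U hr, sim_J n U hr, cut_div hr, real_inner_smul_left, ← map_sub]
    rw [← U.symm.inner_map_map, U.symm_apply_apply, pow_succ r n]
    field_simp
  have h5 : EE n (blow n μ U x0 r) ψ = (r ^ n)⁻¹ * ((r ^ n)⁻¹ * (r ^ (n + 1) *
      EE n μ fun y => U.symm (ψ (sim U x0 r y)))) := by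
    rw [EE, EE, sim_prod n μ U x0 hr, ← integral_const_mul (r ^ (n + 1))]
    simp only [sim_sub, sim_J n U hr, ← map_sub, LinearIsometryEquiv.norm_map, mul_assoc]
  rw [h4, h5, abs_mul, abs_of_pos h3]
  refine (mul_le_mul_of_nonneg_left (h1 _ ((div_le_iff₀' hr).1 hR)) h3.le).trans_eq ?_
  rw [mul_add, inv_mul_cancel_left₀ (by positivity), ← Real.sqrt_sq h3.le,
    ← Real.sqrt_mul (sq_nonneg _), Real.sqrt_sq h3.le]
  exact congrArg (√· + η) (by field_simp)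

/-- `‖Nm (V.map U) (U z)‖ = ‖Nm V z‖` (`LinearIsometryEquiv.map_starProjection` or uniqueness of
the orthogonal decomposition). -/
theorem blow_flat (n : ℕ) (μ : Measure X) (U : X ≃ₗᵢ[ℝ] X) (x0 : X) {r : ℝ} (hr : 0 < r)
    (x : X) {ρ : ℝ} (hρ : 0 < ρ) (V : Submodule ℝ X) (p : X) (β : ℝ) :
    Flat n (blow n μ U x0 r) (sim U x0 r x) (ρ / r) (V.map (U.toLinearEquiv : X →ₗ[ℝ] X))
      (sim U x0 r p) β ↔ Flat n μ x ρ V p β := by
  have h1 : ∀ y, ‖Nm (V.map (U.toLinearEquiv : X →ₗ[ℝ] X)) (sim U x0 r y - sim U x0 r p)‖ ^ 2 =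
      (r ^ 2)⁻¹ * ‖Nm V (y - p)‖ ^ 2 := fun y => by
    rw [sim_sub, map_smul, Submodule.starProjection_orthogonal_val,
      Submodule.starProjection_orthogonal_val, Submodule.starProjection_map_apply,
      U.symm_apply_apply, ← map_sub, sim_norm U hr, div_pow, div_eq_inv_mul]
  have h2 : ∀ s, ∫ y in ball (sim U x0 r x) (s / r),
      ‖Nm (V.map (U.toLinearEquiv : X →ₗ[ℝ] X)) (y - sim U x0 r p)‖ ^ 2 ∂(blow n μ U x0 r) ≤
        β * (ρ / r) ^ 2 * (s / r) ^ n * (s / r / (ρ / r)) ^ (5 / 2 : ℝ) ↔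
      ∫ y in ball x s, ‖Nm V (y - p)‖ ^ 2 ∂μ ≤ β * ρ ^ 2 * s ^ n * (s / ρ) ^ (5 / 2 : ℝ) :=
    fun s => by
      rw [← integral_indicator measurableSet_ball, blow_integral n μ U x0 hr]
      simp only [← indicator_comp_right (sim U x0 r), sim_pre U x0 hr, div_mul_cancel₀ _ hr.ne',
        Function.comp_def, h1]
      rw [integral_indicator measurableSet_ball, integral_const_mul, div_div_div_cancel_right₀ hr.ne',
        show β * (ρ / r) ^ 2 * (s / r) ^ n * (s / ρ) ^ (5 / 2 : ℝ) = (r ^ n)⁻¹ * ((r ^ 2)⁻¹ *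
          (β * ρ ^ 2 * s ^ n * (s / ρ) ^ (5 / 2 : ℝ))) by rw [div_pow, div_pow]; field_simp,
        smul_eq_mul, mul_le_mul_iff_right₀ (by positivity), mul_le_mul_iff_right₀ (by positivity)]
  refine ⟨fun h s hs => (h2 s).1 (h _ (by gcongr)), fun h t ht => ?_⟩
  have := (h2 _).2 (h (t * r) ((div_le_iff₀ hr).1 ht))
  rwa [mul_div_cancel_right₀ t hr.ne'] at this

theorem finrank_map_iso (U : X ≃ₗᵢ[ℝ] X) (V : Submodule ℝ X) :
    Module.finrank ℝ (V.map (U.toLinearEquiv : X →ₗ[ℝ] X)) = Module.finrank ℝ V := by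
  exact LinearEquiv.finrank_map_eq _ V

/-- `LinearIsometryEquiv.ofFinrankEq`-type isometry `V ≃ V'` through `stdOrthonormalBasis`, then
`LinearIsometry.extend` and `LinearIsometry.toLinearIsometryEquiv`. -/
theorem exists_rot {V V' : Submodule ℝ X} (h : Module.finrank ℝ V = Module.finrank ℝ V') :
    ∃ U : X ≃ₗᵢ[ℝ] X, V.map (U.toLinearEquiv : X →ₗ[ℝ] X) = V' := by
  obtain ⟨e⟩ : Nonempty (V ≃ₗᵢ[ℝ] V') :=
    ⟨(stdOrthonormalBasis ℝ V).equiv (stdOrthonormalBasis ℝ V') (finCongr h)⟩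
  refine ⟨(V'.subtypeₗᵢ.comp e.toLinearIsometry).extend.toLinearIsometryEquiv rfl,
    Submodule.eq_of_le_of_finrank_eq ?_ ((finrank_map_iso _ V).trans h)⟩
  rintro _ ⟨v, hv, rfl⟩
  exact Set.mem_of_eq_of_mem (LinearIsometry.extend_apply _ ⟨v, hv⟩) (e ⟨v, hv⟩).2

end Vale.Agent.P120
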