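import Vale.Agent.P120.Drop
import Vale.Agent.P120.Lim2
import Vale.Agent.P120.Sim

/-!
Flat pieces: small oscillation of the Riesz transform forces a flat ball of comparable size.
-/

open MeasureTheory Metric Set Filter Topology
open scoped RealInnerProductSpace ENNReal NNReal

noncomputable section

namespace Vale.Agent.P120

variable {X : Type} [NormedAddCommGroup X] [InnerProductSpace ℝ X] [FiniteDimensional ℝ X]
  [MeasurableSpace X] [BorelSpace X]
variable {F : Type} [NormedAddCommGroup F] [InnerProductSpace ℝ F] [FiniteDimensional ℝ F]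

/-- The statement for planes of dimension `m`. -/
def FPm (X : Type) [NormedAddCommGroup X] [InnerProductSpace ℝ X] [FiniteDimensional ℝ X]
    [MeasurableSpace X] [BorelSpace X] (n m : ℕ) (C : ℝ) : Prop :=
  ∀ ε : ℝ, 0 < ε → ∃ δ A c : ℝ, 0 < δ ∧ 1 ≤ A ∧ 0 < c ∧ ∀ (μ : Measure X) (x : X) (r : ℝ),
    0 < r → Reg n μ C x (A * r) → Osc n μ (fun y : X => y) x (A * r) (δ * r ^ (n + 1)) →
    ∃ x' ∈ μ.support, dist x' x < r ∧ ∃ r' : ℝ, c * r ≤ r' ∧ r' ≤ r ∧
      ∃ (V : Submodule ℝ X) (p : X), Module.finrank ℝ V = m ∧ Flat n μ x' r' V p ε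

/-- Suppose the conclusion fails for `ε`. For each `j` let `(δ j, A j, c j)` come from the
hypothesis with `1/(j+1)` (we may shrink `c j ≤ 1`). Take a counterexample `(μ, x, r)` for
`δ = min (δ j) 1 · (c j/4)^(n+1)/(j+1)`, `A = A j + j + 2`, `c = c j/(4 (j+1))`, apply the
hypothesis at radius `r/4` to get `(x j, r j, V j, p j)` with `c j r/4 ≤ r j ≤ r/4`, and rescale:
`μs j = blow n μ (U j) (x j) (r j)` with `U j` rotating `V j` onto `V 0` (`exists_rot`). Then
`Seq`, `Osc … 0 j (1/(j+1))`, `Flat … 0 1 (V 0) _ (1/(j+1))`. Along `hyperfilter ℕ` (which is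
`≤ cofinite = atTop`): `exists_VL`, `VL.reg`, `VL.ref`, `VL.supp_sub`, `drop` with `ε/C5`,
`vl_flat`. Pull back with `sim_surj`, `blow_flat`, `blow_mem_support` (the plane is the image of
`V'` under `(U j).symm`): the new centre is within `r/4 + 3 r/4`, the radius `r j · r0 ≥ c r` once
`1/(j+1) ≤ r0`. -/
theorem fp_step {n m : ℕ} {C : ℝ} (hC : 0 < C) (hm : n ≤ m) (h : FPm X n (m + 1) C) :
    FPm X n m C := by
  intro ε hε
  by_contra hc
  have key : ∀ j : ℕ, ∃ V : Submodule ℝ X, Module.finrank ℝ V = m + 1 ∧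
      ∀ V0 : Submodule ℝ X, Module.finrank ℝ V0 = m + 1 → ∃ (μ : Measure X) (p : X),
        Reg n μ C 0 j ∧ Osc n μ (fun y : X => y) 0 j (1 / ((j : ℝ) + 1)) ∧
        Flat n μ 0 1 V0 p (1 / ((j : ℝ) + 1)) ∧ ∀ x' ∈ μ.support, dist x' 0 < 3 → ∀ r' : ℝ,
          1 / ((j : ℝ) + 1) ≤ r' → r' ≤ 1 → ∀ (V' : Submodule ℝ X) (p' : X),
            Module.finrank ℝ V' = m → ¬ Flat n μ x' r' V' p' ε := by
    intro j
    have j0 : (0 : ℝ) ≤ j := Nat.cast_nonneg j
    have j1 : 0 < 1 / ((j : ℝ) + 1) := by positivity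
    have j2 : 1 / ((j : ℝ) + 1) ≤ 1 := (div_le_one (by positivity)).2 (by linarith)
    generalize 1 / ((j : ℝ) + 1) = β at j1 j2
    obtain ⟨δ, A, c, hδ, hA, hc0, h1⟩ := h β j1
    obtain ⟨c', c1, c2, c3⟩ : ∃ c' : ℝ, 0 < c' ∧ c' ≤ c ∧ c' ≤ 1 :=
      ⟨min c 1, by positivity, min_le_left _ _, min_le_right _ _⟩
    by_contra hk
    refine hc ⟨min δ 1 * β * (c' / 4) ^ (n + 1), A + j + 2, c' / 4 * β, by positivity, by linarith,
      by positivity, fun μ x r hr h2 h3 => by_contra fun hn => hk ?_⟩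
    rw [mul_assoc, ← mul_pow] at h3
    have a0 : 0 ≤ A * r := by positivity
    have a1 : 0 ≤ j * r := by positivity
    have a2 : c' / 4 * r ≤ r / 4 := by nlinarith
    obtain ⟨x1, x2, x3, r1, r2, r3, V, p, hV, hf⟩ := h1 μ x (r / 4) (by linarith)
      (h2.mono h2.mem (by rw [dist_self]; linarith))
      (h3.mono (by rw [dist_self]; linarith) (mul_le_mul
        ((mul_le_of_le_one_right (by positivity) j2).trans (min_le_left _ _))
        (pow_le_pow_left₀ (by positivity) a2 _) (by positivity) hδ.le))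
    have a3 : c' / 4 * r ≤ r1 := by nlinarith
    have r0 : 0 < r1 := lt_of_lt_of_le (by positivity) a3
    have a4 : dist x1 x + j * r1 ≤ (A + j + 2) * r := by nlinarith
    refine ⟨V, hV, fun V0 hV0 => ?_⟩
    obtain ⟨U, rfl⟩ := exists_rot (hV.trans hV0.symm)
    have b1 := blow_reg (h2.mono x2 a4) U x1 r0
    have b2 := blow_osc h2.up (h3.mono a4 (mul_le_mul
      (mul_le_of_le_one_left j1.le (min_le_right _ _))
      (pow_le_pow_left₀ (by positivity) a3 _) (by positivity) j1.le)) U x1 r0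
    have b3 := (blow_flat n μ U x1 r0 x1 r0 V p β).2 hf
    rw [sim_self, mul_div_cancel_right₀ _ r0.ne'] at b1 b2
    rw [mul_div_cancel_right₀ _ (by positivity)] at b2
    rw [sim_self, div_self r0.ne'] at b3
    refine ⟨_, _, b1, b2, b3, fun x' y1 y2 r' s1 s2 V' p' hV' hf' => hn ?_⟩
    obtain ⟨y, rfl⟩ := sim_surj U x1 r0 x'
    obtain ⟨q, rfl⟩ := sim_surj U x1 r0 p'
    rw [← sim_self U x1 r1, sim_dist U x1 r0, div_lt_iff₀ r0] at y2
    rw [← Submodule.map_comap_eq_of_surjective (f := (U.toLinearEquiv : X →ₗ[ℝ] X))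
      U.surjective V'] at hf' hV'
    rw [finrank_map_iso] at hV'
    rw [← mul_div_cancel_right₀ r' r0.ne'] at hf'
    refine ⟨y, (blow_mem_support n μ U x1 r0 y).1 y1, by linarith [dist_triangle y x1 x], r' * r1,
      ?_, by nlinarith, _, q, hV',
      (blow_flat n μ U x1 r0 y (mul_pos (j1.trans_le s1) r0) _ q ε).1 hf'⟩
    rw [mul_right_comm, mul_comm]
    exact mul_le_mul s1 a3 (by positivity) (j1.le.trans s1)
  obtain ⟨V, hV, -⟩ := key 0
  choose μs ps h1 h2 h3 h4 using fun j => (key j).choose_spec.2 V hV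
  have e1 : ∀ W : ℝ, ∀ᶠ k : ℕ in hyperfilter ℕ, W ≤ k := fun W =>
    Nat.hyperfilter_le_atTop (tendsto_natCast_atTop_atTop.eventually_ge_atTop W)
  have e2 : ∀ δ : ℝ, 0 < δ → ∀ᶠ k : ℕ in hyperfilter ℕ, 1 / ((k : ℝ) + 1) ≤ δ := fun δ hδ =>
    Nat.hyperfilter_le_atTop
      (tendsto_one_div_add_atTop_nhds_zero_nat.eventually (ge_mem_nhds hδ))
  have hs : Seq n C (hyperfilter ℕ) μs := ⟨fun k => (h1 k).up, fun k => (h1 k).mem, fun W =>
    (e1 W).mono fun k hk => (h1 k).low.mono (by rwa [dist_self, zero_add])⟩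
  obtain ⟨ν, hν, hl⟩ := exists_VL hC (hyperfilter ℕ) μs hs.up
  obtain ⟨C5, hC5, h5⟩ := vl_flat (X := X) n
  obtain ⟨x0, x1, x2, r, r0, r1, V', hV', hf⟩ := drop hC (hl.reg hC hs hν)
    (hl.ref hC hs hν fun A δ hδ => ((e1 A).and (e2 δ hδ)).mono fun k hk =>
      (h2 k).mono (by rw [dist_self, zero_add]; exact hk.1) hk.2) (V := V) (by omega)
    (hl.supp_sub hC hs hν fun δ hδ => (e2 δ hδ).mono fun k hk => (h3 k).mono one_pos hk)
    (div_pos hε hC5)
  obtain ⟨k, ⟨x, k1, k2, k3⟩, k4⟩ := ((h5 C hC _ μs ν hl hs.up hν x0 x1 r _ r0 (div_pos hε hC5) V'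
    hf).and (e2 r r0)).exists
  rw [mul_div_cancel₀ _ hC5.ne'] at k3
  refine h4 k x k1 ?_ r k4 r1 V' x0 (by omega) k3
  have := dist_triangle x x0 0
  rw [dist_zero_right x0] at this
  linarith

/-- Start from `m = finrank X` with `V = ⊤` and descend. -/
theorem fp {n : ℕ} {C : ℝ} (hC : 0 < C) (hn : n ≤ Module.finrank ℝ X) : FPm X n n C := by
  refine Nat.decreasingInduction' (P := fun m => FPm X n m C)
    (fun k _ hk h => fp_step hC hk h) hn fun ε hε => ?_
  refine ⟨1, 1, 1, one_pos, le_rfl, one_pos, fun μ x r hr h _ => ⟨x, h.mem, by rwa [dist_self], r,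
    (one_mul r).le, le_rfl, ⊤, x, finrank_top ℝ X, fun t ht => ?_⟩⟩
  have t0 := hr.trans_le ht
  simp only [fun y => (Nm_eq_zero_iff (⊤ : Submodule ℝ X) y).2 Submodule.mem_top]
  simp only [norm_zero, ne_eq, OfNat.ofNat_ne_zero, not_false_eq_true, zero_pow, integral_zero]
  positivity

end Vale.Agent.P120
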