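import Vale.Agent.P120.Flat

/-!
Nondegeneracy: on a spread out measure, the L2 norm of an affine map controls its supremum.
-/

open MeasureTheory Metric Set Filter Topology
open scoped RealInnerProductSpace ENNReal NNReal

noncomputable section

namespace Vale.Agent.P120

variable {X : Type} [NormedAddCommGroup X] [InnerProductSpace ℝ X] [FiniteDimensional ℝ X]
  [MeasurableSpace X] [BorelSpace X]
variable {F : Type} [NormedAddCommGroup F] [InnerProductSpace ℝ F] [FiniteDimensional ℝ F]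

theorem nd_meas (q0 b : X) (α ℓ w : ℝ) : MeasurableSet {z ∈ ball q0 ℓ | |α + ⟪b, z⟫| ≤ w} :=
  measurableSet_ball.inter (isClosed_le (f := fun z : X => |α + ⟪b, z⟫|) (g := fun _ => w)
    (by fun_prop) continuous_const).measurableSet

theorem nd_vol {N : ℕ} (q0 b : X) (hb : b ≠ 0) (α : ℝ) {ℓ ρ : ℝ} (hρ : 0 < ρ)
    (hN : 5 * N * ρ ≤ ℓ) :
    N * volume {z ∈ ball q0 (2 * ℓ) | |α + ⟪b, z⟫| ≤ 2 * ρ * ‖b‖} ≤ volume (ball q0 (3 * ℓ)) := by
  have hb' : 0 < ‖b‖ := norm_pos_iff.2 hb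
  set S := {z ∈ ball q0 (2 * ℓ) | |α + ⟪b, z⟫| ≤ 2 * ρ * ‖b‖}
  have hS : MeasurableSet S := nd_meas _ _ _ _ _
  let A : ℕ → Set X := fun i => (fun z => z + (i * (5 * ρ / ‖b‖)) • b) ⁻¹' S
  have hA : ∀ i, ∀ z ∈ A i, |α + ⟪b, z⟫ + i * (5 * (ρ * ‖b‖))| ≤ 2 * ρ * ‖b‖ := fun i z hz => by
    have := hz.2
    rw [inner_add_right, real_inner_smul_right, real_inner_self_eq_norm_sq, ← add_assoc] at this
    refine le_of_eq_of_le (congrArg _ ?_) this
    field_simp
  have hd : ∀ i j : ℕ, i < j → Disjoint (A i) (A j) := fun i j hij =>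
    Set.disjoint_left.2 fun z hi hj => by
      have h1 := abs_le.1 (hA i z hi)
      have h2 := abs_le.1 (hA j z hj)
      have h3 : (i : ℝ) + 1 ≤ j := by exact_mod_cast hij
      have : 0 < ρ * ‖b‖ := by positivity
      nlinarith
  calc (N : ℝ≥0∞) * volume S = ∑ i ∈ Finset.range N, volume (A i) := by
        simp only [A, measure_preimage_add_right, Finset.sum_const, Finset.card_range,
          nsmul_eq_mul]
    _ = volume (⋃ i ∈ Finset.range N, A i) := by
        refine (measure_biUnion_finset (fun i _ j _ hij => ?_) fun i _ =>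
          hS.preimage (by fun_prop)).symm
        rcases lt_or_gt_of_ne hij with h | h
        · exact hd i j h
        · exact (hd j i h).symm
    _ ≤ _ := by
        refine measure_mono (iUnion₂_subset fun i hi z hz => ?_)
        have h1 := mem_ball.1 hz.1
        have h2 := dist_triangle z (z + (i * (5 * ρ / ‖b‖)) • b) q0
        rw [dist_self_add_right, norm_smul, Real.norm_of_nonneg (by positivity), mul_assoc,
          div_mul_cancel₀ _ hb'.ne'] at h2
        have h3 : (i : ℝ) ≤ N := by exact_mod_cast (Finset.mem_range.1 hi).le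
        rw [mem_ball]
        nlinarith

theorem nd_strip {n N : ℕ} (hn : Module.finrank ℝ X = n) (σ : Measure X) [IsFiniteMeasure σ]
    (q0 b : X) (hb : b ≠ 0) (α : ℝ) {ℓ ρ C : ℝ} (hρ : 0 < ρ) (hC : 0 < C) (hN0 : 0 < N)
    (hN : 5 * N * ρ ≤ ℓ) (hσ : ∀ q, σ (ball q ρ) ≤ ENNReal.ofReal (C * ρ ^ n)) :
    σ.real {z ∈ ball q0 ℓ | |α + ⟪b, z⟫| ≤ ρ * ‖b‖} ≤ C * (3 * ℓ) ^ n / N := by
  have hN1 : (1 : ℝ) ≤ N := by exact_mod_cast hN0
  have hρℓ : ρ ≤ ℓ := by nlinarith
  have hℓ : 0 < ℓ := hρ.trans_le hρℓ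
  set S := {z ∈ ball q0 ℓ | |α + ⟪b, z⟫| ≤ ρ * ‖b‖}
  set S' := {z ∈ ball q0 (2 * ℓ) | |α + ⟪b, z⟫| ≤ 2 * ρ * ‖b‖}
  have hS : MeasurableSet S := nd_meas _ _ _ _ _
  have hS' : MeasurableSet S' := nd_meas _ _ _ _ _
  have hW : MeasurableSet {p : X × X | p.2 ∈ S ∧ dist p.1 p.2 < ρ} :=
    (hS.preimage measurable_snd).inter (measurableSet_lt measurable_dist measurable_const)
  have h1 : ENNReal.ofReal (ρ ^ n) * volume (ball (0 : X) 1) * σ S ≤
      ENNReal.ofReal (C * ρ ^ n) * volume S' := by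
    rw [← lintegral_indicator_const hS, ← lintegral_indicator_const hS']
    calc _ = ∫⁻ y, volume ((fun z => (z, y)) ⁻¹' {p : X × X | p.2 ∈ S ∧ dist p.1 p.2 < ρ}) ∂σ := by
          refine lintegral_congr fun y => ?_
          by_cases hy : y ∈ S
          · rw [indicator_of_mem hy, ← hn, ← Measure.addHaar_ball_of_pos volume y hρ]
            exact congrArg _ (Set.ext fun z => ⟨fun h => ⟨hy, h⟩, fun h => h.2⟩)
          · rw [indicator_of_notMem hy]
            exact (measure_mono_null (fun z h => (hy h.1).elim) measure_empty).symm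
      _ = ∫⁻ z, σ (Prod.mk z ⁻¹' {p : X × X | p.2 ∈ S ∧ dist p.1 p.2 < ρ}) := by
          rw [← Measure.prod_apply_symm hW, Measure.prod_apply hW]
      _ ≤ _ := by
          refine lintegral_mono fun z => ?_
          by_cases hz : z ∈ S'
          · rw [indicator_of_mem hz]
            exact (measure_mono fun y hy => mem_ball'.2 hy.2).trans (hσ z)
          · refine le_of_eq_of_le (measure_mono_null (fun y hy => (hz ⟨?_, ?_⟩).elim)
              measure_empty) bot_le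
            · have h1 : dist z y < ρ := hy.2
              have h2 := mem_ball.1 hy.1.1
              rw [mem_ball]
              linarith [dist_triangle z y q0]
            · have h1 : ‖z - y‖ < ρ := by
                rw [← dist_eq_norm]
                exact hy.2
              have h2 : |α + ⟪b, y⟫| ≤ ρ * ‖b‖ := hy.1.2
              have h3 := abs_real_inner_le_norm b (z - y)
              have h4 := abs_add_le (α + ⟪b, y⟫) ⟪b, z - y⟫
              rw [add_assoc, ← inner_add_right, add_sub_cancel] at h4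
              nlinarith [norm_nonneg b]
  have h2 := nd_vol q0 b hb α hρ hN
  rw [Measure.addHaar_ball_of_pos volume q0 (by positivity), hn] at h2
  have hv : volume (ball (0 : X) 1) ≠ ∞ := measure_ball_lt_top.ne
  have h3 : ENNReal.ofReal (ρ ^ n) * volume (ball (0 : X) 1) * (N * σ S) ≤
      ENNReal.ofReal (ρ ^ n) * volume (ball (0 : X) 1) * ENNReal.ofReal (C * (3 * ℓ) ^ n) := by
    calc _ = N * (ENNReal.ofReal (ρ ^ n) * volume (ball (0 : X) 1) * σ S) := by ring
      _ ≤ N * (ENNReal.ofReal (C * ρ ^ n) * volume S') := by gcongr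
      _ = ENNReal.ofReal (C * ρ ^ n) * (N * volume S') := by ring
      _ ≤ ENNReal.ofReal (C * ρ ^ n) *
          (ENNReal.ofReal ((3 * ℓ) ^ n) * volume (ball (0 : X) 1)) := by gcongr
      _ = _ := by
          rw [ENNReal.ofReal_mul hC.le, ENNReal.ofReal_mul hC.le]
          ring
  rw [ENNReal.mul_le_mul_iff_right (mul_ne_zero (by simp [hρ]) (measure_ball_pos _ _ one_pos).ne')
    (ENNReal.mul_ne_top ENNReal.ofReal_ne_top hv)] at h3
  have h4 := ENNReal.toReal_le_of_le_ofReal (by positivity) h3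
  rw [ENNReal.toReal_mul, ENNReal.toReal_natCast] at h4
  rw [le_div_iff₀ (by positivity), mul_comm]
  exact h4

/-- Reduce to scalars by pairing with a unit vector in the direction of `a + T q`:
`f y = α + ⟪b, y - q0⟫`, `S = |α| + ‖b‖ ℓ ≥ |f q|`. If `|α| ≥ 2 ‖b‖ ℓ` then `|f| ≥ S/3` on the ball.
Otherwise `‖b‖ ℓ ≥ S/3` and `Σ = {y ∈ ball q0 ℓ | |f y| ≤ κ S/3}` lies in a strip of width `2κℓ`.
Tonelli: `σ Σ · vol(B_{κℓ}) = ∫ σ(Σ ∩ ball z (κℓ)) dz ≤ C (κℓ)^n vol Σ'` with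
`Σ' = {z ∈ ball q0 (2ℓ) | |f z| < 2 κ ℓ ‖b‖}` (or `≤` with `5`); the translates of `Σ'` by
`i · 5κℓ · b/‖b‖`, `0 ≤ i < N := ⌊1/(5κ)⌋`, are disjoint in `ball q0 (3ℓ)`, so
`vol Σ' ≤ 3^n ℓ^n vol(B_1)/N`. Choose `N` with `C 3^n/N ≤ c/2` and `κ = 1/(5N)`. -/
theorem nd0 (n : ℕ) {c C : ℝ} (hc : 0 < c) (hC : 0 < C) : ∃ κ C' : ℝ, 0 < κ ∧ κ ≤ 1 ∧ 0 < C' ∧
    ∀ (Y : Type) [NormedAddCommGroup Y] [InnerProductSpace ℝ Y] [FiniteDimensional ℝ Y]
      [MeasurableSpace Y] [BorelSpace Y], Module.finrank ℝ Y = n →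
    ∀ (σ : Measure Y) [IsFiniteMeasure σ] (q0 : Y) (ℓ : ℝ), 0 < ℓ → σ (ball q0 ℓ)ᶜ = 0 →
    ENNReal.ofReal (c * ℓ ^ n) ≤ σ univ →
    (∀ q, σ (ball q (κ * ℓ)) ≤ ENNReal.ofReal (C * (κ * ℓ) ^ n)) →
    ∀ (a : F) (T : Y →L[ℝ] F) (q : Y), dist q q0 ≤ ℓ →
      ‖a + T q‖ ^ 2 * ℓ ^ n ≤ C' * ∫ y, ‖a + T y‖ ^ 2 ∂σ := by
  obtain ⟨N, hN⟩ := exists_nat_gt (2 * (C * 3 ^ n) / c)
  have hN0 : (0 : ℝ) < N := lt_trans (by positivity) hN
  have hN1 : (1 : ℝ) ≤ N := by exact_mod_cast (Nat.cast_pos (α := ℝ)).1 hN0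
  obtain ⟨κ, hκ, hκN⟩ : ∃ κ : ℝ, 0 < κ ∧ 5 * N * κ = 1 :=
    ⟨1 / (5 * N), by positivity, by field_simp⟩
  have hκ1 : κ ≤ 1 := by nlinarith
  refine ⟨κ, 18 / (κ ^ 2 * c), hκ, hκ1, by positivity, ?_⟩
  intro Y _ _ _ _ _ hn σ _ q0 ℓ hℓ h0 hm hσ a T q hq
  have := FiniteDimensional.complete ℝ Y
  have := FiniteDimensional.complete ℝ F
  obtain ⟨b, hb⟩ : ∃ b : Y, ∀ y, ⟪a + T q, a⟫ + ⟪b, y⟫ = ⟪a + T q, a + T y⟫ :=
    ⟨T.adjoint (a + T q), fun y => by
      rw [ContinuousLinearMap.adjoint_inner_left, inner_add_right]⟩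
  set S := ‖a + T q‖ with hS
  have hS0 : 0 ≤ S := norm_nonneg _
  have hbad : σ.real {y ∈ ball q0 ℓ | ‖a + T y‖ < κ * S / 3} ≤ c * ℓ ^ n / 2 := by
    have hf : ∀ y, |⟪a + T q, a⟫ + ⟪b, y⟫| ≤ S * ‖a + T y‖ := fun y => by
      rw [hb]
      exact abs_real_inner_le_norm _ _
    rcases le_or_gt (3 * (‖b‖ * ℓ)) (S ^ 2) with h | h
    · refine le_of_eq_of_le (b := σ.real ∅) (congrArg _ (eq_empty_of_forall_notMem ?_))
        (by rw [measureReal_empty]; positivity)
      rintro y ⟨h1, h2⟩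
      have h3 := abs_le.1 (hf y)
      have h4 := hb q
      rw [real_inner_self_eq_norm_sq, ← hS] at h4
      have h5 := abs_le.1 (abs_real_inner_le_norm b (q - y))
      rw [inner_sub_right, ← dist_eq_norm] at h5
      have h6 : ‖b‖ * dist q y ≤ ‖b‖ * (2 * ℓ) := by
        gcongr
        linarith [dist_triangle_right q y q0, mem_ball.1 h1]
      have h7 : 0 < S := by nlinarith [norm_nonneg (a + T y)]
      have h8 : S * ‖a + T y‖ < S * (κ * S / 3) := by gcongr
      have h9 : κ * S ^ 2 ≤ 1 * S ^ 2 := by gcongr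
      nlinarith
    · have hb0 : b ≠ 0 := by
        rintro rfl
        rw [norm_zero] at h
        nlinarith
      refine le_trans (measureReal_mono ?_ (measure_ne_top _ _))
        ((nd_strip (N := N) hn σ q0 b hb0 ⟪a + T q, a⟫ (ℓ := ℓ) (ρ := κ * ℓ) (by positivity) hC
          (by exact_mod_cast hN0) (by rw [← mul_assoc, hκN, one_mul]) hσ).trans ?_)
      · refine fun y hy => ⟨hy.1, (hf y).trans ?_⟩
        have h8 : S * ‖a + T y‖ ≤ S * (κ * S / 3) := by
          gcongr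
          exact hy.2.le
        nlinarith
      · rw [div_lt_iff₀ hc] at hN
        rw [div_le_iff₀ hN0, mul_pow]
        nlinarith [pow_pos hℓ n]
  have hae : ∀ᵐ y ∂σ, y ∈ ball q0 ℓ := h0
  have hint : Integrable (fun y => ‖a + T y‖ ^ 2) σ := by
    rw [← Measure.restrict_eq_self_of_ae_mem hae]
    exact integrableOn_ball_of_continuous (by fun_prop) q0 ℓ
  have h1 := mul_meas_ge_le_integral_of_nonneg (Eventually.of_forall fun y => by positivity) hint
    ((κ * S / 3) ^ 2)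
  have h2 : c * ℓ ^ n ≤ σ.real univ := (ENNReal.ofReal_le_iff_le_toReal (measure_ne_top _ _)).1 hm
  have h3 : σ.real univ ≤ σ.real {y | (κ * S / 3) ^ 2 ≤ ‖a + T y‖ ^ 2} +
      σ.real {y ∈ ball q0 ℓ | ‖a + T y‖ < κ * S / 3} := by
    refine le_trans (ENNReal.toReal_mono (measure_ne_top _ _) (measure_mono_ae ?_))
      (measureReal_union_le _ _)
    filter_upwards [hae] with y hy _
    rcases le_or_gt (κ * S / 3) ‖a + T y‖ with h | h
    · exact Or.inl (pow_le_pow_left₀ (by positivity) h 2)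
    · exact Or.inr ⟨hy, h⟩
  have h4 : (κ * S / 3) ^ 2 * (c * ℓ ^ n / 2) ≤ ∫ y, ‖a + T y‖ ^ 2 ∂σ := by
    refine le_trans ?_ h1
    gcongr
    linarith
  calc S ^ 2 * ℓ ^ n = 18 / (κ ^ 2 * c) * ((κ * S / 3) ^ 2 * (c * ℓ ^ n / 2)) := by
        field_simp
        ring
    _ ≤ _ := by gcongr

/-- `nd0` with `c = 1/C`, constant `7^n C`, `σ = (μ.restrict (ball x r)).map (Pr V)`, `η = κ`: two
support points in `ball x r` whose projections are `2κr`-close are `6κr`-close. -/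
theorem ndmu (n : ℕ) {C : ℝ} (hC : 0 < C) : ∃ η C' : ℝ, 0 < η ∧ 0 < C' ∧ ∀ μ : Measure X,
    Up n μ C → ∀ (x : X) (r : ℝ), 0 < r → ENNReal.ofReal (r ^ n / C) ≤ μ (ball x r) →
    ∀ V : Submodule ℝ X, Module.finrank ℝ V = n → ∀ (a0 : X) (M0 : V →L[ℝ] X), ‖M0‖ ≤ 1 →
    (∀ y ∈ μ.support, dist y x < r → ‖Nm V y - (a0 + M0 (Pr V y))‖ ≤ η * r) →
    ∀ (a : F) (T : V →L[ℝ] F) (q : V), dist q (Pr V x) ≤ r →
      ‖a + T q‖ ^ 2 * r ^ n ≤ C' * ∫ y in ball x r, ‖a + T (Pr V y)‖ ^ 2 ∂μ := by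
  obtain ⟨κ, C', hκ, -, hC', H⟩ := nd0 (F := F) n (c := 1 / C) (C := C * 6 ^ n) (by positivity)
    (by positivity)
  refine ⟨κ, C', hκ, hC', fun μ hU x r hr hm V hV a0 M0 hM hg a T q hq => ?_⟩
  have := hU.locFin
  have : IsFiniteMeasure (μ.restrict (ball x r)) := isFiniteMeasure_restrict.2 measure_ball_lt_top.ne
  have hP : Measurable (Pr V) := (Pr V).continuous.measurable
  have hd : ∀ y z : X, dist (Pr V y) (Pr V z) ≤ dist y z := fun y z => by
    rw [dist_eq_norm, dist_eq_norm, ← map_sub]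
    exact norm_Pr_le V _
  have := H V hV ((μ.restrict (ball x r)).map (Pr V)) (Pr V x) r hr ?_ ?_ (fun z => ?_) a T q hq
  · rwa [integral_map hP.aemeasurable (by fun_prop)] at this
  · rw [Measure.map_apply hP measurableSet_ball.compl,
      Measure.restrict_apply' measurableSet_ball]
    exact measure_mono_null (fun y hy => (hy.1 ((hd y x).trans_lt hy.2)).elim) measure_empty
  · rwa [Measure.map_apply hP MeasurableSet.univ, preimage_univ, Measure.restrict_apply_univ,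
      one_div_mul_eq_div]
  · rw [Measure.map_apply hP measurableSet_ball, Measure.restrict_apply' measurableSet_ball]
    rcases (Pr V ⁻¹' ball z (κ * r) ∩ ball x r ∩ μ.support).eq_empty_or_nonempty with h | ⟨w, hw⟩
    · refine le_of_eq_of_le (le_antisymm ((measure_mono_ae ?_).trans_eq measure_empty) bot_le) bot_le
      filter_upwards [Measure.support_mem_ae (μ := μ)] with y hy hy'
      exact h.subset ⟨hy', hy⟩
    · refine (measure_mono_ae ?_).trans ((hU w (6 * (κ * r)) (by positivity)).trans_eq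
        (by rw [mul_pow, mul_assoc]))
      filter_upwards [Measure.support_mem_ae (μ := μ)] with y hy hy'
      have h1 : ‖Pr V y - Pr V w‖ < 2 * (κ * r) := by
        rw [← dist_eq_norm]
        linarith [dist_triangle_right (Pr V y) (Pr V w) z, mem_ball.1 hy'.1, mem_ball.1 hw.1.1]
      have h2 := hg y hy hy'.2
      have h3 := hg w hw.2 hw.1.2
      have h4 : ‖M0 (Pr V y - Pr V w)‖ ≤ ‖Pr V y - Pr V w‖ :=
        (M0.le_opNorm _).trans (mul_le_of_le_one_left (norm_nonneg _) hM)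
      have h5 : y - w = ((Pr V y - Pr V w : V) : X) + M0 (Pr V y - Pr V w) +
          ((Nm V y - (a0 + M0 (Pr V y))) - (Nm V w - (a0 + M0 (Pr V w)))) := by
        rw [map_sub, Submodule.coe_sub]
        nth_rw 1 [← Pr_add_Nm V y, ← Pr_add_Nm V w]
        abel
      change dist y w < _
      rw [dist_eq_norm, h5]
      refine (norm_add_le_of_le (norm_add_le _ _) (norm_sub_le _ _)).trans_lt ?_
      rw [Submodule.coe_norm] at h1 h4
      linarith

/-- An affine map bounded by `S` on a closed ball of radius `r` has linear part `≤ S/r`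
(compare `q0 + v` and `q0 - v`), and is bounded by `(1 + t/r) S` at distance `t`. -/
theorem affine_bound {Y : Type} [NormedAddCommGroup Y] [NormedSpace ℝ Y] (a : F)
    (T : Y →L[ℝ] F) (q0 : Y) {r S : ℝ} (hr : 0 < r)
    (h : ∀ q, dist q q0 ≤ r → ‖a + T q‖ ≤ S) :
    ‖T‖ ≤ S / r ∧ ∀ q, ‖a + T q‖ ≤ (1 + dist q q0 / r) * S := by
  have h0 := h q0 (by simp [hr.le])
  have hS : 0 ≤ S := (norm_nonneg _).trans h0
  have hT : ‖T‖ ≤ S / r := by
    refine ContinuousLinearMap.opNorm_le_of_unit_norm (by positivity) fun v hv => ?_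
    have h1 := h (q0 + r • v) (by simp [norm_smul, hv, abs_of_pos hr])
    have h2 := h (q0 - r • v) (by simp [norm_smul, hv, abs_of_pos hr])
    have h3 : (2 * r) • T v = a + T (q0 + r • v) - (a + T (q0 - r • v)) := by
      rw [map_add, map_sub, map_smul]
      module
    have h4 := norm_sub_le (a + T (q0 + r • v)) (a + T (q0 - r • v))
    rw [← h3, norm_smul, Real.norm_of_nonneg (by positivity)] at h4
    rw [le_div_iff₀ hr]
    linarith
  refine ⟨hT, fun q => ?_⟩
  have h1 : a + T q = a + T q0 + T (q - q0) := by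
    rw [map_sub]
    abel
  rw [h1, dist_eq_norm]
  refine (norm_add_le_of_le h0 (T.le_of_opNorm_le hT _)).trans_eq ?_
  ring

end Vale.Agent.P120
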