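import Vale.Agent.P120.Blow3
import Vale.Agent.P120.Sim
import Vale.Agent.P120.ND

/-!
Improvement of flatness.
-/

open MeasureTheory Metric Set Filter Topology
open scoped RealInnerProductSpace ENNReal NNReal

noncomputable section

namespace Vale.Agent.P120

variable {X : Type} [NormedAddCommGroup X] [InnerProductSpace ℝ X] [FiniteDimensional ℝ X]
  [MeasurableSpace X] [BorelSpace X]
variable {F : Type} [NormedAddCommGroup F] [InnerProductSpace ℝ F] [FiniteDimensional ℝ F]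

theorem if_Nm_Nm (V : Submodule ℝ X) (y : X) : Nm V (Nm V y) = Nm V y :=
  Submodule.starProjection_eq_self_iff.2 (Submodule.starProjection_apply_mem _ y)

theorem graph_plane (V : Submodule ℝ X) (p a : X) (T : V →L[ℝ] X) :
    ∃ (V' : Submodule ℝ X) (p' : X), Module.finrank ℝ V' = Module.finrank ℝ V ∧
      ∀ y, ‖Nm V' (y - p')‖ ≤ ‖Nm V (y - p) - (a + T (Pr V y))‖ := by
  let φ : V →ₗ[ℝ] X := V.subtype + ((Nm V).comp T : V →L[ℝ] X).toLinearMap
  have hφ : ∀ v : V, φ v = (v : X) + Nm V (T v) := fun v => rfl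
  have hinj : Function.Injective φ := by
    rw [← LinearMap.ker_eq_bot, LinearMap.ker_eq_bot']
    intro v hv
    rw [hφ] at hv
    have h2 : Nm V ((v : X) + Nm V (T v)) = Nm V (T v) := by
      rw [map_add, (Nm_eq_zero_iff V v).2 v.2, zero_add, if_Nm_Nm]
    rw [hv, map_zero] at h2
    rw [← h2, add_zero] at hv
    exact Subtype.ext hv
  refine ⟨LinearMap.range φ, Nm V (p + a), LinearMap.finrank_range_of_inj hinj, fun y => ?_⟩
  refine (norm_Nm_le_sub _ _ (LinearMap.mem_range_self φ (Pr V y))).trans ?_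
  have e : y - Nm V (p + a) - φ (Pr V y) = Nm V (Nm V (y - p) - (a + T (Pr V y))) := by
    rw [hφ, map_sub, if_Nm_Nm, map_sub, map_add, map_add]
    have := Pr_add_Nm V y
    rw [← sub_eq_zero]
    have e2 : y - (Nm V p + Nm V a) - ((Pr V y : X) + Nm V (T (Pr V y))) -
        (Nm V y - Nm V p - (Nm V a + Nm V (T (Pr V y)))) = y - ((Pr V y : X) + Nm V y) := by abel
    rw [e2, this, sub_self]
  rw [e]; exact norm_Nm_le _ _

theorem if_lip_Nm (V : Submodule ℝ X) : LipschitzWith 1 (Nm V) :=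
  LipschitzWith.of_dist_le_mul fun a b => by
    rw [dist_eq_norm, dist_eq_norm, ← map_sub, NNReal.coe_one, one_mul]; exact norm_Nm_le _ _

theorem osc_height {n : ℕ} {μ : Measure X} {C : ℝ} (hU : Up n μ C) (hC : 0 < C) {x : X}
    {ρ D : ℝ} (hD : 0 ≤ D) (h : Osc n μ (fun y : X => y) x ρ D) (V : Submodule ℝ X) (p : X)
    {β : ℝ} (hβ : 0 < β) : Osc n μ (fun y => (√β)⁻¹ • Nm V (y - p)) x ρ (D / β) := by
  intro ψ hψ η hη
  have := hU.locFin
  obtain ⟨L, hL⟩ := hψ.lip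
  obtain ⟨φ, hφ⟩ : ∃ φ : X → X, φ = fun y => Nm V (ψ y) := ⟨_, rfl⟩
  have hφ' : ∀ y, φ y = Nm V (ψ y) := fun y => by rw [hφ]
  have hL' : LipschitzWith (1 * L) φ := by rw [hφ]; exact (if_lip_Nm V).comp hL
  have hz' : ∀ y, ρ ≤ dist y x → φ y = 0 := fun y hy => by rw [hφ', hψ.zero y hy, map_zero]
  have hint : Integrable ψ μ :=
    hL.continuous.integrable_of_hasCompactSupport (hasCompactSupport_of_zero hψ.zero)
  have ht : Test μ φ x ρ :=
    ⟨⟨_, hL'⟩, hz', by rw [hφ, (Nm V).integral_comp_comm hint, hψ.mean, map_zero]⟩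
  have hs : 0 < √β := Real.sqrt_pos.2 hβ
  obtain ⟨R0, hR0⟩ := h _ ht (η * √β) (by positivity)
  refine ⟨R0, fun R hR => ?_⟩
  have e0 : En n μ (cut R) (fun y => Nm V (y - p)) ψ = En n μ (cut R) (fun y : X => y) φ := by
    refine integral_congr_ae (Eventually.of_forall fun q => ?_)
    have e : Nm V (q.1 - p) - Nm V (q.2 - p) = Nm V (q.1 - q.2) := by
      rw [← map_sub, sub_sub_sub_cancel_right]
    have e' : ⟪Nm V (q.1 - q.2), ψ q.1 - ψ q.2⟫ = ⟪q.1 - q.2, φ q.1 - φ q.2⟫ := by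
      rw [hφ', hφ', ← map_sub]
      exact Submodule.inner_starProjection_left_eq_right _ _ _
    simp only [e, e']
  have e1 : En n μ (cut R) (fun y => (√β)⁻¹ • Nm V (y - p)) ψ =
      (√β)⁻¹ * En n μ (cut R) (fun y : X => y) φ := by
    rw [En_smul_left, e0]
  have e2 : EE n μ φ ≤ EE n μ ψ := by
    refine integral_mono (EE_integrable hU hC hL' hz') (EE_integrable hU hC hL hψ.zero) ?_
    intro q
    refine mul_le_mul_of_nonneg_left ?_ (J_nonneg _ _)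
    rw [hφ', hφ', ← map_sub]
    exact pow_le_pow_left₀ (norm_nonneg _) (norm_Nm_le _ _) 2
  have h1 := hR0 R hR
  have h2 : √(D * EE n μ φ) ≤ √(D * EE n μ ψ) :=
    Real.sqrt_le_sqrt (mul_le_mul_of_nonneg_left e2 hD)
  have e3 : √(D / β * EE n μ ψ) = (√β)⁻¹ * √(D * EE n μ ψ) := by
    rw [show D / β * EE n μ ψ = D * EE n μ ψ / β by ring, Real.sqrt_div' _ hβ.le]; ring
  rw [e1, abs_mul, abs_of_pos (inv_pos.2 hs), e3]
  calc (√β)⁻¹ * |En n μ (cut R) (fun y : X => y) φ|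
      ≤ (√β)⁻¹ * (√(D * EE n μ ψ) + η * √β) :=
        mul_le_mul_of_nonneg_left (h1.trans (by linarith)) (inv_pos.2 hs).le
    _ = (√β)⁻¹ * √(D * EE n μ ψ) + η := by field_simp

theorem if_small {c : ℝ} (hc : 0 < c) :
    ∀ᶠ k : ℕ in (hyperfilter ℕ : Filter ℕ), 1 / ((k : ℝ) + 1) ≤ c := by
  refine Filter.Eventually.filter_mono Nat.hyperfilter_le_atTop ?_
  exact (tendsto_one_div_add_atTop_nhds_zero_nat (𝕜 := ℝ)).eventually (Iic_mem_nhds hc)

theorem if_large (c : ℝ) : ∀ᶠ k : ℕ in (hyperfilter ℕ : Filter ℕ), c ≤ (k : ℝ) + 1 := by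
  refine Filter.Eventually.filter_mono Nat.hyperfilter_le_atTop ?_
  filter_upwards [tendsto_natCast_atTop_atTop (R := ℝ).eventually_ge_atTop c] with k hk
  linarith

theorem if_sq_add (a b : X) : ‖a + b‖ ^ 2 ≤ 2 * ‖a‖ ^ 2 + 2 * ‖b‖ ^ 2 := by
  have h := norm_add_le a b
  have h2 : ‖a + b‖ ^ 2 ≤ (‖a‖ + ‖b‖) ^ 2 := pow_le_pow_left₀ (norm_nonneg _) h 2
  nlinarith [sq_nonneg (‖a‖ - ‖b‖)]

/-- The final estimate for one measure. -/
theorem if_final {n : ℕ} {μ : Measure X} {C κ θ C0 β : ℝ} (hU : Up n μ C) (hC : 0 < C)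
    (hκ : 0 < κ) (hθ : 0 < θ) (hθ1 : θ ≤ 1) (hθ2 : θ ≤ (κ / (2 + 8 * C0 ^ 2 * C)) ^ 2)
    (hβ : 0 < β) {V : Submodule ℝ X} {p a : X} {T : V →L[ℝ] X}
    (hgr : Gr n μ (fun y => (√β)⁻¹ • Nm V (y - p)) 0 1 1)
    (hb : ∀ q : V, ‖a + T q‖ ≤ (1 + ‖q‖) * C0)
    (h1 : ∫ y in ball 0 1, ‖(√β)⁻¹ • Nm V (y - p) - (a + T (Pr V y))‖ ^ 2 ∂μ ≤
      κ * θ ^ (n + 2)) :
    ∃ (V' : Submodule ℝ X) (p' : X), Module.finrank ℝ V' = Module.finrank ℝ V ∧
      Flat n μ 0 θ V' p' (κ * β) := by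
  have := hU.locFin
  have hs : 0 < √β := Real.sqrt_pos.2 hβ
  obtain ⟨V', p', hV', hle⟩ := graph_plane V p (√β • a) (√β • T)
  refine ⟨V', p', hV', fun t ht => ?_⟩
  have ht0 : 0 < t := hθ.trans_le ht
  set g : X → X := fun y => (√β)⁻¹ • Nm V (y - p) - (a + T (Pr V y)) with hg
  have hgc : Continuous g := by rw [hg]; fun_prop
  have hpt : ∀ y, ‖Nm V' (y - p')‖ ^ 2 ≤ β * ‖g y‖ ^ 2 := by
    intro y
    have e : Nm V (y - p) - (√β • a + (√β • T) (Pr V y)) = √β • g y := by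
      simp only [hg, smul_sub, smul_add, smul_smul, mul_inv_cancel₀ hs.ne', one_smul,
        smul_apply]
    have h2 := hle y
    rw [e, norm_smul, Real.norm_of_nonneg hs.le] at h2
    have h3 := pow_le_pow_left₀ (norm_nonneg _) h2 2
    rwa [mul_pow, Real.sq_sqrt hβ.le] at h3
  have hi1 : ∀ s, IntegrableOn (fun y => ‖g y‖ ^ 2) (ball 0 s) μ := fun s =>
    integrableOn_ball_of_continuous (by fun_prop) 0 s
  have hA : ∫ y in ball 0 t, ‖Nm V' (y - p')‖ ^ 2 ∂μ ≤ β * ∫ y in ball 0 t, ‖g y‖ ^ 2 ∂μ := by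
    rw [← integral_const_mul]
    exact integral_mono (integrableOn_ball_of_continuous (by fun_prop) 0 t)
      ((hi1 t).const_mul β) hpt
  refine hA.trans ?_
  have hr1 : 1 ≤ (t / θ) ^ (5 / 2 : ℝ) :=
    Real.one_le_rpow ((one_le_div hθ).2 ht) (by norm_num)
  rcases le_total t 1 with h | h
  · have h2 : ∫ y in ball 0 t, ‖g y‖ ^ 2 ∂μ ≤ ∫ y in ball 0 1, ‖g y‖ ^ 2 ∂μ :=
      setIntegral_mono_set (hi1 1) (Eventually.of_forall fun y => by positivity)
        (ball_subset_ball h).eventuallyLE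
    have h3 : θ ^ n ≤ t ^ n := pow_le_pow_left₀ hθ.le ht n
    calc β * ∫ y in ball 0 t, ‖g y‖ ^ 2 ∂μ ≤ β * (κ * θ ^ (n + 2)) :=
          mul_le_mul_of_nonneg_left (h2.trans h1) hβ.le
      _ = κ * β * θ ^ 2 * θ ^ n * 1 := by ring
      _ ≤ κ * β * θ ^ 2 * t ^ n * (t / θ) ^ (5 / 2 : ℝ) := by gcongr
  · set C2 := 2 + 8 * C0 ^ 2 * C with hC2
    have hC2p : 0 < C2 := by positivity
    have hg1 := hgr t h
    rw [div_one, one_mul] at hg1
    have ht2 : t ^ 2 ≤ t ^ (5 / 2 : ℝ) := by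
      rw [← Real.rpow_natCast]
      exact Real.rpow_le_rpow_of_exponent_le h (by norm_num)
    have h2 : ∫ y in ball 0 t, ‖g y‖ ^ 2 ∂μ ≤ ∫ y in ball 0 t,
        (2 * ‖(√β)⁻¹ • Nm V (y - p)‖ ^ 2 + 2 * (2 * t * C0) ^ 2) ∂μ := by
      refine setIntegral_mono_on (hi1 t) (integrableOn_ball_of_continuous (by fun_prop) 0 t)
        measurableSet_ball fun y hy => ?_
      have h3 := if_sq_add ((√β)⁻¹ • Nm V (y - p)) (-(a + T (Pr V y)))
      rw [← sub_eq_add_neg, norm_neg] at h3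
      have h4 := hb (Pr V y)
      have h5 : ‖Pr V y‖ ≤ t := (norm_Pr_le V y).trans (mem_ball_zero_iff.1 hy).le
      have h0 : 0 ≤ C0 := by
        have := (norm_nonneg _).trans (hb 0)
        simpa using this
      have h6 : ‖a + T (Pr V y)‖ ≤ 2 * t * C0 := h4.trans (by nlinarith)
      have h7 := pow_le_pow_left₀ (norm_nonneg _) h6 2
      simp only [hg]; linarith
    rw [integral_add ((integrableOn_ball_of_continuous (by fun_prop) 0 t))
      (integrableOn_ball_of_continuous (by fun_prop) 0 t), integral_const_mul, setIntegral_const,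
      smul_eq_mul] at h2
    have h3 := hU.real_le hC 0 ht0
    have htn : 0 < t ^ n := pow_pos ht0 n
    have h4 : ∫ y in ball 0 t, ‖g y‖ ^ 2 ∂μ ≤ C2 * (t ^ n * t ^ (5 / 2 : ℝ)) := by
      have h5 : μ.real (ball 0 t) * (2 * (2 * t * C0) ^ 2) ≤
          C * t ^ n * (8 * C0 ^ 2 * t ^ (5 / 2 : ℝ)) := by
        have : 2 * (2 * t * C0) ^ 2 ≤ 8 * C0 ^ 2 * t ^ (5 / 2 : ℝ) := by
          nlinarith [mul_le_mul_of_nonneg_left ht2 (sq_nonneg C0)]
        exact mul_le_mul h3 this (by positivity) (by positivity)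
      rw [hC2]; nlinarith
    have h5 : C2 ≤ κ * (θ ^ 2 / θ ^ (5 / 2 : ℝ)) := by
      have e : θ ^ (5 / 2 : ℝ) = θ ^ 2 * √θ := by
        rw [Real.sqrt_eq_rpow, ← Real.rpow_natCast, ← Real.rpow_add hθ]; norm_num
      have hq : √θ ≤ κ / C2 := Real.sqrt_le_iff.2 ⟨by positivity, hθ2⟩
      have hq0 : 0 < √θ := Real.sqrt_pos.2 hθ
      rw [le_div_iff₀ hC2p] at hq
      rw [e, show κ * (θ ^ 2 / (θ ^ 2 * √θ)) = κ / √θ by field_simp, le_div_iff₀ hq0]
      linarith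
    rw [Real.div_rpow ht0.le hθ.le]
    calc β * ∫ y in ball 0 t, ‖g y‖ ^ 2 ∂μ ≤ β * (C2 * (t ^ n * t ^ (5 / 2 : ℝ))) :=
          mul_le_mul_of_nonneg_left h4 hβ.le
      _ ≤ β * (κ * (θ ^ 2 / θ ^ (5 / 2 : ℝ)) * (t ^ n * t ^ (5 / 2 : ℝ))) := by gcongr
      _ = κ * β * θ ^ 2 * t ^ n * (t ^ (5 / 2 : ℝ) / θ ^ (5 / 2 : ℝ)) := by ring

theorem if_gr {n : ℕ} {μ : Measure X} {V : Submodule ℝ X} {p : X} {β : ℝ} (hβ : 0 < β)
    (h : Flat n μ 0 1 V p β) : Gr n μ (fun y => (√β)⁻¹ • Nm V (y - p)) 0 1 1 := by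
  intro t ht
  have h1 := h t ht
  have e : ∀ y, ‖(√β)⁻¹ • Nm V (y - p)‖ ^ 2 = β⁻¹ * ‖Nm V (y - p)‖ ^ 2 := by
    intro y
    rw [norm_smul, mul_pow, Real.norm_of_nonneg (by positivity), inv_pow, Real.sq_sqrt hβ.le]
  simp only [e]
  rw [integral_const_mul]
  calc β⁻¹ * ∫ y in ball 0 t, ‖Nm V (y - p)‖ ^ 2 ∂μ
      ≤ β⁻¹ * (β * 1 ^ 2 * t ^ n * (t / 1) ^ (5 / 2 : ℝ)) :=
        mul_le_mul_of_nonneg_left h1 (by positivity)
    _ = 1 * t ^ n * (t / 1) ^ (5 / 2 : ℝ) := by field_simp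

/-- The normalised compactness argument. -/
theorem improve_seq {n : ℕ} (hn : 1 ≤ n) {C : ℝ} (hC : 0 < C) {κ : ℝ} (hκ : 0 < κ) :
    ∃ θ0 : ℝ, 0 < θ0 ∧ θ0 ≤ 1 ∧ ∀ θ : ℝ, 0 < θ → θ ≤ θ0 → ∀ (μs : ℕ → Measure X)
    (V : Submodule ℝ X) (ps : ℕ → X) (β D : ℕ → ℝ) (B : ℝ), Module.finrank ℝ V = n →
    (∀ k : ℕ, Reg n (μs k) C 0 (k + 1)) → (∀ k, RB n (μs k) C) → (∀ k, 0 < β k) →
    (∀ k : ℕ, β k ≤ 1 / ((k : ℝ) + 1)) → (∀ k, 0 ≤ D k) →
    (∀ k : ℕ, D k / β k ≤ B * (1 / ((k : ℝ) + 1))) → (∀ k, Flat n (μs k) 0 1 V (ps k) (β k)) →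
    (∀ k : ℕ, Osc n (μs k) (fun y : X => y) 0 (k + 1) (D k)) →
    ∃ (k : ℕ) (V' : Submodule ℝ X) (p' : X), Module.finrank ℝ V' = n ∧
      Flat n (μs k) 0 θ V' p' (κ * β k) := by
  obtain ⟨η, C', hη, hC', hnd⟩ := ndmu (X := X) (F := X) n hC
  obtain ⟨ε, hε, hsup⟩ := flat_sup (X := X) n (Λ := 1) hC zero_le_one hη
  set C0 := √(4 * C') with hC0
  refine ⟨min 1 ((κ / (2 + 8 * C0 ^ 2 * C)) ^ 2), by positivity, min_le_left _ _, ?_⟩
  intro θ hθ hθ0 μs V ps β D B hV hreg hRB hβ hβ1 hD hDβ hF hO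
  have hU : ∀ k, Up n (μs k) C := fun k => (hreg k).up
  have hseq : Seq n C (hyperfilter ℕ) μs :=
    ⟨hU, fun k => (hreg k).mem, fun W => (if_large W).mono fun k hk =>
      (hreg k).low.mono (by rw [dist_self]; linarith)⟩
  have hB : 0 ≤ B := by
    have h1 := (div_nonneg (hD 0) (hβ 0).le).trans (hDβ 0)
    simpa using h1
  have hsm : ∀ δ : ℝ, 0 < δ → ∀ᶠ k : ℕ in (hyperfilter ℕ : Filter ℕ), D k / β k ≤ δ := by
    intro δ hδ
    filter_upwards [if_small (c := δ / (B + 1)) (by positivity)] with k hk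
    refine (hDβ k).trans ?_
    calc B * (1 / ((k : ℝ) + 1)) ≤ (B + 1) * (δ / (B + 1)) := by gcongr; linarith
      _ = δ := by field_simp
  have hβle : ∀ k, β k ≤ 1 := fun k => (hβ1 k).trans (by
    rw [div_le_one (by positivity)]; linarith [(Nat.cast_nonneg k : (0 : ℝ) ≤ k)])
  obtain ⟨ν, hν, hVL⟩ := exists_VL hC (hyperfilter ℕ) μs hU
  have href : Ref n ν := by
    refine hVL.ref hC hseq hν fun A δ hδ => ?_
    filter_upwards [hsm δ hδ, if_large A] with k hk hk2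
    refine (hO k).mono (by rw [dist_self]; linarith) (le_trans ?_ hk)
    rw [le_div_iff₀ (hβ k)]
    exact mul_le_of_le_one_right (hD k) (hβle k)
  have hsub : ν.support ⊆ V := by
    refine hVL.supp_sub hC hseq hν (ps := ps) fun e he => ?_
    filter_upwards [if_small he] with k hk
    exact (hF k).mono one_pos ((hβ1 k).trans hk)
  obtain ⟨c, hc, rfl⟩ := lemF hn hC (hVL.reg hC hseq hν) (hVL.rb hC hU hν hRB) href hV hsub
  have hbs : BSeq n C (hyperfilter ℕ) μs (fun k y => (√(β k))⁻¹ • Nm V (y - ps k)) := by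
    refine ⟨hseq, fun k => ?_, fun k => if_gr (hβ k) (hF k), fun A δ hδ => ?_⟩
    · refine LocLip.const_smul (u := fun y => Nm V (y - ps k)) ?_ _
      exact locLip_of_lipschitz ((if_lip_Nm V).comp (LipschitzWith.id.sub (LipschitzWith.const _)))
    · filter_upwards [hsm δ hδ, if_large A] with k hk hk2
      exact (osc_height (hU k) hC (hD k) (hO k) V (ps k) (hβ k)).mono
        (by rw [dist_self]; linarith) hk
  obtain ⟨a, T, hev⟩ := blowup hC (hyperfilter ℕ) hbs hV hc hVL hν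
    (η' := min 1 (κ * θ ^ (n + 2))) (by positivity)
  obtain ⟨k, hk1, hk2, hk3⟩ := (hev.and ((if_small hε).and (if_large 2))).exists
  have := (hU k).locFin
  have hs := hsup (μs k) (hU k) 0 1 one_pos
    ((hreg k).low.mono (by rw [dist_self]; linarith)) V (ps k)
    ((hF k).mono one_pos ((hβ1 k).trans hk2))
  have hm := (hreg k).low 0 (hreg k).mem (by rw [dist_self]; linarith) 1 one_pos (by linarith)
  have hb1 : ∀ q : V, dist q 0 ≤ 1 → ‖a + T q‖ ≤ C0 := by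
    intro q hq
    have h1 := hnd (μs k) (hU k) 0 1 one_pos hm V hV (Nm V (ps k)) 0
      (ContinuousLinearMap.opNorm_zero.trans_le zero_le_one)
      (fun y hy hy1 => by
        have := hs y hy (by linarith)
        rwa [zero_apply, add_zero, ← map_sub]) a T q (by rwa [map_zero])
    have h2 : ∫ y in ball 0 1, ‖a + T (Pr V y)‖ ^ 2 ∂(μs k) ≤ ∫ y in ball 0 1,
        (2 * ‖(√(β k))⁻¹ • Nm V (y - ps k)‖ ^ 2 +
          2 * ‖(√(β k))⁻¹ • Nm V (y - ps k) - (a + T (Pr V y))‖ ^ 2) ∂(μs k) := by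
      refine integral_mono (integrableOn_ball_of_continuous (by fun_prop) 0 1)
        (integrableOn_ball_of_continuous (by fun_prop) 0 1) fun y => ?_
      have h3 := if_sq_add ((√(β k))⁻¹ • Nm V (y - ps k))
        (-((√(β k))⁻¹ • Nm V (y - ps k) - (a + T (Pr V y))))
      rw [norm_neg, ← sub_eq_add_neg, sub_sub_cancel] at h3
      exact h3
    rw [integral_add (integrableOn_ball_of_continuous (by fun_prop) 0 1)
      (integrableOn_ball_of_continuous (by fun_prop) 0 1), integral_const_mul,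
      integral_const_mul] at h2
    have h3 := hbs.gr k 1 le_rfl
    simp only [one_pow, div_one, Real.one_rpow, mul_one] at h3 h1
    have h4 := hk1.trans (min_le_left _ _)
    rw [hC0]
    refine Real.le_sqrt_of_sq_le (h1.trans ?_)
    nlinarith
  have hb2 := (affine_bound a T 0 one_pos hb1).2
  obtain ⟨V', p', hV', hfl⟩ := if_final (hU k) hC hκ hθ (hθ0.trans (min_le_left _ _))
    (hθ0.trans (min_le_right _ _)) (hβ k) (hbs.gr k)
    (fun q => by simpa using hb2 q) (hk1.trans (min_le_right _ _))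
  exact ⟨k, V', p', hV'.trans hV, hfl⟩

theorem improve {n : ℕ} (hn : 1 ≤ n) {C : ℝ} (hC : 0 < C) {κ : ℝ} (hκ : 0 < κ) :
    ∃ θ0 : ℝ, 0 < θ0 ∧ ∀ θ : ℝ, 0 < θ → θ ≤ θ0 → ∃ ε0 A C1 : ℝ, 0 < ε0 ∧ 1 ≤ A ∧ 0 < C1 ∧
    ∀ (μ : Measure X) (x : X) (r : ℝ), 0 < r → Reg n μ C x (A * r) → RB n μ C →
    ∀ (V : Submodule ℝ X) (p : X) (β D : ℝ), Module.finrank ℝ V = n → 0 < β → β ≤ ε0 → 0 ≤ D →
    Flat n μ x r V p β → Osc n μ (fun y : X => y) x (A * r) D →
    ∃ (V' : Submodule ℝ X) (p' : X), Module.finrank ℝ V' = n ∧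
      Flat n μ x (θ * r) V' p' (κ * β + C1 * D / r ^ (n + 1)) := by
  obtain ⟨θ0, hθ0, hθ01, hseq⟩ := improve_seq (X := X) hn hC hκ
  refine ⟨θ0, hθ0, fun θ hθ hθ1 => ?_⟩
  by_contra hcon
  push Not at hcon
  have hk := fun k : ℕ => hcon (1 / ((k : ℝ) + 1)) (k + 1) (k + 1) (by positivity)
    (by linarith [(Nat.cast_nonneg k : (0 : ℝ) ≤ k)]) (by positivity)
  choose μ x r hr hreg hRB V p β D hV hβ hβ1 hD hF hO hno using hk
  have hrot := fun k => exists_rot (V := V k) (V' := V 0) ((hV k).trans (hV 0).symm)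
  choose U hU using hrot
  have hDβ : ∀ k : ℕ, D k / r k ^ (n + 1) / β k ≤ (θ ^ (n + 2))⁻¹ * (1 / ((k : ℝ) + 1)) := by
    intro k
    by_contra hlt
    refine hno k (V k) (p k) (hV k)
      (((hF k).shrink (hreg k).up (hr k) hθ (hθ1.trans hθ01)).mono (mul_pos hθ (hr k)) ?_)
    rw [not_le, lt_div_iff₀ (hβ k)] at hlt
    have h1 : 0 < κ * β k := mul_pos hκ (hβ k)
    have h2 : β k / θ ^ (n + 2) = ((k : ℝ) + 1) * ((θ ^ (n + 2))⁻¹ * (1 / ((k : ℝ) + 1)) * β k) := by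
      field_simp
    have h3 := mul_lt_mul_of_pos_left hlt (show (0 : ℝ) < k + 1 by positivity)
    rw [h2, mul_div_assoc]; linarith
  obtain ⟨k, V', p', hV', hfl⟩ := hseq θ hθ hθ1 (fun k => blow n (μ k) (U k) (x k) (r k)) (V 0)
    (fun k => sim (U k) (x k) (r k) (p k)) β (fun k => D k / r k ^ (n + 1)) (θ ^ (n + 2))⁻¹
    (hV 0)
    (fun k => by
      have h := blow_reg (hreg k) (U k) (x k) (hr k)
      rwa [sim_self, mul_div_cancel_right₀ _ (hr k).ne'] at h)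
    (fun k => blow_rb (hreg k).up (hRB k) (U k) (x k) (hr k)) hβ hβ1
    (fun k => div_nonneg (hD k) (pow_pos (hr k) _).le) hDβ
    (fun k => by
      have h := (blow_flat n (μ k) (U k) (x k) (hr k) (x k) (hr k) (V k) (p k) (β k)).2 (hF k)
      rwa [sim_self, div_self (hr k).ne', hU k] at h)
    (fun k => by
      have h := blow_osc (hreg k).up (hO k) (U k) (x k) (hr k)
      rwa [sim_self, mul_div_cancel_right₀ _ (hr k).ne'] at h)
  obtain ⟨p'', rfl⟩ := sim_surj (U k) (x k) (hr k) p'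
  have hmap : (V'.map ((U k).symm.toLinearEquiv : X →ₗ[ℝ] X)).map
      ((U k).toLinearEquiv : X →ₗ[ℝ] X) = V' := by
    rw [← Submodule.map_comp]
    have : ((U k).toLinearEquiv : X →ₗ[ℝ] X) ∘ₗ ((U k).symm.toLinearEquiv : X →ₗ[ℝ] X) =
        LinearMap.id := by ext y; simp
    rw [this, Submodule.map_id]
  have h := (blow_flat n (μ k) (U k) (x k) (hr k) (x k) (mul_pos hθ (hr k))
    (V'.map ((U k).symm.toLinearEquiv : X →ₗ[ℝ] X)) p'' (κ * β k)).1
    (by rwa [sim_self, mul_div_cancel_right₀ _ (hr k).ne', hmap])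
  refine hno k _ p'' ((finrank_map_iso (U k).symm V').trans hV')
    (h.mono (mul_pos hθ (hr k)) (le_add_of_nonneg_right ?_))
  have := hD k
  have := hr k
  positivity

end Vale.Agent.P120
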