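import Vale.Agent.P120.Carl1
import Vale.Agent.P120.Bessel
import Vale.Agent.P120.FP
import Vale.Agent.P120.IF

/-!
The flatness numbers satisfy a Carleson estimate.
-/

open MeasureTheory Metric Set Filter Topology
open scoped RealInnerProductSpace ENNReal NNReal

noncomputable section

namespace Vale.Agent.P120

variable {X : Type} [NormedAddCommGroup X] [InnerProductSpace ℝ X] [FiniteDimensional ℝ X]
  [MeasurableSpace X] [BorelSpace X]
variable {F : Type} [NormedAddCommGroup F] [InnerProductSpace ℝ F] [FiniteDimensional ℝ F]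

omit [MeasurableSpace X] [BorelSpace X] in
theorem carl2_plane {n : ℕ} (hX : n ≤ Module.finrank ℝ X) :
    ∃ V : Submodule ℝ X, Module.finrank ℝ V = n := by
  obtain ⟨f, hf⟩ := exists_linearIndependent_of_le_finrank hX
  exact ⟨Submodule.span ℝ (range f), by rw [finrank_span_eq_card hf, Fintype.card_fin]⟩

/-- the flatness number of a ball -/
def carl2B (n : ℕ) (μ : Measure X) (x : X) (r : ℝ) : ℝ :=
  sInf {β | ∃ (V : Submodule ℝ X) (p : X), Module.finrank ℝ V = n ∧ Flat n μ x r V p β}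

theorem carl2B_nonneg (n : ℕ) (μ : Measure X) (x : X) {r : ℝ} (hr : 0 < r) :
    0 ≤ carl2B n μ x r :=
  Real.sInf_nonneg fun _ ⟨_, _, _, h⟩ => h.nonneg hr

theorem carl2B_le {n : ℕ} {μ : Measure X} {x : X} {r : ℝ} (hr : 0 < r) {V : Submodule ℝ X}
    {p : X} {β : ℝ} (hV : Module.finrank ℝ V = n) (h : Flat n μ x r V p β) :
    carl2B n μ x r ≤ β :=
  csInf_le ⟨0, fun _ ⟨_, _, _, h⟩ => h.nonneg hr⟩ ⟨V, p, hV, h⟩

theorem carl2B_ex {n : ℕ} (hX : n ≤ Module.finrank ℝ X) {μ : Measure X} {C : ℝ} (hU : Up n μ C)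
    (hC : 0 < C) (x : X) {r : ℝ} (hr : 0 < r) {η : ℝ} (hη : 0 < η) :
    ∃ (V : Submodule ℝ X) (p : X), Module.finrank ℝ V = n ∧
      Flat n μ x r V p (carl2B n μ x r + η) := by
  obtain ⟨V0, hV0⟩ := carl2_plane hX
  obtain ⟨β, ⟨V, p, h1, h2⟩, h3⟩ := exists_lt_of_csInf_lt
    (s := {β | ∃ (V : Submodule ℝ X) (p : X), Module.finrank ℝ V = n ∧ Flat n μ x r V p β})
    ⟨C, V0, x, hV0, flat_trivial hU hC x hr V0⟩
    (show carl2B n μ x r < carl2B n μ x r + η by linarith)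
  exact ⟨V, p, h1, h2.mono hr h3.le⟩

/-- the recursion for the flatness numbers -/
theorem carl2_rec {n : ℕ} (hX : n ≤ Module.finrank ℝ X) {μ : Measure X} {C θ ε0 D' r : ℝ}
    (hU : Up n μ C) (hC : 0 < C) (hθ : 0 < θ) (hr : 0 < r) (hε0 : 0 < ε0) {x x0 : X}
    (hx : dist x x0 ≤ 2 * r)
    (h : ∀ (V : Submodule ℝ X) (p : X) (β : ℝ), Module.finrank ℝ V = n → 0 < β → β ≤ ε0 →
      Flat n μ x r V p β → ∃ (V' : Submodule ℝ X) (p' : X), Module.finrank ℝ V' = n ∧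
        Flat n μ x (θ * r) V' p' (1 / (2 * 3 ^ (n + 3)) * β + D'))
    (hb : carl2B n μ x0 r ≤ ε0 / (2 * 3 ^ (n + 3))) :
    carl2B n μ x (θ * r) ≤ carl2B n μ x0 r / 2 + D' := by
  have b0 := carl2B_nonneg n μ x0 hr
  refine le_of_forall_pos_le_add fun η hη => ?_
  obtain ⟨η', h1, h2, h3⟩ : ∃ η' : ℝ, 0 < η' ∧ η' ≤ η ∧ η' ≤ ε0 / (2 * 3 ^ (n + 3)) :=
    ⟨min η (ε0 / (2 * 3 ^ (n + 3))), by positivity, min_le_left _ _, min_le_right _ _⟩
  obtain ⟨V, p, a1, a2⟩ := carl2B_ex hX hU hC x0 hr h1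
  have a3 := a2.center hU hr (Λ := 2) (by norm_num) hx
  rw [show (1 + 2 : ℝ) = 3 by norm_num] at a3
  obtain ⟨V', p', a4, a5⟩ := h V p _ a1 (by positivity) (by
    have c1 : 3 ^ (n + 3) * (carl2B n μ x0 r + η') ≤
        3 ^ (n + 3) * (2 * (ε0 / (2 * 3 ^ (n + 3)))) :=
      mul_le_mul_of_nonneg_left (by linarith) (by positivity)
    refine c1.trans (le_of_eq ?_)
    field_simp) a3
  have a6 := carl2B_le (by positivity) a4 a5
  have a7 : 1 / (2 * 3 ^ (n + 3)) * (3 ^ (n + 3) * (carl2B n μ x0 r + η')) =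
      (carl2B n μ x0 r + η') / 2 := by
    field_simp
  linarith

/-- from a flat ball to a flat cube -/
theorem carl2_fp {n : ℕ} {μ : Measure X} {C θ ε1 c2 : ℝ} (hU : Up n μ C) (hθ : 0 < θ)
    (hθ1 : θ < 1) (hε1 : 0 < ε1) (Q : Cubes μ.support θ) {j0 k : ℕ} (hj0 : θ ^ j0 ≤ c2 / 8) {c : X}
    (hc : c ∈ Q.N k) {x' : X} (h1 : x' ∈ μ.support) (h2 : dist x' c < θ ^ k / 8) {r' : ℝ}
    (h3 : c2 * (θ ^ k / 8) ≤ r') (h4 : r' ≤ θ ^ k / 8) {V : Submodule ℝ X} {p : X}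
    (h5 : Module.finrank ℝ V = n) (h6 : Flat n μ x' r' V p (ε1 * θ ^ (n + 2) / 3 ^ (n + 3))) :
    ∃ j, k ≤ j ∧ j ≤ k + (j0 + 1) ∧ ∃ c' ∈ Q.N j, Q.ad k c' = c ∧
      carl2B n μ c' (θ ^ j) ≤ ε1 := by
  have a0 := pow_pos hθ k
  have a1 : θ ^ k ≤ 1 := pow_le_one₀ hθ.le hθ1.le
  have a2 : θ ^ (k + j0) ≤ r' := by
    rw [pow_add]
    have := mul_le_mul_of_nonneg_left hj0 a0.le
    linarith
  have hr' : 0 < r' := (pow_pos hθ _).trans_le a2
  obtain ⟨i, i1, i2⟩ := exists_nat_pow_near_of_lt_one hr' (by linarith) hθ hθ1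
  obtain ⟨z1, z2⟩ := Q.inner k c hc x' h1 (by linarith)
  have b1 : k < i + 1 := (pow_lt_pow_iff_right_of_lt_one₀ hθ hθ1).1 (by linarith)
  have b2 : i ≤ k + j0 := (pow_le_pow_iff_right_of_lt_one₀ hθ hθ1).1 (a2.trans i2)
  refine ⟨i + 1, b1.le, by omega, Q.ad (i + 1) x', Q.ad_mem _ _ z1,
    by rw [Q.nest k (i + 1) b1.le x' z1, z2], ?_⟩
  have c1 := h6.center hU hr' (Λ := 2) (x' := Q.ad (i + 1) x') (by norm_num) (by
    have := Q.dist_le (i + 1) x' z1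
    rw [dist_comm]
    linarith)
  have c2 := c1.shrink hU hr' (θ := θ ^ (i + 1) / r') (by positivity)
    ((div_le_one hr').2 i1.le)
  rw [div_mul_cancel₀ _ hr'.ne'] at c2
  refine (carl2B_le (by positivity) h5 c2).trans ?_
  have c3 : θ ≤ θ ^ (i + 1) / r' := by
    rw [le_div_iff₀ hr', pow_succ']
    exact mul_le_mul_of_nonneg_left i2 hθ.le
  have c4 : θ ^ (n + 2) ≤ (θ ^ (i + 1) / r') ^ (n + 2) := pow_le_pow_left₀ hθ.le c3 _
  rw [div_le_iff₀ (by positivity), show (1 + 2 : ℝ) = 3 by norm_num,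
    mul_div_cancel₀ _ (by positivity)]
  exact mul_le_mul_of_nonneg_left c4 hε1.le

/-- Constants: `κ = 1/(2 · 3^(n+3))`, `θ0` from `improve`, `M ≥ 20` with `θ = 1/M ≤ θ0`,
`(ε0, A1, C1)` from `improve`, `ε1 = ε0/(2 · 3^(n+3))`, `(δ2, A2, c2)` from `fp` with
`ε = ε1 θ^(n+2)/3^(n+3)`, `j0` with `θ^j0 ≤ c2/8`, `A = A1/θ + A2`, `W = 200 + A`, `bessel` with `A`
and `2W`. `b k c = sInf {β | ∃ V p, finrank V = n ∧ Flat n μ c (θ^k) V p β}` (nonempty by
`flat_trivial`, an `n`-dimensional subspace exists; bounded below by `Flat.nonneg`; put `0` off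
`N k`), `d k c = C1 D k c/(θ^k)^(n+1)`, `δ = C1 δ2/8^(n+1)`.
Recursion: for `β' ∈ (b, 2 ε1]` admissible for the parent (use `Flat.mono`), `Flat.center` with
`Λ = 2` and `improve` at `(c, θ^k)`; note `θ^(k(n+1)) ≥ θ^((k+1)(n+1))`.
Flat piece: `fp` at `(c, θ^k/8)` gives `(x', r')`; `x'` lies in the cube by `inner`; take the least
`j` with `θ^j ≤ r'`, `c' = ad j x'`, then `Flat.center` (`Λ = 2`) and `Flat.shrink` with ratio
`θ^j/r' ≥ θ`. At the end `β = b + θ^k` and planes by `exists_lt_of_csInf_lt`, `Cubes.card_le`. -/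
theorem carleson {n : ℕ} (hn : 1 ≤ n) (hX : n ≤ Module.finrank ℝ X) {C : ℝ} (hC : 0 < C) :
    ∃ M : ℕ, 20 ≤ M ∧ ∃ W C4 : ℝ, 200 ≤ W ∧ ∀ μ : Measure X, Reg n μ C 0 W → RB n μ C →
    μ (closedBall 0 (2 * W))ᶜ = 0 → ∀ Q : Cubes μ.support ((M : ℝ)⁻¹),
    ∃ (V : ℕ → X → Submodule ℝ X) (p : ℕ → X → X) (β : ℕ → X → ℝ), FlatData n μ Q V p β ∧
      ∀ K : ℕ, ∑ k ∈ Finset.range K, ∑ c ∈ Q.N k, β k c * (((M : ℝ)⁻¹) ^ k) ^ n ≤ C4 := by
  obtain ⟨θ0, hθ0, himp⟩ := improve (X := X) hn hC (κ := 1 / (2 * 3 ^ (n + 3))) (by positivity)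
  obtain ⟨M0, hM0⟩ := exists_nat_ge θ0⁻¹
  obtain ⟨M, hM1, hM2⟩ : ∃ M : ℕ, 20 ≤ M ∧ M0 ≤ M := ⟨20 + M0, by omega, by omega⟩
  have hM3 : (20 : ℝ) ≤ M := by exact_mod_cast hM1
  refine ⟨M, hM1, ?_⟩
  obtain ⟨θ, hθe⟩ : ∃ θ : ℝ, θ = (M : ℝ)⁻¹ := ⟨_, rfl⟩
  rw [← hθe]
  have hθ : 0 < θ := by rw [hθe]; positivity
  have hθ1 : θ ≤ 1 / 2 := by
    rw [hθe, one_div]
    exact inv_anti₀ (by norm_num) (by linarith)
  have hθ2 : θ ≤ θ0 := by
    rw [hθe]
    exact inv_le_of_inv_le₀ hθ0 (hM0.trans (Nat.cast_le.2 hM2))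
  obtain ⟨ε0, A1, C1, hε0, hA1, hC1, himp⟩ := himp θ hθ hθ2
  have hε1 : 0 < ε0 / (2 * 3 ^ (n + 3)) := by positivity
  obtain ⟨δ2, A2, c2, hδ2, hA2, hc2, hfp⟩ := fp hC hX
    (ε0 / (2 * 3 ^ (n + 3)) * θ ^ (n + 2) / 3 ^ (n + 3)) (by positivity)
  obtain ⟨j0, hj0⟩ := exists_pow_lt_of_lt_one (show 0 < c2 / 8 by positivity)
    (show θ < 1 by linarith)
  have hA3 : A1 ≤ A1 / θ := le_div_self (by linarith) hθ (by linarith)
  obtain ⟨C3, hbes⟩ := bessel (X := X) n hC hθ hθ1 (A := A1 / θ + A2) (by linarith)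
    (W := 2 * (200 + (A1 / θ + A2))) (by linarith)
  obtain ⟨C4, hsum⟩ := carl_sum (X := X) n (B := C) (δ := C1 * δ2 / 8 ^ (n + 1)) (C3 := C1 * C3)
    hC hθ (by linarith) hε1 (by positivity) (j0 + 1)
  refine ⟨200 + (A1 / θ + A2), C4 + 12 ^ n * C ^ 2 * 2, by linarith,
    fun μ hreg hRB hsupp Q => ?_⟩
  have hU := hreg.up
  have hp : ∀ k : ℕ, 0 < θ ^ k := pow_pos hθ
  have hp1 : ∀ k : ℕ, θ ^ k ≤ 1 := fun k => pow_le_one₀ hθ.le (by linarith)
  have hN1 : ∀ k, ∀ c ∈ Q.N k, c ∈ μ.support := fun k c hc => Q.Z_sub (Q.N_sub k c hc)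
  have hN2 : ∀ k, ∀ c ∈ Q.N k, dist c 0 ≤ 2 := fun k c hc => by
    rw [dist_zero_right]
    exact Q.norm_le (Q.N_sub k c hc)
  obtain ⟨D, hD0, hD1, hD2⟩ := hbes μ hU hRB hsupp Q.N (fun k c hc c' hc' h => Q.sep hθ hc hc' h)
    fun k c hc => hreg.low c (hN1 k c hc) (by linarith [hN2 k c hc]) _ (hp k)
      (by linarith [hp1 k])
  obtain ⟨V0, hV0⟩ := carl2_plane hX
  have key := hsum μ _ (by linarith) hreg Q (fun k c => carl2B n μ c (θ ^ k))
    (fun k c => C1 * D k c / (θ ^ k) ^ (n + 1)) (fun k c => carl2B_nonneg n μ c (hp k))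
    (fun k c => by have := hD0 k c; positivity)
    (fun k c _ => carl2B_le (hp k) hV0 (flat_trivial hU hC c (hp k) V0))
    (fun k c hc hb => by
      have a1 := mul_le_mul_of_nonneg_left (hp1 k) (show 0 ≤ A1 by linarith)
      have a2 := carl2_rec hX hU hC hθ (hp k) hε0 (Q.dist_le k c (Q.N_sub _ c hc))
        (D' := C1 * D (k + 1) c / (θ ^ k) ^ (n + 1))
        (fun V p β b1 b2 b3 b4 => himp μ c _ (hp k)
          (hreg.mono (hN1 _ c hc) (by linarith [hN2 _ c hc])) hRB V p β _ b1 b2 b3 (hD0 _ _) b4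
          ((hD1 _ c hc).mono (by
            have b5 : (A1 / θ + A2) * θ ^ (k + 1) = A1 * θ ^ k + A2 * θ ^ (k + 1) := by
              rw [pow_succ]
              field_simp
            have b6 := mul_pos (show 0 < A2 by linarith) (hp (k + 1))
            rw [dist_self]
            linarith) le_rfl)) hb
      rw [← pow_succ'] at a2
      refine a2.trans (add_le_add le_rfl ?_)
      exact div_le_div_of_nonneg_left (mul_nonneg hC1.le (hD0 _ _)) (by positivity)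
        (pow_le_pow_left₀ (hp _).le (pow_le_pow_of_le_one hθ.le (by linarith) (Nat.le_succ k)) _))
    (fun k c hc hd => by
      have a1 := mul_le_mul_of_nonneg_left (hp1 k) (show 0 ≤ A2 by linarith)
      have a2 := mul_pos (show 0 < A2 by linarith) (hp k)
      have a3 := mul_pos (show 0 < A1 / θ by linarith) (hp k)
      obtain ⟨x', b1, b2, r', b3, b4, V, p, b5, b6⟩ := hfp μ c (θ ^ k / 8) (by positivity)
        (hreg.mono (hN1 _ c hc) (by linarith [hN2 _ c hc]))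
        ((hD1 _ c hc).mono (by rw [dist_self]; linarith) (by
          rw [div_le_div_iff₀ (by positivity) (by positivity), mul_assoc, mul_assoc] at hd
          rw [div_pow, ← mul_div_assoc, le_div_iff₀ (by positivity)]
          exact le_of_mul_le_mul_left hd hC1))
      exact carl2_fp hU hθ (by linarith) hε1 Q hj0.le hc b1 b2 b3 b4 b5 b6)
    (fun K => by
      refine le_trans (le_of_eq ?_) (mul_le_mul_of_nonneg_left (hD2 K) hC1.le)
      rw [Finset.mul_sum]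
      refine Finset.sum_congr rfl fun k _ => ?_
      rw [Finset.mul_sum]
      refine Finset.sum_congr rfl fun c _ => ?_
      have := hp k
      rw [pow_succ]
      field_simp)
  choose V p hV hF using fun (k : ℕ) (c : X) => carl2B_ex hX hU hC c (hp k) (hp k)
  refine ⟨V, p, fun k c => carl2B n μ c (θ ^ k) + θ ^ k, ⟨fun k c _ => hV k c,
    fun k c _ => hF k c, fun k c => add_nonneg (carl2B_nonneg n μ c (hp k)) (hp k).le⟩,
    fun K => ?_⟩
  simp only [add_mul, Finset.sum_add_distrib]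
  refine add_le_add (key K) (le_trans ?_
    (mul_le_mul_of_nonneg_left (sum_geometric_two_le K) (by positivity)))
  rw [Finset.mul_sum]
  refine Finset.sum_le_sum fun k _ => ?_
  rw [Finset.sum_const, nsmul_eq_mul, mul_left_comm, mul_comm]
  exact mul_le_mul (Q.card_le hθ (by linarith) hC hreg (by linarith) k)
    (pow_le_pow_left₀ hθ.le hθ1 k) (hp k).le (by positivity)

end Vale.Agent.P120
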