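import Vale.Agent.P120.Tree

/-!
Gluing the anchor maps to a co-Lipschitz map.
-/

open MeasureTheory Metric Set Filter Topology
open scoped RealInnerProductSpace ENNReal NNReal

noncomputable section

namespace Vale.Agent.P120

variable {X : Type} [NormedAddCommGroup X] [InnerProductSpace ℝ X] [FiniteDimensional ℝ X]
  [MeasurableSpace X] [BorelSpace X]
variable {F : Type} [NormedAddCommGroup F] [InnerProductSpace ℝ F] [FiniteDimensional ℝ F]

/-- the statement of the induction -/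
def ColipAt {E : Set X} {θ : ℝ} (Q : Cubes E θ) (top : ℕ → X → Prop) (N : ℕ) (L : ℝ) (j : ℕ)
    (c : X) (u : X → F) : Prop :=
  (∀ y ∈ Q.fib j c, ‖u y‖ ≤ 3 * θ ^ j) ∧ ∀ y ∈ Q.fib j c, ∀ y' ∈ Q.fib j c,
    {k | j < k ∧ top k (Q.ad k y)}.encard < (N : ℕ∞) →
    {k | j < k ∧ top k (Q.ad k y')}.encard < (N : ℕ∞) → dist y y' ≤ L * ‖u y - u y'‖

theorem colip_count {P : ℕ → Prop} {j k N : ℕ} (hjk : j < k) (hk : P k)
    (h : {i | j < i ∧ P i}.encard < ((N + 1 : ℕ) : ℕ∞)) :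
    {i | k < i ∧ P i}.encard < (N : ℕ∞) := by
  have a1 : insert k {i | k < i ∧ P i} ⊆ {i | j < i ∧ P i} := by
    rintro i (rfl | hi)
    · exact ⟨hjk, hk⟩
    · exact ⟨hjk.trans hi.1, hi.2⟩
  have a2 := (Set.encard_le_encard a1).trans_lt h
  rw [Set.encard_insert_of_notMem (fun h => lt_irrefl k h.1)] at a2
  push_cast at a2
  exact lt_of_add_lt_add_right a2

theorem colip_step {c0 : ℝ} (hc : 0 < c0) (hc1 : c0 ≤ 1) {N : ℕ} {L : ℝ} (hL : 0 < L)
    {E : Set X} {θ : ℝ} (hθ : 0 < θ) (hθ1 : θ ≤ 1 / 20) (Q : Cubes E θ) (top : ℕ → X → Prop)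
    (hA : Anchor Q top F c0) (U : ℕ → X → X → F)
    (hU : ∀ k, ∀ a ∈ Q.N k, top k a → ColipAt Q top N L k a (U k a)) {j : ℕ} {c : X}
    (hcN : c ∈ Q.N j) (htop : top j c) :
    ∃ u : X → F, ColipAt Q top (N + 1) (48 * (L + 1) / c0) j c u := by
  classical
  obtain ⟨g, g1, g2⟩ := hA j c hcN htop
  have hsp : ∀ y : X, ∃ v : F,
      (∃ k, j < k ∧ top k (Q.ad k y) ∧ (∀ i, j < i → i < k → ¬ top i (Q.ad i y)) ∧
        v = g (Q.ad k y) + (c0 / 48) • U k (Q.ad k y) y) ∨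
      ((∀ i, j < i → ¬ top i (Q.ad i y)) ∧ v = g y) := by
    intro y
    by_cases h : ∃ k, j < k ∧ top k (Q.ad k y)
    · exact ⟨_, Or.inl ⟨Nat.find h, (Nat.find_spec h).1, (Nat.find_spec h).2,
        fun i a b d => Nat.find_min h b ⟨a, d⟩, rfl⟩⟩
    · exact ⟨_, Or.inr ⟨fun i a d => h ⟨i, a, d⟩, rfl⟩⟩
  choose u hu using hsp
  have hp : ∀ k : ℕ, 0 < θ ^ k := pow_pos hθ
  have hanti : ∀ k k' : ℕ, k ≤ k' → θ ^ k' ≤ θ ^ k := fun k k' h =>
    pow_le_pow_of_le_one hθ.le (by linarith) h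
  have hfib : ∀ k, j ≤ k → ∀ y ∈ Q.fib j c, Q.ad k y ∈ Q.fib j c := fun k hk y hy =>
    ⟨Q.ad_mem_Z k hy.1, by rw [Q.nest j k hk y hy.1, hy.2]⟩
  have hUb : ∀ k, ∀ y ∈ Q.Z, top k (Q.ad k y) →
      ‖(c0 / 48) • U k (Q.ad k y) y‖ ≤ c0 / 16 * θ ^ k := fun k y hy ht => by
    have := (hU k _ (Q.ad_mem k y hy) ht).1 y ⟨hy, rfl⟩
    rw [norm_smul, Real.norm_of_nonneg (by positivity)]
    have := mul_le_mul_of_nonneg_left this (show 0 ≤ c0 / 48 by positivity)
    linarith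
  have hfin : ∀ (d z : ℝ), 0 ≤ z → c0 * d ≤ 48 * (L + 1) * z → d ≤ 48 * (L + 1) / c0 * z :=
    fun d z _ h => by rwa [div_mul_eq_mul_div, le_div_iff₀' hc]
  have asym : ∀ y ∈ Q.fib j c, ∀ y' ∈ Q.fib j c, ∀ k, j < k → top k (Q.ad k y) →
      (∀ i, j < i → i < k → ¬ top i (Q.ad i y)) →
      u y = g (Q.ad k y) + (c0 / 48) • U k (Q.ad k y) y → ∀ a' ∈ Q.fib j c, ∀ w : F,
      Q.ad k a' ≠ Q.ad k y → dist y' a' ≤ 2 * θ ^ k → ‖w‖ ≤ c0 / 16 * θ ^ k → u y' = g a' + w →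
      dist y y' ≤ 48 * (L + 1) / c0 * ‖u y - u y'‖ := by
    intro y hy y' hy' k k1 k2 k3 k4 a' ha' w b1 b2 b3 b4
    have c1 := Q.sep_of_ne (Q.ad_mem k y hy.1) (Q.Z_sub ha'.1) b1
    rw [dist_comm] at c1
    have c2 := g2 _ (hfib k k1.le y hy) a' ha' k k1
      (fun i i1 i2 => by
        rw [Q.nest i k i2.le y hy.1]
        exact k3 i i1 i2)
      (by
        rw [Q.nest k k le_rfl y hy.1]
        exact b1.symm) c1
    have c3 : g (Q.ad k y) - g a' = (u y - u y') - (c0 / 48) • U k (Q.ad k y) y + w := by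
      rw [k4, b4]
      abel
    have c4 := norm_add_le ((u y - u y') - (c0 / 48) • U k (Q.ad k y) y) w
    have c5 := norm_sub_le (u y - u y') ((c0 / 48) • U k (Q.ad k y) y)
    have c6 := hUb k y hy.1 k2
    have c7 := Q.dist_le k y hy.1
    have c8 := dist_triangle4_right y y' (Q.ad k y) a'
    have c9 := mul_le_mul_of_nonneg_left c1 hc.le
    have c10 := mul_le_mul_of_nonneg_left
      (show dist y y' ≤ 17 * dist (Q.ad k y) a' by linarith) hc.le
    rw [← c3] at c4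
    have c11 := mul_nonneg hL.le (norm_nonneg (u y - u y'))
    refine hfin _ _ (norm_nonneg _) ?_
    linarith [norm_nonneg (u y - u y')]
  have H : ∀ y ∈ Q.fib j c, ∀ y' ∈ Q.fib j c,
      {k | j < k ∧ top k (Q.ad k y)}.encard < ((N + 1 : ℕ) : ℕ∞) →
      {k | j < k ∧ top k (Q.ad k y')}.encard < ((N + 1 : ℕ) : ℕ∞) → ∀ k, j < k →
      top k (Q.ad k y) → (∀ i, j < i → i < k → ¬ top i (Q.ad i y)) →
      u y = g (Q.ad k y) + (c0 / 48) • U k (Q.ad k y) y →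
      (∀ i, j < i → i < k → ¬ top i (Q.ad i y')) →
      dist y y' ≤ 48 * (L + 1) / c0 * ‖u y - u y'‖ := by
    intro y hy y' hy' n1 n2 k k1 k2 k3 k4 k5
    by_cases he : Q.ad k y' = Q.ad k y
    · have t1 : top k (Q.ad k y') := by rwa [he]
      rcases hu y' with ⟨k', l1, l2, l3, l4⟩ | ⟨l1, _⟩
      · obtain rfl : k = k' := by
          rcases lt_trichotomy k k' with a | a | a
          · exact absurd t1 (l3 k k1 a)
          · exact a
          · exact absurd l2 (k5 k' l1 a)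
        have c1 := (hU k _ (Q.ad_mem k y hy.1) k2).2 y ⟨hy.1, rfl⟩ y' ⟨hy'.1, he⟩
          (colip_count k1 k2 n1) (colip_count k1 t1 n2)
        have c2 : 48 * (L + 1) / c0 * (c0 / 48 * ‖U k (Q.ad k y) y - U k (Q.ad k y) y'‖) =
            (L + 1) * ‖U k (Q.ad k y) y - U k (Q.ad k y) y'‖ := by field_simp
        rw [k4, l4, he, add_sub_add_left_eq_sub, ← smul_sub, norm_smul,
          Real.norm_of_nonneg (show 0 ≤ c0 / 48 by positivity), c2]
        exact c1.trans (mul_le_mul_of_nonneg_right (by linarith) (norm_nonneg _))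
      · exact absurd t1 (l1 k k1)
    · rcases hu y' with ⟨k', l1, l2, l3, l4⟩ | ⟨l1, l2⟩
      · have a : k ≤ k' := not_lt.1 fun a => k5 k' l1 a l2
        have b := hanti k k' a
        refine asym y hy y' hy' k k1 k2 k3 k4 _ (hfib k' l1.le y' hy') _ ?_ ?_ ?_ l4
        · rwa [Q.nest k k' a y' hy'.1]
        · linarith [Q.dist_le k' y' hy'.1]
        · exact (hUb k' y' hy'.1 l2).trans (mul_le_mul_of_nonneg_left b (by positivity))
      · refine asym y hy y' hy' k k1 k2 k3 k4 y' hy' 0 he ?_ ?_ (by rw [l2, add_zero])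
        · rw [dist_self]
          exact (mul_pos two_pos (hp k)).le
        · rw [norm_zero]
          exact (mul_pos (by positivity) (hp k)).le
  refine ⟨u, fun y hy => ?_, fun y hy y' hy' n1 n2 => ?_⟩
  · rcases hu y with ⟨k, k1, k2, _, k4⟩ | ⟨_, k2⟩
    · rw [k4]
      refine (norm_add_le _ _).trans ?_
      have a1 := g1 _ (hfib k k1.le y hy)
      have a2 := hUb k y hy.1 k2
      have a3 := mul_le_mul hc1 (hanti j k k1.le) (hp k).le zero_le_one
      linarith [hp j]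
    · rw [k2]
      linarith [g1 y hy, hp j]
  · rcases hu y with ⟨k, k1, k2, k3, k4⟩ | ⟨k1, k2⟩ <;>
      rcases hu y' with ⟨k', l1, l2, l3, l4⟩ | ⟨l1, l2⟩
    · rcases le_total k k' with a | a
      · exact H y hy y' hy' n1 n2 k k1 k2 k3 k4 fun i i1 i2 => l3 i i1 (i2.trans_le a)
      · rw [dist_comm, norm_sub_rev]
        exact H y' hy' y hy n2 n1 k' l1 l2 l3 l4 fun i i1 i2 => k3 i i1 (i2.trans_le a)
    · exact H y hy y' hy' n1 n2 k k1 k2 k3 k4 fun i i1 _ => l1 i i1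
    · rw [dist_comm, norm_sub_rev]
      exact H y' hy' y hy n2 n1 k' l1 l2 l3 l4 fun i i1 _ => k1 i i1
    · rcases eq_or_ne y y' with rfl | hne
      · rw [dist_self]
        positivity
      have d0 := dist_pos.2 hne
      obtain ⟨i, hi⟩ := exists_pow_lt_of_lt_one (show 0 < dist y y' / 4 by positivity)
        (show θ < 1 by linarith)
      have a1 := hanti i (j + 1 + i) (by omega)
      have a2 := g2 y hy y' hy' (j + 1 + i) (by omega) (fun l a _ => k1 l a) (fun h => by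
        have b1 := Q.dist_le (j + 1 + i) y hy.1
        have b2 := Q.dist_le (j + 1 + i) y' hy'.1
        have b3 := dist_triangle_right y y' (Q.ad (j + 1 + i) y')
        rw [h] at b1
        linarith) (by linarith)
      rw [← k2, ← l2] at a2
      have a3 := mul_nonneg hL.le (norm_nonneg (u y - u y'))
      refine hfin _ _ (norm_nonneg _) ?_
      linarith [norm_nonneg (u y - u y')]

theorem colip_ind {c0 : ℝ} (hc : 0 < c0) (hc1 : c0 ≤ 1) (N : ℕ) : ∃ L : ℝ, 0 < L ∧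
    ∀ (E : Set X) (θ : ℝ), 0 < θ → θ ≤ 1 / 20 → ∀ (Q : Cubes E θ) (top : ℕ → X → Prop),
    Anchor Q top F c0 → ∀ j, ∀ c ∈ Q.N j, top j c → ∃ u : X → F, ColipAt Q top N L j c u := by
  induction N with
  | zero =>
    refine ⟨1, one_pos, fun E θ hθ _ Q top _ j c _ _ => ⟨0, fun y _ => ?_, fun y _ y' _ h => ?_⟩⟩
    · rw [Pi.zero_apply, norm_zero]
      positivity
    · exact absurd h (by simp)
  | succ N ih =>
    obtain ⟨L, hL, h⟩ := ih
    refine ⟨48 * (L + 1) / c0, by positivity, fun E θ hθ hθ1 Q top hA j c hj ht => ?_⟩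
    have h1 : ∀ (k : ℕ) (a : X), ∃ u : X → F, a ∈ Q.N k → top k a → ColipAt Q top N L k a u := by
      intro k a
      by_cases h2 : a ∈ Q.N k ∧ top k a
      · obtain ⟨u, hu⟩ := h E θ hθ hθ1 Q top hA k a h2.1 h2.2
        exact ⟨u, fun _ _ => hu⟩
      · exact ⟨0, fun a b => absurd ⟨a, b⟩ h2⟩
    choose U hU using h1
    exact colip_step hc hc1 hL hθ hθ1 Q top hA U hU hj ht

/-- Induction on `N`, for all top cubes `(j, c)` at once: there is `u` with `‖u y‖ ≤ 3 θ^j` on the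
cube and `dist y y' ≤ L ‖u y - u y'‖` for points of the cube with at most `N` tops at levels
`> j`. With `κ = c0/48`: if `y` has no top above level `j` put `u y = g y` (anchor `y`); otherwise
let `k` be the first such level, anchor `a = ad k y`, `u y = g a + κ • u_{k,a} y` (for `N = 0` take
`u = g`). Same level and anchor: induction hypothesis, `L' ≥ L/κ`. Different: if `k ≤ k'` then
`ad k a' ≠ a` (else `ad i y' = ad i y` for `i ≤ k`, so `y'` has the same first top),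
`Cubes.sep_of_ne`, `Anchor`, `‖u y - u y'‖ ≥ c0 dist a a'/2` and `dist y y' ≤ 17 dist a a'`. If both
anchors are the points themselves choose `k` large (`4 θ^k < dist y y'`). -/
theorem colip {c0 : ℝ} (hc : 0 < c0) (hc1 : c0 ≤ 1) (N : ℕ) : ∃ L : ℝ, 0 < L ∧
    ∀ (E : Set X) (θ : ℝ), 0 < θ → θ ≤ 1 / 20 → ∀ (Q : Cubes E θ) (top : ℕ → X → Prop),
    top 0 0 → Anchor Q top F c0 → ∃ u : X → F, (∀ y ∈ Q.Z, ‖u y‖ ≤ 3) ∧
      ∀ y ∈ Q.Z, ∀ y' ∈ Q.Z, {k | top k (Q.ad k y)}.encard ≤ (N : ℕ∞) →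
        {k | top k (Q.ad k y')}.encard ≤ (N : ℕ∞) → dist y y' ≤ L * ‖u y - u y'‖ := by
  obtain ⟨L, hL, h⟩ := colip_ind (X := X) (F := F) hc hc1 (N + 1)
  refine ⟨L, hL, fun E θ hθ hθ1 Q top h0 hA => ?_⟩
  obtain ⟨u, u1, u2⟩ := h E θ hθ hθ1 Q top hA 0 0 (by
    rw [Q.zero]
    exact Finset.mem_singleton_self 0) h0
  have h1 : ∀ y : X, {k | top k (Q.ad k y)}.encard ≤ (N : ℕ∞) →
      {k | 0 < k ∧ top k (Q.ad k y)}.encard < ((N + 1 : ℕ) : ℕ∞) := fun y hy =>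
    ((Set.encard_le_encard fun k hk => hk.2).trans hy).trans_lt
      (Nat.cast_lt.2 (Nat.lt_succ_self N))
  refine ⟨u, fun y hy => ?_, fun y hy y' hy' a b =>
    u2 y ⟨hy, Q.ad_zero hy⟩ y' ⟨hy', Q.ad_zero hy'⟩ (h1 y a) (h1 y' b)⟩
  simpa using u1 y ⟨hy, Q.ad_zero hy⟩

end Vale.Agent.P120
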