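import Vale.Agent.P120.Ann

/-!
Construction of dyadic cubes on a closed set.
-/

open MeasureTheory Metric Set Filter Topology
open scoped RealInnerProductSpace ENNReal NNReal

noncomputable section

namespace Vale.Agent.P120

variable {X : Type} [NormedAddCommGroup X] [InnerProductSpace ℝ X] [FiniteDimensional ℝ X]
  [MeasurableSpace X] [BorelSpace X]
variable {F : Type} [NormedAddCommGroup F] [InnerProductSpace ℝ F] [FiniteDimensional ℝ F]

omit [MeasurableSpace X] [BorelSpace X] in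
theorem cubes_net_step {K : Set X} (hK : K ⊆ closedBall 0 10) {δ : ℝ} (hδ : 0 < δ) (S : Finset X)
    (h1 : ∀ c ∈ S, c ∈ K) (h2 : ∀ c ∈ S, ∀ c' ∈ S, c ≠ c' → δ ≤ dist c c') :
    ∃ S' : Finset X, S ⊆ S' ∧ (∀ c ∈ S', c ∈ K) ∧
      (∀ c ∈ S', ∀ c' ∈ S', c ≠ c' → δ ≤ dist c c') ∧ ∀ y ∈ K, ∃ c ∈ S', dist y c < δ := by
  classical
  obtain ⟨N, hN⟩ := packing X (10 / δ)
  let P : ℕ → Prop := fun m => ∃ S' : Finset X, (S ⊆ S' ∧ (∀ c ∈ S', c ∈ K) ∧
      ∀ c ∈ S', ∀ c' ∈ S', c ≠ c' → δ ≤ dist c c') ∧ S'.card = m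
  have hb : ∀ m, P m → m ≤ N := by
    rintro m ⟨S', ⟨_, a2, a3⟩, rfl⟩
    refine hN S' 0 δ hδ (fun c hc => ?_) a3
    rw [div_mul_cancel₀ _ hδ.ne']
    exact hK (a2 c hc)
  have h0 : P S.card := ⟨S, ⟨Finset.Subset.refl _, h1, h2⟩, rfl⟩
  obtain ⟨S', ⟨a1, a2, a3⟩, a4⟩ := Nat.findGreatest_spec (hb _ h0) h0
  refine ⟨S', a1, a2, a3, fun y hy => ?_⟩
  by_contra hc
  have hc' : ∀ c ∈ S', δ ≤ dist y c := fun c h => not_lt.1 fun h' => hc ⟨c, h, h'⟩
  have hy' : y ∉ S' := fun h => by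
    have := hc' y h
    rw [dist_self] at this
    linarith
  have h3 : P (S'.card + 1) := by
    refine ⟨insert y S', ⟨a1.trans (Finset.subset_insert _ _), fun c h => ?_,
      fun c h c' h' hne => ?_⟩, Finset.card_insert_of_notMem hy'⟩
    · rcases Finset.mem_insert.1 h with rfl | h
      · exact hy
      · exact a2 c h
    · rcases Finset.mem_insert.1 h with b1 | b1 <;> rcases Finset.mem_insert.1 h' with b2 | b2
      · exact absurd (b1.trans b2.symm) hne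
      · rw [b1]
        exact hc' c' b2
      · rw [dist_comm, b2]
        exact hc' c b1
      · exact a3 c b1 c' b2 hne
  have := Nat.le_findGreatest (hb _ h3) h3
  omega

/-- Nested finite nets: `Net k` is a maximal `θ^k`-separated subset of the compact set `K`
containing `Net (k-1)` (and `0` for `k = 0`); `packing` bounds cardinalities, so a maximal one
exists (`Finset.exists_max_image`/`Nat.findGreatest`, or `Metric.exists_maximal_separated`-type
lemmas). -/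
theorem exists_nets {K : Set X} (hK : K ⊆ closedBall 0 10) (h0 : (0 : X) ∈ K) {θ : ℝ}
    (hθ : 0 < θ) (hθ1 : θ ≤ 1) : ∃ Net : ℕ → Finset X, (0 : X) ∈ Net 0 ∧
      (∀ k, Net k ⊆ Net (k + 1)) ∧ (∀ k, ∀ c ∈ Net k, c ∈ K) ∧
      (∀ k, ∀ c ∈ Net k, ∀ c' ∈ Net k, c ≠ c' → θ ^ k ≤ dist c c') ∧
      ∀ k, ∀ y ∈ K, ∃ c ∈ Net k, dist y c < θ ^ k := by
  have h1 : ∀ (k : ℕ) (S : Finset X), ∃ S' : Finset X, (∀ c ∈ S, c ∈ K) →
      (∀ c ∈ S, ∀ c' ∈ S, c ≠ c' → θ ^ k ≤ dist c c') → S ⊆ S' ∧ (∀ c ∈ S', c ∈ K) ∧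
      (∀ c ∈ S', ∀ c' ∈ S', c ≠ c' → θ ^ k ≤ dist c c') ∧
      ∀ y ∈ K, ∃ c ∈ S', dist y c < θ ^ k := by
    intro k S
    by_cases h : (∀ c ∈ S, c ∈ K) ∧ ∀ c ∈ S, ∀ c' ∈ S, c ≠ c' → θ ^ k ≤ dist c c'
    · obtain ⟨S', hS'⟩ := cubes_net_step hK (pow_pos hθ k) S h.1 h.2
      exact ⟨S', fun _ _ => hS'⟩
    · exact ⟨S, fun a b => absurd ⟨a, b⟩ h⟩
  choose f hf using h1
  let Net : ℕ → Finset X := fun k => Nat.rec (f 0 {0}) (fun k S => f (k + 1) S) k
  have h00 := hf 0 {0} (fun c hc => by rw [Finset.mem_singleton.1 hc]; exact h0)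
    (fun c hc c' hc' hne => absurd
      ((Finset.mem_singleton.1 hc).trans (Finset.mem_singleton.1 hc').symm) hne)
  have hstep : ∀ k, (∀ c ∈ Net k, c ∈ K) →
      (∀ c ∈ Net k, ∀ c' ∈ Net k, c ≠ c' → θ ^ k ≤ dist c c') →
      Net k ⊆ Net (k + 1) ∧ (∀ c ∈ Net (k + 1), c ∈ K) ∧
      (∀ c ∈ Net (k + 1), ∀ c' ∈ Net (k + 1), c ≠ c' → θ ^ (k + 1) ≤ dist c c') ∧
      ∀ y ∈ K, ∃ c ∈ Net (k + 1), dist y c < θ ^ (k + 1) := fun k a b =>
    hf (k + 1) (Net k) a fun c hc c' hc' hne =>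
      (pow_le_pow_of_le_one hθ.le hθ1 (Nat.le_succ k)).trans (b c hc c' hc' hne)
  have hall : ∀ k, (∀ c ∈ Net k, c ∈ K) ∧
      (∀ c ∈ Net k, ∀ c' ∈ Net k, c ≠ c' → θ ^ k ≤ dist c c') ∧
      ∀ y ∈ K, ∃ c ∈ Net k, dist y c < θ ^ k := by
    intro k
    induction k with
    | zero => exact h00.2
    | succ k ih => exact (hstep k ih.1 ih.2.1).2
  exact ⟨Net, h00.1 (Finset.mem_singleton_self 0), fun k => (hstep k (hall k).1 (hall k).2.1).1,
    fun k => (hall k).1, fun k => (hall k).2.1, fun k => (hall k).2.2⟩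

/-- ancestor at level `k` of a point of level `k + i` -/
def cubesAnc {Y : Type} (par : ℕ → Y → Y) : ℕ → ℕ → Y → Y
  | 0, _, d => d
  | i + 1, k, d => par k (cubesAnc par i (k + 1) d)

theorem cubes_meas {Y : Type} [MeasurableSpace Y] (N : Finset Y) (P : Y → Y → Prop)
    (hP : ∀ c ∈ N, MeasurableSet {y | P c y}) (T : Y → Finset Y)
    (hT : ∀ y c, c ∈ T y ↔ c ∈ N ∧ P c y) (g : Finset Y → Y) (c : Y) :
    MeasurableSet {y | g (T y) = c} := by
  classical
  have h1 : {y | g (T y) = c} = ⋃ S ∈ N.powerset.filter (fun S => g S = c),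
      ⋂ c' ∈ N, {y | P c' y ↔ c' ∈ S} := by
    ext y
    simp only [mem_setOf_eq, mem_iUnion, mem_iInter, Finset.mem_filter, Finset.mem_powerset]
    constructor
    · intro h
      refine ⟨T y, ⟨fun a ha => ((hT y a).1 ha).1, h⟩, fun c' hc' => ?_⟩
      rw [hT]
      exact ⟨fun a => ⟨hc', a⟩, fun a => a.2⟩
    · rintro ⟨S, ⟨a1, a2⟩, a3⟩
      have : T y = S := by
        ext c'
        rw [hT]
        exact ⟨fun a => (a3 c' a.1).1 a.2, fun a => ⟨a1 a, (a3 c' (a1 a)).2 a⟩⟩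
      rw [this, a2]
  rw [h1]
  refine Finset.measurableSet_biUnion _ fun S _ => Finset.measurableSet_biInter _ fun c' hc' => ?_
  by_cases h : c' ∈ S
  · simpa [h] using hP c' hc'
  · have : {y | P c' y ↔ c' ∈ S} = {y | P c' y}ᶜ := by
      ext y
      simp [h]
    rw [this]
    exact (hP c' hc').compl

/-- the closed cubes -/
theorem cubes_closed {K : Set X} (hK : K ⊆ closedBall 0 10) (h0 : (0 : X) ∈ K) {θ : ℝ}
    (hθ : 0 < θ) (hθ1 : θ ≤ 1 / 20) :
    ∃ (Net : ℕ → Finset X) (par : ℕ → X → X) (Cl : ℕ → X → Set X), (0 : X) ∈ Net 0 ∧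
      (∀ k, ∀ c ∈ Net k, c ∈ K) ∧ (∀ k c, IsClosed (Cl k c)) ∧
      (∀ y ∈ K, ∃ c ∈ Net 0, y ∈ Cl 0 c) ∧
      (∀ k, ∀ c ∈ Net k, ∀ y ∈ Cl k c, ∃ c' ∈ Net (k + 1), par k c' = c ∧ y ∈ Cl (k + 1) c') ∧
      (∀ k c, ∀ y ∈ Cl k c, dist y c ≤ 20 / 19 * θ ^ k) ∧
      ∀ k, ∀ c ∈ Net k, ∀ c' ∈ Net k, ∀ y ∈ Cl k c', dist y c < θ ^ k / 4 → c' = c := by
  classical
  obtain ⟨Net, n0, n1, n2, n3, n4⟩ := exists_nets hK h0 hθ (by linarith)
  have hmono : ∀ k, (0 : X) ∈ Net k := fun k => by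
    induction k with
    | zero => exact n0
    | succ k ih => exact n1 k ih
  have hp : ∀ (k : ℕ) (y : X), ∃ c ∈ Net k, ∀ c' ∈ Net k, dist y c ≤ dist y c' := fun k y =>
    (Net k).exists_min_image (fun c => dist y c) ⟨0, hmono k⟩
  choose par p1 p2 using hp
  have p3 : ∀ k, ∀ y ∈ K, dist y (par k y) < θ ^ k := fun k y hy => by
    obtain ⟨c, hc, h⟩ := n4 k y hy
    exact (p2 k y c hc).trans_lt h
  have p4 : ∀ k, ∀ c ∈ Net k, ∀ y, dist y c < θ ^ k / 2 → par k y = c := fun k c hc y h => by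
    by_contra hne
    have a1 := n3 k _ (p1 k y) c hc hne
    have a2 := p2 k y c hc
    have a3 := dist_triangle_left (par k y) c y
    linarith
  have a1 : ∀ i k, ∀ d ∈ Net (k + i), cubesAnc par i k d ∈ Net k := fun i k d hd => by
    cases i with
    | zero => exact hd
    | succ i => exact p1 k _
  have a2 : ∀ i k, ∀ d ∈ Net (k + i), dist d (cubesAnc par i k d) ≤ 20 / 19 * θ ^ k := by
    intro i
    induction i with
    | zero =>
      intro k d _
      simp only [cubesAnc, dist_self]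
      positivity
    | succ i ih =>
      intro k d hd
      rw [show k + (i + 1) = k + 1 + i by omega] at hd
      have b1 := ih (k + 1) d hd
      have b2 := p3 k _ (n2 _ _ (a1 i (k + 1) d hd))
      have b3 := dist_triangle d (cubesAnc par i (k + 1) d) (par k (cubesAnc par i (k + 1) d))
      have b4 : θ ^ (k + 1) ≤ θ ^ k * (1 / 20) := by
        rw [pow_succ]
        exact mul_le_mul_of_nonneg_left hθ1 (by positivity)
      simp only [cubesAnc]
      linarith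
  let D : ℕ → X → Set X := fun k c => {d | ∃ i, d ∈ Net (k + i) ∧ cubesAnc par i k d = c}
  have c1 : ∀ k, ∀ c ∈ Net k, ∀ y ∈ closure (D k c),
      ∃ c' ∈ Net (k + 1), par k c' = c ∧ y ∈ closure (D (k + 1) c') := by
    intro k c hc y hy
    have b1 : D k c ⊆ ⋃ c' ∈ (Net (k + 1)).filter (fun c' => par k c' = c), D (k + 1) c' := by
      rintro d ⟨i, h1, h2⟩
      simp only [mem_iUnion, Finset.mem_filter]
      cases i with
      | zero =>
        obtain rfl : d = c := h2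
        refine ⟨d, ⟨n1 k hc, p4 k d hc d ?_⟩, 0, n1 k hc, rfl⟩
        rw [dist_self]
        positivity
      | succ i =>
        rw [show k + (i + 1) = k + 1 + i by omega] at h1
        exact ⟨_, ⟨a1 i (k + 1) d h1, h2⟩, i, h1, rfl⟩
    have b2 := closure_mono b1 hy
    rw [Finset.closure_biUnion] at b2
    simp only [mem_iUnion, Finset.mem_filter] at b2
    obtain ⟨c', ⟨h1, h2⟩, h3⟩ := b2
    exact ⟨c', h1, h2, h3⟩
  have c2 : ∀ k c, ∀ y ∈ closure (D k c), dist y c ≤ 20 / 19 * θ ^ k := by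
    intro k c y hy
    have b1 : D k c ⊆ closedBall c (20 / 19 * θ ^ k) := by
      rintro d ⟨i, h1, rfl⟩
      exact a2 i k d h1
    exact closure_minimal b1 isClosed_closedBall hy
  refine ⟨Net, par, fun k c => closure (D k c), n0, n2, fun _ _ => isClosed_closure,
    fun y hy => ?_, c1, c2, fun k c hc c' hc' y hy h => ?_⟩
  · have b1 : y ∈ closure (⋃ c ∈ Net 0, D 0 c) := by
      rw [Metric.mem_closure_iff]
      intro ε hε
      obtain ⟨i, hi⟩ := exists_pow_lt_of_lt_one hε (show θ < 1 by linarith)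
      obtain ⟨d, hd, h⟩ := n4 i y hy
      have hd' : d ∈ Net (0 + i) := by rwa [zero_add]
      refine ⟨d, ?_, h.trans hi⟩
      simp only [mem_iUnion]
      exact ⟨_, a1 i 0 d hd', i, hd', rfl⟩
    rw [Finset.closure_biUnion] at b1
    simp only [mem_iUnion] at b1
    obtain ⟨c, h1, h2⟩ := b1
    exact ⟨c, h1, h2⟩
  · obtain ⟨d, _, h2, h3⟩ := c1 k c' hc' y hy
    rw [← h2]
    refine p4 k c hc d ?_
    have b1 := c2 _ _ y h3
    have b3 := dist_triangle_left d c y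
    have b4 : θ ^ (k + 1) ≤ θ ^ k * (1 / 20) := by
      rw [pow_succ]
      exact mul_le_mul_of_nonneg_left hθ1 (by positivity)
    have b5 := pow_pos hθ k
    linarith

/-- `K = E ∩ closedBall 0 10`. `par k c` is a nearest point of `Net k` to `c`, so
`dist c (par k c) < θ^k`, and `par k c = c0` whenever `c0 ∈ Net k`, `dist c c0 < θ^k/2`.
`anc k i c` (ancestor at level `k` of a point of `Net (k+i)`) iterates `par`;
`Cl k c = closure {d | ∃ i, d ∈ Net (k+i), anc k i d = c}`. Then `K ⊆ ⋃_{c ∈ Net 0} Cl 0 c`,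
`Cl k c ⊆ ⋃_{c' ∈ Net (k+1), par k c' = c} Cl (k+1) c'` (finite unions of closed sets; `c` is its
own child), `Cl k c ⊆ closedBall c (θ^k · 20/19)`, and a point within `θ^k/4` of `c ∈ Net k` lies
in `Cl k c''` only for `c'' = c` (descendants are within `θ^k/19` of their ancestor of level
`k+1`, which then is within `θ^k/2` of `c`). Fix `pick : Finset X → X` with `pick T ∈ T` for
nonempty `T`; `ad 0 y = pick {c ∈ Net 0 | y ∈ Cl 0 c}`,
`ad (k+1) y = pick {c' ∈ Net (k+1) | par k c' = ad k y ∧ y ∈ Cl (k+1) c'}`. Fibres are measurable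
by induction (finite union over the value of `ad k` and of the finset `T`).
`Z = {y ∈ K | ad 0 y = 0}`, `N k = {c ∈ Net k | c ∈ Z}`. -/
theorem exists_cubes {E : Set X} (hE : IsClosed E) (h0 : (0 : X) ∈ E) {θ : ℝ} (hθ : 0 < θ)
    (hθ1 : θ ≤ 1 / 20) : Nonempty (Cubes E θ) := by
  classical
  let K := E ∩ closedBall (0 : X) 10
  have hK0 : (0 : X) ∈ K := ⟨h0, mem_closedBall_self (by norm_num)⟩
  obtain ⟨Net, par, Cl, n0, n2, c0, c1, c2, c3, c4⟩ :=
    cubes_closed (K := K) inter_subset_right hK0 hθ hθ1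
  have hpick : ∀ T : Finset X, ∃ c : X, T.Nonempty → c ∈ T := fun T => by
    rcases T.eq_empty_or_nonempty with h | ⟨c, hc⟩
    · exact ⟨0, fun h' => absurd h h'.ne_empty⟩
    · exact ⟨c, fun _ => hc⟩
  choose pick hp using hpick
  obtain ⟨T, hT⟩ : ∃ T : ℕ → X → X → Finset X, ∀ k a y c,
      c ∈ T k a y ↔ c ∈ Net (k + 1) ∧ par k c = a ∧ y ∈ Cl (k + 1) c :=
    ⟨fun k a y => (Net (k + 1)).filter (fun c => par k c = a ∧ y ∈ Cl (k + 1) c),
      fun _ _ _ _ => Finset.mem_filter⟩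
  let ad : ℕ → X → X := fun k => Nat.rec (fun y => pick ((Net 0).filter (fun c => y ∈ Cl 0 c)))
    (fun k a y => pick (T k (a y) y)) k
  have e0 : ∀ y, ad 0 y = pick ((Net 0).filter (fun c => y ∈ Cl 0 c)) := fun _ => rfl
  have e1 : ∀ (k : ℕ) (y : X), ad (k + 1) y = pick (T k (ad k y) y) := fun _ _ => rfl
  have hstep : ∀ k y, ad k y ∈ Net k → y ∈ Cl k (ad k y) → ad (k + 1) y ∈ Net (k + 1) ∧
      par k (ad (k + 1) y) = ad k y ∧ y ∈ Cl (k + 1) (ad (k + 1) y) := by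
    intro k y a b
    obtain ⟨c', h⟩ := c2 k _ a y b
    have := hp (T k (ad k y) y) ⟨c', (hT _ _ _ _).2 h⟩
    rw [← e1] at this
    exact (hT _ _ _ _).1 this
  have a1 : ∀ k, ∀ y ∈ K, ad k y ∈ Net k ∧ y ∈ Cl k (ad k y) := by
    intro k y hy
    induction k with
    | zero =>
      obtain ⟨c, h⟩ := c1 y hy
      have := hp ((Net 0).filter (fun c => y ∈ Cl 0 c)) ⟨c, Finset.mem_filter.2 h⟩
      rw [← e0] at this
      exact Finset.mem_filter.1 this
    | succ k ih => exact ⟨(hstep k y ih.1 ih.2).1, (hstep k y ih.1 ih.2).2.2⟩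
  have a2 : ∀ k, ∀ c ∈ Net k, ∀ y ∈ K, dist y c < θ ^ k / 4 → ad k y = c := fun k c hc y hy h =>
    c4 k c hc _ (a1 k y hy).1 y (a1 k y hy).2 h
  have a3 : ∀ k, ∀ c ∈ Net k, ad k c = c := fun k c hc =>
    a2 k c hc c (n2 k c hc) (by rw [dist_self]; positivity)
  have a4 : ∀ j k, j ≤ k → ∀ y ∈ K, ∀ y' ∈ K, ad k y = ad k y' → ad j y = ad j y' := by
    intro j k hjk y hy y' hy'
    induction k, hjk using Nat.le_induction with
    | base => exact id
    | succ k _ ih =>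
      intro h
      refine ih ?_
      rw [← (hstep k y (a1 k y hy).1 (a1 k y hy).2).2.1,
        ← (hstep k y' (a1 k y' hy').1 (a1 k y' hy').2).2.1, h]
  have a5 : ∀ j k, j ≤ k → ∀ y ∈ K, ad j (ad k y) = ad j y := fun j k hjk y hy =>
    a4 j k hjk _ (n2 k _ (a1 k y hy).1) y hy (a3 k _ (a1 k y hy).1)
  have m1 : ∀ k c, MeasurableSet {y | ad k y = c} := by
    intro k
    induction k with
    | zero =>
      exact cubes_meas (Net 0) (fun c y => y ∈ Cl 0 c) (fun c _ => (c0 0 c).measurableSet)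
        (fun y => (Net 0).filter (fun c => y ∈ Cl 0 c)) (fun y c => Finset.mem_filter) pick
    | succ k ih =>
      refine cubes_meas (Net (k + 1)) (fun c y => par k c = ad k y ∧ y ∈ Cl (k + 1) c)
        (fun c _ => ?_) (fun y => T k (ad k y) y) (fun y c => hT _ _ _ _) pick
      have : {y | par k c = ad k y ∧ y ∈ Cl (k + 1) c} =
          {y | ad k y = par k c} ∩ Cl (k + 1) c := by
        ext y
        exact ⟨fun h => ⟨h.1.symm, h.2⟩, fun h => ⟨h.1.symm, h.2⟩⟩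
      rw [this]
      exact (ih _).inter (c0 _ _).measurableSet
  have mK : MeasurableSet K := (hE.inter isClosed_closedBall).measurableSet
  obtain ⟨N, hN⟩ : ∃ N : ℕ → Finset X, ∀ k c, c ∈ N k ↔ c ∈ Net k ∧ ad 0 c = 0 :=
    ⟨fun k => @Finset.filter _ (fun c => ad 0 c = 0) (fun _ => Classical.propDecidable _) (Net k),
      fun _ _ => @Finset.mem_filter _ _ (fun _ => Classical.propDecidable _) _ _⟩
  refine ⟨⟨{y | y ∈ K ∧ ad 0 y = 0}, N, ad,
    fun y hy => hy.1.1, fun k y hy => ?_, fun k c hc => ?_, fun k c => ?_, fun k y hy => ?_,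
    fun k c hc y hy h => ?_, fun j k hjk y hy => a5 j k hjk y hy.1, ?_⟩⟩
  · refine (hN _ _).2 ⟨(a1 k y hy.1).1, ?_⟩
    rw [a5 0 k (Nat.zero_le k) y hy.1, hy.2]
  · exact ⟨n2 k c ((hN _ _).1 hc).1, ((hN _ _).1 hc).2⟩
  · exact (mK.inter (m1 0 0)).inter (m1 k c)
  · have := c3 k _ y (a1 k y hy.1).2
    have := pow_pos hθ k
    linarith
  · obtain ⟨h1, h2⟩ := (hN _ _).1 hc
    have b1 := c3 0 _ c (a1 0 c (n2 k c h1)).2
    rw [h2, pow_zero] at b1
    have b2 : θ ^ k ≤ 1 := pow_le_one₀ hθ.le (by linarith)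
    have b3 : y ∈ K := ⟨hy, by
      have := dist_triangle y c 0
      rw [mem_closedBall]
      linarith⟩
    have b4 := a2 k c h1 y b3 h
    refine ⟨⟨b3, ?_⟩, b4⟩
    rw [← a5 0 k (Nat.zero_le k) y b3, b4, h2]
  · ext c
    rw [hN, Finset.mem_singleton]
    constructor
    · intro h
      rw [← a3 0 c h.1, h.2]
    · rintro rfl
      exact ⟨n0, a3 0 0 n0⟩

end Vale.Agent.P120
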