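import Mathlib

open MeasureTheory Metric
open scoped ENNReal NNReal

noncomputable section

namespace Vale.Agent.P120

/-- `μ` is `n`-Ahlfors-David regular. -/
def ADRegular {d : ℕ} (n : ℕ) (μ : Measure (EuclideanSpace ℝ (Fin d))) : Prop :=
  ∃ C : ℝ, 1 ≤ C ∧ ∀ x ∈ μ.support, ∀ r : ℝ, 0 < r → ENNReal.ofReal r ≤ Metric.ediam μ.support →
    ENNReal.ofReal (C⁻¹ * r ^ n) ≤ μ (ball x r) ∧ μ (ball x r) ≤ ENNReal.ofReal (C * r ^ n)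

/-- The truncated `n`-dimensional Riesz transform. -/
def rieszTrunc {d : ℕ} (n : ℕ) (μ : Measure (EuclideanSpace ℝ (Fin d))) (ε : ℝ)
    (f : EuclideanSpace ℝ (Fin d) → ℝ) (x : EuclideanSpace ℝ (Fin d)) :
    EuclideanSpace ℝ (Fin d) :=
  ∫ y in {y | ε < ‖x - y‖}, (f y / ‖x - y‖ ^ (n + 1)) • (x - y) ∂μ

/-- The truncated Riesz transforms are uniformly bounded on `L²(μ)`. -/
def RieszBounded {d : ℕ} (n : ℕ) (μ : Measure (EuclideanSpace ℝ (Fin d))) : Prop :=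
  ∃ C : ℝ≥0, ∀ f : EuclideanSpace ℝ (Fin d) → ℝ, MemLp f 2 μ → ∀ ε : ℝ, 0 < ε →
    eLpNorm (rieszTrunc n μ ε f) 2 μ ≤ C * eLpNorm f 2 μ

/-- Uniform rectifiability: big pieces of Lipschitz images. -/
def UnifRect {d : ℕ} (n : ℕ) (μ : Measure (EuclideanSpace ℝ (Fin d))) : Prop :=
  ∃ θ : ℝ, 0 < θ ∧ ∃ M : ℝ≥0, ∀ x ∈ μ.support, ∀ r : ℝ, 0 < r →
    ENNReal.ofReal r ≤ Metric.ediam μ.support →
    ∃ g : EuclideanSpace ℝ (Fin n) → EuclideanSpace ℝ (Fin d),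
      LipschitzOnWith M g (ball 0 r) ∧
      ENNReal.ofReal (θ * r ^ n) ≤ μ (ball x r ∩ g '' ball 0 r)

end Vale.Agent.P120
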