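import Vale.Agent.P120.Form
import Vale.Agent.P120.Stmt

/-!
From the hypotheses of the problem to the working hypotheses for the restricted measure.
-/

open MeasureTheory Metric Set Filter Topology
open scoped RealInnerProductSpace ENNReal NNReal

noncomputable section

namespace Vale.Agent.P120

variable {X : Type} [NormedAddCommGroup X] [InnerProductSpace ℝ X] [FiniteDimensional ℝ X]
  [MeasurableSpace X] [BorelSpace X]
variable {F : Type} [NormedAddCommGroup F] [InnerProductSpace ℝ F] [FiniteDimensional ℝ F]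

/-- Schur test: `|k| ≤ B ε^(-n)` on `|z| ≤ ε` and `|k| ≤ B ε J z` on `|z| > ε` give
`∫ |k(a-b)| dμ(b) ≤ C'` for all `a` (`Up`, `ann_far`), hence the bilinear bound through
`2 |f a| |g b| ≤ t |f a|² + |g b|²/t` (or Cauchy-Schwarz on the product). -/
theorem schur (n : ℕ) {C B : ℝ} (hC : 0 < C) (hB : 0 < B) : ∃ C' : ℝ, 0 < C' ∧
    ∀ μ : Measure X, Up n μ C → ∀ ε : ℝ, 0 < ε → ∀ k : X → X, Measurable k →
    (∀ z, ‖z‖ ≤ ε → ‖k z‖ ≤ B * (ε ^ n)⁻¹) → (∀ z, ε < ‖z‖ → ‖k z‖ ≤ B * ε * J n z) →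
    ∀ (f : X → X) (g : X → ℝ), Continuous f → HasCompactSupport f → Continuous g →
    HasCompactSupport g →
    |∫ p : X × X, g p.2 * ⟪f p.1, k (p.1 - p.2)⟫ ∂(μ.prod μ)| ≤
      C' * √(∫ y, ‖f y‖ ^ 2 ∂μ) * √(∫ y, g y ^ 2 ∂μ) := by
  obtain ⟨Ca, hCa, h1⟩ := ann_far (X := X) n hC
  refine ⟨C * 2 ^ n * B + B * Ca, by positivity, fun μ hU ε hε k hk h2 h3 f g hf hf' hg hg' => ?_⟩
  have := hU.locFin
  obtain ⟨κ, hκ⟩ : ∃ κ : X → ℝ, κ = fun z => (if ‖z‖ < 2 * ε then B * (ε ^ n)⁻¹ else 0) +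
    if ‖z‖ < ε then 0 else B * ε * J n z := ⟨_, rfl⟩
  have h4 : ∀ z, ‖k z‖ ≤ κ z := fun z => by
    have := J_nonneg n z
    rw [hκ]
    rcases le_or_gt ‖z‖ ε with h | h
    · exact (h2 z h).trans (le_add_of_le_of_nonneg (if_pos (by linarith)).ge
        (ite_nonneg le_rfl (by positivity)))
    · exact (h3 z h).trans (le_add_of_nonneg_of_le (ite_nonneg (by positivity) le_rfl)
        (if_neg h.not_gt).ge)
  have h0 : ∀ z, 0 ≤ κ z := fun z => (norm_nonneg _).trans (h4 z)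
  have hm : Measurable κ := by
    rw [hκ]
    exact (Measurable.ite (measurableSet_lt measurable_norm measurable_const) measurable_const
      measurable_const).add (Measurable.ite (measurableSet_lt measurable_norm measurable_const)
      measurable_const ((measurable_J n).const_mul _))
  have hK : ∀ a, Integrable (fun b => κ (a - b)) μ ∧
      ∫ b, κ (a - b) ∂μ ≤ C * 2 ^ n * B + B * Ca := fun a => by
    have h5 : (fun b => κ (a - b)) = fun b => (ball a (2 * ε)).indicator (fun _ => B * (ε ^ n)⁻¹) b +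
        (ball a ε)ᶜ.indicator (fun b => B * ε * J n (a - b)) b := funext fun b => by
      simp only [hκ, indicator, mem_compl_iff, mem_ball_iff_norm', ite_not]
    obtain ⟨h6, h7⟩ := h1 μ hU a ε hε
    have h8 := IntegrableOn.integrable_indicator (h6.const_mul (B * ε)) measurableSet_ball.compl
    rw [h5]
    refine ⟨(form_ind a _ _).add h8, ?_⟩
    rw [integral_add (form_ind a _ _) h8, integral_indicator measurableSet_ball.compl,
      integral_const_mul]
    grw [form_ind_le hU hC a (by positivity) (by positivity), h7]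
    exact le_of_eq (by rw [mul_pow]; field_simp)
  obtain ⟨h5, h6⟩ := form_one (v := fun y => ‖f y‖ ^ 2) hm h0 hK
    (Continuous.integrable_of_hasCompactSupport (by fun_prop)
      (hf'.comp_left (g := fun v => ‖v‖ ^ 2) (by simp))) fun _ => sq_nonneg _
  obtain ⟨h7, h8⟩ := form_one (v := fun y => g y ^ 2) hm h0 hK
    (Continuous.integrable_of_hasCompactSupport (by fun_prop)
      (hg'.comp_left (g := fun v => v ^ 2) (by simp))) fun _ => sq_nonneg _
  rw [← integral_prod_swap] at h8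
  have h9 : ∀ p : X × X, |g p.2 * ⟪f p.1, k (p.1 - p.2)⟫| ≤ |g p.2| * (‖f p.1‖ * κ (p.1 - p.2)) :=
    fun p => by
      rw [abs_mul]
      grw [abs_real_inner_le_norm, h4]
  have h10 : ∀ p : X × X, κ (p.2 - p.1) = κ (p.1 - p.2) := fun p => by
    simp only [hκ, norm_sub_rev p.2, J_sub_comm n p.2]
  refine (ann_cs h5 h7.swap ((h5.add h7.swap).mono' ((hg.measurable.comp measurable_snd).mul
    ((hf.measurable.comp measurable_fst).inner (hk.comp measurable_sub))).aestronglyMeasurable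
    (ae_of_all _ fun p => (h9 p).trans ?_)) fun p => ⟨mul_nonneg (sq_nonneg _) (h0 _),
      mul_nonneg (sq_nonneg _) (h0 _), (sq_le_sq' (abs_le.1 (h9 p)).1 (abs_le.1 (h9 p)).2).trans_eq
        ?_⟩).trans ?_
  · simp only [Pi.add_apply, Function.comp, Prod.fst_swap, Prod.snd_swap, h10 p]
    rw [← sq_abs (g p.2)]
    nlinarith [mul_nonneg (sq_nonneg (|g p.2| - ‖f p.1‖)) (h0 (p.1 - p.2)),
      mul_nonneg (mul_nonneg (abs_nonneg (g p.2)) (norm_nonneg (f p.1))) (h0 (p.1 - p.2))]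
  · simp only [Function.comp, Prod.fst_swap, Prod.snd_swap, h10 p, mul_pow, sq_abs]
    ring
  · refine (mul_le_mul (Real.sqrt_le_sqrt h6) (Real.sqrt_le_sqrt h8) (Real.sqrt_nonneg _)
      (Real.sqrt_nonneg _)).trans_eq ?_
    have h11 : 0 ≤ C * 2 ^ n * B + B * Ca := by positivity
    rw [Real.sqrt_mul h11, Real.sqrt_mul h11]
    linear_combination √(∫ y, ‖f y‖ ^ 2 ∂μ) * √(∫ y, g y ^ 2 ∂μ) * Real.mul_self_sqrt h11

/-- The sharply truncated kernel. -/
def hypS (n : ℕ) (ε : ℝ) (z : X) : X := if ε < ‖z‖ then J n z • z else 0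

theorem hypS_meas (n : ℕ) (ε : ℝ) : Measurable (hypS n ε : X → X) :=
  Measurable.ite (measurableSet_lt measurable_const measurable_norm)
    ((measurable_J n).smul measurable_id) measurable_const

theorem hyp_bd (n : ℕ) {ε s t : ℝ} (hε : 0 < ε) (h1 : ε ≤ s) (h2 : t ≤ s) :
    (s ^ (n + 1))⁻¹ * t ≤ (ε ^ n)⁻¹ := by
  have := hε.trans_le h1
  grw [h2, ← inv_anti₀ (pow_pos hε n) (pow_le_pow_left₀ hε.le h1 n)]
  exact le_of_eq (by field_simp; ring)

theorem hypS_le (n : ℕ) {ε : ℝ} (hε : 0 < ε) (z : X) : ‖hypS n ε z‖ ≤ (ε ^ n)⁻¹ := by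
  rw [hypS]
  split_ifs with h
  · rw [norm_smul, Real.norm_of_nonneg (J_nonneg _ _)]
    exact hyp_bd n hε h.le le_rfl
  · simp [hε.le]

theorem hyp_Ke_le (n : ℕ) {ε : ℝ} (hε : 0 < ε) (z : X) : ‖Ke n ε z‖ ≤ (ε ^ n)⁻¹ := by
  rw [Ke, norm_smul, Real.norm_of_nonneg (by positivity)]
  exact hyp_bd n hε (Real.le_sqrt_of_sq_le (by nlinarith [sq_nonneg ‖z‖]))
    (Real.le_sqrt_of_sq_le (by nlinarith [sq_nonneg ε]))

theorem hyp_diff (n : ℕ) {ε : ℝ} (hε : 0 < ε) (z : X) (h : ε < ‖z‖) :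
    ‖Ke n ε z - hypS n ε z‖ ≤ (n + 1) * ε * J n z := by
  have h0 := hε.trans h
  have h1 : ‖z‖ ≤ √(ε ^ 2 + ‖z‖ ^ 2) := Real.le_sqrt_of_sq_le (by nlinarith [sq_nonneg ε])
  have h2 : √(ε ^ 2 + ‖z‖ ^ 2) ≤ ε + ‖z‖ := Real.sqrt_le_iff.2 ⟨by positivity, by nlinarith⟩
  rw [Ke, hypS, if_pos h, ← sub_smul, norm_smul, J, norm_sub_rev,
    Real.norm_of_nonneg (sub_nonneg.2 (by gcongr))]
  generalize √(ε ^ 2 + ‖z‖ ^ 2) = s at h1 h2
  generalize ‖z‖ = t at h0 h1 h2
  have hs := h0.trans_le h1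
  have h3 := one_add_mul_le_pow (a := t / s - 1) (by linarith [div_pos h0 hs]) (n + 1)
  have h4 : (1 - t / s) * t ≤ ε := by
    rw [one_sub_div hs.ne', div_mul_eq_mul_div, div_le_iff₀ hs]
    exact mul_le_mul (by linarith) h1 h0.le hε.le
  rw [add_sub_cancel, Nat.cast_succ] at h3
  rw [show ((t ^ (n + 1))⁻¹ - (s ^ (n + 1))⁻¹) * t = (1 - (t / s) ^ (n + 1)) * t * (t ^ (n + 1))⁻¹ by
    rw [div_pow]; field_simp]
  refine mul_le_mul_of_nonneg_right ?_ (by positivity)
  nlinarith [mul_le_mul_of_nonneg_left h4 (show (0 : ℝ) ≤ n + 1 by positivity)]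

theorem hyp_int {μ : Measure X} [IsLocallyFiniteMeasure μ] {k f : X → X} {g : X → ℝ} {M : ℝ}
    (hk : Measurable k) (hM : ∀ z, ‖k z‖ ≤ M) (hf : Continuous f) (hf' : HasCompactSupport f)
    (hg : Continuous g) (hg' : HasCompactSupport g) :
    Integrable (fun p : X × X => g p.2 * ⟪f p.1, k (p.1 - p.2)⟫) (μ.prod μ) := by
  refine (((hf.integrable_of_hasCompactSupport hf').norm.mul_const M).mul_prod
    (hg.integrable_of_hasCompactSupport hg').norm).mono' ((hg.measurable.comp measurable_snd).mul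
    ((hf.measurable.comp measurable_fst).inner (hk.comp measurable_sub))).aestronglyMeasurable
    (ae_of_all _ fun p => ?_)
  rw [norm_mul, mul_comm]
  grw [norm_inner_le_norm, hM]

theorem hyp_norm {G : Type} [NormedAddCommGroup G] {μ : Measure X} {f : X → G} (h : MemLp f 2 μ) :
    eLpNorm f 2 μ = ENNReal.ofReal √(∫ y, ‖f y‖ ^ 2 ∂μ) := by
  rw [h.eLpNorm_eq_integral_rpow_norm two_ne_zero ENNReal.ofNat_ne_top, Real.sqrt_eq_rpow]
  simp

theorem hyp_sharp {d n : ℕ} {μ : Measure (EuclideanSpace ℝ (Fin d))} [IsLocallyFiniteMeasure μ]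
    {C : ℝ≥0} {ε : ℝ} (hε : 0 < ε) (h : ∀ f : EuclideanSpace ℝ (Fin d) → ℝ, MemLp f 2 μ →
      eLpNorm (rieszTrunc n μ ε f) 2 μ ≤ C * eLpNorm f 2 μ) {B : Set (EuclideanSpace ℝ (Fin d))}
    (hB : MeasurableSet B) {f : EuclideanSpace ℝ (Fin d) → EuclideanSpace ℝ (Fin d)}
    {g : EuclideanSpace ℝ (Fin d) → ℝ} (hf : Continuous f) (hf' : HasCompactSupport f)
    (hg : Continuous g) (hg' : HasCompactSupport g) :
    |∫ p, g p.2 * ⟪f p.1, hypS n ε (p.1 - p.2)⟫ ∂((μ.restrict B).prod (μ.restrict B))| ≤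
      C * √(∫ y in B, ‖f y‖ ^ 2 ∂μ) * √(∫ y in B, g y ^ 2 ∂μ) := by
  have h1 : rieszTrunc n μ ε (B.indicator g) = fun a => ∫ b in B, g b • hypS n ε (a - b) ∂μ := by
    funext a
    rw [rieszTrunc, ← integral_indicator hB,
      ← integral_indicator (measurableSet_lt measurable_const (by fun_prop))]
    refine integral_congr_ae (ae_of_all _ fun b => ?_)
    by_cases h1 : b ∈ B <;> by_cases h2 : ε < ‖a - b‖ <;>
      simp [indicator, h1, h2, hypS, J, smul_smul, div_eq_mul_inv]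
  have h2 := (hg.memLp_of_hasCompactSupport (p := 2) (μ := μ) hg').indicator hB
  have h3 := h _ h2
  have hm : Measurable fun p : EuclideanSpace ℝ (Fin d) × EuclideanSpace ℝ (Fin d) =>
      g p.2 • hypS n ε (p.1 - p.2) :=
    (hg.measurable.comp measurable_snd).smul ((hypS_meas n ε).comp measurable_sub)
  have h4 : MemLp (rieszTrunc n μ ε (B.indicator g)) 2 μ :=
    ⟨h1 ▸ hm.stronglyMeasurable.integral_prod_right'.aestronglyMeasurable,
      h3.trans_lt (ENNReal.mul_lt_top ENNReal.coe_lt_top h2.2)⟩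
  have h5 := (memLp_two_iff_integrable_sq_norm h4.1).1 h4
  have h6 := hyp_int (μ := μ.restrict B) (hypS_meas n ε) (hypS_le n hε) hf hf' hg hg'
  have h7 : ∀ a, ∫ b in B, g b * ⟪f a, hypS n ε (a - b)⟫ ∂μ =
      ⟪f a, rieszTrunc n μ ε (B.indicator g) a⟫ := fun a => by
    simp only [h1, ← real_inner_smul_right]
    refine integral_inner (((hg.integrable_of_hasCompactSupport hg').norm.mul_const
      (ε ^ n)⁻¹).mono' (hm.comp measurable_prodMk_left).aestronglyMeasurable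
      (ae_of_all _ fun b => ?_)) _
    exact (norm_smul _ _).trans_le (mul_le_mul_of_nonneg_left (hypS_le n hε _) (norm_nonneg _))
  have h8 := h6.integral_prod_left
  rw [hyp_norm h4, hyp_norm h2, ← ENNReal.ofReal_coe_nnreal, ← ENNReal.ofReal_mul C.coe_nonneg,
    ENNReal.ofReal_le_ofReal_iff (by positivity), integral_congr_ae
      (f := fun y => ‖B.indicator g y‖ ^ 2) (g := B.indicator fun y => g y ^ 2) (ae_of_all _
        fun y => by by_cases hy : y ∈ B <;> simp [hy]), integral_indicator hB] at h3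
  rw [integral_prod _ h6]
  simp only [h7] at h8 ⊢
  refine (ann_cs (A := fun y => ‖f y‖ ^ 2) (Continuous.integrable_of_hasCompactSupport
    (by fun_prop) (hf'.comp_left (g := fun v => ‖v‖ ^ 2) (by simp))) h5.integrableOn h8
    fun p => ⟨sq_nonneg _, sq_nonneg _, ?_⟩).trans ?_
  · rw [← mul_pow, ← sq_abs]
    exact pow_le_pow_left₀ (abs_nonneg _) (abs_real_inner_le_norm _ _) 2
  · grw [setIntegral_le_integral h5 (ae_of_all _ fun _ => sq_nonneg _), h3]
    exact le_of_eq (by ring)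

/-- Let `B = ball x r`, `μ0 = μ.restrict B`. Up: if `ρ ≥ r/2` use `μ B`; otherwise, if `ball y ρ`
meets the support of `μ` at `z`, it lies in `ball z (2ρ)` (else its measure is `0`,
`Measure.measure_compl_support`). Low and membership: `Measure.mem_support_restrict` or
`mem_support_iff_forall`. RB: `Ke n ε z = 1_{ε<|z|} |z|^(-n-1) z + k z` with `k` as in `schur`
(for `|z| > ε`: `|z|^(-n-1) - (ε²+|z|²)^(-(n+1)/2) ≤ (n+1) ε |z|^(-n-2)`, from
`√(ε²+|z|²) - |z| ≤ ε` and `a⁻¹^m - b⁻¹^m ≤ m (b-a) a⁻¹^(m+1)`); the sharp part is, by Fubini,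
`∫ ⟪f a, rieszTrunc n μ ε (B.indicator g) a⟫ dμ0(a)`, bounded by Cauchy-Schwarz and the
hypothesis (measurability from `StronglyMeasurable.integral_prod_right`). -/
theorem hyp {d n : ℕ} (hn : 1 ≤ n) (μ : Measure (EuclideanSpace ℝ (Fin d)))
    [IsLocallyFiniteMeasure μ] (hAD : ADRegular n μ) (hR : RieszBounded n μ) :
    ∃ C : ℝ, 0 < C ∧ ∀ x ∈ μ.support, ∀ r : ℝ, 0 < r →
      ENNReal.ofReal r ≤ Metric.ediam μ.support →
      Reg n (μ.restrict (ball x r)) C x (r / 2) ∧ RB n (μ.restrict (ball x r)) C := by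
  obtain ⟨C0, hC0, h1⟩ := hAD
  obtain ⟨C1, h2⟩ := hR
  have h0 : 0 < C0 * 2 ^ n := by positivity
  obtain ⟨C', hC', h3⟩ := schur (X := EuclideanSpace ℝ (Fin d)) n h0
    (show (0 : ℝ) < n + 1 by positivity)
  have h4 : 0 ≤ (C1 : ℝ) := C1.2
  refine ⟨C0 * 2 ^ n + (C' + C1), by positivity, fun x hx r hr hd => ?_⟩
  have hU : Up n (μ.restrict (ball x r)) (C0 * 2 ^ n) := fun y ρ hρ => by
    rw [mul_assoc, ← mul_pow]
    rcases le_total r (2 * ρ) with h | h
    · refine (measure_mono (subset_univ _)).trans ((Measure.restrict_apply_univ _).trans_le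
        ((h1 x hx r hr hd).2.trans (ENNReal.ofReal_le_ofReal ?_)))
      gcongr
    · refine (Measure.restrict_apply_le _ _).trans ?_
      rcases (zero_le (a := μ (ball y ρ))).eq_or_lt with h5 | h5
      · exact h5.ge.trans zero_le
      · obtain ⟨z, h6, h7⟩ := Measure.nonempty_inter_support_of_pos h5
        exact (measure_mono (ball_subset_ball' (by linarith [mem_ball'.1 h6]))).trans
          (h1 z h7 _ (by positivity) ((ENNReal.ofReal_le_ofReal h).trans hd)).2
  refine ⟨⟨hU.mono (by linarith), fun y hy h5 ρ hρ h6 => ?_,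
    Measure.interior_inter_support ⟨by simpa [isOpen_ball.interior_eq] using hr, hx⟩⟩,
    fun ε hε f g hf hf' hg hg' => ?_⟩
  · rw [Measure.restrict_eq_self μ (ball_subset_ball' (by linarith))]
    refine le_trans (ENNReal.ofReal_le_ofReal ?_) (h1 y (Measure.support_mono
      Measure.restrict_le_self hy) ρ hρ ((ENNReal.ofReal_le_ofReal (by linarith)).trans hd)).1
    rw [div_eq_inv_mul]
    gcongr
    nlinarith [one_le_pow₀ (n := n) (one_le_two (α := ℝ))]
  · have hK : Measurable (Ke n ε : EuclideanSpace ℝ (Fin d) → _) := by unfold Ke; fun_prop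
    have h5 := h3 _ hU ε hε (fun z => Ke n ε z - hypS n ε z) (hK.sub (hypS_meas n ε))
      (fun z hz => by
        rw [hypS, if_neg hz.not_gt, sub_zero]
        exact (hyp_Ke_le n hε z).trans (le_mul_of_one_le_left (by positivity) (by simp)))
      (hyp_diff n hε) f g hf hf' hg hg'
    have h6 := hyp_sharp hε (fun f hf => h2 f hf ε hε) (measurableSet_ball (x := x) (ε := r))
      hf hf' hg hg'
    simp only [inner_sub_right, mul_sub] at h5
    rw [integral_sub (hyp_int hK (hyp_Ke_le n hε) hf hf' hg hg')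
      (hyp_int (hypS_meas n ε) (hypS_le n hε) hf hf' hg hg')] at h5
    have h7 := mul_nonneg h0.le (mul_nonneg (Real.sqrt_nonneg (∫ y in ball x r, ‖f y‖ ^ 2 ∂μ))
      (Real.sqrt_nonneg (∫ y in ball x r, g y ^ 2 ∂μ)))
    exact abs_le.2 ⟨by linarith [(abs_le.1 h5).1, (abs_le.1 h6).1],
      by linarith [(abs_le.1 h5).2, (abs_le.1 h6).2]⟩

end Vale.Agent.P120
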