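import Vale.Agent.P120.CubeApi
import Vale.Agent.P120.Carl1

/-!
Most points meet a bounded number of trees.
-/

open MeasureTheory Metric Set Filter Topology
open scoped RealInnerProductSpace ENNReal NNReal

noncomputable section

namespace Vale.Agent.P120

variable {X : Type} [NormedAddCommGroup X] [InnerProductSpace ℝ X] [FiniteDimensional ℝ X]
  [MeasurableSpace X] [BorelSpace X]
variable {F : Type} [NormedAddCommGroup F] [InnerProductSpace ℝ F] [FiniteDimensional ℝ F]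

theorem pack_markov {Y : Type} [MeasurableSpace Y] (μ : Measure Y) (A : ℕ → Set Y)
    (hA : ∀ k, MeasurableSet (A k)) (N : ℕ) {m : ℝ≥0∞}
    (h : ∀ K, ∑ k ∈ Finset.range K, μ (A k) ≤ ((N + 1 : ℕ) : ℝ≥0∞) * m) :
    μ {y | ¬ {k | y ∈ A k}.encard ≤ (N : ℕ∞)} ≤ m := by
  classical
  let f : ℕ → Y → ℝ≥0∞ := fun K y => ∑ k ∈ Finset.range K, (A k).indicator 1 y
  have hm : ∀ k, Measurable ((A k).indicator (1 : Y → ℝ≥0∞)) := fun k =>
    measurable_one.indicator (hA k)
  have h1 : {y | ¬ {k | y ∈ A k}.encard ≤ (N : ℕ∞)} ⊆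
      ⋃ K, {y | ((N + 1 : ℕ) : ℝ≥0∞) ≤ f K y} := by
    intro y hy
    have a1 : ((N + 1 : ℕ) : ℕ∞) ≤ {k | y ∈ A k}.encard := by
      push_cast
      exact Order.add_one_le_of_lt (not_le.1 hy)
    obtain ⟨t, t1, t2⟩ := Set.exists_subset_encard_eq a1
    obtain ⟨t, rfl⟩ := (Set.finite_of_encard_eq_coe t2).exists_finset_coe
    rw [Set.encard_coe_eq_coe_finsetCard, Nat.cast_inj] at t2
    refine mem_iUnion.2 ⟨t.sup id + 1, ?_⟩
    have a2 : t ⊆ Finset.range (t.sup id + 1) := fun k hk =>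
      Finset.mem_range.2 (Nat.lt_succ_of_le (Finset.le_sup (f := id) hk))
    refine le_trans (le_of_eq ?_)
      (Finset.sum_le_sum_of_subset (f := fun k => (A k).indicator (1 : Y → ℝ≥0∞) y) a2)
    rw [Finset.sum_congr rfl fun k hk => indicator_of_mem (show y ∈ A k from t1 hk) _]
    simp [t2]
  have h2 : Monotone fun K => {y | ((N + 1 : ℕ) : ℝ≥0∞) ≤ f K y} := fun K K' hK y hy =>
    le_trans (show ((N + 1 : ℕ) : ℝ≥0∞) ≤ f K y from hy) (Finset.sum_le_sum_of_subset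
      (f := fun k => (A k).indicator (1 : Y → ℝ≥0∞) y) (Finset.range_subset_range.2 hK))
  refine (measure_mono h1).trans ?_
  rw [h2.measure_iUnion]
  refine iSup_le fun K => ?_
  have h3 := mul_meas_ge_le_lintegral (μ := μ) (f := f K)
    (Finset.measurable_sum _ fun k _ => hm k) ((N + 1 : ℕ) : ℝ≥0∞)
  rw [lintegral_finset_sum _ fun k _ => hm k,
    Finset.sum_congr rfl fun k _ => lintegral_indicator_one (hA k)] at h3
  exact (ENNReal.mul_le_mul_iff_right (by simp) (by simp)).1 (h3.trans (h K))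

open Classical in
/-- `top_succ_cases`, `Cubes.measure_pred`, `fib_le` (with `tp_ad`, `turned_ad`) give
`∑_{k<K} μ {y ∈ Z | tp y k = k} ≤ S := C 3^n (1 + 2 C4/ε + C9)`. The set of `y ∈ Z` with more than
`N` tops is the increasing union over `K` of the sets with more than `N` tops below `K`, each of
measure `≤ S/N` (Markov: `N · 1 ≤ ∑_k indicator`, `lintegral_finset_sum`); `μ Z ≥ 4^(-n)/C` by
`fib_ge` at level `0`; subadditivity. -/
theorem pack (n : ℕ) {C θ ε C4 C9 : ℝ} (hC : 0 < C) (hθ : 0 < θ) (hθ1 : θ ≤ 1) (hε : 0 < ε) :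
    ∃ (N : ℕ) (m : ℝ), 0 < m ∧ ∀ (μ : Measure X) (W : ℝ), 3 ≤ W → Reg n μ C 0 W →
    ∀ (Q : Cubes μ.support θ) (V : ℕ → X → Submodule ℝ X) (β : ℕ → X → ℝ), (∀ k c, 0 ≤ β k c) →
    (∀ K : ℕ, ∑ k ∈ Finset.range K, ∑ c ∈ Q.N k, β k c * (θ ^ k) ^ n ≤ C4) →
    (∀ K : ℕ, ∑ k ∈ Finset.range K, ∑ _c ∈ (Q.N k).filter (fun c => Turned Q V β ε k c),
      (θ ^ k) ^ n ≤ C9) →
    ENNReal.ofReal m ≤
      μ {y | y ∈ Q.Z ∧ {k | tp Q V β ε (Q.ad k y) k = k}.encard ≤ (N : ℕ∞)} := by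
  obtain ⟨N, hN⟩ := exists_nat_ge (C * 3 ^ n * (1 + 2 * (C4 / ε) + C9) / (1 / (4 ^ n * C) / 2))
  refine ⟨N, 1 / (4 ^ n * C) / 2, by positivity, fun μ W hW hreg Q V β hβ h4 h9 => ?_⟩
  have hU := hreg.up
  let A : ℕ → Set X := fun k => {y | y ∈ Q.Z ∧ tp Q V β ε (Q.ad k y) k = k}
  let P : ℕ → ℝ := fun k => μ.real {y | y ∈ Q.Z ∧ ε < β k (Q.ad k y)}
  let T : ℕ → ℝ := fun k => μ.real {y | y ∈ Q.Z ∧ Turned Q V β ε k (Q.ad k y)}
  have hP : ∀ K, ∑ k ∈ Finset.range K, P k ≤ C * 3 ^ n * (C4 / ε) := by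
    intro K
    refine le_trans ?_ (mul_le_mul_of_nonneg_left (div_le_div_of_nonneg_right (h4 K) hε.le)
      (by positivity))
    rw [Finset.sum_div, Finset.mul_sum]
    refine Finset.sum_le_sum fun k _ => ?_
    refine (carl1_pred Q hU k (fun c => ε < β k c)).le.trans ?_
    rw [Finset.sum_div, Finset.mul_sum]
    refine Finset.sum_le_sum fun c _ => ?_
    have a1 : (if ε < β k c then 1 else 0 : ℝ) ≤ β k c / ε := by
      split_ifs with a
      · exact (one_le_div hε).2 a.le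
      · exact div_nonneg (hβ k c) hε.le
    refine (mul_le_mul a1 (carl1_fib_le Q hθ hU hC k c) measureReal_nonneg
      (div_nonneg (hβ k c) hε.le)).trans (le_of_eq ?_)
    ring
  have hT : ∀ K, ∑ k ∈ Finset.range K, T k ≤ C * 3 ^ n * C9 := by
    intro K
    refine le_trans ?_ (mul_le_mul_of_nonneg_left (h9 K) (by positivity))
    rw [Finset.mul_sum]
    refine Finset.sum_le_sum fun k _ => ?_
    refine (carl1_pred Q hU k (fun c => Turned Q V β ε k c)).le.trans ?_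
    rw [Finset.sum_filter, Finset.mul_sum]
    refine Finset.sum_le_sum fun c _ => ?_
    split_ifs with a
    · rw [one_mul]
      exact carl1_fib_le Q hθ hU hC k c
    · simp
  have hA : ∀ k, μ.real (A (k + 1)) ≤ P (k + 1) + P k + T k := by
    intro k
    have a1 : A (k + 1) ⊆ ({y | y ∈ Q.Z ∧ ε < β (k + 1) (Q.ad (k + 1) y)} ∪
        {y | y ∈ Q.Z ∧ ε < β k (Q.ad k y)}) ∪
        {y | y ∈ Q.Z ∧ Turned Q V β ε k (Q.ad k y)} := by
      rintro y ⟨hy, h⟩
      rw [tp_ad Q V β ε hy le_rfl] at h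
      rcases top_succ_cases Q V β ε y h with a | a | a
      · exact Or.inl (Or.inl ⟨hy, a⟩)
      · exact Or.inl (Or.inr ⟨hy, a⟩)
      · exact Or.inr ⟨hy, (turned_ad Q V β ε hy le_rfl).2 a⟩
    refine (measureReal_mono a1 (carl1_fin Q hU ?_)).trans ((measureReal_union_le _ _).trans
      (add_le_add (measureReal_union_le _ _) le_rfl))
    exact union_subset (union_subset (fun y hy => hy.1) fun y hy => hy.1) fun y hy => hy.1
  have hS : ∀ K, ∑ k ∈ Finset.range K, μ.real (A k) ≤ C * 3 ^ n * (1 + 2 * (C4 / ε) + C9) := by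
    intro K
    have a1 : ∑ k ∈ Finset.range K, μ.real (A k) ≤ ∑ k ∈ Finset.range (K + 1), μ.real (A k) := by
      rw [Finset.sum_range_succ]
      exact le_add_of_nonneg_right measureReal_nonneg
    rw [Finset.sum_range_succ'] at a1
    have a2 := Finset.sum_le_sum fun k (_ : k ∈ Finset.range K) => hA k
    rw [Finset.sum_add_distrib, Finset.sum_add_distrib] at a2
    have a3 := hP (K + 1)
    rw [Finset.sum_range_succ'] at a3
    have a4 : μ.real (A 0) ≤ C * 3 ^ n := carl1_le Q hU hC fun y hy => hy.1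
    have a5 : 0 ≤ P 0 := measureReal_nonneg
    linarith [hP K, hT K]
  have hm : 0 < 1 / (4 ^ n * C) / 2 := by positivity
  have h1 := pack_markov μ A (fun k => Q.measurable_pred k fun c => tp Q V β ε c k = k) N
    (m := ENNReal.ofReal (1 / (4 ^ n * C) / 2)) fun K => by
      rw [← ENNReal.ofReal_natCast, ← ENNReal.ofReal_mul (Nat.cast_nonneg _),
        ← Finset.sum_congr rfl fun k _ =>
          ofReal_measureReal (carl1_fin Q hU (S := A k) fun y hy => hy.1),
        ← ENNReal.ofReal_sum_of_nonneg fun k _ => measureReal_nonneg]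
      refine ENNReal.ofReal_le_ofReal ((hS K).trans ?_)
      rw [div_le_iff₀ hm] at hN
      push_cast
      linarith
  have h2 := Q.fib_ge hθ hθ1 hreg hW (k := 0) (c := 0) (by
    rw [Q.zero]
    exact Finset.mem_singleton_self 0)
  have h3 : Q.fib 0 0 ⊆
      {y | y ∈ Q.Z ∧ {k | tp Q V β ε (Q.ad k y) k = k}.encard ≤ (N : ℕ∞)} ∪
        {y | ¬ {k | y ∈ A k}.encard ≤ (N : ℕ∞)} := by
    intro y hy
    have a1 : {k | y ∈ A k} = {k | tp Q V β ε (Q.ad k y) k = k} := by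
      ext k
      exact ⟨fun h => h.2, fun h => ⟨hy.1, h⟩⟩
    by_cases h : {k | tp Q V β ε (Q.ad k y) k = k}.encard ≤ (N : ℕ∞)
    · exact Or.inl ⟨hy.1, h⟩
    · exact Or.inr (by rwa [mem_setOf_eq, a1])
  have h5 := h2.trans ((measure_mono h3).trans ((measure_union_le _ _).trans
    (add_le_add le_rfl h1)))
  rw [pow_zero, one_pow, ← add_halves (1 / (4 ^ n * C)), ENNReal.ofReal_add hm.le hm.le,
    add_halves] at h5
  exact (ENNReal.add_le_add_iff_right ENNReal.ofReal_ne_top).1 h5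

end Vale.Agent.P120
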