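import Vale.Agent.P120.Turn1

/-!
Turning lemma, part 2: chord slopes form a martingale along lines.
-/

open MeasureTheory Metric Set Filter Topology
open scoped RealInnerProductSpace ENNReal NNReal

noncomputable section

namespace Vale.Agent.P120

variable {X : Type} [NormedAddCommGroup X] [InnerProductSpace ℝ X] [FiniteDimensional ℝ X]
  [MeasurableSpace X] [BorelSpace X]
variable {F : Type} [NormedAddCommGroup F] [InnerProductSpace ℝ F] [FiniteDimensional ℝ F]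


/-- The weights of the martingale. -/
def turnRho (U : ℕ → Set X) (B : Set X) (m : ℕ) (d : ℕ → X) : ℕ → X → ℝ
  | 0 => B.indicator 1
  | k + 1 => fun q => (m : ℝ)⁻¹ * ∑ i ∈ Finset.range m,
      (U k).indicator (turnRho U B m d k) (q - (i : ℝ) • d (k + 1))

lemma turnRho_mem (U : ℕ → Set X) (B : Set X) {m : ℕ} (hm : 0 < m) (d : ℕ → X) (k : ℕ) :
    ∀ q, 0 ≤ turnRho U B m d k q ∧ turnRho U B m d k q ≤ 1 := by
  induction k with
  | zero => intro q; by_cases h : q ∈ B <;> simp [turnRho, h]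
  | succ k ih =>
    intro q
    have h1 : ∀ y, 0 ≤ (U k).indicator (turnRho U B m d k) y ∧
        (U k).indicator (turnRho U B m d k) y ≤ 1 := fun y => by
      by_cases h : y ∈ U k <;> simp [h, ih y]
    have hm' : (0 : ℝ) < m := by exact_mod_cast hm
    refine ⟨mul_nonneg (by positivity) (Finset.sum_nonneg fun i _ => (h1 _).1), ?_⟩
    rw [turnRho, inv_mul_le_iff₀ hm']
    simpa using Finset.sum_le_card_nsmul (Finset.range m) _ 1 fun i _ => (h1 _).2

lemma turnRho_int {U : ℕ → Set X} (hU : ∀ k, MeasurableSet (U k)) (x : X) (r : ℝ) (m : ℕ)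
    (d : ℕ → X) (k : ℕ) : Integrable (turnRho U (ball x r) m d k) := by
  induction k with
  | zero =>
    exact (integrableOn_ball_of_continuous continuous_const x r).integrable_indicator
      measurableSet_ball
  | succ k ih =>
    exact (integrable_finsetSum _ fun i _ => (ih.indicator (hU k)).comp_sub_right _).const_mul _

lemma Turn2_mart {U : ℕ → Set X} (hU : ∀ k, MeasurableSet (U k)) (x : X) (r : ℝ) {m : ℕ}
    (hm : 0 < m) (d : ℕ → X) {f g : ℕ → X → ℝ} (hf : ∀ k, Measurable (f k))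
    (hf0 : ∀ k q, 0 ≤ f k q) (hfb : ∀ k, ∃ B, ∀ q, f k q ≤ B) (hg : ∀ k, Integrable (g k))
    (hg0 : ∀ k q, 0 ≤ g k q) (K : ℕ) (h : ∀ k < K, ∀ q ∈ U k,
      (m : ℝ)⁻¹ * ∑ i ∈ Finset.range m, f (k + 1) (q + (i : ℝ) • d (k + 1)) ≤ f k q + g k q) :
    (∀ k, Integrable fun q => (U k)ᶜ.indicator (turnRho U (ball x r) m d k) q * f k q) ∧
    ∑ k ∈ Finset.range K, ∫ q, (U k)ᶜ.indicator (turnRho U (ball x r) m d k) q * f k q ≤
      (∫ q, turnRho U (ball x r) m d 0 q * f 0 q) + ∑ k ∈ Finset.range K, ∫ q, g k q := by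
  set ρ := turnRho U (ball x r) m d with hρ
  have hρi : ∀ k, Integrable (ρ k) := turnRho_int hU x r m d
  have hρm := turnRho_mem U (ball x r) hm d
  have hi : ∀ (σ : X → ℝ) (k : ℕ) (u : X), Integrable σ →
      Integrable fun q => σ q * f k (q + u) := by
    intro σ k u hσ
    obtain ⟨B, hB⟩ := hfb k
    exact hσ.mul_bdd (c := B) ((hf k).comp (measurable_add_const u)).aestronglyMeasurable
      (Eventually.of_forall fun q => by rw [Real.norm_of_nonneg (hf0 _ _)]; exact hB _)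
  have hi0 : ∀ (σ : X → ℝ) (k : ℕ), Integrable σ → Integrable fun q => σ q * f k q :=
    fun σ k hσ => by simpa using hi σ k 0 hσ
  refine ⟨fun k => hi0 _ k ((hρi k).indicator (hU k).compl), ?_⟩
  have step : ∀ k < K, (∫ q, ρ (k + 1) q * f (k + 1) q) +
      ∫ q, (U k)ᶜ.indicator (ρ k) q * f k q ≤ (∫ q, ρ k q * f k q) + ∫ q, g k q := by
    intro k hk
    have hσ := (hρi k).indicator (hU k)
    have e1 : ∫ q, ρ (k + 1) q * f (k + 1) q = ∫ q, (m : ℝ)⁻¹ * ∑ i ∈ Finset.range m,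
        (U k).indicator (ρ k) q * f (k + 1) (q + (i : ℝ) • d (k + 1)) := by
      rw [integral_const_mul, integral_finsetSum _ fun i _ => hi _ _ _ hσ]
      have e2 : ∀ i : ℕ, ∫ q, (U k).indicator (ρ k) q * f (k + 1) (q + (i : ℝ) • d (k + 1)) =
          ∫ q, (U k).indicator (ρ k) (q - (i : ℝ) • d (k + 1)) * f (k + 1) q := fun i => by
        rw [← integral_sub_right_eq_self _ ((i : ℝ) • d (k + 1))]
        simp only [sub_add_cancel]
      simp only [e2]
      rw [← integral_finsetSum _ fun i _ => hi0 _ _ (hσ.comp_sub_right _), ← integral_const_mul]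
      refine integral_congr_ae (Eventually.of_forall fun q => ?_)
      simp only [hρ, turnRho]
      rw [mul_assoc, Finset.sum_mul]
    have i1 : Integrable fun q => (m : ℝ)⁻¹ * ∑ i ∈ Finset.range m,
        (U k).indicator (ρ k) q * f (k + 1) (q + (i : ℝ) • d (k + 1)) :=
      (integrable_finsetSum _ fun i _ => hi _ _ _ hσ).const_mul _
    have i2 := hi0 _ k ((hρi k).indicator (hU k).compl)
    rw [e1, ← integral_add i1 i2, ← integral_add (hi0 _ k (hρi k)) (hg k)]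
    refine integral_mono (i1.add i2) ((hi0 _ k (hρi k)).add (hg k)) fun q => ?_
    by_cases hq : q ∈ U k
    · simp only [indicator_of_mem hq, indicator_of_notMem (notMem_compl_iff.2 hq), zero_mul,
        add_zero]
      have h1 := mul_le_mul_of_nonneg_left (h k hk q hq) (hρm k q).1
      have h2 := mul_le_of_le_one_left (hg0 k q) (hρm k q).2
      rw [← Finset.mul_sum, mul_left_comm]
      linarith
    · simp only [indicator_of_notMem hq, indicator_of_mem (mem_compl hq), zero_mul,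
        Finset.sum_const_zero, mul_zero, zero_add]
      linarith [hg0 k q]
  have main : ∀ k ≤ K, (∫ q, ρ k q * f k q) +
      ∑ j ∈ Finset.range k, ∫ q, (U j)ᶜ.indicator (ρ j) q * f j q ≤
      (∫ q, ρ 0 q * f 0 q) + ∑ j ∈ Finset.range k, ∫ q, g j q := by
    intro k
    induction k with
    | zero => simp
    | succ k ih =>
      intro hk
      rw [Finset.sum_range_succ, Finset.sum_range_succ]
      linarith [ih (by omega), step k (by omega)]
  have h0 : 0 ≤ ∫ q, ρ K q * f K q := integral_nonneg fun q => mul_nonneg (hρm K q).1 (hf0 K q)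
  linarith [main K le_rfl]

omit [FiniteDimensional ℝ F] in
lemma Turn2_var {m : ℕ} {x : ℕ → F} {z : F} (hx : ∑ j ∈ Finset.range m, x j = (m : ℝ) • z)
    (w u : F) : ∑ j ∈ Finset.range m, ‖x j - w‖ ^ 2 ≤
      m * ‖z - w‖ ^ 2 + ∑ j ∈ Finset.range m, ‖x j - u‖ ^ 2 := by
  have h : ∀ y : F, ∑ j ∈ Finset.range m, ‖x j - y‖ ^ 2 =
      ∑ j ∈ Finset.range m, ‖x j‖ ^ 2 - 2 * (m * ⟪z, y⟫) + m * ‖y‖ ^ 2 := by
    intro y
    simp only [norm_sub_sq_real, Finset.sum_add_distrib, Finset.sum_sub_distrib,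
      ← Finset.mul_sum, ← sum_inner, hx, real_inner_smul_left, Finset.sum_const,
      Finset.card_range, nsmul_eq_mul]
  have h1 := mul_nonneg (Nat.cast_nonneg (α := ℝ) m) (sq_nonneg ‖z - u‖)
  rw [h w, h u, norm_sub_sq_real]
  rw [norm_sub_sq_real] at h1
  linarith

omit [FiniteDimensional ℝ X] [MeasurableSpace X] [BorelSpace X] [FiniteDimensional ℝ F] in
lemma Turn2_chord {A : X → F} {a : F} {M : X →L[ℝ] F} {q v : X} {δ l x y N : ℝ} (hδ : 0 < δ)
    (hl : l = N * δ) (h1 : ‖A (q + δ • v) - (a + M (q + δ • v))‖ ≤ x * l)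
    (h2 : ‖A q - (a + M q)‖ ≤ y * l) :
    ‖δ⁻¹ • (A (q + δ • v) - A q) - M v‖ ^ 2 ≤ 2 * N ^ 2 * (x ^ 2 + y ^ 2) := by
  have e : δ⁻¹ • (A (q + δ • v) - A q) - M v =
      δ⁻¹ • ((A (q + δ • v) - (a + M (q + δ • v))) - (A q - (a + M q))) := by
    rw [map_add, map_smul]
    have : A (q + δ • v) - (a + (M q + δ • M v)) - (A q - (a + M q)) =
        A (q + δ • v) - A q - δ • M v := by abel
    rw [this, smul_sub δ⁻¹ _ (δ • M v), smul_smul, inv_mul_cancel₀ hδ.ne', one_smul]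
  have h3 : ‖δ⁻¹ • (A (q + δ • v) - A q) - M v‖ ≤ N * (x + y) := by
    rw [e, norm_smul, Real.norm_of_nonneg (inv_pos.2 hδ).le, inv_mul_le_iff₀ hδ]
    refine (norm_sub_le _ _).trans ?_
    rw [hl] at h1 h2
    linarith
  have h4 := pow_le_pow_left₀ (norm_nonneg _) h3 2
  have h5 := mul_nonneg (sq_nonneg N) (sq_nonneg (x - y))
  nlinarith

/-- The alive set. -/
def turnU {ι : Type} (l : ℕ → ℝ) (T Lf : ℕ → Finset ι) (c : ℕ → ι → X) (k : ℕ) : Set X :=
  (⋃ i ∈ T k, ball (c k i) (9 * l k)) \ ⋃ i ∈ Lf k, ball (c k i) (l k / 64)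

lemma turnU_meas {ι : Type} (l : ℕ → ℝ) (T Lf : ℕ → Finset ι) (c : ℕ → ι → X) (k : ℕ) :
    MeasurableSet (turnU l T Lf c k) :=
  (Finset.measurableSet_biUnion _ fun _ _ => measurableSet_ball).diff
    (Finset.measurableSet_biUnion _ fun _ _ => measurableSet_ball)

lemma Turn2_rho_one {ι : Type} {l : ℕ → ℝ} {m : ℕ} (hm : 0 < m) (hl : ∀ k, 0 < l k)
    (hlm : ∀ k, l k = m * l (k + 1)) {T Lf : ℕ → Finset ι} {c : ℕ → ι → X} {i0 : ι}
    (hT : T 0 = {i0}) (anc : ∀ j k, j ≤ k → ∀ i ∈ T k, ∃ i' ∈ T j, dist (c k i) (c j i') ≤ 2 * l j)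
    (hsep : ∀ j k, j ≤ k → ∀ i ∈ Lf j, ∀ i' ∈ Lf k, (j, i) ≠ (k, i') →
      l j / 16 ≤ dist (c j i) (c k i')) {v : X} (hv : ‖v‖ = 1) {k : ℕ} {P : ι} (hP : P ∈ Lf k)
    (hP' : P ∈ T k) (j : ℕ) : j ≤ k → ∀ q, dist q (c k P) < l k / 128 + l j / 128 →
      turnRho (turnU l T Lf c) (ball (c 0 i0) (9 * l 0)) m (fun k => (l k / 128) • v) j q = 1 := by
  have hm' : (1 : ℝ) ≤ m := by exact_mod_cast hm
  have hanti : Antitone l := antitone_nat_of_succ_le fun k => by
    rw [hlm k]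
    exact le_mul_of_one_le_left (hl _).le hm'
  induction j with
  | zero =>
    intro _ q hq
    obtain ⟨i', hi', hd⟩ := anc 0 k k.zero_le P hP'
    rw [hT, Finset.mem_singleton] at hi'
    subst hi'
    have : q ∈ ball (c 0 i') (9 * l 0) := by
      rw [mem_ball]
      linarith [dist_triangle q (c k P) (c 0 i'), hanti k.zero_le, hl 0]
    simp [turnRho, this]
  | succ j ih =>
    intro hj q hq
    have h1 : ∀ i ∈ Finset.range m, (turnU l T Lf c j).indicator
        (turnRho (turnU l T Lf c) (ball (c 0 i0) (9 * l 0)) m (fun k => (l k / 128) • v) j)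
        (q - (i : ℝ) • (l (j + 1) / 128) • v) = 1 := by
      intro i hi
      have hi' : (i : ℝ) + 1 ≤ m := by exact_mod_cast Finset.mem_range.1 hi
      have hlj := hl (j + 1)
      have hd : dist (q - (i : ℝ) • (l (j + 1) / 128) • v) (c k P) < l k / 128 + l j / 128 := by
        have e1 : dist (q - (i : ℝ) • (l (j + 1) / 128) • v) q = i * (l (j + 1) / 128) := by
          rw [dist_eq_norm, sub_sub_cancel_left, norm_neg, norm_smul, norm_smul, hv, mul_one,
            Real.norm_of_nonneg (Nat.cast_nonneg i), Real.norm_of_nonneg (by positivity)]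
        have e2 := mul_le_mul_of_nonneg_right hi' hlj.le
        rw [← hlm j] at e2
        linarith [dist_triangle (q - (i : ℝ) • (l (j + 1) / 128) • v) q (c k P)]
      have hkj := hanti (by omega : j ≤ k)
      rw [indicator_of_mem, ih (by omega) _ hd]
      obtain ⟨i', hi', hd'⟩ := anc j k (by omega) P hP'
      refine ⟨mem_biUnion hi' ?_, fun h => ?_⟩
      · rw [mem_ball]
        linarith [dist_triangle (q - (i : ℝ) • (l (j + 1) / 128) • v) (c k P) (c j i'), hl j]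
      · obtain ⟨i'', hi'', h2⟩ := mem_iUnion₂.1 h
        have h3 := hsep j k (by omega) i'' hi'' P hP fun h => by
          have := (Prod.ext_iff.1 h).1
          simp only at this
          omega
        rw [mem_ball] at h2
        linarith [dist_triangle_left (c j i'') (c k P) (q - (i : ℝ) • (l (j + 1) / 128) • v),
          hl j]
    rw [turnRho]
    simp only
    rw [Finset.sum_congr rfl h1, Finset.sum_const, Finset.card_range, nsmul_eq_mul, mul_one,
      inv_mul_cancel₀ (by linarith)]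

lemma Turn2_main {ι : Type} {l : ℕ → ℝ} {m : ℕ} (hm : 0 < m) (hl : ∀ k, 0 < l k)
    (hlm : ∀ k, l k = m * l (k + 1)) {T Lf : ℕ → Finset ι} {c : ℕ → ι → X} {i0 : ι}
    (hT : T 0 = {i0}) (anc : ∀ j k, j ≤ k → ∀ i ∈ T k, ∃ i' ∈ T j, dist (c k i) (c j i') ≤ 2 * l j)
    (hLf : ∀ k, Lf k ⊆ T k) (hsep : ∀ j k, j ≤ k → ∀ i ∈ Lf j, ∀ i' ∈ Lf k, (j, i) ≠ (k, i') →
      l j / 16 ≤ dist (c j i) (c k i')) {v : X} (hv : ‖v‖ = 1) {K : ℕ} (hK : 0 < K)
    {a : ℕ → ι → F} {M : ℕ → ι → X →L[ℝ] F} {A : X → F} {e : ℕ → X → ℝ} {B : ℝ}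
    (hA : StronglyMeasurable A) (hB : ∀ q, ‖A q‖ ≤ B)
    (he : ∀ k, Integrable fun q => e k q ^ 2)
    (happ : ∀ k, k < K → ∀ i ∈ T k, ∀ q, dist q (c k i) < 10 * l k →
      ‖A q - (a k i + M k i q)‖ ≤ e k q * l k) :
    ∑ k ∈ Finset.range K, ∑ i ∈ Lf k, ‖M k i v - M 0 i0 v‖ ^ 2 *
      (volume : Measure X).real (ball (c k i) (l k / 64)) ≤
      (16 * 128 ^ 2 + 8 * (128 * m) ^ 2) * ∑ k ∈ Finset.range K, ∫ q, e k q ^ 2 := by
  have hm' : (0 : ℝ) < m := by exact_mod_cast hm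
  set d : ℕ → X := fun k => (l k / 128) • v with hd
  set Z : ℕ → X → F := fun k q => (l k / 128)⁻¹ • (A (q + d k) - A q) with hZ
  set f : ℕ → X → ℝ := fun k q => ‖Z k q - M 0 i0 v‖ ^ 2 with hf
  set g : ℕ → X → ℝ := fun k q => (m : ℝ)⁻¹ * ∑ j ∈ Finset.range m, 2 * (128 * m) ^ 2 *
    (e k (q + ((j : ℝ) + 1) • d (k + 1)) ^ 2 + e k (q + (j : ℝ) • d (k + 1)) ^ 2) with hg
  have hE : ∀ k u u', Integrable (fun q => e k (q + u) ^ 2 + e k (q + u') ^ 2) ∧
      ∫ q, (e k (q + u) ^ 2 + e k (q + u') ^ 2) = 2 * ∫ q, e k q ^ 2 := fun k u u' => by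
    refine ⟨((he k).comp_add_right u).add ((he k).comp_add_right u'), ?_⟩
    rw [integral_add ((he k).comp_add_right u) ((he k).comp_add_right u'),
      integral_add_right_eq_self (fun q => e k q ^ 2), integral_add_right_eq_self
      (fun q => e k q ^ 2), two_mul]
  have hnd : ∀ (k : ℕ) (t : ℝ) (q : X), 0 ≤ t → dist (q + t • d k) q = t * (l k / 128) := by
    intro k t q ht
    have := hl k
    rw [dist_eq_norm, add_sub_cancel_left, hd, norm_smul, norm_smul, hv, mul_one,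
      Real.norm_of_nonneg ht, Real.norm_of_nonneg (by positivity)]
  have hZ0 : ∀ k < K, ∀ i ∈ T k, ∀ q, dist q (c k i) < 9 * l k →
      ‖Z k q - M k i v‖ ^ 2 ≤ 2 * 128 ^ 2 * (e k (q + d k) ^ 2 + e k (q + 0) ^ 2) := by
    intro k hk i hi q hq
    have h1 := hnd k 1 q zero_le_one
    rw [one_smul] at h1
    have := hl k
    rw [add_zero]
    exact Turn2_chord (by positivity) (by ring) (happ k hk i hi _ (by
      linarith [dist_triangle (q + d k) q (c k i)])) (happ k hk i hi _ (by linarith))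
  obtain ⟨iD, hmart⟩ := Turn2_mart (turnU_meas l T Lf c) (c 0 i0) (9 * l 0) hm d (f := f) (g := g)
    (fun k => ((((hA.comp_measurable (measurable_add_const _)).sub hA).const_smul _).sub
      stronglyMeasurable_const).norm.measurable.pow_const 2) (fun k q => sq_nonneg _)
    (fun k => ⟨((l k / 128)⁻¹ * (B + B) + ‖M 0 i0 v‖) ^ 2, fun q => by
      have := hl k
      refine pow_le_pow_left₀ (norm_nonneg _) ((norm_sub_le _ _).trans ?_) 2
      rw [hZ, norm_smul, Real.norm_of_nonneg (by positivity)]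
      gcongr
      exact (norm_sub_le _ _).trans (add_le_add (hB _) (hB _))⟩)
    (fun k => (integrable_finsetSum _ fun j _ => (hE k _ _).1.const_mul _).const_mul _)
    (fun k q => mul_nonneg (by positivity) (Finset.sum_nonneg fun j _ => by positivity)) K (by
      intro k hk q hq
      obtain ⟨i, hi, hq1⟩ := mem_iUnion₂.1 hq.1
      rw [mem_ball] at hq1
      have hl1 := hl (k + 1)
      have e1 : ∀ j : ℕ, q + (j : ℝ) • d (k + 1) + d (k + 1) = q + ((j : ℝ) + 1) • d (k + 1) :=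
        fun j => by rw [add_smul, one_smul, add_assoc]
      have hsum : ∑ j ∈ Finset.range m, Z (k + 1) (q + (j : ℝ) • d (k + 1)) =
          (m : ℝ) • Z k q := by
        simp only [hZ, e1]
        have e2 := Finset.sum_range_sub (fun j : ℕ => A (q + (j : ℝ) • d (k + 1))) m
        simp only [Nat.cast_add, Nat.cast_one, Nat.cast_zero, zero_smul, add_zero] at e2
        have e3 : (m : ℝ) • d (k + 1) = d k := by
          simp only [hd]
          rw [smul_smul, hlm k, mul_div_assoc]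
        rw [← Finset.smul_sum, e2, e3, smul_smul, hlm k]
        congr 1
        field_simp
      have h1 := Turn2_var hsum (M 0 i0 v) (M k i v)
      have hin : ∀ t : ℝ, 0 ≤ t → t ≤ m → dist (q + t • d (k + 1)) (c k i) < 10 * l k := by
        intro t ht htm
        have e2 := mul_le_mul_of_nonneg_right htm hl1.le
        rw [← hlm k] at e2
        linarith [dist_triangle (q + t • d (k + 1)) q (c k i), hnd (k + 1) t q ht, hl k]
      have h2 : ∀ j ∈ Finset.range m, ‖Z (k + 1) (q + (j : ℝ) • d (k + 1)) - M k i v‖ ^ 2 ≤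
          2 * (128 * m) ^ 2 * (e k (q + ((j : ℝ) + 1) • d (k + 1)) ^ 2 +
            e k (q + (j : ℝ) • d (k + 1)) ^ 2) := by
        intro j hj
        have hj' : (j : ℝ) + 1 ≤ m := by exact_mod_cast Finset.mem_range.1 hj
        rw [← e1]
        refine Turn2_chord (by positivity) (by rw [hlm k]; ring) (happ k hk i hi _ ?_)
          (happ k hk i hi _ (hin _ (Nat.cast_nonneg j) (by linarith)))
        exact (e1 j).symm ▸ hin _ (by positivity) hj'
      have h3 := mul_le_mul_of_nonneg_left (h1.trans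
        (add_le_add le_rfl (Finset.sum_le_sum h2))) (inv_pos.2 hm').le
      rwa [mul_add, ← mul_assoc, inv_mul_cancel₀ hm'.ne', one_mul] at h3)
  set ρ := turnRho (turnU l T Lf c) (ball (c 0 i0) (9 * l 0)) m d with hρ
  have hE0 : ∀ k, 0 ≤ ∫ q, e k q ^ 2 := fun k => integral_nonneg fun _ => sq_nonneg _
  have hg1 : ∀ k, ∫ q, g k q = 4 * (128 * m) ^ 2 * ∫ q, e k q ^ 2 := fun k => by
    simp only [hg]
    rw [integral_const_mul, integral_finsetSum _ fun j _ => (hE k _ _).1.const_mul _]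
    simp only [integral_const_mul, (hE k _ _).2, Finset.sum_const, Finset.card_range,
      nsmul_eq_mul]
    field_simp
    ring
  have h0 : ∫ q, ρ 0 q * f 0 q ≤ 4 * 128 ^ 2 * ∑ k ∈ Finset.range K, ∫ q, e k q ^ 2 := by
    have h1 := integral_mono_of_nonneg (μ := volume) (f := fun q => ρ 0 q * f 0 q)
      (Eventually.of_forall fun q => mul_nonneg (turnRho_mem _ _ hm d 0 q).1 (sq_nonneg _))
      ((hE 0 (d 0) 0).1.const_mul (2 * 128 ^ 2)) (Eventually.of_forall fun q => by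
        by_cases hq : q ∈ ball (c 0 i0) (9 * l 0)
        · simp only [hρ, turnRho, indicator_of_mem hq, Pi.one_apply, one_mul]
          exact hZ0 0 hK i0 (by simp [hT]) q hq
        · simp only [hρ, turnRho, indicator_of_notMem hq, zero_mul]
          positivity)
    rw [integral_const_mul, (hE 0 _ _).2] at h1
    have h2 := Finset.single_le_sum (fun k _ => hE0 k) (Finset.mem_range.2 hK)
    linarith
  have hleaf : ∀ k ∈ Finset.range K, ∑ i ∈ Lf k, ‖M k i v - M 0 i0 v‖ ^ 2 *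
      (volume : Measure X).real (ball (c k i) (l k / 64)) ≤
      2 * (∫ q, (turnU l T Lf c k)ᶜ.indicator (ρ k) q * f k q) + 8 * 128 ^ 2 * ∫ q, e k q ^ 2 := by
    intro k hk
    have i1 : ∀ i ∈ Lf k, Integrable
        ((ball (c k i) (l k / 64)).indicator fun _ => ‖M k i v - M 0 i0 v‖ ^ 2) := fun i _ =>
      (integrableOn_ball_of_continuous continuous_const _ _).integrable_indicator
        measurableSet_ball
    have h1 := integral_mono (integrable_finsetSum _ i1)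
      (((iD k).const_mul 2).add ((hE k (d k) 0).1.const_mul (4 * 128 ^ 2))) fun q => by
        simp only [Pi.add_apply]
        by_cases hq : ∃ P ∈ Lf k, q ∈ ball (c k P) (l k / 64)
        · obtain ⟨P, hP, hqP⟩ := hq
          rw [Finset.sum_eq_single_of_mem P hP fun i hi hiP => indicator_of_notMem (fun h => by
            have h3 := hsep k k le_rfl i hi P hP (by simpa using hiP)
            rw [mem_ball] at h hqP
            linarith [dist_triangle_left (c k i) (c k P) q, hl k]) _, indicator_of_mem hqP,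
            indicator_of_mem (mem_compl fun h => h.2 (mem_biUnion hP hqP))]
          rw [mem_ball] at hqP
          rw [hρ, Turn2_rho_one hm hl hlm hT anc hsep hv hP (hLf k hP) k le_rfl q (by linarith),
            one_mul]
          have h2 := hZ0 k (Finset.mem_range.1 hk) P (hLf k hP) q (by linarith [hl k])
          have h3 : ‖M k P v - M 0 i0 v‖ ≤ ‖Z k q - M k P v‖ + ‖Z k q - M 0 i0 v‖ := by
            simpa only [dist_eq_norm] using dist_triangle_left (M k P v) (M 0 i0 v) (Z k q)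
          have h4 := pow_le_pow_left₀ (norm_nonneg _) h3 2
          simp only [hf]
          nlinarith [sq_nonneg (‖Z k q - M k P v‖ - ‖Z k q - M 0 i0 v‖)]
        · rw [Finset.sum_eq_zero fun i hi => indicator_of_notMem (fun h => hq ⟨i, hi, h⟩) _]
          have h2 : 0 ≤ (turnU l T Lf c k)ᶜ.indicator (ρ k) q * f k q :=
            mul_nonneg (indicator_nonneg (fun y _ => (turnRho_mem _ _ hm d k y).1) _)
              (sq_nonneg _)
          positivity
    rw [integral_finsetSum _ i1, integral_add' ((iD k).const_mul 2)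
      ((hE k (d k) 0).1.const_mul _), integral_const_mul, integral_const_mul, (hE k _ _).2] at h1
    simp only [integral_indicator_const _ measurableSet_ball, smul_eq_mul] at h1
    simp only [mul_comm (‖M k _ v - M 0 i0 v‖ ^ 2)]
    linarith
  have h1 := Finset.sum_le_sum hleaf
  simp only [hg1, ← Finset.mul_sum] at hmart
  rw [Finset.sum_add_distrib, ← Finset.mul_sum, ← Finset.mul_sum] at h1
  linarith



/-- One direction `v`, `‖v‖ = 1`. `θ = 1/M0`, `s k = ℓk/128`,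
`Xk q = (s k)⁻¹ • (A (q + s k • v) - A q)`, so `Xk q` is the mean of `X(k+1) (q + i s(k+1) v)`,
`i < M0` (telescoping). Alive set `U' k = ⋃ ball (c k i) (9 ℓk) \ ⋃_{leaves} ball (c k i) (ℓk/64)`.
Weights `ρ 0 = indicator (ball (c 0 i0) (9ℓ))`,
`ρ (k+1) q = M0⁻¹ ∑_{i<M0} (ρ k · 1_{U' k}) (q - i s(k+1) v)`: measurable, values in `[0,1]`,
bounded support. `w = M 0 i0 v`, `E k = ∫ ρ k ‖Xk - w‖²`. Translation invariance and the identity
`mean ‖x i - w‖² = ‖mean x - w‖² + mean ‖x i - mean x‖²` give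
`E (k+1) + ∫ ρ k 1_{(U' k)ᶜ} ‖Xk - w‖² = E k + I k`. On `ball (c k i) (9ℓk)`, both `Xk q` and
`X(k+1)(q + i s v)` are within `128 M0 (e k · + e k ·)` of `M k i v`, so `I k, E 0 ≲ ∫ e k²`.
For a leaf `P` of level `k`: `ρ j = 1` on `ball (c k P) (ℓk/64 + s j - s k)` for `j ≤ k`
(induction, `anc`, `hsep`), the killed balls of one level are disjoint, and on them
`‖M k P v - w‖² ≤ 2 ‖Xk - w‖² + 2 ‖Xk - M k P v‖²`. -/
theorem turn_dir (n M0 : ℕ) (hM : 2 ≤ M0) : ∃ C2 : ℝ, 0 < C2 ∧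
    ∀ (Y ι : Type) [NormedAddCommGroup Y] [InnerProductSpace ℝ Y] [FiniteDimensional ℝ Y]
      [MeasurableSpace Y] [BorelSpace Y], Module.finrank ℝ Y = n → ∀ (ℓ : ℝ), 0 < ℓ →
    ∀ (T Lf : ℕ → Finset ι) (c : ℕ → ι → Y) (a : ℕ → ι → F) (M : ℕ → ι → Y →L[ℝ] F)
      (β : ℕ → ι → ℝ) (i0 : ι), TreeData ℓ ((M0 : ℝ)⁻¹) T c a M β → T 0 = {i0} →
    (∀ k, Lf k ⊆ T k) →
    (∀ j k, j ≤ k → ∀ i ∈ Lf j, ∀ i' ∈ Lf k, (j, i) ≠ (k, i') →
      ℓ * ((M0 : ℝ)⁻¹) ^ j / 16 ≤ dist (c j i) (c k i')) → ∀ v : Y, ‖v‖ = 1 → ∀ K : ℕ,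
    ∑ k ∈ Finset.range K, ∑ i ∈ Lf k, ‖M k i v - M 0 i0 v‖ ^ 2 * (ℓ * ((M0 : ℝ)⁻¹) ^ k) ^ n ≤
      C2 * ∑ k ∈ Finset.range K, ∑ i ∈ T k, β k i * (ℓ * ((M0 : ℝ)⁻¹) ^ k) ^ n := by
  have hm : (2 : ℝ) ≤ M0 := by exact_mod_cast hM
  obtain ⟨C1, hC1, hfun⟩ := turn_fun (F := F) n (θ := (M0 : ℝ)⁻¹) (by positivity)
    (by rw [one_div]; exact inv_anti₀ two_pos hm)
  refine ⟨64 ^ n * ((16 * 128 ^ 2 + 8 * (128 * M0) ^ 2) * C1), by positivity, ?_⟩
  intro Y ι _ _ _ _ _ hY ℓ hℓ T Lf c a M β i0 hD hT hLf hsep v hv K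
  rcases K.eq_zero_or_pos with rfl | hK
  · simp
  obtain ⟨A, e, B, hA, hB, -, he, happ, hsum⟩ := hfun Y ι hY ℓ hℓ T c a M β hD K
  have hl : ∀ k : ℕ, 0 < ℓ * ((M0 : ℝ)⁻¹) ^ k := fun k => by positivity
  have h1 := Turn2_main (l := fun k => ℓ * ((M0 : ℝ)⁻¹) ^ k) (by omega : 0 < M0) hl
    (fun k => by rw [pow_succ]; field_simp) hT hD.anc hLf hsep hv hK hA hB he happ
  have hV : 0 < (volume : Measure Y).real (ball 0 1) :=
    ENNReal.toReal_pos (measure_ball_pos _ _ one_pos).ne' measure_ball_lt_top.ne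
  have h2 : ∀ (k : ℕ) (x : Y), (volume : Measure Y).real (ball x (ℓ * ((M0 : ℝ)⁻¹) ^ k / 64)) =
      (ℓ * ((M0 : ℝ)⁻¹) ^ k) ^ n * ((64 ^ n)⁻¹ * (volume : Measure Y).real (ball 0 1)) := by
    intro k x
    have := hl k
    rw [Measure.real, Measure.addHaar_ball_of_pos _ _ (by positivity), ENNReal.toReal_mul,
      ENNReal.toReal_ofReal (by positivity), hY, div_pow, div_eq_mul_inv, mul_assoc]
    rfl
  simp only [h2, ← mul_assoc _ ((ℓ * _) ^ n), ← Finset.sum_mul] at h1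
  have h3 := h1.trans (mul_le_mul_of_nonneg_left hsum (by positivity))
  simp only [← Finset.sum_mul] at h3 ⊢
  refine le_of_mul_le_mul_right (h3.trans (le_of_eq ?_))
    (by positivity : 0 < (64 ^ n)⁻¹ * (volume : Measure Y).real (ball 0 1))
  field_simp


omit [MeasurableSpace X] [BorelSpace X] [FiniteDimensional ℝ F] in
lemma Turn2_op (S : X →L[ℝ] F) : ‖S‖ ^ 2 ≤
    Module.finrank ℝ X * ∑ i, ‖S (stdOrthonormalBasis ℝ X i)‖ ^ 2 := by
  have h1 : ‖S‖ ≤ ∑ i, ‖S (stdOrthonormalBasis ℝ X i)‖ := by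
    refine S.opNorm_le_bound (Finset.sum_nonneg fun _ _ => norm_nonneg _) fun x => ?_
    conv_lhs => rw [← (stdOrthonormalBasis ℝ X).sum_repr' x, map_sum]
    rw [Finset.sum_mul]
    refine (norm_sum_le _ _).trans (Finset.sum_le_sum fun i _ => ?_)
    rw [map_smul, norm_smul, mul_comm]
    refine mul_le_mul_of_nonneg_left ?_ (norm_nonneg _)
    simpa using norm_inner_le_norm (𝕜 := ℝ) (stdOrthonormalBasis ℝ X i) x
  refine (pow_le_pow_left₀ (norm_nonneg _) h1 2).trans ?_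
  simpa using sq_sum_le_card_mul_sum_sq (s := Finset.univ)
    (f := fun i => ‖S (stdOrthonormalBasis ℝ X i)‖)



/-- Sum `turn_dir` over `stdOrthonormalBasis ℝ Y`; `‖S‖² ≤ ∑ ‖S (b i)‖²` (Cauchy-Schwarz). -/
theorem turn (n M0 : ℕ) (hM : 2 ≤ M0) : ∃ C2 : ℝ, 0 < C2 ∧
    ∀ (Y ι : Type) [NormedAddCommGroup Y] [InnerProductSpace ℝ Y] [FiniteDimensional ℝ Y]
      [MeasurableSpace Y] [BorelSpace Y], Module.finrank ℝ Y = n → ∀ (ℓ : ℝ), 0 < ℓ →
    ∀ (T Lf : ℕ → Finset ι) (c : ℕ → ι → Y) (a : ℕ → ι → F) (M : ℕ → ι → Y →L[ℝ] F)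
      (β : ℕ → ι → ℝ) (i0 : ι), TreeData ℓ ((M0 : ℝ)⁻¹) T c a M β → T 0 = {i0} →
    (∀ k, Lf k ⊆ T k) →
    (∀ j k, j ≤ k → ∀ i ∈ Lf j, ∀ i' ∈ Lf k, (j, i) ≠ (k, i') →
      ℓ * ((M0 : ℝ)⁻¹) ^ j / 16 ≤ dist (c j i) (c k i')) → ∀ K : ℕ,
    ∑ k ∈ Finset.range K, ∑ i ∈ Lf k, ‖M k i - M 0 i0‖ ^ 2 * (ℓ * ((M0 : ℝ)⁻¹) ^ k) ^ n ≤
      C2 * ∑ k ∈ Finset.range K, ∑ i ∈ T k, β k i * (ℓ * ((M0 : ℝ)⁻¹) ^ k) ^ n := by
  obtain ⟨C2, hC2, h⟩ := turn_dir (F := F) n M0 hM
  refine ⟨(n ^ 2 + 1) * C2, by positivity, ?_⟩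
  intro Y ι _ _ _ _ _ hY ℓ hℓ T Lf c a M β i0 hD hT hLf hsep K
  have h1 := Finset.sum_le_sum fun j (_ : j ∈ Finset.univ) =>
    h Y ι hY ℓ hℓ T Lf c a M β i0 hD hT hLf hsep (stdOrthonormalBasis ℝ Y j)
      ((stdOrthonormalBasis ℝ Y).orthonormal.1 j) K
  rw [Finset.sum_const, Finset.card_univ, Fintype.card_fin, nsmul_eq_mul] at h1
  have h0 : 0 ≤ ∑ k ∈ Finset.range K, ∑ i ∈ T k, β k i * (ℓ * ((M0 : ℝ)⁻¹) ^ k) ^ n :=
    Finset.sum_nonneg fun k _ => Finset.sum_nonneg fun i _ =>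
      mul_nonneg (hD.nonneg k i) (by positivity)
  have h2 : ∑ k ∈ Finset.range K, ∑ i ∈ Lf k, ‖M k i - M 0 i0‖ ^ 2 * (ℓ * ((M0 : ℝ)⁻¹) ^ k) ^ n ≤
      Module.finrank ℝ Y * ∑ j, ∑ k ∈ Finset.range K, ∑ i ∈ Lf k,
        ‖M k i (stdOrthonormalBasis ℝ Y j) - M 0 i0 (stdOrthonormalBasis ℝ Y j)‖ ^ 2 *
          (ℓ * ((M0 : ℝ)⁻¹) ^ k) ^ n := by
    rw [Finset.sum_comm, Finset.mul_sum]
    refine Finset.sum_le_sum fun k _ => ?_
    rw [Finset.sum_comm, Finset.mul_sum]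
    refine Finset.sum_le_sum fun i _ => ?_
    rw [← Finset.sum_mul, ← mul_assoc]
    exact mul_le_mul_of_nonneg_right (Turn2_op (M k i - M 0 i0)) (by positivity)
  have h3 := h2.trans (mul_le_mul_of_nonneg_left h1 (Nat.cast_nonneg _))
  rw [hY] at h3
  nlinarith [mul_nonneg hC2.le h0]

end Vale.Agent.P120
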