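import Vale.Agent.P120.Tree
import Vale.Agent.P120.Turn2

/-!
Packing of the turned cubes.
-/

open MeasureTheory Metric Set Filter Topology
open scoped RealInnerProductSpace ENNReal NNReal

noncomputable section

namespace Vale.Agent.P120

variable {X : Type} [NormedAddCommGroup X] [InnerProductSpace ℝ X] [FiniteDimensional ℝ X]
  [MeasurableSpace X] [BorelSpace X]
variable {F : Type} [NormedAddCommGroup F] [InnerProductSpace ℝ F] [FiniteDimensional ℝ F]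

section

variable {E : Set X} {θ : ℝ} (Q : Cubes E θ) (V : ℕ → X → Submodule ℝ X) (β : ℕ → X → ℝ) (ε : ℝ)

theorem treeTurn_anc (hθ : 0 < θ) {j k i : ℕ} {c : X} (hc : c ∈ Q.N (j + k))
    (h1 : tp Q V β ε c (j + k) = j) (h2 : β (j + k) c ≤ ε) (hi : i ≤ k) :
    tp Q V β ε (Q.ad (j + i) c) (j + i) = j ∧ β (j + i) (Q.ad (j + i) c) ≤ ε := by
  have hZ := Q.N_sub _ c hc
  constructor
  · rw [tp_ad Q V β ε hZ le_rfl, tp_between Q V β ε c (k := j + k) (by omega) (by omega), h1]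
  · rcases eq_or_lt_of_le hi with rfl | h
    · rwa [Q.ad_self hθ hc]
    · exact (tp_inside Q V β ε c (k := j + k) (by omega) (by omega)).2.1

theorem treeTurn_leaf (hθ : 0 < θ) {j k k' : ℕ} {c c' : X} (hc' : c' ∈ Q.N (j + k'))
    (h1 : tp Q V β ε c' (j + k') = j) (h2 : Turned Q V β ε (j + k) c) (hk : k ≤ k')
    (hne : (k, c) ≠ (k', c')) : Q.ad (j + k) c' ≠ c := by
  have hZ := Q.N_sub _ c' hc'
  intro h
  rcases eq_or_lt_of_le hk with rfl | hlt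
  · rw [Q.ad_self hθ hc'] at h
    exact hne (by rw [h])
  · rw [← h, turned_ad Q V β ε hZ le_rfl] at h2
    have a1 := top_succ_of Q V β ε c' (Or.inr h2)
    rw [tp_between Q V β ε c' (k := j + k') (by omega) (by omega), h1] at a1
    omega

open Classical in
theorem treeTurn_sum (h : ℕ → X → ℝ) (K : ℕ) :
    ∑ k ∈ Finset.range K, ∑ c ∈ Q.N k, h k c =
      ∑ j ∈ Finset.range K, ∑ c0 ∈ Q.N j, ∑ k ∈ Finset.range (K - j),
        ∑ c ∈ (Q.N (j + k)).filter (fun c => tp Q V β ε c (j + k) = j ∧ Q.ad j c = c0),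
          h (j + k) c := by
  have a1 := Finset.sum_range_diag_flip K (fun j k => ∑ c0 ∈ Q.N j,
    ∑ c ∈ (Q.N (j + k)).filter (fun c => tp Q V β ε c (j + k) = j ∧ Q.ad j c = c0), h (j + k) c)
  rw [Finset.sum_congr rfl fun j _ => Finset.sum_comm, ← a1]
  refine Finset.sum_congr rfl fun k _ => ?_
  rw [← Finset.sum_fiberwise_of_maps_to (g := fun c => tp Q V β ε c k) (t := Finset.range (k + 1))
    fun c _ => Finset.mem_range.2 (Nat.lt_succ_of_le (tp_le Q V β ε c k))]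
  refine Finset.sum_congr rfl fun j hj => ?_
  rw [show j + (k - j) = k by have := Finset.mem_range.1 hj; omega,
    ← Finset.sum_fiberwise_of_maps_to (g := Q.ad j) (t := Q.N j)
    fun c hc => Q.ad_mem j c (Q.N_sub _ c (Finset.mem_filter.1 hc).1)]
  refine Finset.sum_congr rfl fun c0 _ => ?_
  rw [Finset.filter_filter]

end

open Classical in
/-- One tree. If `tp c0 j ≠ j` or `ε < β j c0` the left side is empty (`tp_between`, `tp_inside`).
Otherwise apply `turn` with `Y = V j c0`, `ι = X`, `ℓ = θ^j`, `T k` the flat cubes of level `j + k`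
with top `(j, c0)`, `c k i = Pr i`, `(a, M)` from `graph` with `τ = 1/2` (`tree_slope`; use
`choose` on a statement valid for all `(k, i)`), `β' = C6 β`. `close`: `tree_cone` bounds the
distance of the centres by `41 θ^(j+k)`, then `aff_close` with `Λ = 41`. `hsep`: a turned cube is a
leaf (`top_succ_of`), so `Cubes.sep_of_ne` and `tree_cone` apply. `M 0 c0 = 0`, and a turned cube
has `1/4 < ‖M‖`. -/
theorem tree_turn_one {n : ℕ} {C : ℝ} (hC : 0 < C) {M0 : ℕ} (hM : 20 ≤ M0) :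
    ∃ ε0 C8 : ℝ, 0 < ε0 ∧ 0 < C8 ∧ ∀ ε : ℝ, ε ≤ ε0 → ∀ (μ : Measure X) (W : ℝ), 200 ≤ W →
    Reg n μ C 0 W → ∀ (Q : Cubes μ.support ((M0 : ℝ)⁻¹)) (V : ℕ → X → Submodule ℝ X)
    (p : ℕ → X → X) (β : ℕ → X → ℝ), FlatData n μ Q V p β → ∀ j, ∀ c0 ∈ Q.N j, ∀ K : ℕ,
      ∑ k ∈ Finset.range K, ∑ _c ∈ (Q.N (j + k)).filter (fun c => tp Q V β ε c (j + k) = j ∧
          Q.ad j c = c0 ∧ Turned Q V β ε (j + k) c), (((M0 : ℝ)⁻¹) ^ (j + k)) ^ n ≤
        C8 * ∑ k ∈ Finset.range K, ∑ c ∈ (Q.N (j + k)).filter (fun c =>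
          tp Q V β ε c (j + k) = j ∧ Q.ad j c = c0), β (j + k) c * (((M0 : ℝ)⁻¹) ^ (j + k)) ^ n := by
  have hM3 : (20 : ℝ) ≤ M0 := by exact_mod_cast hM
  obtain ⟨C2, hC2, hturn⟩ := turn (F := X) n M0 (by omega)
  obtain ⟨θ, hθe⟩ : ∃ θ : ℝ, θ = (M0 : ℝ)⁻¹ := ⟨_, rfl⟩
  rw [← hθe] at hturn ⊢
  have hθ : 0 < θ := by rw [hθe]; positivity
  have hθ1 : θ ≤ 1 / 20 := by
    rw [hθe, one_div]
    exact inv_anti₀ (by norm_num) hM3
  obtain ⟨ε1, hε1, hsl⟩ := tree_slope (X := X) n hC hθ hθ1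
  obtain ⟨ε2, hε2, hco⟩ := tree_cone (X := X) n hC hθ hθ1
  obtain ⟨ε3, C6, hε3, hC6, haf⟩ := aff_close (X := X) n hC hθ (Λ := 41) (by norm_num)
  refine ⟨min ε1 (min ε2 ε3), 16 * C2 * C6, by positivity, by positivity,
    fun ε hε μ W hW hreg Q V p β hF j c0 hc0 K => ?_⟩
  have e1 : ε ≤ ε1 := hε.trans (min_le_left _ _)
  have e2 : ε ≤ ε2 := hε.trans ((min_le_right _ _).trans (min_le_left _ _))
  have e3 : ε ≤ ε3 := hε.trans ((min_le_right _ _).trans (min_le_right _ _))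
  have hp : ∀ k : ℕ, 0 < θ ^ k := pow_pos hθ
  have hp1 : ∀ k : ℕ, θ ^ k ≤ 1 := fun k => pow_le_one₀ hθ.le (by linarith)
  have hps : ∀ k : ℕ, θ ^ (k + 1) ≤ θ ^ k := fun k =>
    pow_le_pow_of_le_one hθ.le (by linarith) (Nat.le_succ k)
  obtain ⟨T, hT⟩ : ∃ T : ℕ → Finset X, ∀ k c, c ∈ T k ↔ c ∈ Q.N (j + k) ∧
      tp Q V β ε c (j + k) = j ∧ Q.ad j c = c0 ∧ β (j + k) c ≤ ε :=
    ⟨fun k => (Q.N (j + k)).filter (fun c => tp Q V β ε c (j + k) = j ∧ Q.ad j c = c0 ∧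
      β (j + k) c ≤ ε), fun _ _ => Finset.mem_filter⟩
  set Lf : ℕ → Finset X := fun k => (Q.N (j + k)).filter (fun c => tp Q V β ε c (j + k) = j ∧
    Q.ad j c = c0 ∧ Turned Q V β ε (j + k) c) with hLf
  have hL : ∀ k c, c ∈ Lf k → c ∈ Q.N (j + k) ∧ tp Q V β ε c (j + k) = j ∧
      Q.ad j c = c0 ∧ Turned Q V β ε (j + k) c := fun k c h => Finset.mem_filter.1 h
  have hLT : ∀ k, Lf k ⊆ T k := fun k c hc => by
    obtain ⟨a1, a2, a3, a4⟩ := hL k c hc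
    exact (hT k c).2 ⟨a1, a2, a3, by simpa only [Q.ad_self hθ a1] using a4.1⟩
  have hanc : ∀ i k, i ≤ k → ∀ c ∈ T k, Q.ad (j + i) c ∈ T i := fun i k hi c hc => by
    obtain ⟨a1, a2, a3, a4⟩ := (hT k c).1 hc
    have hZ := Q.N_sub _ c a1
    obtain ⟨b1, b2⟩ := treeTurn_anc Q V β ε hθ a1 a2 a4 hi
    exact (hT i _).2 ⟨Q.ad_mem _ c hZ, b1, by rw [Q.nest j (j + i) (by omega) c hZ, a3], b2⟩
  have hR : ∀ k, ∑ c ∈ T k, β (j + k) c * (θ ^ (j + k)) ^ n ≤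
      ∑ c ∈ (Q.N (j + k)).filter (fun c => tp Q V β ε c (j + k) = j ∧ Q.ad j c = c0),
        β (j + k) c * (θ ^ (j + k)) ^ n := fun k =>
    Finset.sum_le_sum_of_subset_of_nonneg (fun c hc => by
      obtain ⟨a1, a2, a3, _⟩ := (hT k c).1 hc
      exact Finset.mem_filter.2 ⟨a1, a2, a3⟩)
      fun c _ _ => mul_nonneg (hF.nonneg _ _) (by positivity)
  refine le_trans ?_ (mul_le_mul_of_nonneg_left (Finset.sum_le_sum fun k _ => hR k)
    (by positivity))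
  show ∑ k ∈ Finset.range K, ∑ _c ∈ Lf k, (θ ^ (j + k)) ^ n ≤ _
  by_cases h0 : c0 ∈ T 0
  swap
  · have a1 : ∀ k, Lf k = ∅ := fun k => Finset.eq_empty_of_forall_notMem fun c hc => h0 (by
      have := hanc 0 k (Nat.zero_le k) c (hLT k hc)
      rwa [add_zero, (hL k c hc).2.2.1] at this)
    simp only [a1, Finset.sum_empty, Finset.sum_const_zero]
    exact mul_nonneg (by positivity) (Finset.sum_nonneg fun k _ => Finset.sum_nonneg fun c _ =>
      mul_nonneg (hF.nonneg _ _) (by positivity))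
  have hgr : ∀ (k : ℕ) (c : X), ∃ (a : X) (M : V j c0 →L[ℝ] X), c ∈ T k → ‖M‖ ≤ 1 / 2 ∧
      (∀ w ∈ V (j + k) c, Nm (V j c0) w = M (Pr (V j c0) w)) ∧
      ∀ y, ‖Nm (V j c0) y - (a + M (Pr (V j c0) y))‖ ≤
        2 * ‖Nm (V (j + k) c) (y - p (j + k) c)‖ := by
    intro k c
    by_cases hc : c ∈ T k
    · obtain ⟨a1, a2, a3, _⟩ := (hT k c).1 hc
      have b1 := hsl ε e1 μ W hW hreg Q V p β hF c (Q.N_sub _ c a1) (j + k)
      rw [a2, a3, Q.ad_self hθ a1] at b1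
      obtain ⟨a, M, m1, m2, -, -, m5⟩ := graph ((hF.rank _ _ hc0).trans (hF.rank _ _ a1).symm)
        (by norm_num) b1 (p (j + k) c)
      exact ⟨a, M, fun _ => ⟨m1, m2, fun y => (m5 y).trans
        (mul_le_mul_of_nonneg_right (by norm_num) (norm_nonneg _))⟩⟩
    · exact ⟨0, 0, fun h => absurd h hc⟩
  choose a M hM using hgr
  have hcone : ∀ k, ∀ c ∈ T k, ∀ k', ∀ c' ∈ T k', dist c c' ≤
      2 * dist (Pr (V j c0) c) (Pr (V j c0) c') + θ ^ (j + k + 1) / 16 := by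
    intro k c hc k' c' hc'
    obtain ⟨a1, a2, a3, a4⟩ := (hT k c).1 hc
    obtain ⟨b1, _, b3, _⟩ := (hT k' c').1 hc'
    have d1 := Q.dist_le j c (Q.N_sub _ c a1)
    have d2 := Q.dist_le j c' (Q.N_sub _ c' b1)
    rw [a3] at d1
    rw [b3] at d2
    have d3 := hco ε e2 μ W hW hreg Q V p β hF c (Q.N_sub _ c a1) (j + k)
      (by rwa [Q.ad_self hθ a1]) c' (Q.Z_sub (Q.N_sub _ c' b1))
      (by rw [a2]; linarith [dist_triangle_right c c' c0, hp j])
    rwa [a2, a3, map_sub, ← dist_eq_norm] at d3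
  have key := hturn (V j c0) X (hF.rank _ _ hc0) (θ ^ j) (hp j) T Lf (fun _ c => Pr (V j c0) c) a M
    (fun k c => C6 * β (j + k) c) c0
    ⟨fun k c => mul_nonneg hC6.le (hF.nonneg _ _), fun i k hi c hc => ⟨_, hanc i k hi c hc, by
      rw [dist_eq_norm, ← map_sub, ← pow_add]
      refine (norm_Pr_le _ _).trans ?_
      rw [← dist_eq_norm]
      exact Q.dist_le _ c (Q.N_sub _ c ((hT k c).1 hc).1)⟩,
    fun i k h1 h2 c hc c' hc' q q1 q2 => by
      rw [← pow_add] at q1 q2 ⊢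
      obtain ⟨a1, _, _, a4⟩ := (hT k c).1 hc
      obtain ⟨b1, -⟩ := (hT i c').1 hc'
      have d1 : θ ^ (j + k) ≤ θ ^ (j + i) :=
        pow_le_pow_of_le_one hθ.le (by linarith) (by omega)
      have d2 : θ * θ ^ (j + i) ≤ θ ^ (j + k) := by
        rw [← pow_succ']
        exact pow_le_pow_of_le_one hθ.le (by linarith) (by omega)
      have d3 := hcone i c' hc' k c hc
      have d4 := dist_triangle_left (Pr (V j c0) c') (Pr (V j c0) c) q
      have d5 := haf μ c' c _ _ (hp (j + i)) d2 d1 hreg.up (hreg.low.mono (by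
          have := Q.norm_le (Q.N_sub _ c' b1)
          rw [dist_zero_right]
          linarith [hp1 (j + i)])) (Q.Z_sub (Q.N_sub _ c a1))
        (by rw [dist_comm]; linarith [hps (j + i), hp (j + i)]) (V j c0) _ _ _ _ _ _
        (hF.rank _ _ hc0) (a4.trans e3) (hF.flat _ _ b1) (hF.flat _ _ a1) _ _ _ _
        ((hM k c hc).1.trans (by norm_num)) (hM i c' hc').2.2 (hM k c hc).2.2 q
        (by linarith [hp (j + i)])
      rw [norm_sub_rev]
      linarith⟩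
    (by
      ext c
      rw [Finset.mem_singleton]
      refine ⟨fun hc => ?_, fun hc => hc ▸ h0⟩
      obtain ⟨a1, _, a3, _⟩ := (hT 0 c).1 hc
      exact (Q.ad_self hθ a1).symm.trans a3) hLT
    (fun i k hi c hc c' hc' hne => by
      obtain ⟨a1, _, _, a4⟩ := hL i c hc
      obtain ⟨b1, b2, -⟩ := hL k c' hc'
      have d1 := Q.sep_of_ne a1 (Q.Z_sub (Q.N_sub _ c' b1))
        (treeTurn_leaf Q V β ε hθ b1 b2 a4 hi hne)
      have d2 := hcone i c (hLT i hc) k c' (hLT k hc')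
      rw [dist_comm] at d1
      rw [← pow_add]
      linarith [hps (j + i), hp (j + i)]) K
  have hM0 : M 0 c0 = 0 := by
    ext v
    have := (hM 0 c0 h0).2.1 v v.2
    rw [geo_Pr_coe, (Nm_eq_zero_iff _ _).2 v.2] at this
    rw [← this, ContinuousLinearMap.zero_apply]
  simp only [hM0, sub_zero, ← pow_add, mul_assoc C6, ← Finset.mul_sum] at key
  have k1 : ∑ k ∈ Finset.range K, ∑ _c ∈ Lf k, (θ ^ (j + k)) ^ n ≤
      16 * ∑ k ∈ Finset.range K, ∑ c ∈ Lf k, ‖M k c‖ ^ 2 * (θ ^ (j + k)) ^ n := by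
    rw [Finset.mul_sum]
    refine Finset.sum_le_sum fun k _ => ?_
    rw [Finset.mul_sum]
    refine Finset.sum_le_sum fun c hc => ?_
    obtain ⟨a1, a2, a3, a4⟩ := hL k c hc
    have b1 : 1 / 4 < ‖M k c‖ := by
      by_contra b
      refine a4.2 ?_
      rw [a2, a3, Q.ad_self hθ a1]
      intro w hw
      rw [(hM k c (hLT k hc)).2.1 w hw]
      exact (M k c).le_of_opNorm_le (not_lt.1 b) _
    have b2 : 1 ≤ 16 * ‖M k c‖ ^ 2 := by nlinarith
    have b3 := mul_le_mul_of_nonneg_right b2 (pow_pos (hp (j + k)) n).le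
    linarith
  linarith

open Classical in
/-- Sum `tree_turn_one` (with `K - j`) over `j < K` and `c0 ∈ N j`; every cube `(k, c)` belongs to
exactly one tree, `j = tp c k`, `c0 = ad j c` (`Finset.sum_fiberwise_of_maps_to`,
`Finset.sum_sigma'`). -/
theorem tree_turn {n : ℕ} {C : ℝ} (hC : 0 < C) {M0 : ℕ} (hM : 20 ≤ M0) :
    ∃ ε0 C8 : ℝ, 0 < ε0 ∧ 0 < C8 ∧ ∀ ε : ℝ, ε ≤ ε0 → ∀ (μ : Measure X) (W : ℝ), 200 ≤ W →
    Reg n μ C 0 W → ∀ (Q : Cubes μ.support ((M0 : ℝ)⁻¹)) (V : ℕ → X → Submodule ℝ X)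
    (p : ℕ → X → X) (β : ℕ → X → ℝ), FlatData n μ Q V p β → ∀ K : ℕ,
      ∑ k ∈ Finset.range K, ∑ _c ∈ (Q.N k).filter (fun c => Turned Q V β ε k c),
          (((M0 : ℝ)⁻¹) ^ k) ^ n ≤
        C8 * ∑ k ∈ Finset.range K, ∑ c ∈ Q.N k, β k c * (((M0 : ℝ)⁻¹) ^ k) ^ n := by
  obtain ⟨ε0, C8, hε0, hC8, h⟩ := tree_turn_one (X := X) (n := n) hC hM
  refine ⟨ε0, C8, hε0, hC8, fun ε hε μ W hW hreg Q V p β hF K => ?_⟩
  rw [Finset.sum_congr rfl fun k _ => Finset.sum_filter _ _, treeTurn_sum Q V β ε,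
    treeTurn_sum Q V β ε (fun k c => β k c * (((M0 : ℝ)⁻¹) ^ k) ^ n), Finset.mul_sum]
  refine Finset.sum_le_sum fun j _ => ?_
  rw [Finset.mul_sum]
  refine Finset.sum_le_sum fun c0 hc0 => ?_
  refine le_trans (le_of_eq ?_) (h ε hε μ W hW hreg Q V p β hF j c0 hc0 (K - j))
  refine Finset.sum_congr rfl fun k _ => ?_
  rw [← Finset.sum_filter, Finset.filter_filter]
  simp only [and_assoc]

end Vale.Agent.P120
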