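import Vale.Agent.P120.Carl2
import Vale.Agent.P120.Cubes
import Vale.Agent.P120.TreeTurn
import Vale.Agent.P120.Pack
import Vale.Agent.P120.Colip
import Vale.Agent.P120.Hyp

/-!
Assembly.
-/

open MeasureTheory Metric Set Filter Topology
open scoped RealInnerProductSpace ENNReal NNReal

noncomputable section

namespace Vale.Agent.P120

variable {X : Type} [NormedAddCommGroup X] [InnerProductSpace ℝ X] [FiniteDimensional ℝ X]
  [MeasurableSpace X] [BorelSpace X]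
variable {F : Type} [NormedAddCommGroup F] [InnerProductSpace ℝ F] [FiniteDimensional ℝ F]

theorem core {n : ℕ} (hn : 1 ≤ n) (hX : n ≤ Module.finrank ℝ X) {C : ℝ} (hC : 0 < C) :
    ∃ W L m : ℝ, 200 ≤ W ∧ 0 < L ∧ 0 < m ∧ ∀ μ : Measure X, Reg n μ C 0 W → RB n μ C →
    μ (closedBall 0 (2 * W))ᶜ = 0 → ∃ (Z : Set X) (u : X → EuclideanSpace ℝ (Fin n)),
      ENNReal.ofReal m ≤ μ Z ∧ (∀ y ∈ Z, ‖u y‖ ≤ 3) ∧
      ∀ y ∈ Z, ∀ y' ∈ Z, dist y y' ≤ L * ‖u y - u y'‖ := by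
  obtain ⟨M, hM, W, C4, hW, hcarl⟩ := carleson hn hX hC
  have hM0 : (20 : ℝ) ≤ M := by exact_mod_cast hM
  have hθ : (0 : ℝ) < (M : ℝ)⁻¹ := by positivity
  have hθ1 : ((M : ℝ)⁻¹) ≤ 1 / 20 := by
    rw [one_div]; exact inv_anti₀ (by norm_num) hM0
  obtain ⟨ε1, c0, hε1, hc0, hc1, hanc⟩ := tree_anchor (X := X) hn hC hθ hθ1
  obtain ⟨ε2, C8, hε2, hC8, hturn⟩ := tree_turn (X := X) (n := n) hC hM
  obtain ⟨N, m, hm, hpack⟩ := pack (X := X) n (C4 := C4) (C9 := C8 * C4) hC hθ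
    (hθ1.trans (by norm_num)) (lt_min hε1 hε2)
  obtain ⟨L, hL, hcol⟩ := colip (X := X) (F := EuclideanSpace ℝ (Fin n)) hc0 hc1 N
  refine ⟨W, L, m, hW, hL, hm, fun μ hreg hRB hμ => ?_⟩
  obtain ⟨Q⟩ := exists_cubes (Measure.isClosed_support (μ := μ)) hreg.mem hθ hθ1
  obtain ⟨V, p, β, hF, hsum⟩ := hcarl μ hreg hRB hμ Q
  obtain ⟨u, hu1, hu2⟩ := hcol _ _ hθ hθ1 Q (fun k c => tp Q V β (min ε1 ε2) c k = k) rfl
    (hanc _ (min_le_left _ _) μ W hW hreg Q V p β hF)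
  refine ⟨_, u, hpack μ W (le_trans (by norm_num) hW) hreg Q V β hF.nonneg hsum (fun K => ?_),
    fun y hy => hu1 y hy.1, fun y hy y' hy' => hu2 y hy.1 y' hy'.1 hy.2 hy'.2⟩
  exact (hturn _ (min_le_right _ _) μ W hW hreg Q V p β hF K).trans
    (mul_le_mul_of_nonneg_left (hsum K) hC8.le)

end Vale.Agent.P120
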