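import Vale.Agent.P120.Ann

/-!
Elementary consequences of the cube axioms and of the definition of `tp`.
-/

open MeasureTheory Metric Set Filter Topology
open scoped RealInnerProductSpace ENNReal NNReal

noncomputable section

namespace Vale.Agent.P120

variable {X : Type} [NormedAddCommGroup X] [InnerProductSpace ℝ X] [FiniteDimensional ℝ X]
  [MeasurableSpace X] [BorelSpace X]
variable {F : Type} [NormedAddCommGroup F] [InnerProductSpace ℝ F] [FiniteDimensional ℝ F]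

section
variable {E : Set X} {θ : ℝ} (Q : Cubes E θ)

theorem Cubes.ad_self (hθ : 0 < θ) {k : ℕ} {c : X} (hc : c ∈ Q.N k) : Q.ad k c = c :=
  (Q.inner k c hc c (Q.Z_sub (Q.N_sub k c hc)) (by rw [dist_self]; positivity)).2

theorem Cubes.ad_mem_Z (k : ℕ) {y : X} (hy : y ∈ Q.Z) : Q.ad k y ∈ Q.Z :=
  Q.N_sub k _ (Q.ad_mem k y hy)

theorem Cubes.ad_zero {y : X} (hy : y ∈ Q.Z) : Q.ad 0 y = 0 := by
  have h := Q.ad_mem 0 y hy
  rwa [Q.zero, Finset.mem_singleton] at h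

theorem Cubes.norm_le {y : X} (hy : y ∈ Q.Z) : ‖y‖ ≤ 2 := by
  have h := Q.dist_le 0 y hy
  rwa [Q.ad_zero hy, dist_zero_right, pow_zero, mul_one] at h

theorem Cubes.ad_congr {j k : ℕ} (hjk : j ≤ k) {y y' : X} (hy : y ∈ Q.Z) (hy' : y' ∈ Q.Z)
    (h : Q.ad k y = Q.ad k y') : Q.ad j y = Q.ad j y' := by
  rw [← Q.nest j k hjk y hy, ← Q.nest j k hjk y' hy', h]

theorem Cubes.sep_of_ne {k : ℕ} {c : X} (hc : c ∈ Q.N k) {y : X} (hy : y ∈ E)
    (h : Q.ad k y ≠ c) : θ ^ k / 4 ≤ dist y c := by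
  by_contra hlt
  exact h (Q.inner k c hc y hy (not_le.1 hlt)).2

theorem Cubes.sep (hθ : 0 < θ) {k : ℕ} {c c' : X} (hc : c ∈ Q.N k) (hc' : c' ∈ Q.N k)
    (h : c ≠ c') : θ ^ k / 4 ≤ dist c c' :=
  Q.sep_of_ne hc' (Q.Z_sub (Q.N_sub k c hc)) (by rw [Q.ad_self hθ hc]; exact h)

theorem Cubes.measurable_Z : MeasurableSet Q.Z := by
  have h : Q.Z = {y | y ∈ Q.Z ∧ Q.ad 0 y = 0} :=
    Set.ext fun y => ⟨fun hy => ⟨hy, Q.ad_zero hy⟩, fun hy => hy.1⟩
  rw [h]; exact Q.meas 0 0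

open Classical in
theorem Cubes.pred_eq (k : ℕ) (P : X → Prop) :
    {y | y ∈ Q.Z ∧ P (Q.ad k y)} = ⋃ c ∈ (Q.N k).filter P, Q.fib k c := by
  ext y
  simp only [mem_ofPred_eq, mem_iUnion, Finset.mem_filter, Cubes.fib, exists_prop]
  constructor
  · rintro ⟨hy, hP⟩
    exact ⟨_, ⟨Q.ad_mem k y hy, hP⟩, hy, rfl⟩
  · rintro ⟨c, ⟨_, hP⟩, hy, rfl⟩
    exact ⟨hy, hP⟩

theorem Cubes.measurable_pred (k : ℕ) (P : X → Prop) :
    MeasurableSet {y | y ∈ Q.Z ∧ P (Q.ad k y)} := by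
  rw [Q.pred_eq k P]
  exact Finset.measurableSet_biUnion _ fun c _ => Q.meas k c

open Classical in
theorem Cubes.measure_pred (μ : Measure X) (k : ℕ) (P : X → Prop) :
    μ {y | y ∈ Q.Z ∧ P (Q.ad k y)} = ∑ c ∈ (Q.N k).filter P, μ (Q.fib k c) := by
  rw [Q.pred_eq k P]
  refine measure_biUnion_finset ?_ fun c _ => Q.meas k c
  intro c _ c' _ hcc
  refine Set.disjoint_left.2 fun y hy hy' => hcc ?_
  exact hy.2.symm.trans hy'.2

theorem Cubes.fib_sub (hθ : 0 < θ) (k : ℕ) (c : X) : Q.fib k c ⊆ ball c (3 * θ ^ k) := by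
  rintro y ⟨hy, rfl⟩
  have h := Q.dist_le k y hy
  have h2 : 0 < θ ^ k := pow_pos hθ k
  rw [mem_ball]; linarith

variable (V : ℕ → X → Submodule ℝ X) (β : ℕ → X → ℝ) (ε : ℝ)

theorem tp_succ (y : X) (k : ℕ) :
    tp Q V β ε y (k + 1) = tp Q V β ε y k ∨ tp Q V β ε y (k + 1) = k + 1 := by
  rw [tp]; split_ifs
  · exact Or.inl rfl
  · exact Or.inr rfl

theorem tp_le (y : X) (k : ℕ) : tp Q V β ε y k ≤ k := by
  induction k with
  | zero => rw [tp]
  | succ k ih => rcases tp_succ Q V β ε y k with h | h <;> omega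

theorem tp_congr {k : ℕ} {y y' : X} (hy : y ∈ Q.Z) (hy' : y' ∈ Q.Z)
    (h : Q.ad k y = Q.ad k y') {i : ℕ} (hi : i ≤ k) : tp Q V β ε y i = tp Q V β ε y' i := by
  induction i with
  | zero => rw [tp, tp]
  | succ i ih =>
    have h1 := ih (by omega)
    have h2 : Q.ad (i + 1) y = Q.ad (i + 1) y' := Q.ad_congr hi hy hy' h
    have h3 : Q.ad i y = Q.ad i y' := Q.ad_congr (by omega) hy hy' h
    have h4 : Q.ad (tp Q V β ε y' i) y = Q.ad (tp Q V β ε y' i) y' :=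
      Q.ad_congr ((tp_le Q V β ε y' i).trans (by omega)) hy hy' h
    rw [tp, tp, h1, h2, h3, h4]

theorem tp_ad {k : ℕ} {y : X} (hy : y ∈ Q.Z) {i : ℕ} (hi : i ≤ k) :
    tp Q V β ε (Q.ad k y) i = tp Q V β ε y i :=
  tp_congr Q V β ε (Q.ad_mem_Z k hy) hy (Q.nest k k le_rfl y hy) hi

theorem turned_ad {k : ℕ} {y : X} (hy : y ∈ Q.Z) {i : ℕ} (hi : i ≤ k) :
    Turned Q V β ε i (Q.ad k y) ↔ Turned Q V β ε i y := by
  unfold Turned
  rw [tp_ad Q V β ε hy hi, Q.nest i k hi y hy,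
    Q.nest _ k ((tp_le Q V β ε y i).trans hi) y hy]

/-- Between the top and level `k` the top does not change. -/
theorem tp_between (y : X) {k i : ℕ} (h1 : tp Q V β ε y k ≤ i) (h2 : i ≤ k) :
    tp Q V β ε y i = tp Q V β ε y k := by
  induction k with
  | zero => obtain rfl : i = 0 := by omega
            rfl
  | succ k ih =>
    rcases Nat.eq_or_lt_of_le h2 with rfl | hlt
    · rfl
    · rcases tp_succ Q V β ε y k with h | h
      · rw [h] at h1 ⊢
        exact ih h1 (by omega)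
      · omega

/-- Inside a tree, all cubes strictly above level `k` are flat and not turned, and their children
are flat. -/
theorem tp_inside (y : X) {k i : ℕ} (h1 : tp Q V β ε y k ≤ i) (h2 : i < k) :
    β (i + 1) (Q.ad (i + 1) y) ≤ ε ∧ β i (Q.ad i y) ≤ ε ∧
      Cone (V (tp Q V β ε y k) (Q.ad (tp Q V β ε y k) y)) (1 / 4) (V i (Q.ad i y)) := by
  have e1 := tp_between Q V β ε y h1 h2.le
  have e2 := tp_between Q V β ε y (i := i + 1) (by omega) h2
  by_contra hc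
  rw [← e1] at hc
  rw [tp, if_neg hc] at e2
  omega

/-- No new top in `(j, k]` means that the top stays `j`. -/
theorem tp_eq_of_no_top (y : X) {j k : ℕ} (hj : tp Q V β ε y j = j) (hjk : j ≤ k)
    (h : ∀ i, j < i → i ≤ k → tp Q V β ε y i ≠ i) : tp Q V β ε y k = j := by
  induction k with
  | zero => obtain rfl : j = 0 := by omega
            exact hj
  | succ k ih =>
    rcases Nat.eq_or_lt_of_le hjk with rfl | hlt
    · exact hj
    · rcases tp_succ Q V β ε y k with h' | h'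
      · rw [h']
        exact ih (by omega) fun i hi hik => h i hi (by omega)
      · exact absurd h' (h _ hlt le_rfl)

theorem top_succ_cases (y : X) {k : ℕ} (h : tp Q V β ε y (k + 1) = k + 1) :
    ε < β (k + 1) (Q.ad (k + 1) y) ∨ ε < β k (Q.ad k y) ∨ Turned Q V β ε k y := by
  by_contra hc
  simp only [not_or, not_lt, Turned, not_and, not_not] at hc
  rw [tp, if_pos ⟨hc.1, hc.2.1, hc.2.2 hc.2.1⟩] at h
  have := tp_le Q V β ε y k
  omega

theorem top_succ_of (y : X) {k : ℕ} (h : ε < β k (Q.ad k y) ∨ Turned Q V β ε k y) :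
    tp Q V β ε y (k + 1) = k + 1 := by
  rw [tp, if_neg]
  rintro ⟨_, h2, h3⟩
  rcases h with h | h
  · linarith
  · exact h.2 h3

end

theorem Cubes.fib_le {n : ℕ} {μ : Measure X} {C θ : ℝ} (Q : Cubes μ.support θ) (hθ : 0 < θ)
    (hU : Up n μ C) (k : ℕ) (c : X) :
    μ (Q.fib k c) ≤ ENNReal.ofReal (C * 3 ^ n * (θ ^ k) ^ n) := by
  refine (measure_mono (Q.fib_sub hθ k c)).trans ?_
  have h := hU c (3 * θ ^ k) (by positivity)
  rwa [mul_pow, ← mul_assoc] at h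

theorem Cubes.fib_ge {n : ℕ} {μ : Measure X} {C θ W : ℝ} (Q : Cubes μ.support θ) (hθ : 0 < θ)
    (hθ1 : θ ≤ 1) (hreg : Reg n μ C 0 W) (hW : 3 ≤ W) {k : ℕ} {c : X} (hc : c ∈ Q.N k) :
    ENNReal.ofReal ((θ ^ k) ^ n / (4 ^ n * C)) ≤ μ (Q.fib k c) := by
  have hcZ := Q.N_sub k c hc
  have hk : θ ^ k ≤ 1 := pow_le_one₀ hθ.le hθ1
  have hk0 : 0 < θ ^ k := pow_pos hθ k
  have h := hreg.low c (Q.Z_sub hcZ)
    (by rw [dist_zero_right]; linarith [Q.norm_le hcZ]) (θ ^ k / 4) (by positivity) (by linarith)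
  rw [div_pow, div_div] at h
  refine h.trans (measure_mono_ae ?_)
  filter_upwards [Measure.support_mem_ae (μ := μ)] with y hy hyb
  exact Q.inner k c hc y hy hyb

/-- The number of cubes of level `k` is comparable to `θ^(-kn)`. -/
theorem Cubes.card_le {n : ℕ} {μ : Measure X} {C θ W : ℝ} (Q : Cubes μ.support θ) (hθ : 0 < θ)
    (hθ1 : θ ≤ 1) (hC : 0 < C) (hreg : Reg n μ C 0 W) (hW : 3 ≤ W) (k : ℕ) :
    ((Q.N k).card : ℝ) * (θ ^ k) ^ n ≤ 12 ^ n * C ^ 2 := by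
  classical
  have h1 := Q.measure_pred μ k (fun _ => True)
  have h2 : μ {y | y ∈ Q.Z ∧ True} ≤ ENNReal.ofReal (C * 3 ^ n) := by
    refine le_trans (measure_mono ?_) (hreg.up 0 3 (by norm_num))
    intro y hy
    rw [mem_ball, dist_zero_right]
    linarith [Q.norm_le hy.1]
  have hx : 0 ≤ (θ ^ k) ^ n / (4 ^ n * C) := by positivity
  have h3 : ∑ _c ∈ Q.N k, ENNReal.ofReal ((θ ^ k) ^ n / (4 ^ n * C)) ≤
      ENNReal.ofReal (C * 3 ^ n) := by
    refine le_trans ?_ h2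
    rw [h1]
    refine le_trans (Finset.sum_le_sum fun c hc => Q.fib_ge hθ hθ1 hreg hW hc) ?_
    exact Finset.sum_le_sum_of_subset fun c hc => by simp only [Finset.mem_filter]; exact ⟨hc, trivial⟩
  rw [← ENNReal.ofReal_sum_of_nonneg fun _ _ => hx, ENNReal.ofReal_le_ofReal_iff (by positivity),
    Finset.sum_const, nsmul_eq_mul, ← mul_div_assoc, div_le_iff₀ (by positivity)] at h3
  have e : (12 : ℝ) ^ n = 3 ^ n * 4 ^ n := by rw [← mul_pow]; norm_num
  rw [e]; nlinarith [h3]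

end Vale.Agent.P120
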