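import Vale.Agent.P120.Touch
import Vale.Agent.P120.ND

/-!
In dimension `n` a reflectionless `n`-regular measure has full support and a bounded density.
-/

open MeasureTheory Metric Set Filter Topology
open scoped RealInnerProductSpace ENNReal NNReal

noncomputable section

namespace Vale.Agent.P120

variable {X : Type} [NormedAddCommGroup X] [InnerProductSpace ℝ X] [FiniteDimensional ℝ X]
  [MeasurableSpace X] [BorelSpace X]
variable {F : Type} [NormedAddCommGroup F] [InnerProductSpace ℝ F] [FiniteDimensional ℝ F]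

/-- If `z` is not in the support, `touch_out` gives `x0`, `e`; apply `nd0` (with `F = ℝ`,
`T = innerSL ℝ e`, `a = -⟪e, x0⟫`, `q = x0 + ρ • e`) to `σ.restrict (ball x0 ρ)` to get
`ρ^(n+2) ≤ C' ε ρ^(n+2)`, false for small `ε`. -/
theorem full_support {n : ℕ} (hX : Module.finrank ℝ X = n) {σ : Measure X} {C : ℝ} (hC : 0 < C)
    (hreg : ∀ W, Reg n σ C 0 W) (hR : Ref n σ) (y : X) : y ∈ σ.support := by
  by_contra hy
  obtain ⟨x0, hx0, -, hne, h⟩ := touch_out hC hreg hR hy
  obtain ⟨κ, C', hκ, -, hC', H⟩ := nd0 (F := ℝ) n (c := C⁻¹) (C := C) (by positivity) hC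
  obtain ⟨ρ, hρ, h⟩ := h (2 * C')⁻¹ (by positivity)
  have h := h ρ hρ le_rfl
  have hU := (hreg 0).up
  have := hU.locFin
  have hn : ‖x0 - y‖ ≠ 0 := norm_ne_zero_iff.2 (sub_ne_zero.2 hne)
  obtain ⟨e, he, he1⟩ : ∃ e : X, e = ‖x0 - y‖⁻¹ • (x0 - y) ∧ ‖e‖ = 1 :=
    ⟨_, rfl, by rw [norm_smul, norm_inv, norm_norm, inv_mul_cancel₀ hn]⟩
  rw [← he] at h
  have : IsFiniteMeasure (σ.restrict (ball x0 ρ)) :=
    isFiniteMeasure_restrict.2 measure_ball_lt_top.ne
  have h1 := H X hX (σ.restrict (ball x0 ρ)) x0 ρ hρ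
    (by rw [Measure.restrict_apply measurableSet_ball.compl, compl_inter_self, measure_empty])
    (by
      rw [Measure.restrict_apply_univ, inv_mul_eq_div]
      exact (hreg (dist x0 0 + ρ)).low x0 hx0 (by linarith) ρ hρ
        (by linarith [dist_nonneg (x := x0) (y := 0)]))
    (fun q => (Measure.restrict_apply_le _ _).trans (hU q _ (by positivity)))
    (-⟪e, x0⟫) (innerSL ℝ e) (x0 + ρ • e)
    (by rw [dist_self_add_left, norm_smul, he1, Real.norm_of_nonneg hρ.le, mul_one])
  have h2 : ∀ z : X, ‖-⟪e, x0⟫ + innerSL ℝ e z‖ ^ 2 = ⟪e, z - x0⟫ ^ 2 := fun z => by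
    rw [Real.norm_eq_abs, sq_abs, innerSL_apply_apply, inner_sub_right]
    ring
  simp only [h2] at h1
  rw [add_sub_cancel_left, real_inner_smul_right, real_inner_self_eq_norm_sq, he1] at h1
  have h3 := mul_le_mul_of_nonneg_left h hC'.le
  have h4 : C' * ((2 * C')⁻¹ * ρ ^ (n + 2)) = ρ ^ 2 * ρ ^ n / 2 := by
    field_simp
    ring
  have h5 : 0 < ρ ^ 2 * ρ ^ n := by positivity
  rw [one_pow, mul_one] at h1
  linarith

/-- Comparison of measures from the comparison of small closed balls. -/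
theorem dens_le {μ ν : Measure X} [IsLocallyFiniteMeasure μ] [IsLocallyFiniteMeasure ν]
    (h : ∀ (y : X) (ρ : ℝ), 0 < ρ → μ (closedBall y ρ) ≤ ν (closedBall y ρ)) (s : Set X) :
    μ s ≤ ν s := by
  refine (Besicovitch.vitaliFamily μ).measure_le_of_frequently_le ν
    Measure.AbsolutelyContinuous.rfl s fun x _ => ?_
  refine (Besicovitch.tendsto_filterAt μ x).frequently (Eventually.frequently ?_)
  filter_upwards [self_mem_nhdsWithin] with r hr using h x r hr

/-- Two-sided comparison of the measures of all balls with Lebesgue measure. Absolute continuity: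
cover a null set by balls (`Besicovitch.exists_closedBall_covering_tsum_measure_le` for `volume`),
or use `VitaliFamily.measure_le_of_frequently_le` for the Besicovitch family of `σ + volume`.
Then `Besicovitch.ae_tendsto_rnDeriv σ volume` bounds `rnDeriv` above and below almost everywhere;
take `θ = max c (min C' (rnDeriv).toReal)` and `withDensity_rnDeriv_eq`. -/
theorem exists_density {n : ℕ} (hX : Module.finrank ℝ X = n) {σ : Measure X} {C : ℝ} (hC : 0 < C)
    (hreg : ∀ W, Reg n σ C 0 W) (hs : ∀ y, y ∈ σ.support) :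
    ∃ (θ : X → ℝ) (c C' : ℝ), Measurable θ ∧ 0 < c ∧ (∀ y, c ≤ θ y ∧ θ y ≤ C') ∧
      σ = (volume : Measure X).withDensity (fun y => ENNReal.ofReal (θ y)) := by
  have hU := (hreg 0).up
  have := hU.locFin
  obtain ⟨ω, hω, hω1⟩ : ∃ ω : ℝ, 0 < ω ∧ (volume : Measure X) (ball 0 1) = ENNReal.ofReal ω :=
    ⟨_, ENNReal.toReal_pos (measure_ball_pos volume (0 : X) one_pos).ne' measure_ball_lt_top.ne,
      (ENNReal.ofReal_toReal measure_ball_lt_top.ne).symm⟩
  have hv : ∀ (k : ℝ≥0) (y : X) (ρ : ℝ), 0 < ρ →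
      (k • (volume : Measure X)) (closedBall y ρ) = ENNReal.ofReal (k * (ρ ^ n * ω)) :=
    fun k y ρ hρ => by
      rw [Measure.coe_nnreal_smul_apply, Measure.addHaar_closedBall _ _ hρ.le, hX, hω1,
        ENNReal.ofReal_mul k.coe_nonneg, ENNReal.ofReal_mul (by positivity), ENNReal.ofReal_coe_nnreal]
  obtain ⟨K, hK⟩ : ∃ K : ℝ≥0, (K : ℝ) = C * 2 ^ n / ω := ⟨⟨_, by positivity⟩, rfl⟩
  obtain ⟨k, hk⟩ : ∃ k : ℝ≥0, (k : ℝ) = (C * ω)⁻¹ := ⟨⟨_, by positivity⟩, rfl⟩
  have h1 : ∀ s, σ s ≤ (K • (volume : Measure X)) s := dens_le fun y ρ hρ => by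
    rw [hv K y ρ hρ, hK]
    refine ((measure_mono (closedBall_subset_ball (by linarith))).trans
      (hU y (2 * ρ) (by positivity))).trans (le_of_eq ?_)
    rw [mul_pow]
    congr 1
    field_simp
  have h2 : ∀ s, (k • (volume : Measure X)) s ≤ σ s := dens_le fun y ρ hρ => by
    rw [hv k y ρ hρ, hk]
    refine le_trans (le_of_eq ?_) (((hreg (dist y 0 + ρ)).low y (hs y) (by linarith) ρ hρ
      (by linarith [dist_nonneg (x := y) (y := 0)])).trans (measure_mono ball_subset_closedBall))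
    congr 1
    field_simp
  have hac : σ ≪ (volume : Measure X) := Measure.AbsolutelyContinuous.mk fun s _ h0 => by
    have := h1 s
    rw [Measure.coe_nnreal_smul_apply, h0, mul_zero] at this
    exact le_zero_iff.1 this
  have h3 : σ.rnDeriv volume ≤ᵐ[volume] fun _ => (K : ℝ≥0∞) :=
    ae_le_of_forall_setLIntegral_le_of_sigmaFinite (Measure.measurable_rnDeriv _ _) fun s _ _ => by
      rw [Measure.setLIntegral_rnDeriv hac, setLIntegral_const]
      exact h1 s
  have h4 : (fun _ => (k : ℝ≥0∞)) ≤ᵐ[volume] σ.rnDeriv volume :=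
    ae_le_of_forall_setLIntegral_le_of_sigmaFinite measurable_const fun s _ _ => by
      rw [Measure.setLIntegral_rnDeriv hac, setLIntegral_const]
      exact h2 s
  refine ⟨fun y => max (k : ℝ) (min (K : ℝ) (σ.rnDeriv volume y).toReal), k, max k K,
    measurable_const.max (measurable_const.min (Measure.measurable_rnDeriv _ _).ennreal_toReal),
    by rw [hk]; positivity, fun y => ⟨le_max_left _ _, max_le_max le_rfl (min_le_left _ _)⟩, ?_⟩
  refine (Measure.withDensity_rnDeriv_eq _ _ hac).symm.trans (withDensity_congr_ae ?_)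
  filter_upwards [h3, h4] with y h5 h6
  have h7 : σ.rnDeriv volume y ≠ ∞ := ne_top_of_le_ne_top ENNReal.coe_ne_top h5
  have h8 : (σ.rnDeriv volume y).toReal ≤ K := ENNReal.toReal_le_coe_of_le_coe h5
  have h9 : (k : ℝ) ≤ (σ.rnDeriv volume y).toReal := by
    have := ENNReal.toReal_mono h7 h6
    rwa [ENNReal.coe_toReal] at this
  rw [min_eq_right h8, max_eq_right h9, ENNReal.ofReal_toReal h7]

end Vale.Agent.P120
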