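import Vale.Agent.P120.Touch
import Vale.Agent.P120.Flat

/-!
Dimension drop: a reflectionless measure in a subspace of dimension larger than `n` is flat along
a hyperplane of that subspace in some ball.
-/

open MeasureTheory Metric Set Filter Topology
open scoped RealInnerProductSpace ENNReal NNReal

noncomputable section

namespace Vale.Agent.P120

variable {X : Type} [NormedAddCommGroup X] [InnerProductSpace ℝ X] [FiniteDimensional ℝ X]
  [MeasurableSpace X] [BorelSpace X]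
variable {F : Type} [NormedAddCommGroup F] [InnerProductSpace ℝ F] [FiniteDimensional ℝ F]

/-- Otherwise `ρ^n/C · vol(B_1 ∩ V) ≤ ∫_{B_1 ∩ V} ν(ball z ρ) dz ≤ ν(ball 0 2) vol(B_ρ ∩ V)` for
`ρ ≤ 1` (Tonelli, `lintegral_lintegral_swap`; the slice `{z : V | dist z y < ρ}` lies in
`ball (Pr V y) ρ`), and `vol(B_ρ ∩ V) = ρ^m vol(B_1 ∩ V)` with `m > n`. -/
theorem porous {n : ℕ} {ν : Measure X} {C : ℝ} (hC : 0 < C) (hreg : ∀ W, Reg n ν C 0 W)
    {V : Submodule ℝ X} (hV : n < Module.finrank ℝ V) : ∃ z ∈ V, ‖z‖ < 1 ∧ z ∉ ν.support := by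
  by_contra hc
  have hall : ∀ z : V, ‖z‖ < 1 → (z : X) ∈ ν.support := fun z hz =>
    by_contra fun h => hc ⟨z, z.2, hz, h⟩
  have := (hreg 0).up.locFin
  have key : ∀ ρ : ℝ, 0 < ρ → ρ ≤ 1 → ρ ^ n / C ≤ ρ ^ Module.finrank ℝ V * (C * 2 ^ n) := by
    intro ρ hρ hρ1
    have hS : MeasurableSet {q : V × X | ‖q.1‖ < 1 ∧ dist q.2 q.1 < ρ} :=
      ((isOpen_lt (f := fun q : V × X => ‖q.1‖) (by fun_prop) continuous_const).inter
        (isOpen_lt (f := fun q : V × X => dist q.2 q.1) (by fun_prop)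
          continuous_const)).measurableSet
    have h1 : ENNReal.ofReal (ρ ^ n / C) * Measure.addHaar (ball (0 : V) 1) ≤
        (Measure.addHaar.prod ν) {q : V × X | ‖q.1‖ < 1 ∧ dist q.2 q.1 < ρ} := by
      rw [Measure.prod_apply hS, ← setLIntegral_const]
      refine le_trans (setLIntegral_mono' measurableSet_ball fun z hz => ?_)
        (setLIntegral_le_lintegral _ _)
      have hz' := mem_ball_zero_iff.1 hz
      exact ((hreg 1).low z (hall z hz') (by rwa [dist_zero_right]) ρ hρ hρ1).trans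
        (measure_mono fun y hy => ⟨hz', hy⟩)
    have h2 : (Measure.addHaar.prod ν) {q : V × X | ‖q.1‖ < 1 ∧ dist q.2 q.1 < ρ} ≤
        Measure.addHaar (ball (0 : V) ρ) * ν (ball 0 2) := by
      rw [Measure.prod_apply_symm hS, ← setLIntegral_const,
        ← lintegral_indicator measurableSet_ball]
      refine lintegral_mono fun y => ?_
      by_cases hy : y ∈ ball (0 : X) 2
      · rw [indicator_of_mem hy, ← Measure.addHaar_ball_center _ (Pr V y)]
        refine measure_mono fun z hz => lt_of_le_of_lt ?_ hz.2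
        have h3 := norm_Pr_le V (y - z)
        rw [map_sub, Submodule.orthogonalProjectionOnto_mem_subspace_eq_self] at h3
        rwa [dist_comm, dist_eq_norm, dist_eq_norm]
      · rw [indicator_of_notMem hy]
        refine le_of_eq (measure_mono_null (fun z hz => hy ?_) measure_empty)
        have h3 := dist_triangle y z 0
        have h4 : dist (z : X) 0 < 1 := by
          rw [dist_zero_right]
          exact hz.1
        have h5 : dist y z < ρ := hz.2
        exact mem_ball.2 (by linarith)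
    have h3 := (h1.trans h2).trans (mul_le_mul_right ((hreg 0).up 0 2 two_pos) _)
    rw [Measure.addHaar_ball_of_pos _ _ hρ, mul_right_comm,
      ENNReal.mul_le_mul_iff_left (measure_ball_pos _ _ one_pos).ne' measure_ball_lt_top.ne,
      ← ENNReal.ofReal_mul (by positivity)] at h3
    exact (ENNReal.ofReal_le_ofReal_iff (by positivity)).1 h3
  obtain ⟨ρ, r0, r1, r2⟩ : ∃ ρ : ℝ, 0 < ρ ∧ ρ ≤ 1 ∧ ρ * (C * 2 ^ n * C) ≤ 1 / 2 :=
    ⟨min 1 (1 / 2 / (C * 2 ^ n * C)), by positivity, min_le_left _ _,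
      (le_div_iff₀ (by positivity)).1 (min_le_right _ _)⟩
  have h1 := (key ρ r0 r1).trans (mul_le_mul_of_nonneg_right
    (pow_le_pow_of_le_one r0.le r1 (show n + 1 ≤ _ from hV)) (by positivity))
  rw [div_le_iff₀ hC, pow_succ] at h1
  have h2 : 0 < ρ ^ n := by positivity
  nlinarith

/-- `porous`, `touch_out`; `e = (x0 - z)/‖x0 - z‖ ∈ V`, `V' = V ⊓ (ℝ ∙ e)ᗮ`, and
`Nm V' w = ⟪e, w⟫ • e` for `w ∈ V`. Take `r = min 1 (ρ0 min 1 (ε/C)²)`: for `t ≤ ρ0` use
`touch_out`, for `t ≥ ρ0` the trivial bound `C t^(n+2)`. -/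
theorem drop {n : ℕ} {ν : Measure X} {C : ℝ} (hC : 0 < C) (hreg : ∀ W, Reg n ν C 0 W)
    (hR : Ref n ν) {V : Submodule ℝ X} (hV : n < Module.finrank ℝ V) (hs : ν.support ⊆ V)
    {ε : ℝ} (hε : 0 < ε) : ∃ x0 ∈ ν.support, ‖x0‖ < 2 ∧ ∃ r : ℝ, 0 < r ∧ r ≤ 1 ∧
      ∃ V' : Submodule ℝ X, Module.finrank ℝ V' + 1 = Module.finrank ℝ V ∧
        Flat n ν x0 r V' x0 ε := by
  have := (hreg 0).up.locFin
  obtain ⟨z, z1, z2, z3⟩ := porous hC hreg hV
  obtain ⟨x0, x1, x2, x3, h⟩ := touch_out hC hreg hR z3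
  obtain ⟨ρ0, r0, h⟩ := h ε hε
  have e0 : ‖x0 - z‖⁻¹ • (x0 - z) ∈ V := V.smul_mem _ (V.sub_mem (hs x1) z1)
  have e1 : ‖‖x0 - z‖⁻¹ • (x0 - z)‖ = 1 := norm_smul_inv_norm (𝕜 := ℝ) (sub_ne_zero.2 x3)
  generalize ‖x0 - z‖⁻¹ • (x0 - z) = e at e0 e1 h
  obtain ⟨r, r1, r2, r3⟩ : ∃ r : ℝ, 0 < r ∧ r ≤ 1 ∧ (C / ε) ^ 2 * r ≤ ρ0 :=
    ⟨min 1 (ρ0 / (C / ε) ^ 2), by positivity, min_le_left _ _,
      (le_div_iff₀' (by positivity)).1 (min_le_right _ _)⟩
  refine ⟨x0, x1, ?_, r, r1, r2, (ℝ ∙ e)ᗮ ⊓ V, ?_, fun t ht => ?_⟩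
  · have := dist_triangle x0 z 0
    rw [dist_zero_right, dist_zero_right] at this
    linarith
  · rw [← Submodule.finrank_add_inf_finrank_orthogonal
      ((Submodule.span_singleton_le_iff_mem e V).2 e0), add_comm,
      finrank_span_singleton (norm_pos_iff.1 (e1 ▸ one_pos))]
  have t0 : 0 < t := r1.trans_le ht
  have t1 : 1 ≤ t / r := (one_le_div r1).2 ht
  have t2 : ε * r ^ 2 * t ^ n * (t / r) ^ (5 / 2 : ℝ) = ε * √(t / r) * t ^ (n + 2) := by
    rw [show (5 / 2 : ℝ) = (2 : ℕ) + 1 / 2 by norm_num, Real.rpow_add (by positivity),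
      Real.rpow_natCast, ← Real.sqrt_eq_rpow]
    field_simp
    ring
  rw [t2]
  rcases le_total t ρ0 with k | k
  · refine le_trans (integral_mono_ae
      (integrableOn_ball_of_continuous (by fun_prop) _ _)
      (integrableOn_ball_of_continuous (by fun_prop) _ _) ?_) ((h t t0 k).trans ?_)
    · filter_upwards [ae_restrict_of_ae (Measure.support_mem_ae (μ := ν))] with y hy
      have y1 : y - x0 ∈ V := V.sub_mem (hs hy) (hs x1)
      have y2 : y - x0 - ⟪e, y - x0⟫ • e ∈ (ℝ ∙ e)ᗮ ⊓ V := by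
        refine ⟨Submodule.mem_orthogonal_singleton_iff_inner_right.2 ?_,
          V.sub_mem y1 (V.smul_mem _ e0)⟩
        rw [inner_sub_right, inner_smul_right, real_inner_self_eq_norm_sq, e1]
        ring
      have y3 := norm_Nm_le_sub _ (y - x0) y2
      rw [sub_sub_cancel, norm_smul, e1, mul_one, Real.norm_eq_abs] at y3
      rw [← sq_abs ⟪e, y - x0⟫]
      exact pow_le_pow_left₀ (norm_nonneg _) y3 2
    · exact mul_le_mul_of_nonneg_right (le_mul_of_one_le_right hε.le (Real.one_le_sqrt.2 t1))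
        (by positivity)
  · refine (flat_trivial (hreg 0).up hC x0 t0 _ t le_rfl).trans ?_
    rw [div_self t0.ne', Real.one_rpow, mul_one, mul_assoc, ← pow_add, add_comm 2 n]
    refine mul_le_mul_of_nonneg_right ((div_le_iff₀' hε).1 (Real.le_sqrt_of_sq_le ?_))
      (by positivity)
    rw [le_div_iff₀ r1]
    linarith

end Vale.Agent.P120
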