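import Vale.Agent.P120.Core

/-!
From the normalised statement to big pieces of Lipschitz images.
-/

open MeasureTheory Metric Set Filter Topology
open scoped RealInnerProductSpace ENNReal NNReal

noncomputable section

namespace Vale.Agent.P120

variable {X : Type} [NormedAddCommGroup X] [InnerProductSpace ℝ X] [FiniteDimensional ℝ X]
  [MeasurableSpace X] [BorelSpace X]
variable {F : Type} [NormedAddCommGroup F] [InnerProductSpace ℝ F] [FiniteDimensional ℝ F]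

theorem invert {Y : Type} [NormedAddCommGroup Y] {L : ℝ} (hL : 0 < L) :
    ∃ M : ℝ≥0, ∀ (Z : Set X) (u : X → Y), (∀ y ∈ Z, ∀ y' ∈ Z, dist y y' ≤ L * ‖u y - u y'‖) →
      ∃ g : Y → X, LipschitzWith M g ∧ ∀ y ∈ Z, g (u y) = y := by
  classical
  refine ⟨lipschitzExtensionConstant X * ⟨L, hL.le⟩, fun Z u h => ?_⟩
  have hinj : InjOn u Z := by
    intro y hy y' hy' e
    have := h y hy y' hy'
    rw [e, sub_self, norm_zero, mul_zero] at this
    exact dist_le_zero.1 this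
  let g0 : Y → X := Function.invFunOn u Z
  have hg0 : ∀ y ∈ Z, g0 (u y) = y := fun y hy => hinj.leftInvOn_invFunOn hy
  have hlip : LipschitzOnWith ⟨L, hL.le⟩ g0 (u '' Z) := by
    refine LipschitzOnWith.of_dist_le_mul ?_
    rintro _ ⟨y, hy, rfl⟩ _ ⟨y', hy', rfl⟩
    rw [hg0 y hy, hg0 y' hy', dist_eq_norm (u y)]
    exact h y hy y' hy'
  obtain ⟨g, hg, he⟩ := hlip.extend_finite_dimension
  exact ⟨g, hg, fun y hy => (he (mem_image_of_mem u hy)).symm.trans (hg0 y hy)⟩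

theorem david_semmes {d n : ℕ} (hn : 1 ≤ n) (hd : n < d)
    (μ : Measure (EuclideanSpace ℝ (Fin d))) [IsLocallyFiniteMeasure μ] (hAD : ADRegular n μ)
    (hR : RieszBounded n μ) : UnifRect n μ := by
  obtain ⟨C, hC, hhyp⟩ := hyp hn μ hAD hR
  have hX : n ≤ Module.finrank ℝ (EuclideanSpace ℝ (Fin d)) := by
    rw [finrank_euclideanSpace_fin]; exact hd.le
  obtain ⟨W, L, m, hW, hL, hm, hcore⟩ := core hn hX hC
  obtain ⟨M, hM⟩ := invert (X := EuclideanSpace ℝ (Fin d)) (Y := EuclideanSpace ℝ (Fin n)) hL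
  have hW0 : 0 < W := by linarith
  refine ⟨m / (2 * W) ^ n, by positivity, M, fun x hx r hr hrd => ?_⟩
  obtain ⟨hreg, hRB⟩ := hhyp x hx r hr hrd
  set ℓ : ℝ := r / (2 * W) with hℓ
  have hℓ0 : 0 < ℓ := by positivity
  set U : EuclideanSpace ℝ (Fin d) ≃ₗᵢ[ℝ] EuclideanSpace ℝ (Fin d) :=
    LinearIsometryEquiv.refl ℝ _ with hUdef
  have hreg' := blow_reg hreg U x hℓ0
  have e1 : r / 2 / ℓ = W := by rw [hℓ]; field_simp
  rw [sim_self, e1] at hreg'
  have hRB' := blow_rb hreg.up hRB U x hℓ0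
  have hout : blow n (μ.restrict (ball x r)) U x ℓ (closedBall 0 (2 * W))ᶜ = 0 := by
    rw [blow_apply n _ U x hℓ0, Measure.restrict_apply' measurableSet_ball]
    have : sim U x ℓ ⁻¹' (closedBall 0 (2 * W))ᶜ ∩ ball x r = ∅ := by
      refine Set.eq_empty_of_forall_notMem fun y hy => hy.1 ?_
      have h1 := sim_dist U x hℓ0 y x
      rw [sim_self] at h1
      rw [mem_closedBall, h1, div_le_iff₀ hℓ0]
      have h2 : 2 * W * ℓ = r := by rw [hℓ]; field_simp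
      rw [h2]; exact le_of_lt hy.2
    rw [this, measure_empty, mul_zero]
  obtain ⟨Z, u, hZ, hu1, hu2⟩ := hcore _ hreg' hRB' hout
  obtain ⟨g0, hg0, hg0u⟩ := hM Z u hu2
  refine ⟨fun q => x + ℓ • g0 (ℓ⁻¹ • q), ?_, ?_⟩
  · refine LipschitzOnWith.of_dist_le_mul fun q _ q' _ => ?_
    have h1 := hg0.dist_le_mul (ℓ⁻¹ • q) (ℓ⁻¹ • q')
    rw [dist_add_left, dist_smul₀, Real.norm_of_nonneg hℓ0.le]
    rw [dist_smul₀, Real.norm_of_nonneg (inv_nonneg.2 hℓ0.le)] at h1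
    calc ℓ * dist (g0 (ℓ⁻¹ • q)) (g0 (ℓ⁻¹ • q')) ≤ ℓ * (M * (ℓ⁻¹ * dist q q')) :=
          mul_le_mul_of_nonneg_left h1 hℓ0.le
      _ = M * dist q q' := by field_simp
  · rw [blow_apply n _ U x hℓ0, Measure.restrict_apply' measurableSet_ball] at hZ
    have hsub : sim U x ℓ ⁻¹' Z ∩ ball x r ⊆
        ball x r ∩ (fun q => x + ℓ • g0 (ℓ⁻¹ • q)) '' ball 0 r := by
      rintro y ⟨hy, hyb⟩
      refine ⟨hyb, ℓ • u (sim U x ℓ y), ?_, ?_⟩
      · rw [mem_ball, dist_zero_right, norm_smul, Real.norm_of_nonneg hℓ0.le]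
        have h1 := hu1 _ hy
        have h2 : 2 * W * ℓ = r := by rw [hℓ]; field_simp
        nlinarith
      · show x + ℓ • g0 (ℓ⁻¹ • ℓ • u (sim U x ℓ y)) = y
        rw [smul_smul, inv_mul_cancel₀ hℓ0.ne', one_smul, hg0u _ hy, sim, smul_smul,
          mul_inv_cancel₀ hℓ0.ne', one_smul, hUdef]
        simp
    refine le_trans ?_ (measure_mono hsub)
    have hp : 0 < ℓ ^ n := pow_pos hℓ0 n
    have e2 : m / (2 * W) ^ n * r ^ n = ℓ ^ n * m := by rw [hℓ, div_pow]; field_simp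
    rw [e2, ENNReal.ofReal_mul hp.le]
    calc ENNReal.ofReal (ℓ ^ n) * ENNReal.ofReal m
        ≤ ENNReal.ofReal (ℓ ^ n) * (ENNReal.ofReal ((ℓ ^ n)⁻¹) *
            μ (sim U x ℓ ⁻¹' Z ∩ ball x r)) := by gcongr
      _ = μ (sim U x ℓ ⁻¹' Z ∩ ball x r) := by
          rw [← mul_assoc, ← ENNReal.ofReal_mul hp.le, mul_inv_cancel₀ hp.ne', ENNReal.ofReal_one,
            one_mul]

end Vale.Agent.P120
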