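import Vale.Agent.P120.Ann

/-!
The bilinear form `En`: integrability, symmetrisation, energy bounds, Cauchy-Schwarz.
All measures are upper regular, hence locally finite and s-finite (`Up.locFin`).
-/

open MeasureTheory Metric Set Filter Topology
open scoped RealInnerProductSpace ENNReal NNReal

noncomputable section

namespace Vale.Agent.P120

variable {X : Type} [NormedAddCommGroup X] [InnerProductSpace ℝ X] [FiniteDimensional ℝ X]
  [MeasurableSpace X] [BorelSpace X]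
variable {F : Type} [NormedAddCommGroup F] [InnerProductSpace ℝ F] [FiniteDimensional ℝ F]

theorem form_one {μ : Measure X} [SFinite μ] {k v : X → ℝ} {K : ℝ} (hk : Measurable k)
    (k0 : ∀ z, 0 ≤ k z)
    (hK : ∀ a, Integrable (fun b => k (a - b)) μ ∧ ∫ b, k (a - b) ∂μ ≤ K) (hv : Integrable v μ)
    (v0 : ∀ a, 0 ≤ v a) : Integrable (fun p : X × X => v p.1 * k (p.1 - p.2)) (μ.prod μ) ∧
      ∫ p : X × X, v p.1 * k (p.1 - p.2) ∂(μ.prod μ) ≤ K * ∫ a, v a ∂μ := by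
  have hm : AEStronglyMeasurable (fun p : X × X => v p.1 * k (p.1 - p.2)) (μ.prod μ) :=
    hv.1.comp_fst.mul (hk.comp measurable_sub).aestronglyMeasurable
  have h1 : ∀ a, ∫ b, v a * k (a - b) ∂μ ≤ K * v a := fun a => by
    rw [integral_const_mul, mul_comm]
    exact mul_le_mul_of_nonneg_right (hK a).2 (v0 a)
  have h2 : Integrable (fun p : X × X => v p.1 * k (p.1 - p.2)) (μ.prod μ) := by
    refine (integrable_prod_iff hm).2 ⟨ae_of_all _ fun a => (hK a).1.const_mul (v a),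
      (hv.const_mul K).mono' hm.norm.integral_prod_right' (ae_of_all _ fun a => ?_)⟩
    rw [Real.norm_of_nonneg (integral_nonneg fun b => norm_nonneg _)]
    exact (integral_congr_ae (ae_of_all _ fun b =>
      Real.norm_of_nonneg (mul_nonneg (v0 a) (k0 _)))).trans_le (h1 a)
  refine ⟨h2, ?_⟩
  rw [integral_prod _ h2, ← integral_const_mul]
  exact integral_mono h2.integral_prod_left (hv.const_mul K) h1

theorem form_two {μ : Measure X} [SFinite μ] {k v : X → ℝ} {K : ℝ} (hk : Measurable k)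
    (k0 : ∀ z, 0 ≤ k z) (kn : ∀ a b, k (a - b) = k (b - a))
    (hK : ∀ a, Integrable (fun b => k (a - b)) μ ∧ ∫ b, k (a - b) ∂μ ≤ K) (hv : Integrable v μ)
    (v0 : ∀ a, 0 ≤ v a) :
    Integrable (fun p : X × X => (v p.1 + v p.2) * k (p.1 - p.2)) (μ.prod μ) ∧
      ∫ p : X × X, (v p.1 + v p.2) * k (p.1 - p.2) ∂(μ.prod μ) ≤ 2 * K * ∫ a, v a ∂μ := by
  obtain ⟨h1, h2⟩ := form_one hk k0 hK hv v0
  have h3 : (fun p : X × X => (v p.1 + v p.2) * k (p.1 - p.2)) = fun p =>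
      v p.1 * k (p.1 - p.2) + (fun p : X × X => v p.1 * k (p.1 - p.2)) p.swap := funext fun p => by
    simp only [add_mul, Prod.fst_swap, Prod.snd_swap, kn p.2 p.1]
  rw [h3]
  refine ⟨h1.add h1.swap, ?_⟩
  refine (integral_add h1 h1.swap).trans_le ?_
  exact (add_le_add h2 ((integral_prod_swap fun p : X × X =>
    v p.1 * k (p.1 - p.2)).trans_le h2)).trans_eq (by ring)

/-- Domination of a function of two points by the near kernel and by the far kernel. -/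
theorem form_dom (n : ℕ) {C : ℝ} (hC : 0 < C) : ∃ Cf : ℝ, 0 < Cf ∧ ∀ μ : Measure X, Up n μ C →
    ∀ v v' : X → ℝ, Integrable v μ → Integrable v' μ → (∀ a, 0 ≤ v a) → (∀ a, 0 ≤ v' a) →
    ∀ R : ℝ, 0 < R → ∀ h : X × X → ℝ, AEStronglyMeasurable h (μ.prod μ) →
    (∀ p, ‖p.1 - p.2‖ < R → |h p| ≤ (v p.1 + v p.2) * (J n (p.1 - p.2) * ‖p.1 - p.2‖ ^ 2)) →
    (∀ p, R ≤ ‖p.1 - p.2‖ → |h p| ≤ (v' p.1 + v' p.2) * J n (p.1 - p.2)) →
    Integrable h (μ.prod μ) ∧
      ∫ p, h p ∂(μ.prod μ) ≤ Cf * (R * ∫ a, v a ∂μ + (∫ a, v' a ∂μ) / R) := by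
  obtain ⟨C1, hC1, h1⟩ := ann_near (X := X) n hC
  obtain ⟨C2, hC2, h2⟩ := ann_far (X := X) n hC
  refine ⟨2 * (C1 + C2), by positivity, fun μ hU v v' hv hv' v0 v0' R hR h hm hn hf => ?_⟩
  have := hU.locFin
  obtain ⟨h3, h4⟩ := form_two (k := fun z => if ‖z‖ < R then J n z * ‖z‖ ^ 2 else 0) (K := C1 * R)
    (Measurable.ite (measurableSet_lt measurable_norm measurable_const)
      ((measurable_J n).mul (by fun_prop)) measurable_const)
    (fun z => ite_nonneg (mul_nonneg (J_nonneg _ _) (sq_nonneg _)) le_rfl)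
    (fun a b => by rw [J_sub_comm, norm_sub_rev]) (fun a => by
      have h3 : (fun b => if ‖a - b‖ < R then J n (a - b) * ‖a - b‖ ^ 2 else 0) =
          (ball a R).indicator fun b => J n (a - b) * ‖a - b‖ ^ 2 := funext fun b => by
        simp only [indicator, mem_ball_iff_norm']
      rw [h3, integral_indicator measurableSet_ball, integrable_indicator_iff measurableSet_ball]
      exact h1 μ hU a R hR) hv v0
  obtain ⟨h5, h6⟩ := form_two (k := fun z => if ‖z‖ < R then 0 else J n z) (K := C2 / R)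
    (Measurable.ite (measurableSet_lt measurable_norm measurable_const) measurable_const
      (measurable_J n)) (fun z => ite_nonneg le_rfl (J_nonneg _ _))
    (fun a b => by rw [J_sub_comm, norm_sub_rev]) (fun a => by
      have h3 : (fun b => if ‖a - b‖ < R then 0 else J n (a - b)) =
          (ball a R)ᶜ.indicator fun b => J n (a - b) := funext fun b => by
        simp only [indicator, mem_compl_iff, mem_ball_iff_norm', ite_not]
      rw [h3, integral_indicator measurableSet_ball.compl,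
        integrable_indicator_iff measurableSet_ball.compl]
      exact h2 μ hU a R hR) hv' v0'
  have h7 : ∀ p : X × X, |h p| ≤ ((v p.1 + v p.2) *
      if ‖p.1 - p.2‖ < R then J n (p.1 - p.2) * ‖p.1 - p.2‖ ^ 2 else 0) +
      (v' p.1 + v' p.2) * if ‖p.1 - p.2‖ < R then 0 else J n (p.1 - p.2) := fun p => by
    split_ifs with h7
    · simpa using hn p h7
    · simpa using hf p (not_lt.1 h7)
  have h8 := (h3.add h5).mono' hm (ae_of_all _ h7)
  refine ⟨h8, (integral_mono h8 (h3.add h5) fun p => (le_abs_self _).trans (h7 p)).trans ?_⟩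
  have h9 : 0 ≤ R * ∫ a, v a ∂μ := mul_nonneg hR.le (integral_nonneg v0)
  have h10 : 0 ≤ (∫ a, v' a ∂μ) / R := div_nonneg (integral_nonneg v0') hR.le
  refine (integral_add h3 h5).trans_le ((add_le_add h4 h6).trans ?_)
  rw [show 2 * (C2 / R) * ∫ a, v' a ∂μ = 2 * C2 * ((∫ a, v' a ∂μ) / R) by ring, mul_assoc 2,
    mul_assoc C1]
  nlinarith [mul_nonneg hC1.le h10, mul_nonneg hC2.le h9]

theorem form_ind {μ : Measure X} [IsLocallyFiniteMeasure μ] (x : X) (ρ c : ℝ) :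
    Integrable ((ball x ρ).indicator fun _ => c) μ :=
  (integrableOn_ball_of_continuous continuous_const x ρ).integrable_indicator measurableSet_ball

theorem form_ind_le {n : ℕ} {μ : Measure X} {C : ℝ} (hU : Up n μ C) (hC : 0 < C) (x : X) {ρ c : ℝ}
    (hρ : 0 < ρ) (hc : 0 ≤ c) : ∫ y, (ball x ρ).indicator (fun _ => c) y ∂μ ≤ C * ρ ^ n * c := by
  rw [integral_indicator_const _ measurableSet_ball]
  exact mul_le_mul_of_nonneg_right (hU.real_le hC x hρ) hc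

theorem form_pair {x a b : X} {ρ c h k : ℝ} (hc : 0 ≤ c) (hk : 0 ≤ k)
    (h1 : a ∈ ball x ρ ∨ b ∈ ball x ρ → h ≤ c * k) (h2 : ρ ≤ dist a x → ρ ≤ dist b x → h ≤ 0) :
    h ≤ ((ball x ρ).indicator (fun _ => c) a + (ball x ρ).indicator (fun _ => c) b) * k := by
  by_cases ha : a ∈ ball x ρ <;> by_cases hb : b ∈ ball x ρ <;>
    simp only [ha, hb, indicator_of_mem, indicator_of_notMem, not_false_eq_true, add_zero, zero_add,
      zero_mul]
  exacts [(h1 (Or.inl ha)).trans (by nlinarith), h1 (Or.inl ha), h1 (Or.inr hb),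
    h2 (not_lt.1 ha) (not_lt.1 hb)]

theorem form_both {x a b : X} {ρ R : ℝ} (h : ‖a - b‖ < R) (h1 : a ∈ ball x ρ ∨ b ∈ ball x ρ) :
    a ∈ ball x (ρ + R) ∧ b ∈ ball x (ρ + R) := by
  rw [← dist_eq_norm] at h
  have h2 := dist_triangle a b x
  have h3 := dist_triangle_left b x a
  have h4 := dist_nonneg (x := a) (y := b)
  simp only [mem_ball] at h1 ⊢
  rcases h1 with h1 | h1 <;> constructor <;> linarith

theorem form_lip {n : ℕ} {a b : X} {p q : F} {L L' : ℝ} (h : ‖p‖ ≤ L * ‖a - b‖)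
    (h' : ‖q‖ ≤ L' * ‖a - b‖) {w : ℝ} (hw : |w| ≤ 1) :
    |w * (J n (a - b) * ⟪p, q⟫)| ≤ L * L' * (J n (a - b) * ‖a - b‖ ^ 2) := by
  have h0 := J_nonneg n (a - b)
  rw [abs_mul, abs_mul, abs_of_nonneg h0]
  refine (mul_le_of_le_one_left (by positivity) hw).trans ((mul_le_mul_of_nonneg_left
    ((abs_real_inner_le_norm p q).trans (mul_le_mul h h' (norm_nonneg _)
      ((norm_nonneg _).trans h))) h0).trans_eq (by ring))

theorem form_far {n : ℕ} {z : X} (p q : F) {w : ℝ} (hw : |w| ≤ 1) :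
    |w * (J n z * ‖p - q‖ ^ 2)| ≤ (2 * ‖p‖ ^ 2 + 2 * ‖q‖ ^ 2) * J n z := by
  have h0 := J_nonneg n z
  rw [abs_mul, abs_of_nonneg (a := J n z * _) (by positivity), mul_comm _ (J n z)]
  refine (mul_le_of_le_one_left (by positivity) hw).trans (mul_le_mul_of_nonneg_left ?_ h0)
  nlinarith [norm_sub_le p q, norm_nonneg (p - q), sq_nonneg (‖p‖ - ‖q‖), norm_nonneg p,
    norm_nonneg q]

theorem form_meas {n : ℕ} {u ψ : X → F} (hu : Continuous u) (hψ : Continuous ψ) {w : ℝ → ℝ}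
    (hw : Measurable w) (ν : Measure (X × X)) : AEStronglyMeasurable (fun p : X × X =>
      w ‖p.1 - p.2‖ * (J n (p.1 - p.2) * ⟪u p.1 - u p.2, ψ p.1 - ψ p.2⟫)) ν :=
  ((hw.comp measurable_sub.norm).mul (((measurable_J n).comp measurable_sub).mul
    (Continuous.measurable (by fun_prop)))).aestronglyMeasurable

theorem form_meas' {n : ℕ} {ψ : X → F} (hψ : Continuous ψ) :
    Measurable fun p : X × X => J n (p.1 - p.2) * ‖ψ p.1 - ψ p.2‖ ^ 2 :=
  ((measurable_J n).comp measurable_sub).mul (Continuous.measurable (by fun_prop))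

theorem form_sq {μ : Measure X} [IsLocallyFiniteMeasure μ] {ψ : X → F} (hψ : Continuous ψ) {x : X}
    {ρ : ℝ} (hz : ∀ y, ρ ≤ dist y x → ψ y = 0) : Integrable (fun y => 2 * ‖ψ y‖ ^ 2) μ :=
  Continuous.integrable_of_hasCompactSupport (by fun_prop)
    (hasCompactSupport_of_zero (x := x) (ρ := ρ) fun y hy => by simp [hz y hy])

theorem form_near {n : ℕ} {ψ : X → F} {L : ℝ≥0} (hψ : LipschitzWith L ψ) {x : X} {ρ : ℝ}
    (hz : ∀ y, ρ ≤ dist y x → ψ y = 0) (a b : X) {w : ℝ} (hw : |w| ≤ 1) :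
    |w * (J n (a - b) * ⟪ψ a - ψ b, ψ a - ψ b⟫)| ≤
      ((ball x ρ).indicator (fun _ => (L : ℝ) * L) a +
        (ball x ρ).indicator (fun _ => (L : ℝ) * L) b) * (J n (a - b) * ‖a - b‖ ^ 2) :=
  form_pair (by positivity) (mul_nonneg (J_nonneg _ _) (sq_nonneg _))
    (fun _ => form_lip (hψ.norm_sub_le a b) (hψ.norm_sub_le a b) hw)
    fun h1 h2 => by simp [hz a h1, hz b h2]

theorem form_near' {n : ℕ} {ψ : X → F} {L : ℝ≥0} (hψ : LipschitzWith L ψ) {x : X} {ρ : ℝ}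
    (hz : ∀ y, ρ ≤ dist y x → ψ y = 0) (a b : X) :
    |J n (a - b) * ‖ψ a - ψ b‖ ^ 2| ≤ ((ball x ρ).indicator (fun _ => (L : ℝ) * L) a +
        (ball x ρ).indicator (fun _ => (L : ℝ) * L) b) * (J n (a - b) * ‖a - b‖ ^ 2) := by
  have := form_near (n := n) hψ hz a b abs_one.le
  rwa [one_mul, real_inner_self_eq_norm_sq] at this

/-- On the support of the integrand both points lie in `ball x (ρ + R)`, where `u` is Lipschitz; so
the integrand is dominated by a multiple of `1_{ball}(p.1) J(p.1-p.2) |p.1-p.2|^2 1_{|p.1-p.2|<R}`.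
Use `ann_near` and `integrable_prod_iff` (or `lintegral_prod`). -/
theorem En_integrable {n : ℕ} {μ : Measure X} {C : ℝ} (hU : Up n μ C) (hC : 0 < C) {u ψ : X → F}
    (hu : LocLip u) {L : ℝ≥0} (hψ : LipschitzWith L ψ) {x : X} {ρ : ℝ}
    (hz : ∀ y, ρ ≤ dist y x → ψ y = 0) {w : ℝ → ℝ} (hw : Measurable w) (hw1 : ∀ t, |w t| ≤ 1)
    {R : ℝ} (hwR : ∀ t, R ≤ t → w t = 0) :
    Integrable (fun p : X × X =>
      w ‖p.1 - p.2‖ * (J n (p.1 - p.2) * ⟪u p.1 - u p.2, ψ p.1 - ψ p.2⟫)) (μ.prod μ) := by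
  obtain ⟨Cf, -, h⟩ := form_dom (X := X) n hC
  obtain ⟨L', h'⟩ := hu.on_ball x (ρ + max R 1)
  have := hU.locFin
  refine (h μ hU _ 0 (form_ind x ρ (L' * L)) (integrable_zero _ _ _)
    (indicator_nonneg fun _ _ => by positivity) (fun _ => le_rfl) (max R 1)
    (lt_max_of_lt_right one_pos) _ (form_meas hu.continuous hψ.continuous hw _)
    (fun p hp => form_pair (by positivity) (mul_nonneg (J_nonneg _ _) (sq_nonneg _))
      (fun h1 => form_lip ?_ (hψ.norm_sub_le _ _) (hw1 _)) fun h1 h2 => by simp [hz _ h1, hz _ h2])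
    fun p hp => by simp [hwR _ ((le_max_left _ _).trans hp)]).1
  exact h'.norm_sub_le (form_both hp h1).1 (form_both hp h1).2

/-- Near part by `ann_near`, far part (`|p.1-p.2| ≥ 1`) by `ann_far` and boundedness of `ψ`. -/
theorem EE_integrable {n : ℕ} {μ : Measure X} {C : ℝ} (hU : Up n μ C) (hC : 0 < C) {ψ : X → F}
    {L : ℝ≥0} (hψ : LipschitzWith L ψ) {x : X} {ρ : ℝ} (hz : ∀ y, ρ ≤ dist y x → ψ y = 0) :
    Integrable (fun p : X × X => J n (p.1 - p.2) * ‖ψ p.1 - ψ p.2‖ ^ 2) (μ.prod μ) := by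
  obtain ⟨Cf, -, h⟩ := form_dom (X := X) n hC
  have := hU.locFin
  exact (h μ hU _ _ (form_ind x ρ (L * L)) (form_sq hψ.continuous hz)
    (indicator_nonneg fun _ _ => by positivity) (fun _ => by positivity) 1 one_pos _
    (form_meas' hψ.continuous).aestronglyMeasurable (fun p _ => form_near' hψ hz _ _)
    fun p _ => by simpa using form_far (n := n) (z := p.1 - p.2) (ψ p.1) (ψ p.2) abs_one.le).1

theorem LE_integrable {n : ℕ} {μ : Measure X} {C : ℝ} (hU : Up n μ C) (hC : 0 < C) {u : X → F}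
    (hu : LocLip u) (x : X) (ρ : ℝ) :
    IntegrableOn (fun p : X × X => J n (p.1 - p.2) * ‖u p.1 - u p.2‖ ^ 2)
      (ball x ρ ×ˢ ball x ρ) (μ.prod μ) := by
  obtain ⟨Cf, -, h⟩ := form_dom (X := X) n hC
  obtain ⟨L, h'⟩ := hu.on_ball x ρ
  have := hU.locFin
  have hm := (measurableSet_ball (x := x) (ε := ρ)).prod (measurableSet_ball (x := x) (ε := ρ))
  refine (integrable_indicator_iff hm).1 (h μ hU _ 0 (form_ind x ρ (L * L)) (integrable_zero _ _ _)
    (indicator_nonneg fun _ _ => by positivity) (fun _ => le_rfl) (max (ρ + ρ) 1)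
    (lt_max_of_lt_right one_pos) _
    ((form_meas' hu.continuous).indicator hm).aestronglyMeasurable (fun p _ => ?_) fun p hp => ?_).1
  · have h0 := mul_nonneg (J_nonneg n (p.1 - p.2)) (sq_nonneg ‖p.1 - p.2‖)
    refine form_pair (by positivity) h0 (fun _ => ?_) fun h1 _ => by
      rw [indicator_of_notMem fun h2 => h1.not_gt h2.1, abs_zero]
    by_cases h1 : p ∈ ball x ρ ×ˢ ball x ρ
    · have := form_lip (n := n) (h'.norm_sub_le h1.1 h1.2) (h'.norm_sub_le h1.1 h1.2) abs_one.le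
      rwa [one_mul, real_inner_self_eq_norm_sq, ← indicator_of_mem h1
        fun p : X × X => J n (p.1 - p.2) * ‖u p.1 - u p.2‖ ^ 2] at this
    · rw [indicator_of_notMem h1, abs_zero]
      positivity
  · rw [indicator_of_notMem fun h1 => ?_]
    · simp
    · rw [← dist_eq_norm] at hp
      linarith [le_max_left (ρ + ρ) 1, dist_triangle_right p.1 p.2 x, mem_ball.1 h1.1,
        mem_ball.1 h1.2]

theorem EE_nonneg (n : ℕ) (μ : Measure X) (ψ : X → F) : 0 ≤ EE n μ ψ := by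
  exact integral_nonneg fun p => mul_nonneg (J_nonneg _ _) (sq_nonneg _)

theorem LE_nonneg (n : ℕ) (μ : Measure X) (u : X → F) (x : X) (ρ : ℝ) : 0 ≤ LE n μ u x ρ := by
  exact integral_nonneg fun p => mul_nonneg (J_nonneg _ _) (sq_nonneg _)

theorem LE_le_EE {n : ℕ} {μ : Measure X} {C : ℝ} (hU : Up n μ C) (hC : 0 < C) {ψ : X → F}
    {L : ℝ≥0} (hψ : LipschitzWith L ψ) {x : X} {ρ : ℝ} (hz : ∀ y, ρ ≤ dist y x → ψ y = 0)
    (x' : X) (ρ' : ℝ) : LE n μ ψ x' ρ' ≤ EE n μ ψ := by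
  exact setIntegral_le_integral (EE_integrable hU hC hψ hz)
    (ae_of_all _ fun p => mul_nonneg (J_nonneg _ _) (sq_nonneg _))

theorem LE_mono {n : ℕ} {μ : Measure X} {C : ℝ} (hU : Up n μ C) (hC : 0 < C) {u : X → F}
    (hu : LocLip u) {x x' : X} {ρ ρ' : ℝ} (h : ball x ρ ⊆ ball x' ρ') :
    LE n μ u x ρ ≤ LE n μ u x' ρ' := by
  exact setIntegral_mono_set (LE_integrable hU hC hu x' ρ')
    (ae_of_all _ fun p => mul_nonneg (J_nonneg _ _) (sq_nonneg _)) (prod_mono h h).eventuallyLE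

/-- `En` with weight `cut s` on the diagonal: one of the two points lies in `ball x ρ`. -/
theorem En_near_le (n : ℕ) {C : ℝ} (hC : 0 < C) : ∃ Cf : ℝ, 0 < Cf ∧ ∀ μ : Measure X, Up n μ C →
    ∀ (ψ : X → F) (L : ℝ≥0), LipschitzWith L ψ → ∀ (x : X) (ρ : ℝ), 0 < ρ →
    (∀ y, ρ ≤ dist y x → ψ y = 0) → ∀ s : ℝ, 0 < s →
    En n μ (cut s) ψ ψ ≤ Cf * L ^ 2 * ρ ^ n * s := by
  obtain ⟨Cf, hCf, h⟩ := form_dom (X := X) n hC
  refine ⟨Cf * 2 * C, by positivity, fun μ hU ψ L hψ x ρ hρ hz s hs => ?_⟩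
  have := hU.locFin
  refine (h μ hU _ 0 (form_ind x ρ (L * L)) (integrable_zero _ _ _)
    (indicator_nonneg fun _ _ => by positivity) (fun _ => le_rfl) (2 * s) (by positivity) _
    (form_meas hψ.continuous hψ.continuous (continuous_cut s).measurable _)
    (fun p _ => form_near hψ hz _ _ ((abs_of_nonneg (cut_nonneg _ _)).trans_le (cut_le_one _ _)))
    fun p hp => by simp [cut_eq_zero hs hp]).2.trans ?_
  simp only [Pi.zero_apply, integral_zero, zero_div, add_zero]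
  grw [form_ind_le hU hC x hρ (by positivity)]
  exact le_of_eq (by ring)

/-- Note `‖ψ p.1 - ψ p.2‖ ≤ L min(|p.1-p.2|, 2ρ)`: if both points are in the ball they are
`2ρ`-close; if only `p.1` is in the ball, compare with the point of the segment from `p.1` to `p.2`
at distance `min(|p.1-p.2|, 2ρ)` from `p.1`, or use `norm_le_of_zero` (then `X` is nontrivial). -/
theorem EE_le (n : ℕ) {C : ℝ} (hC : 0 < C) : ∃ Cf : ℝ, 0 < Cf ∧ ∀ μ : Measure X, Up n μ C →
    ∀ (ψ : X → F) (L : ℝ≥0), LipschitzWith L ψ → ∀ (x : X) (ρ : ℝ), 0 < ρ →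
    (∀ y, ρ ≤ dist y x → ψ y = 0) → EE n μ ψ ≤ Cf * L ^ 2 * ρ ^ (n + 1) := by
  obtain ⟨Cf, hCf, h⟩ := form_dom (X := X) n hC
  refine ⟨Cf * 3 * C, by positivity, fun μ hU ψ L hψ x ρ hρ hz => ?_⟩
  have := hU.locFin
  refine (h μ hU _ _ (form_ind x ρ (L * L)) (form_ind x ρ (2 * (L * ρ) ^ 2))
    (indicator_nonneg fun _ _ => by positivity) (indicator_nonneg fun _ _ => by positivity) ρ hρ _
    (form_meas' hψ.continuous).aestronglyMeasurable (fun p _ => form_near' hψ hz _ _)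
    fun p hp => ?_).2.trans ?_
  · have : Nontrivial X := ⟨_, _, norm_sub_pos_iff.1 (hρ.trans_le hp)⟩
    have h1 : ∀ a, 2 * ‖ψ a‖ ^ 2 ≤ (ball x ρ).indicator (fun _ => 2 * (L * ρ) ^ 2) a := fun a => by
      by_cases ha : a ∈ ball x ρ
      · rw [indicator_of_mem ha]
        gcongr
        exact norm_le_of_zero hψ hρ hz a
      · simp [ha, hz a (not_lt.1 ha)]
    have h2 := form_far (n := n) (z := p.1 - p.2) (ψ p.1) (ψ p.2) abs_one.le
    rw [one_mul] at h2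
    exact h2.trans (mul_le_mul_of_nonneg_right (add_le_add (h1 _) (h1 _)) (J_nonneg _ _))
  · grw [form_ind_le hU hC x hρ (by positivity), form_ind_le hU hC x hρ (by positivity)]
    exact le_of_eq (by field_simp; ring)

/-- Far part of the energy: `EE ψ ≤ En (cut R) ψ ψ + Cf ‖ψ‖² / R`, from
`|a-b|² ≤ 2|a|² + 2|b|²` and `ann_far`. -/
theorem EE_le_En_add (n : ℕ) {C : ℝ} (hC : 0 < C) : ∃ Cf : ℝ, 0 < Cf ∧ ∀ μ : Measure X, Up n μ C →
    ∀ (ψ : X → F) (L : ℝ≥0), LipschitzWith L ψ → ∀ (x : X) (ρ : ℝ),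
    (∀ y, ρ ≤ dist y x → ψ y = 0) → ∀ R : ℝ, 0 < R →
    EE n μ ψ ≤ En n μ (cut R) ψ ψ + Cf * (∫ y, ‖ψ y‖ ^ 2 ∂μ) / R := by
  obtain ⟨Cf, hCf, h⟩ := form_dom (X := X) n hC
  refine ⟨Cf * 2, by positivity, fun μ hU ψ L hψ x ρ hz R hR => ?_⟩
  have := hU.locFin
  have h1 := EE_integrable hU hC hψ hz
  have h2 := En_integrable hU hC (locLip_of_lipschitz hψ) hψ hz (continuous_cut R).measurable
    (fun t => (abs_of_nonneg (cut_nonneg R t)).trans_le (cut_le_one R t))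
    fun t ht => cut_eq_zero hR ht
  have h3 := (h μ hU 0 _ (integrable_zero _ _ _) (form_sq hψ.continuous hz) (fun _ => le_rfl)
    (fun _ => by positivity) R hR _ (h1.sub h2).1 (fun p hp => ?_) fun p _ => ?_).2
  · rw [integral_sub' h1 h2, integral_const_mul] at h3
    simp only [Pi.zero_apply, integral_zero, mul_zero, zero_add] at h3
    rw [EE, En, ← sub_le_iff_le_add']
    exact h3.trans_eq (by ring)
  · simp [cut_eq_one hR hp.le]
  · have := form_far (n := n) (z := p.1 - p.2) (ψ p.1) (ψ p.2) (w := 1 - cut R ‖p.1 - p.2‖)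
      (abs_le.2 ⟨by linarith [cut_le_one R ‖p.1 - p.2‖], by linarith [cut_nonneg R ‖p.1 - p.2‖]⟩)
    rw [sub_mul, one_mul] at this
    simpa only [Pi.sub_apply, real_inner_self_eq_norm_sq] using this

theorem En_self_le_EE {n : ℕ} {μ : Measure X} {C : ℝ} (hU : Up n μ C) (hC : 0 < C) {ψ : X → F}
    {L : ℝ≥0} (hψ : LipschitzWith L ψ) {x : X} {ρ : ℝ} (hz : ∀ y, ρ ≤ dist y x → ψ y = 0)
    {w : ℝ → ℝ} (hw : Measurable w) (hw0 : ∀ t, 0 ≤ w t) (hw1 : ∀ t, w t ≤ 1) :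
    0 ≤ En n μ w ψ ψ ∧ En n μ w ψ ψ ≤ EE n μ ψ := by
  have h0 : ∀ p : X × X, 0 ≤ w ‖p.1 - p.2‖ * (J n (p.1 - p.2) * ⟪ψ p.1 - ψ p.2, ψ p.1 - ψ p.2⟫) :=
    fun p => mul_nonneg (hw0 _) (mul_nonneg (J_nonneg _ _) real_inner_self_nonneg)
  refine ⟨integral_nonneg h0, integral_mono_of_nonneg (ae_of_all _ h0) (EE_integrable hU hC hψ hz)
    (ae_of_all _ fun p => ?_)⟩
  simp only [real_inner_self_eq_norm_sq]
  exact mul_le_of_le_one_left (mul_nonneg (J_nonneg _ _) (sq_nonneg _)) (hw1 _)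

/-- Cauchy-Schwarz; on the support of the integrand both points lie in `ball x (ρ + R)`. -/
theorem En_cs {n : ℕ} {μ : Measure X} {C : ℝ} (hU : Up n μ C) (hC : 0 < C) {u ψ : X → F}
    (hu : LocLip u) {L : ℝ≥0} (hψ : LipschitzWith L ψ) {x : X} {ρ : ℝ}
    (hz : ∀ y, ρ ≤ dist y x → ψ y = 0) {w : ℝ → ℝ} (hw : Measurable w) (hw0 : ∀ t, 0 ≤ w t)
    (hw1 : ∀ t, w t ≤ 1) {R : ℝ} (hwR : ∀ t, R ≤ t → w t = 0) :
    |En n μ w u ψ| ≤ √(LE n μ u x (ρ + R)) * √(En n μ w ψ ψ) := by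
  have hm := (measurableSet_ball (x := x) (ε := ρ + R)).prod
    (measurableSet_ball (x := x) (ε := ρ + R))
  have h1 := fun t => (abs_of_nonneg (hw0 t)).trans_le (hw1 t)
  rw [LE, ← integral_indicator hm]
  refine ann_cs ((LE_integrable hU hC hu x _).integrable_indicator hm)
    (En_integrable hU hC (locLip_of_lipschitz hψ) hψ hz hw h1 hwR)
    (En_integrable hU hC hu hψ hz hw h1 hwR) fun p => ⟨indicator_nonneg
      (fun p _ => mul_nonneg (J_nonneg _ _) (sq_nonneg _)) _,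
      mul_nonneg (hw0 _) (mul_nonneg (J_nonneg _ _) real_inner_self_nonneg), ?_⟩
  by_cases h2 : p ∈ ball x (ρ + R) ×ˢ ball x (ρ + R)
  · have h3 := real_inner_mul_inner_self_le (u p.1 - u p.2) (ψ p.1 - ψ p.2)
    have h4 := mul_le_of_le_one_left (hw0 ‖p.1 - p.2‖) (hw1 ‖p.1 - p.2‖)
    rw [indicator_of_mem h2, ← real_inner_self_eq_norm_sq]
    exact le_of_eq_of_le (by ring) ((mul_le_mul_of_nonneg_left (mul_le_mul h4 h3 (mul_self_nonneg _)
      (hw0 _)) (mul_self_nonneg (J n (p.1 - p.2)))).trans_eq (by ring))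
  · rw [indicator_of_notMem h2, zero_mul]
    rcases le_or_gt R ‖p.1 - p.2‖ with h3 | h3
    · simp [hwR _ h3]
    · have h4 := not_or.1 fun h4 => h2 (form_both h3 h4)
      simp [hz _ (not_lt.1 h4.1), hz _ (not_lt.1 h4.2)]

/-- Symmetrisation (`integral_prod_swap`). -/
theorem En_sym1 {n : ℕ} {μ : Measure X} [SFinite μ] {w : ℝ → ℝ} {u ψ : X → F}
    (h : Integrable (fun p : X × X =>
      w ‖p.1 - p.2‖ * (J n (p.1 - p.2) * ⟪u p.1 - u p.2, ψ p.1⟫)) (μ.prod μ)) :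
    En n μ w u ψ =
      2 * ∫ p : X × X, w ‖p.1 - p.2‖ * (J n (p.1 - p.2) * ⟪u p.1 - u p.2, ψ p.1⟫) ∂(μ.prod μ) := by
  have h1 := integral_prod_swap (μ := μ) (ν := μ) fun p : X × X =>
    w ‖p.1 - p.2‖ * (J n (p.1 - p.2) * ⟪u p.1 - u p.2, ψ p.1⟫)
  rw [two_mul]
  nth_rw 2 [← h1]
  refine (integral_congr_ae (ae_of_all _ fun p => ?_)).trans (integral_add h h.swap)
  simp only [Function.comp, Prod.fst_swap, Prod.snd_swap, norm_sub_rev p.2, J_sub_comm n p.2,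
    inner_sub_left, inner_sub_right]
  ring

theorem En_sym2 {n : ℕ} {μ : Measure X} [SFinite μ] {w : ℝ → ℝ} {u ψ : X → F}
    (h : Integrable (fun p : X × X =>
      w ‖p.1 - p.2‖ * (J n (p.1 - p.2) * ⟪u p.1, ψ p.1 - ψ p.2⟫)) (μ.prod μ)) :
    En n μ w u ψ =
      2 * ∫ p : X × X, w ‖p.1 - p.2‖ * (J n (p.1 - p.2) * ⟪u p.1, ψ p.1 - ψ p.2⟫) ∂(μ.prod μ) := by
  have h1 := integral_prod_swap (μ := μ) (ν := μ) fun p : X × X =>
    w ‖p.1 - p.2‖ * (J n (p.1 - p.2) * ⟪u p.1, ψ p.1 - ψ p.2⟫)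
  rw [two_mul]
  nth_rw 2 [← h1]
  refine (integral_congr_ae (ae_of_all _ fun p => ?_)).trans (integral_add h h.swap)
  simp only [Function.comp, Prod.fst_swap, Prod.snd_swap, norm_sub_rev p.2, J_sub_comm n p.2,
    inner_sub_left, inner_sub_right]
  ring

theorem En_sub_w {n : ℕ} {μ : Measure X} {C : ℝ} (hU : Up n μ C) (hC : 0 < C) {u ψ : X → F}
    (hu : LocLip u) {L : ℝ≥0} (hψ : LipschitzWith L ψ) {x : X} {ρ : ℝ}
    (hz : ∀ y, ρ ≤ dist y x → ψ y = 0) {R s : ℝ} (hR : 0 < R) (hs : 0 < s) :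
    En n μ (fun t => cut R t - cut s t) u ψ = En n μ (cut R) u ψ - En n μ (cut s) u ψ := by
  have h := fun (R : ℝ) (hR : 0 < R) => En_integrable hU hC hu hψ hz (continuous_cut R).measurable
    (fun t => (abs_of_nonneg (cut_nonneg R t)).trans_le (cut_le_one R t))
    fun t ht => cut_eq_zero hR ht
  simp only [En, sub_mul]
  exact integral_sub (h R hR) (h s hs)

theorem En_sub_right {n : ℕ} {μ : Measure X} {C : ℝ} (hU : Up n μ C) (hC : 0 < C)
    {u ψ ψ' : X → F} (hu : LocLip u) {L L' : ℝ≥0} (hψ : LipschitzWith L ψ)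
    (hψ' : LipschitzWith L' ψ') {x : X} {ρ : ℝ} (hz : ∀ y, ρ ≤ dist y x → ψ y = 0)
    (hz' : ∀ y, ρ ≤ dist y x → ψ' y = 0) {w : ℝ → ℝ} (hw : Measurable w) (hw1 : ∀ t, |w t| ≤ 1)
    {R : ℝ} (hwR : ∀ t, R ≤ t → w t = 0) :
    En n μ w u (fun y => ψ y - ψ' y) = En n μ w u ψ - En n μ w u ψ' := by
  refine (integral_congr_ae (ae_of_all _ fun p => ?_)).trans (integral_sub
    (En_integrable hU hC hu hψ hz hw hw1 hwR) (En_integrable hU hC hu hψ' hz' hw hw1 hwR))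
  simp only [inner_sub_right]
  ring

theorem En_sub_left {n : ℕ} {μ : Measure X} {C : ℝ} (hU : Up n μ C) (hC : 0 < C)
    {u u' ψ : X → F} (hu : LocLip u) (hu' : LocLip u') {L : ℝ≥0} (hψ : LipschitzWith L ψ)
    {x : X} {ρ : ℝ} (hz : ∀ y, ρ ≤ dist y x → ψ y = 0) {w : ℝ → ℝ} (hw : Measurable w)
    (hw1 : ∀ t, |w t| ≤ 1) {R : ℝ} (hwR : ∀ t, R ≤ t → w t = 0) :
    En n μ w (fun y => u y - u' y) ψ = En n μ w u ψ - En n μ w u' ψ := by
  refine (integral_congr_ae (ae_of_all _ fun p => ?_)).trans (integral_sub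
    (En_integrable hU hC hu hψ hz hw hw1 hwR) (En_integrable hU hC hu' hψ hz hw hw1 hwR))
  simp only [inner_sub_left]
  ring

theorem En_smul_right (n : ℕ) (μ : Measure X) (w : ℝ → ℝ) (u ψ : X → F) (c : ℝ) :
    En n μ w u (fun y => c • ψ y) = c * En n μ w u ψ := by
  refine (integral_congr_ae (ae_of_all _ fun p => ?_)).trans (integral_const_mul c _)
  simp only [← smul_sub, real_inner_smul_right]
  ring

theorem En_smul_left (n : ℕ) (μ : Measure X) (w : ℝ → ℝ) (u ψ : X → F) (c : ℝ) :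
    En n μ w (fun y => c • u y) ψ = c * En n μ w u ψ := by
  refine (integral_congr_ae (ae_of_all _ fun p => ?_)).trans (integral_const_mul c _)
  simp only [← smul_sub, real_inner_smul_left]
  ring

theorem En_sub_const (n : ℕ) (μ : Measure X) (w : ℝ → ℝ) (u ψ : X → F) (m : F) :
    En n μ w (fun y => u y - m) ψ = En n μ w u ψ := by
  simp only [En, sub_sub_sub_cancel_right]

theorem EE_smul (n : ℕ) (μ : Measure X) (ψ : X → F) (c : ℝ) :
    EE n μ (fun y => c • ψ y) = c ^ 2 * EE n μ ψ := by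
  refine (integral_congr_ae (ae_of_all _ fun p => ?_)).trans (integral_const_mul _ _)
  simp only [← smul_sub, norm_smul, mul_pow, Real.norm_eq_abs, sq_abs]
  ring

theorem Test.mono {μ : Measure X} {ψ : X → F} {x x' : X} {ρ ρ' : ℝ} (h : Test μ ψ x ρ)
    (hρ : dist x x' + ρ ≤ ρ') : Test μ ψ x' ρ' := by
  exact ⟨h.lip, fun y hy => h.zero y (by linarith [dist_triangle y x x']), h.mean⟩

theorem Osc.mono {n : ℕ} {μ : Measure X} {u : X → F} {x x' : X} {ρ ρ' D D' : ℝ}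
    (h : Osc n μ u x' ρ' D) (hρ : dist x x' + ρ ≤ ρ') (hD : D ≤ D') : Osc n μ u x ρ D' := by
  intro ψ hψ η hη
  obtain ⟨R0, h1⟩ := h ψ (hψ.mono hρ) η hη
  refine ⟨R0, fun R hR => (h1 R hR).trans ?_⟩
  gcongr
  exact EE_nonneg n μ ψ

theorem Ref.osc {n : ℕ} {μ : Measure X} (h : Ref n μ) (x : X) (ρ : ℝ) :
    Osc n μ (fun y : X => y) x ρ 0 := by
  exact (h _).mono le_rfl le_rfl

/-- `En (cut s) u ψ → 0` as `s → 0` (by `En_cs` and `En_near_le`), so bounds for the doubly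
truncated form give the equation. -/
theorem osc_zero_of_trunc {n : ℕ} {μ : Measure X} {C : ℝ} (hU : Up n μ C) (hC : 0 < C)
    {u : X → F} (hu : LocLip u) {x : X} {ρ : ℝ}
    (h : ∀ ψ : X → F, Test μ ψ x ρ → ∀ η : ℝ, 0 < η → ∃ R0 : ℝ, ∀ R : ℝ, R0 ≤ R →
      ∃ s0 : ℝ, 0 < s0 ∧ ∀ s : ℝ, 0 < s → s ≤ s0 →
        |En n μ (fun t => cut R t - cut s t) u ψ| ≤ η) :
    Osc n μ u x ρ 0 := by
  intro ψ hψ η hη
  obtain ⟨R0, h1⟩ := h ψ hψ _ (half_pos hη)
  obtain ⟨L, hL⟩ := hψ.lip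
  obtain ⟨Cf, hCf, h2⟩ := En_near_le (X := X) (F := F) n hC
  refine ⟨max R0 1, fun R hR => ?_⟩
  obtain ⟨s0, hs0, h3⟩ := h1 R ((le_max_left _ _).trans hR)
  have hc : Continuous fun s => √(LE n μ u x (ρ + 2)) * √(Cf * L ^ 2 * max ρ 1 ^ n * s) := by
    fun_prop
  obtain ⟨s, ⟨h4, h5⟩, hs⟩ := ((((hc.tendsto' 0 0 (by simp)).eventually
    (gt_mem_nhds (half_pos hη))).and (eventually_le_nhds (lt_min hs0 one_pos))).filter_mono
      (nhdsWithin_le_nhds (s := Ioi 0))).and self_mem_nhdsWithin |>.exists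
  have h6 := h3 s hs (h5.trans (min_le_left _ _))
  have h7 := En_cs hU hC hu hL hψ.zero (continuous_cut s).measurable (cut_nonneg s) (cut_le_one s)
    fun t ht => cut_eq_zero hs ht
  have h8 := h2 μ hU ψ L hL x (max ρ 1) (lt_max_of_lt_right one_pos)
    (fun y hy => hψ.zero y ((le_max_left _ _).trans hy)) s hs
  have h9 := LE_mono hU hC hu (ball_subset_ball (x := x) (ε₁ := ρ + 2 * s) (ε₂ := ρ + 2)
    (by linarith [min_le_right s0 1]))
  rw [En_sub_w hU hC hu hL hψ.zero (one_pos.trans_le ((le_max_right _ _).trans hR)) hs] at h6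
  grw [h8, h9] at h7
  rw [zero_mul, Real.sqrt_zero, zero_add]
  linarith [abs_sub_abs_le_abs_sub (En n μ (cut R) u ψ) (En n μ (cut s) u ψ)]

end Vale.Agent.P120
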