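import Vale.Agent.P120.ND

/-!
Planes as graphs; neighbouring flat balls have close planes.
-/

open MeasureTheory Metric Set Filter Topology
open scoped RealInnerProductSpace ENNReal NNReal

noncomputable section

namespace Vale.Agent.P120

variable {X : Type} [NormedAddCommGroup X] [InnerProductSpace ℝ X] [FiniteDimensional ℝ X]
  [MeasurableSpace X] [BorelSpace X]
variable {F : Type} [NormedAddCommGroup F] [InnerProductSpace ℝ F] [FiniteDimensional ℝ F]

omit [MeasurableSpace X] [BorelSpace X] in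
theorem geo_Pr_Nm (V : Submodule ℝ X) (y : X) : Pr V (Nm V y) = 0 :=
  Submodule.orthogonalProjectionOnto_eq_zero_iff.2 (Submodule.starProjection_apply_mem _ _)

omit [MeasurableSpace X] [BorelSpace X] in
theorem geo_Pr_coe (V : Submodule ℝ X) (v : V) : Pr V (v : X) = v :=
  Submodule.orthogonalProjectionOnto_mem_subspace_eq_self v

/-- `Pr V` restricted to `W` is injective by the cone condition, hence bijective
(`LinearMap.injective_iff_surjective_of_finrank_eq_finrank`); `M = Nm V ∘ inverse`,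
`a = Nm V p - M (Pr V p)`. For the last bound write `y - p = w + z`, `w ∈ W`, `z = Nm W (y - p)`. -/
theorem graph {V W : Submodule ℝ X} (h : Module.finrank ℝ V = Module.finrank ℝ W) {τ : ℝ}
    (hτ : 0 ≤ τ) (hc : Cone V τ W) (p : X) : ∃ (a : X) (M : V →L[ℝ] X), ‖M‖ ≤ τ ∧
      (∀ w ∈ W, Nm V w = M (Pr V w)) ∧ (∀ v : V, Pr V (M v) = 0) ∧ (∀ v : V, (v : X) + M v ∈ W) ∧
      ∀ y, ‖Nm V y - (a + M (Pr V y))‖ ≤ (1 + τ) * ‖Nm W (y - p)‖ := by
  let f : W →ₗ[ℝ] V := (Pr V).toLinearMap ∘ₗ W.subtype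
  have hf : ∀ w : W, f w = Pr V w := fun _ => rfl
  have hinj : Function.Injective f := by
    refine (injective_iff_map_eq_zero f).2 fun w hw => ?_
    rw [hf] at hw
    have h1 := hc w w.2
    rw [hw, norm_zero, mul_zero] at h1
    have h2 := Pr_add_Nm V w
    rw [hw, norm_le_zero_iff.1 h1] at h2
    exact Subtype.ext (by simpa using h2.symm)
  let e : W ≃ₗ[ℝ] V := LinearMap.linearEquivOfInjective f hinj h.symm
  have he : ∀ w : W, e w = Pr V w := fun _ => rfl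
  let M : V →L[ℝ] X :=
    LinearMap.toContinuousLinearMap ((Nm V).toLinearMap ∘ₗ W.subtype ∘ₗ e.symm.toLinearMap)
  have hM : ∀ v : V, M v = Nm V (e.symm v : W) := fun _ => rfl
  have hP : ∀ v : V, Pr V (e.symm v : W) = v := fun v => by rw [← he, e.apply_symm_apply]
  have h1 : ‖M‖ ≤ τ := M.opNorm_le_bound hτ fun v => by
    have := hc _ (e.symm v).2
    rwa [hP, ← hM] at this
  have h2 : ∀ w ∈ W, Nm V w = M (Pr V w) := fun w hw => by
    rw [hM, ← he ⟨w, hw⟩, e.symm_apply_apply]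
  refine ⟨Nm V p - M (Pr V p), M, h1, h2, fun v => by rw [hM, geo_Pr_Nm], fun v => ?_, fun y => ?_⟩
  · have := Pr_add_Nm V (e.symm v : W)
    rw [hP, ← hM] at this
    rw [this]
    exact (e.symm v).2
  · have a1 : Nm V y - (Nm V p - M (Pr V p) + M (Pr V y)) =
        Nm V (y - p) - M (Pr V (y - p)) := by
      rw [map_sub, map_sub, map_sub]
      abel
    have a2 : Nm V (y - p) - M (Pr V (y - p)) =
        Nm V (Nm W (y - p)) - M (Pr V (Nm W (y - p))) := by
      conv_lhs => rw [← Pr_add_Nm W (y - p)]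
      rw [map_add, map_add, map_add, h2 _ (Pr W (y - p)).2]
      abel
    rw [a1, a2]
    refine (norm_sub_le _ _).trans ?_
    have a3 := norm_Nm_le V (Nm W (y - p))
    have a4 := M.le_of_opNorm_le_of_le h1 (norm_Pr_le V (Nm W (y - p)))
    linarith

theorem cone_self (V : Submodule ℝ X) {τ : ℝ} (hτ : 0 ≤ τ) : Cone V τ V := by
  intro w hw
  rw [(Nm_eq_zero_iff V w).2 hw, norm_zero]
  positivity

theorem geo_int {n : ℕ} {μ : Measure X} {x : X} {r : ℝ} {V : Submodule ℝ X} {p : X} {β : ℝ}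
    (h : Flat n μ x r V p β) (hr : 0 < r) :
    ∫ y in ball x r, ‖Nm V (y - p)‖ ^ 2 ∂μ ≤ β * r ^ 2 * r ^ n := by
  have := h r le_rfl
  rwa [div_self hr.ne', Real.one_rpow, mul_one] at this

theorem geo_sq {n : ℕ} {μ : Measure X} {C C' θ r r' b b' : ℝ} (hU : Up n μ C) (hC' : 0 < C')
    (hθ : 0 < θ) (hr : 0 < r) (h1 : θ * r ≤ r') (h2 : r' ≤ r) {x : X} {V W W' : Submodule ℝ X}
    {p p' : X} (f1 : Flat n μ x r W p b) (f2 : Flat n μ x r' W' p' b') {a : X} {T : V →L[ℝ] X}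
    (hp : ∀ y, ‖a + T (Pr V y)‖ ≤ 2 * ‖Nm W (y - p)‖ + 2 * ‖Nm W' (y - p')‖) {z : ℝ}
    (hz : z * r' ^ n ≤ C' * ∫ y in ball x r', ‖a + T (Pr V y)‖ ^ 2 ∂μ) :
    z ≤ 8 * C' / θ ^ n * (b + b') * r ^ 2 := by
  haveI := hU.locFin
  have hr' : 0 < r' := (mul_pos hθ hr).trans_le h1
  have hθ1 : θ ≤ 1 := by nlinarith
  have c1 : Continuous fun y => ‖Nm W (y - p)‖ ^ 2 := by fun_prop
  have c2 : Continuous fun y => ‖Nm W' (y - p')‖ ^ 2 := by fun_prop
  have c3 : Continuous fun y => ‖a + T (Pr V y)‖ ^ 2 := by fun_prop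
  have i1 := integrableOn_ball_of_continuous (μ := μ) c1 x r'
  have i2 := integrableOn_ball_of_continuous (μ := μ) c2 x r'
  have a1 : ∫ y in ball x r', ‖a + T (Pr V y)‖ ^ 2 ∂μ ≤
      ∫ y in ball x r', 8 * (‖Nm W (y - p)‖ ^ 2 + ‖Nm W' (y - p')‖ ^ 2) ∂μ := by
    refine integral_mono (integrableOn_ball_of_continuous c3 x r') ((i1.add i2).const_mul 8)
      fun y => ?_
    have b1 := pow_le_pow_left₀ (norm_nonneg _) (hp y) 2
    nlinarith [sq_nonneg (‖Nm W (y - p)‖ - ‖Nm W' (y - p')‖)]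
  rw [integral_const_mul, integral_add i1 i2] at a1
  have a2 : ∫ y in ball x r', ‖Nm W (y - p)‖ ^ 2 ∂μ ≤ ∫ y in ball x r, ‖Nm W (y - p)‖ ^ 2 ∂μ :=
    setIntegral_mono_set (integrableOn_ball_of_continuous c1 x r)
      (Eventually.of_forall fun y => by positivity) (ball_subset_ball h2).eventuallyLE
  have a3 := geo_int f1 hr
  have a4 := geo_int f2 hr'
  have b0 := f1.nonneg hr
  have b0' := f2.nonneg hr'
  have a5 : r ^ n ≤ r' ^ n / θ ^ n := by
    rw [← div_pow]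
    exact pow_le_pow_left₀ hr.le ((le_div_iff₀' hθ).2 h1) n
  have a6 : r' ^ n ≤ r' ^ n / θ ^ n :=
    le_div_self (by positivity) (by positivity) (pow_le_one₀ hθ.le hθ1)
  have a7 : b * r ^ 2 * r ^ n ≤ b * r ^ 2 * (r' ^ n / θ ^ n) := by gcongr
  have a8 : b' * r' ^ 2 * r' ^ n ≤ b' * r ^ 2 * (r' ^ n / θ ^ n) := by gcongr
  have a9 : z * r' ^ n ≤
      C' * (8 * (b * r ^ 2 * (r' ^ n / θ ^ n) + b' * r ^ 2 * (r' ^ n / θ ^ n))) :=
    hz.trans (mul_le_mul_of_nonneg_left (by linarith) hC'.le)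
  refine le_of_mul_le_mul_right (a9.trans (le_of_eq ?_)) (pow_pos hr' n)
  ring

theorem geo_cone {V W' : Submodule ℝ X} (h : Module.finrank ℝ V = Module.finrank ℝ W')
    {M : V →L[ℝ] X} (h1 : ‖M‖ ≤ 1 / 4) (h2 : ∀ v : V, Pr V (M v) = 0)
    (h3 : ∀ v : V, ‖Nm W' (v + M v)‖ ≤ 1 / 6 * ‖v‖) : Cone V (1 / 2) W' := by
  let f : V →ₗ[ℝ] W' := ((Pr W').comp (V.subtypeL + M)).toLinearMap
  have hf : ∀ v : V, f v = Pr W' (v + M v) := fun _ => rfl
  have a1 : ∀ v : V, Pr V (v + M v) = v := fun v => by rw [map_add, geo_Pr_coe, h2, add_zero]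
  have hinj : Function.Injective f := by
    refine (injective_iff_map_eq_zero f).2 fun v hv => ?_
    have b1 := Pr_add_Nm W' (v + M v)
    rw [← hf, hv, Submodule.coe_zero, zero_add] at b1
    have b2 := norm_Pr_le V (v + M v)
    have b3 := h3 v
    rw [a1] at b2
    rw [b1] at b3
    exact norm_le_zero_iff.1 (by linarith)
  have hsur := (LinearMap.injective_iff_surjective_of_finrank_eq_finrank h).1 hinj
  intro w hw
  obtain ⟨v, hv⟩ := hsur ⟨w, hw⟩
  have b1 : w = v + M v - Nm W' (v + M v) := by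
    have := Pr_add_Nm W' (v + M v)
    rw [← hf, hv] at this
    exact eq_sub_of_add_eq this
  have b2 : Nm V w = Nm V (M v) - Nm V (Nm W' (v + M v)) := by
    conv_lhs => rw [b1]
    rw [map_sub, map_add, (Nm_eq_zero_iff V v).2 v.2, zero_add]
  have b3 : Pr V w = v - Pr V (Nm W' (v + M v)) := by
    conv_lhs => rw [b1]
    rw [map_sub, a1]
  have c1 := norm_Nm_le V (M v)
  have c2 := norm_Nm_le V (Nm W' (v + M v))
  have c3 := norm_Pr_le V (Nm W' (v + M v))
  have c4 := M.le_of_opNorm_le h1 v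
  have c5 := h3 v
  have c6 := norm_sub_le (Nm V (M v)) (Nm V (Nm W' (v + M v)))
  have c7 := norm_sub_norm_le v (Pr V (Nm W' (v + M v)))
  rw [b2, b3]
  linarith

/-- `(a, M)` from `graph` for `W`. Apply `ndmu` at `(x', θ r)` (sup bound from `flat_sup` with
`Λ = 3`) to the affine map `q ↦ Nm W' (q + a + M q - p')`, whose value at `Pr V y` is at most
`‖Nm W' (y - p')‖ + (5/4) ‖Nm W (y - p)‖`. By `affine_bound`, `‖Nm W' (v + M v)‖ ≤ ‖v‖/6`. Then
`v ↦ Pr W' (v + M v)` is injective, so onto `W'`, and every `w ∈ W'` is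
`v + M v - Nm W' (v + M v)`: `‖Nm V w‖ ≤ (1/4 + 1/6)‖v‖`, `‖Pr V w‖ ≥ (5/6)‖v‖`. -/
theorem cone_child (n : ℕ) {C θ : ℝ} (hC : 0 < C) (hθ : 0 < θ) (hθ1 : θ ≤ 1) :
    ∃ ε : ℝ, 0 < ε ∧ ∀ (μ : Measure X) (x x' : X) (r : ℝ), 0 < r → Up n μ C →
    Low n μ C x (4 * r) → x' ∈ μ.support → dist x' x ≤ 2 * r → ∀ (V W W' : Submodule ℝ X)
    (p p' : X), Module.finrank ℝ V = n → Module.finrank ℝ W = n → Module.finrank ℝ W' = n →
    Flat n μ x r W p ε → Flat n μ x' (θ * r) W' p' ε → Cone V (1 / 4) W → Cone V (1 / 2) W' := by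
  obtain ⟨η, C', hη, hC', hnd⟩ := ndmu (X := X) (F := X) n hC
  obtain ⟨ε1, hε1, hsup⟩ := flat_sup (X := X) n (Λ := 3) (η := η * θ / 2) hC (by norm_num)
    (by positivity)
  obtain ⟨ε, hε, e1, e2⟩ : ∃ ε : ℝ, 0 < ε ∧ ε ≤ ε1 ∧
      ε ≤ (θ / 6) ^ 2 / (8 * C' / θ ^ n * (3 ^ (n + 3) + 1)) :=
    ⟨min _ _, by positivity, min_le_left _ _, min_le_right _ _⟩
  refine ⟨ε, hε, fun μ x x' r hr hU hL hx' hd V W W' p p' hV hW hW' f1 f2 hc => ?_⟩
  obtain ⟨a, M, m1, -, m3, -, m5⟩ := graph (hV.trans hW.symm) (by norm_num) hc p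
  have hθr : θ * r ≤ r := by nlinarith
  have hr' : 0 < θ * r := mul_pos hθ hr
  let T : V →L[ℝ] X := (Nm W').comp (V.subtypeL + M)
  have hT : ∀ v : V, T v = Nm W' (v + M v) := fun _ => rfl
  have key : ∀ q : V, dist q (Pr V x') ≤ θ * r → ‖Nm W' (a - p') + T q‖ ≤ θ * r / 6 := by
    intro q hq
    have b1 := hnd μ hU x' (θ * r) hr' (hL x' hx' (by linarith) _ hr' (by linarith)) V hV a M
      (by linarith) (fun y hy hy' => by
        have c1 := hsup μ hU x r hr (by rwa [show (3 + 1 : ℝ) = 4 by norm_num]) W p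
          (f1.mono hr e1) y hy (by linarith [dist_triangle y x' x])
        have c2 := m5 y
        have c3 := mul_pos hη hr'
        linarith) (Nm W' (a - p')) T q hq
    have b2 := geo_sq hU hC' hθ hr le_rfl hθr (f1.center hU hr (Λ := 2) (by norm_num) hd) f2
      (fun y => by
        have c1 : Nm W' (a - p') + T (Pr V y) =
            Nm W' (y - p') - Nm W' (Nm V y - (a + M (Pr V y))) := by
          rw [hT, ← map_add, ← map_sub]
          congr 1
          have := Pr_add_Nm V y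
          rw [← sub_eq_zero] at this ⊢
          rw [← this]
          abel
        rw [c1]
        have c2 := norm_sub_le (Nm W' (y - p')) (Nm W' (Nm V y - (a + M (Pr V y))))
        have c3 := norm_Nm_le W' (Nm V y - (a + M (Pr V y)))
        have c4 := m5 y
        have c5 := norm_nonneg (Nm W (y - p))
        have c6 := norm_nonneg (Nm W' (y - p'))
        linarith) b1
    rw [le_div_iff₀ (by positivity)] at e2
    refine (pow_le_pow_iff_left₀ (norm_nonneg _) (by positivity) two_ne_zero).1 (b2.trans ?_)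
    have b3 := mul_le_mul_of_nonneg_right e2 (sq_nonneg r)
    rw [show (1 + 2 : ℝ) = 3 by norm_num]
    linarith
  have b4 := (affine_bound _ T _ hr' key).1
  refine geo_cone (hV.trans hW'.symm) m1 m3 fun v => ?_
  rw [← hT]
  refine T.le_of_opNorm_le (b4.trans (le_of_eq ?_)) v
  field_simp

/-- `ndmu` at `(x', r')` with reference map `(a', M')` (sup bound from `flat_sup` with `Λ = 1`,
`Low.mono`), applied to the difference of the two affine maps; `ball x' r' ⊆ ball x ((Λ+1) r)`;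
then `affine_bound`. -/
theorem aff_close (n : ℕ) {C θ Λ : ℝ} (hC : 0 < C) (hθ : 0 < θ) (hΛ : 1 ≤ Λ) :
    ∃ ε C6 : ℝ, 0 < ε ∧ 0 < C6 ∧ ∀ (μ : Measure X) (x x' : X) (r r' : ℝ), 0 < r → θ * r ≤ r' →
    r' ≤ r → Up n μ C → Low n μ C x ((Λ + 3) * r) → x' ∈ μ.support → dist x' x ≤ Λ * r →
    ∀ (V W W' : Submodule ℝ X) (p p' : X) (β β' : ℝ), Module.finrank ℝ V = n → β' ≤ ε →
    Flat n μ x r W p β → Flat n μ x' r' W' p' β' → ∀ (a a' : X) (M M' : V →L[ℝ] X), ‖M'‖ ≤ 1 →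
    (∀ y, ‖Nm V y - (a + M (Pr V y))‖ ≤ 2 * ‖Nm W (y - p)‖) →
    (∀ y, ‖Nm V y - (a' + M' (Pr V y))‖ ≤ 2 * ‖Nm W' (y - p')‖) →
    ∀ q : V, dist q (Pr V x) ≤ Λ * r →
      ‖(a + M q) - (a' + M' q)‖ ^ 2 ≤ C6 * (β + β') * r ^ 2 := by
  obtain ⟨η, C', hη, hC', hnd⟩ := ndmu (X := X) (F := X) n hC
  obtain ⟨ε, hε, hsup⟩ := flat_sup (X := X) n (Λ := 1) (η := η / 2) hC (by norm_num)
    (by positivity)
  refine ⟨ε, (1 + 2 * Λ / θ) ^ 2 * (8 * C' / θ ^ n * (1 + Λ) ^ (n + 3)), hε, by positivity,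
    fun μ x x' r r' hr h1 h2 hU hL hx' hd V W W' p p' β β' hV hβ' f1 f2 a a' M M' m1 m2 m3 q hq
      => ?_⟩
  have hr' : 0 < r' := (mul_pos hθ hr).trans_le h1
  have hΛr : r ≤ Λ * r := le_mul_of_one_le_left hr.le hΛ
  have b0 := f1.nonneg hr
  have b0' := f2.nonneg hr'
  obtain ⟨S, hS0, hS⟩ : ∃ S : ℝ, 0 ≤ S ∧
      S ^ 2 = 8 * C' / θ ^ n * (1 + Λ) ^ (n + 3) * (β + β') * r ^ 2 :=
    ⟨√_, Real.sqrt_nonneg _, Real.sq_sqrt (by positivity)⟩
  have key : ∀ q : V, dist q (Pr V x') ≤ r' → ‖(a - a') + (M - M') q‖ ≤ S := by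
    intro q hq
    have b1 := hnd μ hU x' r' hr' (hL x' hx' (by linarith) _ hr' (by linarith)) V hV a' M'
      m1 (fun y hy hy' => by
        have c1 := hsup μ hU x' r' hr' (hL.mono (by linarith)) W' p'
          (f2.mono hr' hβ') y hy (by linarith)
        have c2 := m3 y
        linarith) (a - a') (M - M') q hq
    have b2 := geo_sq hU hC' hθ hr h1 h2 (f1.center hU hr (by linarith) hd) f2
      (fun y => by
        have c1 : a - a' + (M - M') (Pr V y) =
            (Nm V y - (a' + M' (Pr V y))) - (Nm V y - (a + M (Pr V y))) := by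
          rw [ContinuousLinearMap.sub_apply]
          abel
        rw [c1]
        linarith [norm_sub_le (Nm V y - (a' + M' (Pr V y))) (Nm V y - (a + M (Pr V y))), m2 y,
          m3 y]) b1
    refine (pow_le_pow_iff_left₀ (norm_nonneg _) hS0 two_ne_zero).1 (b2.trans ?_)
    have b3 : β' ≤ (1 + Λ) ^ (n + 3) * β' :=
      le_mul_of_one_le_left b0' (one_le_pow₀ (by linarith))
    have b4 : 8 * C' / θ ^ n * ((1 + Λ) ^ (n + 3) * β + β') * r ^ 2 ≤
        8 * C' / θ ^ n * ((1 + Λ) ^ (n + 3) * β + (1 + Λ) ^ (n + 3) * β') * r ^ 2 := by gcongr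
    rw [hS]
    linarith
  have b4 := (affine_bound _ _ _ hr' key).2 q
  have b5 : dist q (Pr V x') / r' ≤ 2 * Λ / θ := by
    have c1 : dist (Pr V x) (Pr V x') ≤ Λ * r := by
      rw [dist_eq_norm, ← map_sub]
      refine (norm_Pr_le V _).trans ?_
      rwa [← dist_eq_norm, dist_comm]
    have c2 := dist_triangle q (Pr V x) (Pr V x')
    rw [div_le_div_iff₀ hr' hθ]
    have c3 := mul_le_mul_of_nonneg_right (show dist q (Pr V x') ≤ 2 * Λ * r by linarith) hθ.le
    have c4 := mul_le_mul_of_nonneg_left h1 (show 0 ≤ 2 * Λ by linarith)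
    linarith
  have b6 : a + M q - (a' + M' q) = a - a' + (M - M') q := by
    rw [ContinuousLinearMap.sub_apply]
    abel
  have b7 := pow_le_pow_left₀ (norm_nonneg _)
    (b4.trans (mul_le_mul_of_nonneg_right (add_le_add le_rfl b5) hS0)) 2
  rw [mul_pow, hS] at b7
  rw [b6]
  linarith

end Vale.Agent.P120
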