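import Vale.Agent.P120.Form

/-!
The functional `ψ ↦ En 1 id ψ` is bounded on L2; Poincare inequalities.
-/

open MeasureTheory Metric Set Filter Topology
open scoped RealInnerProductSpace ENNReal NNReal

noncomputable section

namespace Vale.Agent.P120

variable {X : Type} [NormedAddCommGroup X] [InnerProductSpace ℝ X] [FiniteDimensional ℝ X]
  [MeasurableSpace X] [BorelSpace X]
variable {F : Type} [NormedAddCommGroup F] [InnerProductSpace ℝ F] [FiniteDimensional ℝ F]

theorem lam_ae {μ : Measure X} [SFinite μ] {W : ℝ} (hμ : μ (closedBall 0 W)ᶜ = 0) :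
    ∀ᵐ p ∂(μ.prod μ), p ∈ closedBall (0 : X) W ×ˢ closedBall (0 : X) W :=
  (Measure.quasiMeasurePreserving_fst.ae (p := fun y => y ∈ closedBall (0 : X) W) hμ).and
    (Measure.quasiMeasurePreserving_snd.ae (p := fun y => y ∈ closedBall (0 : X) W) hμ)

theorem lam_cut {μ : Measure X} [SFinite μ] {W R : ℝ} (hW : 0 < W)
    (hμ : μ (closedBall 0 W)ᶜ = 0) (hR : 2 * W ≤ R) :
    ∀ᵐ p : X × X ∂(μ.prod μ), cut R ‖p.1 - p.2‖ = 1 :=
  (lam_ae hμ).mono fun p hp => cut_eq_one (by linarith) (by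
    linarith [norm_sub_le p.1 p.2, mem_closedBall_zero_iff.1 hp.1, mem_closedBall_zero_iff.1 hp.2])

theorem lam_int {μ : Measure X} [IsLocallyFiniteMeasure μ] {W : ℝ}
    (hμ : μ (closedBall 0 W)ᶜ = 0) {h : X × X → ℝ} (hh : Continuous h) :
    Integrable h (μ.prod μ) := by
  rw [← Measure.restrict_eq_self_of_ae_mem (lam_ae hμ)]
  exact hh.continuousOn.integrableOn_compact
    ((isCompact_closedBall 0 W).prod (isCompact_closedBall 0 W))

theorem lam_Ke_cont (n : ℕ) {ε : ℝ} (hε : 0 < ε) : Continuous (Ke n ε : X → X) :=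
  (Continuous.inv₀ (by fun_prop) fun z => by positivity).smul continuous_id

/-- For a measure carried by `closedBall 0 W`, almost every pair has `|a-b| ≤ 2W ≤ R`. -/
theorem En_cut_eq_one {n : ℕ} {μ : Measure X} [SFinite μ] {W R : ℝ} (hW : 0 < W)
    (hμ : μ (closedBall 0 W)ᶜ = 0) (hR : 2 * W ≤ R) (u ψ : X → F) :
    En n μ (cut R) u ψ = En n μ (fun _ => 1) u ψ := by
  exact integral_congr_ae ((lam_cut hW hμ hR).mono fun p hp => by simp only [hp])

/-- `En 1 id ψ = ∬ ⟪K(a-b), ψ a - ψ b⟫` is the limit as `ε → 0` (dominated convergence along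
`ε = 1/(j+1)`, majorant `L J |a-b|²`, see `En_integrable`) of
`∬ ⟪Ke(a-b), ψ a - ψ b⟫ = 2 ∬ ⟪ψ a, Ke (a-b)⟫` (`Ke` is odd and bounded, `μ` finite), and `RB`
with `g = cut W (dist · 0)`, which is `1` almost everywhere, bounds this. -/
theorem lam_bound {n : ℕ} {μ : Measure X} {C : ℝ} (hU : Up n μ C) (hC : 0 < C) (hRB : RB n μ C)
    {W : ℝ} (hW : 0 < W) (hμ : μ (closedBall 0 W)ᶜ = 0) {ψ : X → X} {L : ℝ≥0}
    (hψ : LipschitzWith L ψ) {x : X} {ρ : ℝ} (hz : ∀ y, ρ ≤ dist y x → ψ y = 0) :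
    |En n μ (fun _ => 1) (fun y : X => y) ψ| ≤
      2 * C * √(∫ y, ‖ψ y‖ ^ 2 ∂μ) * √(C * (2 * W) ^ n) := by
  have := hU.locFin
  have h1 : Integrable (fun p : X × X => J n (p.1 - p.2) * ‖p.1 - p.2‖ ^ 2) (μ.prod μ) := by
    rw [← Measure.restrict_eq_self_of_ae_mem (s := ball 0 (2 * W) ×ˢ ball 0 (2 * W))
      ((lam_ae hμ).mono fun p hp => prod_mono (closedBall_subset_ball (by linarith))
        (closedBall_subset_ball (by linarith)) hp)]
    exact LE_integrable hU hC (locLip_of_lipschitz LipschitzWith.id) 0 _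
  have h2 : Tendsto (fun ε => ∫ p : X × X, ⟪Ke n ε (p.1 - p.2), ψ p.1 - ψ p.2⟫ ∂(μ.prod μ))
      (𝓝[>] 0) (𝓝 (En n μ (fun _ => 1) (fun y : X => y) ψ)) := by
    refine tendsto_integral_filter_of_dominated_convergence _
      (eventually_nhdsWithin_of_forall fun ε hε => Continuous.aestronglyMeasurable ?_)
      (Eventually.of_forall fun ε => ae_of_all _ fun p => ?_) (h1.const_mul L)
      (ae_of_all _ fun p => ?_)
    · have := lam_Ke_cont (X := X) n hε
      have := hψ.continuous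
      fun_prop
    · rcases eq_or_ne (p.1 - p.2) 0 with h | h
      · simp [Ke, h]
      · refine (norm_inner_le_norm _ _).trans ((mul_le_mul (b := J n (p.1 - p.2) * ‖p.1 - p.2‖) ?_
          (hψ.norm_sub_le _ _) (norm_nonneg _) (mul_nonneg (J_nonneg _ _)
            (norm_nonneg _))).trans_eq (by ring))
        rw [Ke, norm_smul, Real.norm_of_nonneg (by positivity), J]
        gcongr
        exact Real.le_sqrt_of_sq_le (by nlinarith [sq_nonneg ε])
    · simp only [Ke, real_inner_smul_left, one_mul]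
      rcases eq_or_ne (p.1 - p.2) 0 with h | h
      · simp [h]
      · refine (Tendsto.mul_const _ ?_).mono_left nhdsWithin_le_nhds
        have h3 : Continuous fun ε : ℝ => √(ε ^ 2 + ‖p.1 - p.2‖ ^ 2) ^ (n + 1) := by fun_prop
        exact (h3.tendsto' 0 (‖p.1 - p.2‖ ^ (n + 1)) (by simp)).inv₀ (by positivity)
  refine le_of_tendsto h2.abs (eventually_nhdsWithin_of_forall fun ε hε => ?_)
  have hK := lam_Ke_cont (X := X) n hε
  have hc := hψ.continuous
  have hz' : ∀ y : X, 2 * W ≤ dist y 0 → cut W (dist y 0) = 0 := fun y hy => cut_eq_zero hW hy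
  have h3 := hRB ε hε ψ _ hc (hasCompactSupport_of_zero hz) (lipschitz_cut_dist hW 0).continuous
    (hasCompactSupport_of_zero hz')
  have h4 : ∫ y, cut W (dist y 0) ^ 2 ∂μ ≤ C * (2 * W) ^ n := by
    refine (integral_mono_of_nonneg (ae_of_all _ fun y => sq_nonneg _) (form_ind 0 (2 * W) 1)
      (ae_of_all _ fun y => ?_)).trans
      ((form_ind_le hU hC 0 (by positivity) zero_le_one).trans_eq (mul_one _))
    by_cases hy : y ∈ ball (0 : X) (2 * W)
    · simp only [indicator_of_mem hy]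
      exact pow_le_one₀ (cut_nonneg _ _) (cut_le_one _ _)
    · simp only [indicator_of_notMem hy, hz' y (not_lt.1 hy)]
      norm_num
  have h5 : Integrable (fun p : X × X => ⟪ψ p.1, Ke n ε (p.1 - p.2)⟫) (μ.prod μ) :=
    lam_int hμ (by fun_prop)
  have h6 : ∫ p : X × X, ⟪Ke n ε (p.1 - p.2), ψ p.1 - ψ p.2⟫ ∂(μ.prod μ) =
      2 * ∫ p : X × X, ⟪ψ p.1, Ke n ε (p.1 - p.2)⟫ ∂(μ.prod μ) := by
    rw [two_mul]
    nth_rw 2 [← integral_prod_swap fun p : X × X => ⟪ψ p.1, Ke n ε (p.1 - p.2)⟫]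
    refine (integral_congr_ae (ae_of_all _ fun p => ?_)).trans (integral_add h5 h5.swap)
    simp only [Function.comp, Prod.fst_swap, Prod.snd_swap, Ke, norm_sub_rev p.2,
      real_inner_smul_left, real_inner_smul_right, inner_sub_left, inner_sub_right,
      real_inner_comm (ψ _)]
    ring
  rw [integral_congr_ae (g := fun p : X × X => ⟪ψ p.1, Ke n ε (p.1 - p.2)⟫)
    ((lam_ae hμ).mono fun p hp => by simp only [cut_eq_one hW hp.2, one_mul])] at h3
  grw [h4] at h3
  rw [h6, abs_mul, abs_two]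
  linarith

/-- Additivity of the functional on finite sums of compactly supported Lipschitz maps
(`En_cut_eq_one`, `En_integrable`, `integral_finset_sum`). -/
theorem lam_sum {n : ℕ} {μ : Measure X} {C : ℝ} (hU : Up n μ C) (hC : 0 < C)
    {W : ℝ} (hW : 0 < W) (hμ : μ (closedBall 0 W)ᶜ = 0) {ι : Type} (s : Finset ι)
    (ψ : ι → X → X) (hψ : ∀ i ∈ s, ∃ L, LipschitzWith L (ψ i))
    (hz : ∀ i ∈ s, ∃ (x : X) (ρ : ℝ), ∀ y, ρ ≤ dist y x → ψ i y = 0) :
    En n μ (fun _ => 1) (fun y : X => y) (fun y => ∑ i ∈ s, ψ i y) =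
      ∑ i ∈ s, En n μ (fun _ => 1) (fun y : X => y) (ψ i) := by
  have := hU.locFin
  refine (integral_congr_ae (ae_of_all _ fun p => ?_)).trans
    (integral_finsetSum s fun i hi => ?_)
  · simp only [← Finset.sum_sub_distrib, inner_sum, Finset.mul_sum]
  · obtain ⟨L, hL⟩ := hψ i hi
    obtain ⟨x, ρ, h⟩ := hz i hi
    exact (En_integrable hU hC (locLip_of_lipschitz LipschitzWith.id) hL h
      (continuous_cut (2 * W)).measurable
      (fun t => (abs_of_nonneg (cut_nonneg _ t)).trans_le (cut_le_one _ t))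
      fun t ht => cut_eq_zero (by positivity) ht).congr
      ((lam_cut hW hμ le_rfl).mono fun p hp => by simp only [hp, id])

/-- With `v` the mean of `g` over the ball `B`: `∫_B ‖g - v‖² ≤ μ(B)⁻¹ ∬_{B×B} ‖g a - g b‖²`
(Jensen or Cauchy-Schwarz) and `‖g a - g b‖² ≤ (2ρ)^(n+1) J(a-b) ‖g a - g b‖²` on `B × B`. -/
theorem poincare {n : ℕ} {μ : Measure X} {C : ℝ} (hU : Up n μ C) (hC : 0 < C) {g : X → F}
    (hg : LocLip g) (x : X) {ρ m : ℝ} (hρ : 0 < ρ) (hm : 0 < m) (hμ : m ≤ μ.real (ball x ρ)) :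
    ∫ y in ball x ρ, ‖g y - (μ.real (ball x ρ))⁻¹ • ∫ z in ball x ρ, g z ∂μ‖ ^ 2 ∂μ ≤
      (2 * ρ) ^ (n + 1) / m * LE n μ g x ρ := by
  have := hU.locFin
  have hc := hg.continuous
  have hM := hm.trans_le hμ
  have hi := fun (f : X → ℝ) (hf : Continuous f) => integrableOn_ball_of_continuous (μ := μ) hf x ρ
  have hb := measurableSet_ball (x := x) (ε := ρ)
  have h1 : ∀ a, ‖g a - (μ.real (ball x ρ))⁻¹ • ∫ z in ball x ρ, g z ∂μ‖ ^ 2 ≤
      (μ.real (ball x ρ))⁻¹ * ∫ z in ball x ρ, ‖g a - g z‖ ^ 2 ∂μ := fun a => by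
    have h2 := (norm_integral_le_integral_norm (μ := μ.restrict (ball x ρ))
      fun z => g a - g z).trans ((le_abs_self _).trans (ann_cs (A := fun _ => 1)
        (B := fun z => ‖g a - g z‖ ^ 2) (hi _ continuous_const) (hi _ (by fun_prop))
        (hi _ (by fun_prop)) fun p => by simp))
    rw [integral_sub (integrableOn_ball_of_continuous continuous_const x ρ)
      (integrableOn_ball_of_continuous hc x ρ), setIntegral_const, setIntegral_const, smul_eq_mul,
      mul_one] at h2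
    have h3 := pow_le_pow_left₀ (norm_nonneg _) h2 2
    rw [mul_pow, Real.sq_sqrt hM.le, Real.sq_sqrt (integral_nonneg fun _ => sq_nonneg _)] at h3
    rw [← inv_smul_smul₀ hM.ne' (g a), ← smul_sub, norm_smul, mul_pow, norm_inv,
      Real.norm_of_nonneg hM.le, inv_smul_smul₀ hM.ne']
    exact (mul_le_mul_of_nonneg_left h3 (sq_nonneg _)).trans_eq (by field_simp)
  have h2 : Integrable (fun p : X × X => ‖g p.1 - g p.2‖ ^ 2)
      ((μ.restrict (ball x ρ)).prod (μ.restrict (ball x ρ))) := by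
    rw [Measure.prod_restrict]
    exact (ContinuousOn.integrableOn_compact ((isCompact_closedBall x ρ).prod
      (isCompact_closedBall x ρ)) (by fun_prop)).mono_set
      (prod_mono ball_subset_closedBall ball_subset_closedBall)
  refine (integral_mono (hi _ (by fun_prop)) (h2.integral_prod_left.const_mul _) h1).trans ?_
  rw [integral_const_mul, ← integral_prod _ h2, div_eq_inv_mul, mul_assoc, LE,
    ← integral_const_mul ((2 * ρ) ^ (n + 1))]
  rw [Measure.prod_restrict] at h2 ⊢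
  refine mul_le_mul (inv_anti₀ hm hμ) (setIntegral_mono_on h2
    ((LE_integrable hU hC hg x ρ).const_mul _) (hb.prod hb) fun p hp => ?_)
    (integral_nonneg fun _ => sq_nonneg _) (by positivity)
  rcases eq_or_ne p.1 p.2 with h | h
  · simp [h]
  · rw [← mul_assoc]
    refine le_mul_of_one_le_left (sq_nonneg _) ((one_le_div
      (pow_pos (norm_sub_pos_iff.2 h) _)).2 (pow_le_pow_left₀ (norm_nonneg _) ?_ _))
    rw [← dist_eq_norm]
    linarith [dist_triangle_right p.1 p.2 x, mem_ball.1 hp.1, mem_ball.1 hp.2]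

theorem poincare_test {n : ℕ} {μ : Measure X} {C : ℝ} (hU : Up n μ C) (hC : 0 < C) {ψ : X → F}
    {x : X} {ρ m : ℝ} (hψ : Test μ ψ x ρ) (hρ : 0 < ρ) (hm : 0 < m)
    (hμ : m ≤ μ.real (ball x ρ)) :
    ∫ y, ‖ψ y‖ ^ 2 ∂μ ≤ (2 * ρ) ^ (n + 1) / m * EE n μ ψ := by
  obtain ⟨L, hL⟩ := hψ.lip
  have h1 := poincare hU hC (locLip_of_lipschitz hL) x hρ hm hμ
  rw [setIntegral_eq_integral_of_forall_compl_eq_zero (f := ψ) (s := ball x ρ)
    fun y hy => hψ.zero y (not_lt.1 hy), hψ.mean] at h1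
  simp only [smul_zero, sub_zero] at h1
  rw [setIntegral_eq_integral_of_forall_compl_eq_zero
    fun y hy => by simp [hψ.zero y (not_lt.1 hy)]] at h1
  exact h1.trans (mul_le_mul_of_nonneg_left (LE_le_EE hU hC hL hψ.zero x ρ) (by positivity))

end Vale.Agent.P120
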