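import Vale.Agent.P120.Ann

/-!
Vague limits along ultrafilters: existence, regularity, supports.
-/

open MeasureTheory Metric Set Filter Topology
open scoped RealInnerProductSpace ENNReal NNReal

noncomputable section

namespace Vale.Agent.P120

variable {X : Type} [NormedAddCommGroup X] [InnerProductSpace ℝ X] [FiniteDimensional ℝ X]
  [MeasurableSpace X] [BorelSpace X]
variable {F : Type} [NormedAddCommGroup F] [InnerProductSpace ℝ F] [FiniteDimensional ℝ F]

theorem lim1_bound {G : Type} [NormedAddCommGroup G] [NormedSpace ℝ G] {μ : Measure X}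
    [IsLocallyFiniteMeasure μ] {f : X → G} {y : X} {b M : ℝ} (h1 : ∀ z ∈ ball y b, ‖f z‖ ≤ M)
    (h0 : ∀ z, b ≤ dist z y → f z = 0) : ‖∫ z, f z ∂μ‖ ≤ M * μ.real (ball y b) := by
  rw [← setIntegral_eq_integral_of_forall_compl_eq_zero (s := ball y b)
    fun z hz => h0 z (not_lt.1 hz)]
  exact norm_setIntegral_le_of_norm_le_const measure_ball_lt_top h1

theorem lim1_le_int {μ : Measure X} [IsLocallyFiniteMeasure μ] {f : X → ℝ} (hf : Continuous f)
    (hc : HasCompactSupport f) (h0 : ∀ z, 0 ≤ f z) {y : X} {a : ℝ} (h1 : ∀ z ∈ ball y a, 1 ≤ f z) :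
    μ.real (ball y a) ≤ ∫ z, f z ∂μ := by
  have hi := hf.integrable_of_hasCompactSupport (μ := μ) hc
  refine le_trans ?_ (setIntegral_le_integral (s := ball y a) hi (Eventually.of_forall h0))
  have := setIntegral_mono_on (μ := μ) (s := ball y a) (f := fun _ => (1 : ℝ))
    (integrableOn_const measure_ball_lt_top.ne) hi.integrableOn measurableSet_ball h1
  simpa using this

theorem lim1_bump (y : X) {a b : ℝ} (hab : a < b) : ∃ f : X → ℝ, Continuous f ∧
    HasCompactSupport f ∧ (∀ z, 0 ≤ f z ∧ f z ≤ 1) ∧ (∀ z, dist z y ≤ a → f z = 1) ∧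
      ∀ z, b ≤ dist z y → f z = 0 := by
  have h0 : ∀ z, b ≤ dist z y → cut (b - a) (dist z y - a + (b - a)) = 0 := fun z hz =>
    cut_eq_zero (by linarith) (by linarith)
  refine ⟨fun z => cut (b - a) (dist z y - a + (b - a)), (continuous_cut _).comp (by fun_prop),
    hasCompactSupport_of_zero h0, fun z => ⟨cut_nonneg _ _, cut_le_one _ _⟩,
    fun z hz => cut_eq_one (by linarith) (by linarith), h0⟩

theorem lim1_int_le {μ : Measure X} [IsLocallyFiniteMeasure μ] {f : X → ℝ} {y : X} {b : ℝ}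
    (h1 : ∀ z, 0 ≤ f z ∧ f z ≤ 1) (h0 : ∀ z, b ≤ dist z y → f z = 0) :
    ∫ z, f z ∂μ ≤ μ.real (ball y b) := by
  have := lim1_bound (μ := μ) (M := 1) (fun z _ => by
    rw [Real.norm_eq_abs, abs_of_nonneg (h1 z).1]
    exact (h1 z).2) h0
  rw [one_mul] at this
  exact (le_abs_self _).trans this

open scoped CompactlySupported in
/-- For `f : C_c(X, ℝ)` the integrals are bounded, so they converge along the ultrafilter
(`Ultrafilter.tendsto_of_isCompact`-type: `IsCompact.ultrafilter_le_nhds`, or `limUnder`); the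
limit is a positive linear functional, `RealRMK.rieszMeasure`, `RealRMK.integral_rieszMeasure`.
Up for the limit: `ν (ball y ρ)` is the supremum of `ν (ball y ρ')`, `ρ' < ρ`, and
`ν (ball y ρ') ≤ ∫ f dν` for a continuous `f` equal to `1` there and supported in `ball y ρ`. -/
theorem exists_VL {n : ℕ} {C : ℝ} (hC : 0 < C) (𝒰 : Ultrafilter ℕ) (μs : ℕ → Measure X)
    (hU : ∀ k, Up n (μs k) C) : ∃ ν : Measure X, Up n ν C ∧ VL 𝒰 μs ν := by
  have hl : ∀ f : C_c(X, ℝ), ∃ a : ℝ, Tendsto (fun k => ∫ y, f y ∂(μs k)) 𝒰 (𝓝 a) := by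
    intro f
    obtain ⟨M, hM⟩ := f.continuous.bounded_above_of_compact_support f.hasCompactSupport
    obtain ⟨R, hR, hs⟩ := f.hasCompactSupport.isCompact.isBounded.subset_ball_lt 0 (0 : X)
    have hb : ∀ k, ∫ y, f y ∂(μs k) ∈ closedBall (0 : ℝ) (M * (C * R ^ n)) := by
      intro k
      have := (hU k).locFin
      rw [mem_closedBall_zero_iff]
      refine (lim1_bound (y := 0) (b := R) (fun z _ => hM z) fun z hz => ?_).trans
        (mul_le_mul_of_nonneg_left ((hU k).real_le hC 0 hR) ((norm_nonneg _).trans (hM 0)))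
      exact image_eq_zero_of_notMem_tsupport fun h => absurd (hs h) (not_lt.2 hz)
    obtain ⟨a, -, ha⟩ := (isCompact_closedBall (0 : ℝ) (M * (C * R ^ n))).ultrafilter_le_nhds
      (𝒰.map fun k => ∫ y, f y ∂(μs k)) (le_principal_iff.2 (mem_map.2 (univ_mem' hb)))
    exact ⟨a, ha⟩
  choose L hL using hl
  have hi : ∀ (f : C_c(X, ℝ)) k, Integrable f (μs k) := fun f k =>
    have := (hU k).locFin
    f.continuous.integrable_of_hasCompactSupport f.hasCompactSupport
  let Λ0 : C_c(X, ℝ) →ₗ[ℝ] ℝ :=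
    { toFun := L
      map_add' := fun f g => tendsto_nhds_unique (hL (f + g))
        (((hL f).add (hL g)).congr fun k => (integral_add (hi f k) (hi g k)).symm)
      map_smul' := fun c f => tendsto_nhds_unique (hL (c • f))
        (((hL f).const_mul c).congr fun k => (integral_const_mul c _).symm) }
  let Λ : C_c(X, ℝ) →ₚ[ℝ] ℝ := PositiveLinearMap.mk₀ Λ0 fun f hf =>
    ge_of_tendsto' (hL f) fun k => integral_nonneg fun y => hf y
  have hV : VL 𝒰 μs (RealRMK.rieszMeasure Λ) := by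
    intro f hf hc
    have := RealRMK.integral_rieszMeasure Λ ⟨⟨f, hf⟩, hc⟩
    exact this ▸ hL ⟨⟨f, hf⟩, hc⟩
  refine ⟨_, fun y ρ hρ => ?_, hV⟩
  rw [isOpen_ball.measure_eq_iSup_isCompact]
  refine iSup_le fun K => iSup_le fun hK => iSup_le fun hK' => ?_
  obtain ⟨a, ha, hKa⟩ := exists_lt_subset_ball hK'.isClosed hK
  obtain ⟨f, f1, f2, f3, f4, f5⟩ := lim1_bump y ha
  refine (measure_mono hKa).trans ?_
  rw [← ofReal_measureReal measure_ball_lt_top.ne]
  refine ENNReal.ofReal_le_ofReal ((lim1_le_int f1 f2 (fun z => (f3 z).1)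
    fun z hz => (f4 z (le_of_lt hz)).ge).trans (le_of_tendsto' (hV f f1 f2) fun k => ?_))
  have := (hU k).locFin
  exact (lim1_int_le f3 f5).trans ((hU k).real_le hC y hρ)

/-- Test with `cut (δ/2) (dist · y)`, whose integral against `ν` is positive. -/
theorem VL.near_supp {n : ℕ} {C : ℝ} {l : Filter ℕ} {μs : ℕ → Measure X} {ν : Measure X}
    (h : VL l μs ν) (hν : Up n ν C) {y : X} (hy : y ∈ ν.support) {δ : ℝ} (hδ : 0 < δ) :
    ∀ᶠ k in l, ∃ z ∈ (μs k).support, dist z y < δ := by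
  have := hν.locFin
  obtain ⟨f, f1, f2, f3, f4, f5⟩ := lim1_bump y (half_lt_self hδ)
  have h1 : 0 < ∫ z, f z ∂ν := by
    refine lt_of_lt_of_le (ENNReal.toReal_pos ?_ measure_ball_lt_top.ne)
      (lim1_le_int f1 f2 (fun z => (f3 z).1) (a := δ / 2) fun z hz => (f4 z (le_of_lt hz)).ge)
    exact ((Measure.mem_support_iff_forall y).1 hy _ (ball_mem_nhds y (half_pos hδ))).ne'
  filter_upwards [(h f f1 f2).eventually (lt_mem_nhds h1)] with k hk
  by_contra hc
  refine hk.ne' (integral_eq_zero_of_ae ?_)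
  filter_upwards [Measure.support_mem_ae (μ := μs k)] with z hz
  exact f5 z (not_lt.1 fun h => hc ⟨z, hz, h⟩)

theorem lim1_low {n : ℕ} {C : ℝ} {l : Filter ℕ} [l.NeBot] {μs : ℕ → Measure X}
    {ν : Measure X} (h : VL l μs ν) (hs : Seq n C l μs) (hν : Up n ν C) {y : X}
    (hy : ∀ δ : ℝ, 0 < δ → ∀ᶠ k in l, ∃ z ∈ (μs k).support, dist z y < δ) {ρ : ℝ} (hρ : 0 < ρ) :
    ENNReal.ofReal (ρ ^ n / C) ≤ ν (ball y ρ) := by
  have := hν.locFin
  rw [← ofReal_measureReal measure_ball_lt_top.ne]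
  refine ENNReal.ofReal_le_ofReal ?_
  have ht : Tendsto (fun a : ℝ => a ^ n / C) (𝓝[<] ρ) (𝓝 (ρ ^ n / C)) :=
    (Continuous.tendsto (by fun_prop) ρ).mono_left nhdsWithin_le_nhds
  refine le_of_tendsto ht ?_
  filter_upwards [Ioo_mem_nhdsLT hρ] with a ha
  obtain ⟨f, f1, f2, f3, f4, f5⟩ := lim1_bump y (a := (a + ρ) / 2) (b := ρ) (by linarith [ha.2])
  refine le_trans (ge_of_tendsto (h f f1 f2) ?_) (lim1_int_le f3 f5)
  filter_upwards [hy ((ρ - a) / 2) (by linarith [ha.2]), hs.low (dist y 0 + ρ)] with k hk hk'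
  obtain ⟨z, z1, z2⟩ := hk
  have := (hs.up k).locFin
  have h1 := hk' z z1 (by linarith [dist_triangle z y 0, ha.1]) a ha.1
    (by linarith [ha.2, dist_nonneg (x := y) (y := 0)])
  refine le_trans ((ENNReal.ofReal_le_iff_le_toReal measure_ball_lt_top.ne).1 h1)
    (lim1_le_int f1 f2 (fun z => (f3 z).1) fun w hw => (f4 w ?_).ge)
  linarith [dist_triangle w z y, mem_ball.1 hw]

/-- Lower bounds pass to the limit at a point `y` that is approximated by support points:
`ρ'^n/C ≤ μs k (ball z ρ') ≤ ∫ f dμs k → ∫ f dν ≤ ν (ball y ρ)`, then `ρ' → ρ`. -/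
theorem VL.reg {n : ℕ} {C : ℝ} (hC : 0 < C) {l : Filter ℕ} [l.NeBot] {μs : ℕ → Measure X}
    {ν : Measure X} (h : VL l μs ν) (hs : Seq n C l μs) (hν : Up n ν C) (W : ℝ) :
    Reg n ν C 0 W := by
  refine ⟨hν, fun y hy _ ρ hρ _ => lim1_low h hs hν (fun δ hδ => h.near_supp hν hy hδ) hρ, ?_⟩
  refine (Measure.mem_support_iff_forall _).2 fun U hU => ?_
  obtain ⟨ρ, hρ, h1⟩ := Metric.mem_nhds_iff.1 hU
  refine lt_of_lt_of_le (ENNReal.ofReal_pos.2 (show 0 < ρ ^ n / C by positivity))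
    ((lim1_low h hs hν (fun δ hδ => Eventually.of_forall fun k => ⟨0, hs.mem k, ?_⟩) hρ).trans
      (measure_mono h1))
  rwa [dist_self]

/-- `K = {z | ‖z‖ ≤ R, δ ≤ infDist z ν.support}` is compact. Test with a continuous compactly
supported `f ≥ 0`, vanishing on `ν.support`, equal to `1` on the `δ/2`-neighbourhood of `K`, e.g.
`cut (R+δ) ‖z‖ * (1 - cut (δ/4) (infDist z ν.support))`. A support point of `μs k` in `K` would
give `∫ f dμs k ≥ (δ/2)^n/C`. -/
theorem VL.supp_near {n : ℕ} {C : ℝ} (hC : 0 < C) {l : Filter ℕ} [l.NeBot] {μs : ℕ → Measure X}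
    {ν : Measure X} (h : VL l μs ν) (hs : Seq n C l μs) (hν : Up n ν C) (R : ℝ) {δ : ℝ}
    (hδ : 0 < δ) :
    ∀ᶠ k in l, ∀ z ∈ (μs k).support, ‖z‖ ≤ R → ∃ y ∈ ν.support, dist z y < δ := by
  have hne : ν.support.Nonempty := ⟨0, (h.reg hC hs hν 0).mem⟩
  obtain ⟨g, g1, g2, g3, g4, -⟩ := lim1_bump (0 : X) (a := R + δ) (b := R + δ + 1) (by linarith)
  have f1 : Continuous fun z => g z * (1 - cut (δ / 4) (infDist z ν.support)) :=
    g1.mul (continuous_const.sub ((continuous_cut _).comp (continuous_infDist_pt _)))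
  have f2 : HasCompactSupport fun z => g z * (1 - cut (δ / 4) (infDist z ν.support)) :=
    g2.mul_right
  have h1 : ∫ z, g z * (1 - cut (δ / 4) (infDist z ν.support)) ∂ν < (δ / 2) ^ n / C := by
    refine lt_of_eq_of_lt (integral_eq_zero_of_ae ?_) (by positivity)
    filter_upwards [Measure.support_mem_ae (μ := ν)] with z hz
    rw [infDist_zero_of_mem hz, cut_eq_one (by linarith) (by linarith), sub_self, mul_zero]
    rfl
  filter_upwards [(h _ f1 f2).eventually (gt_mem_nhds h1), hs.low (R + δ)] with k hk hk' z z1 z2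
  by_contra hc
  have := (hs.up k).locFin
  have z3 : δ ≤ infDist z ν.support :=
    (le_infDist hne).2 fun y hy => not_lt.1 fun h => hc ⟨y, hy, h⟩
  have z4 : dist z 0 ≤ R := by rwa [dist_zero_right]
  have h2 := hk' z z1 (by linarith) (δ / 2) (by linarith) (by linarith [norm_nonneg z])
  refine absurd hk (not_lt.2 (le_trans
    ((ENNReal.ofReal_le_iff_le_toReal measure_ball_lt_top.ne).1 h2) (lim1_le_int f1 f2
      (fun z => mul_nonneg (g3 z).1 (sub_nonneg.2 (cut_le_one _ _))) fun w hw => ?_)))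
  have w1 := mem_ball.1 hw
  have w2 := infDist_le_infDist_add_dist (s := ν.support) (x := z) (y := w)
  rw [dist_comm] at w2
  rw [g4 w (by linarith [dist_triangle w z 0]), cut_eq_zero (by linarith) (by linarith)]
  norm_num

/-- Coordinates in `stdOrthonormalBasis ℝ F`. -/
theorem VL.vec {n : ℕ} {C : ℝ} {l : Filter ℕ} {μs : ℕ → Measure X} {ν : Measure X}
    (h : VL l μs ν) (hU : ∀ k, Up n (μs k) C) (hν : Up n ν C) {f : X → F} (hf : Continuous f)
    (hc : HasCompactSupport f) :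
    Tendsto (fun k => ∫ y, f y ∂(μs k)) l (𝓝 (∫ y, f y ∂ν)) := by
  have := FiniteDimensional.complete ℝ F
  have key : ∀ μ : Measure X, Up n μ C → ∫ y, f y ∂μ = ∑ i,
      (∫ y, ⟪stdOrthonormalBasis ℝ F i, f y⟫ ∂μ) • stdOrthonormalBasis ℝ F i := by
    intro μ hμ
    have := hμ.locFin
    simp only [integral_inner (hf.integrable_of_hasCompactSupport hc)]
    exact ((stdOrthonormalBasis ℝ F).sum_repr' _).symm
  simp only [key _ (hU _), key _ hν]
  refine tendsto_finsetSum _ fun i _ => Tendsto.smul_const (h _ (by fun_prop) ?_) _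
  exact hc.comp_left (g := fun v => ⟪stdOrthonormalBasis ℝ F i, v⟫) (inner_zero_right _)

/-- A family with a common modulus of continuity that converges pointwise along a filter converges
uniformly on bounded sets (finite `δ`-net of the totally bounded ball). -/
theorem unif_of_equi {l : Filter ℕ} [l.NeBot] {g : ℕ → X → F} {g' : X → F} {R : ℝ}
    (hp : ∀ y ∈ ball (0 : X) R, Tendsto (fun k => g k y) l (𝓝 (g' y)))
    (he : ∀ ε : ℝ, 0 < ε → ∃ δ : ℝ, 0 < δ ∧ ∀ k, ∀ y ∈ ball (0 : X) R, ∀ z ∈ ball (0 : X) R,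
      dist y z < δ → dist (g k y) (g k z) ≤ ε) :
    TendstoUniformlyOn g g' l (ball 0 R) := by
  refine Metric.tendstoUniformlyOn_iff.2 fun ε hε => ?_
  obtain ⟨δ, hδ, h1⟩ := he (ε / 4) (by linarith)
  obtain ⟨t, t1, t2, t3⟩ := finite_approx_of_totallyBounded
    ((isCompact_closedBall (0 : X) R).totallyBounded.subset ball_subset_closedBall) δ hδ
  have h2 : ∀ᶠ k in l, ∀ z ∈ t, dist (g k z) (g' z) < ε / 4 :=
    (eventually_all_finite t2).2 fun z hz => Metric.tendsto_nhds.1 (hp z (t1 hz)) _ (by linarith)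
  filter_upwards [h2] with k hk y hy
  obtain ⟨z, z1, z2⟩ := mem_iUnion₂.1 (t3 hy)
  have a1 := h1 k y hy z (t1 z1) z2
  have a2 : dist (g' y) (g' z) ≤ ε / 4 :=
    le_of_tendsto' ((hp y hy).dist (hp z (t1 z1))) fun j => h1 j y hy z (t1 z1) z2
  have a3 := hk z z1
  have a4 := dist_triangle4 (g' y) (g' z) (g k z) (g k y)
  rw [dist_comm (g' z), dist_comm (g k z) (g k y)] at a4
  linarith

/-- `VL.vec` pointwise, `unif_of_equi` with the uniform continuity of `Φ` on the compact set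
`closedBall 0 R ×ˢ closedBall 0 R'` and the uniform mass bound. -/
theorem VL.unif {n : ℕ} {C : ℝ} (hC : 0 < C) {l : Filter ℕ} [l.NeBot] {μs : ℕ → Measure X}
    {ν : Measure X} (h : VL l μs ν) (hU : ∀ k, Up n (μs k) C) (hν : Up n ν C) {Φ : X × X → F}
    (hΦ : Continuous Φ) {R R' : ℝ} (hz : ∀ x ∈ ball (0 : X) R, ∀ y, R' ≤ ‖y‖ → Φ (x, y) = 0) :
    TendstoUniformlyOn (fun k x => ∫ y, Φ (x, y) ∂(μs k)) (fun x => ∫ y, Φ (x, y) ∂ν) l
      (ball 0 R) := by
  have r0 : 0 < max R' 1 := lt_max_of_lt_right one_pos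
  have hz' : ∀ x ∈ ball (0 : X) R, ∀ y, max R' 1 ≤ dist y 0 → Φ (x, y) = 0 := fun x hx y hy =>
    hz x hx y ((le_max_left _ _).trans (by rwa [dist_zero_right] at hy))
  have hc : ∀ x, Continuous fun y => Φ (x, y) := fun x => by fun_prop
  refine unif_of_equi (fun x hx => h.vec hU hν (hc x) (hasCompactSupport_of_zero (hz' x hx)))
    fun ε hε => ?_
  have m0 : 0 < C * max R' 1 ^ n := by positivity
  obtain ⟨δ, hδ, h1⟩ := Metric.uniformContinuousOn_iff.1
    (((isCompact_closedBall (0 : X) R).prod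
      (isCompact_closedBall (0 : X) (max R' 1))).uniformContinuousOn_of_continuous
        hΦ.continuousOn) (ε / (C * max R' 1 ^ n)) (by positivity)
  refine ⟨δ, hδ, fun k y hy z hz hd => ?_⟩
  have := (hU k).locFin
  rw [dist_eq_norm, ← integral_sub
    ((hc y).integrable_of_hasCompactSupport (hasCompactSupport_of_zero (hz' y hy)))
    ((hc z).integrable_of_hasCompactSupport (hasCompactSupport_of_zero (hz' z hz)))]
  refine (lim1_bound (y := 0) (b := max R' 1) (M := ε / (C * max R' 1 ^ n)) (fun w hw => ?_)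
    fun w hw => by rw [hz' y hy w hw, hz' z hz w hw, sub_zero]).trans ?_
  · rw [← dist_eq_norm]
    refine (h1 (y, w) ⟨ball_subset_closedBall hy, ball_subset_closedBall hw⟩ (z, w)
      ⟨ball_subset_closedBall hz, ball_subset_closedBall hw⟩ ?_).le
    rw [Prod.dist_eq, dist_self]
    exact max_lt hd hδ
  · exact (mul_le_mul_of_nonneg_left ((hU k).real_le hC 0 r0) (by positivity)).trans
      (div_mul_cancel₀ _ m0.ne').le

end Vale.Agent.P120
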