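import Vale.Agent.P120.Form

/-!
The tail lemma: for mean zero test functions the far part of the form is small.
-/

open MeasureTheory Metric Set Filter Topology
open scoped RealInnerProductSpace ENNReal NNReal

noncomputable section

namespace Vale.Agent.P120

variable {X : Type} [NormedAddCommGroup X] [InnerProductSpace ℝ X] [FiniteDimensional ℝ X]
  [MeasurableSpace X] [BorelSpace X]
variable {F : Type} [NormedAddCommGroup F] [InnerProductSpace ℝ F] [FiniteDimensional ℝ F]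

theorem tail_cut_diff {S s t ρ : ℝ} (hS : 0 < S) (ht : 0 < t) (hst : |s - t| ≤ ρ)
    (hρ : 2 * ρ ≤ t) : |cut S s - cut S t| ≤ 4 * ρ / t := by
  have hρ0 : 0 ≤ ρ := le_trans (abs_nonneg _) hst
  have h1 := abs_le.1 hst
  by_cases h : 4 * S ≤ t
  · rw [cut_eq_zero hS (by linarith), cut_eq_zero hS (by linarith)]
    simp only [sub_self, abs_zero]
    positivity
  · push Not at h
    refine (cut_lip hS s t).trans ?_
    rw [div_le_div_iff₀ hS ht]
    nlinarith [abs_nonneg (s - t)]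

theorem tail_inv_diff (n : ℕ) {s t ρ : ℝ} (ht : 0 < t) (hst : |s - t| ≤ ρ) (hρ : 2 * ρ ≤ t) :
    |(s ^ (n + 1))⁻¹ - (t ^ (n + 1))⁻¹| ≤ (n + 1) * 2 ^ (2 * n + 1) * ρ * (t ^ (n + 2))⁻¹ := by
  have hρ0 : 0 ≤ ρ := le_trans (abs_nonneg _) hst
  have h1 := abs_le.1 hst
  have hs : t / 2 ≤ s := by linarith
  have hs0 : 0 < s := by linarith
  have hm : max |t| |s| ≤ 2 * t := by
    rw [abs_of_pos ht, abs_of_pos hs0]
    exact max_le (by linarith) (by linarith)
  have h2 : |t ^ (n + 1) - s ^ (n + 1)| ≤ ρ * (n + 1) * (2 * t) ^ n := by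
    have := abs_pow_sub_pow_le (a := t) (b := s) (n := n + 1)
    simp only [Nat.add_sub_cancel, Nat.cast_add, Nat.cast_one] at this
    refine this.trans ?_
    have h3 : |t - s| ≤ ρ := by rwa [abs_sub_comm]
    gcongr
  have h3 : (s ^ (n + 1))⁻¹ - (t ^ (n + 1))⁻¹ =
      (t ^ (n + 1) - s ^ (n + 1)) * ((s ^ (n + 1))⁻¹ * (t ^ (n + 1))⁻¹) := by
    field_simp
  have h4 : (s ^ (n + 1))⁻¹ ≤ ((t / 2) ^ (n + 1))⁻¹ := by
    apply inv_anti₀ (by positivity)
    gcongr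
  rw [h3, abs_mul, abs_of_pos (a := (s ^ (n + 1))⁻¹ * (t ^ (n + 1))⁻¹) (by positivity)]
  calc |t ^ (n + 1) - s ^ (n + 1)| * ((s ^ (n + 1))⁻¹ * (t ^ (n + 1))⁻¹)
      ≤ (ρ * (n + 1) * (2 * t) ^ n) * (((t / 2) ^ (n + 1))⁻¹ * (t ^ (n + 1))⁻¹) := by gcongr
    _ = (n + 1) * 2 ^ (2 * n + 1) * ρ * (t ^ (n + 2))⁻¹ := by
      rw [mul_pow, div_pow]
      field_simp
      ring

theorem tail_w_bounds {R R' t : ℝ} (hR : 0 < R) (hRR : R ≤ R') (ht : 0 ≤ t) :
    0 ≤ cut R' t - cut R t ∧ cut R' t - cut R t ≤ 1 := by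
  have h1 := cut_mono hR hRR ht
  have h2 := cut_le_one R' t
  have h3 := cut_nonneg R t
  constructor <;> linarith

theorem tail_w_zero {R R' t : ℝ} (hR : 0 < R) (hRR : R ≤ R') (ht : t ≤ R) :
    cut R' t - cut R t = 0 := by
  rw [cut_eq_one hR ht, cut_eq_one (by linarith) (by linarith), sub_self]

theorem tail_w_far {R R' t : ℝ} (hR : 0 < R) (hRR : R ≤ R') (ht : 2 * R' ≤ t) :
    cut R' t - cut R t = 0 := by
  rw [cut_eq_zero hR (by linarith), cut_eq_zero (by linarith) ht, sub_self]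

/-- The truncated kernel. -/
def tailK (n : ℕ) (R R' : ℝ) (z : X) : ℝ := (cut R' ‖z‖ - cut R ‖z‖) * J n z

theorem tailK_meas (n : ℕ) (R R' : ℝ) : Measurable (tailK n R R' : X → ℝ) := by
  unfold tailK
  exact ((((continuous_cut R').comp continuous_norm).sub
    ((continuous_cut R).comp continuous_norm)).measurable).mul (measurable_J n)

theorem tailK_le_ind (n : ℕ) {R R' : ℝ} (hR : 0 < R) (hRR : R ≤ R') (a b : X) :
    |tailK n R R' (a - b)| ≤ (ball a R)ᶜ.indicator (fun y => J n (a - y)) b := by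
  unfold tailK
  by_cases h : b ∈ (ball a R)ᶜ
  · rw [indicator_of_mem h, abs_mul, abs_of_nonneg (J_nonneg n _)]
    obtain ⟨h1, h2⟩ := tail_w_bounds hR hRR (norm_nonneg (a - b))
    rw [abs_of_nonneg h1]
    have := J_nonneg n (a - b)
    nlinarith
  · rw [indicator_of_notMem h]
    have h' : ‖a - b‖ ≤ R := by
      simp only [mem_compl_iff, not_not, mem_ball] at h
      rw [← dist_eq_norm, dist_comm]
      exact h.le
    rw [tail_w_zero hR hRR h']
    simp

theorem tailK_le (n : ℕ) {R R' : ℝ} (hR : 0 < R) (hRR : R ≤ R') (z : X) :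
    |tailK n R R' z| ≤ (R ^ (n + 1))⁻¹ := by
  unfold tailK
  by_cases h : ‖z‖ ≤ R
  · rw [tail_w_zero hR hRR h]
    simp only [zero_mul, abs_zero]
    positivity
  · push Not at h
    obtain ⟨h1, h2⟩ := tail_w_bounds hR hRR (norm_nonneg z)
    rw [abs_mul, abs_of_nonneg (J_nonneg n _), abs_of_nonneg h1]
    have h3 : J n z ≤ (R ^ (n + 1))⁻¹ := by
      unfold J
      apply inv_anti₀ (by positivity)
      gcongr
    have := J_nonneg n z
    nlinarith

theorem tailK_far (n : ℕ) {R R' : ℝ} (hR : 0 < R) (hRR : R ≤ R') {z : X} (hz : 2 * R' ≤ ‖z‖) :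
    tailK n R R' z = 0 := by
  unfold tailK
  rw [tail_w_far hR hRR hz, zero_mul]

theorem tailK_diff (n : ℕ) {R R' ρ : ℝ} (hρ : 0 < ρ) (hR : 4 * ρ ≤ R) (hRR : R ≤ R')
    {x a : X} (ha : dist a x < ρ) (b : X) :
    |tailK n R R' (a - b) - tailK n R R' (x - b)| ≤
      (ball x (R / 2))ᶜ.indicator
        (fun y => (8 + (n + 1) * 2 ^ (2 * n + 1)) * ρ * (‖x - y‖ ^ (n + 2))⁻¹) b := by
  have hR0 : 0 < R := by linarith
  have hst : |‖a - b‖ - ‖x - b‖| ≤ ρ := by
    refine (abs_norm_sub_norm_le _ _).trans ?_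
    rw [sub_sub_sub_cancel_right, ← dist_eq_norm]
    exact ha.le
  have h1 := abs_le.1 hst
  by_cases h : b ∈ (ball x (R / 2))ᶜ
  · rw [indicator_of_mem h]
    have ht : R / 2 ≤ ‖x - b‖ := by
      simp only [mem_compl_iff, mem_ball, not_lt] at h
      rwa [← dist_eq_norm, dist_comm]
    set s := ‖a - b‖ with hs
    set t := ‖x - b‖ with htt
    have ht0 : 0 < t := by linarith
    have h2 := tail_cut_diff hR0 ht0 hst (by linarith)
    have h3 := tail_cut_diff (S := R') (by linarith) ht0 hst (by linarith)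
    have h4 := tail_inv_diff n ht0 hst (by linarith)
    obtain ⟨h5, h6⟩ := tail_w_bounds hR0 hRR (norm_nonneg (a - b))
    have e : tailK n R R' (a - b) - tailK n R R' (x - b) =
        ((cut R' s - cut R' t) - (cut R s - cut R t)) * (t ^ (n + 1))⁻¹ +
          (cut R' s - cut R s) * ((s ^ (n + 1))⁻¹ - (t ^ (n + 1))⁻¹) := by
      unfold tailK J
      ring
    rw [e]
    refine (abs_add_le _ _).trans ?_
    rw [abs_mul, abs_mul, abs_of_pos (a := (t ^ (n + 1))⁻¹) (by positivity), abs_of_nonneg h5]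
    have h7 : |(cut R' s - cut R' t) - (cut R s - cut R t)| ≤ 8 * ρ / t := by
      refine (abs_sub _ _).trans ?_
      have : 8 * ρ / t = 4 * ρ / t + 4 * ρ / t := by ring
      linarith
    have h8 : 8 * ρ / t * (t ^ (n + 1))⁻¹ = 8 * ρ * (t ^ (n + 2))⁻¹ := by
      field_simp
      ring
    calc _ ≤ 8 * ρ / t * (t ^ (n + 1))⁻¹ +
          1 * ((n + 1) * 2 ^ (2 * n + 1) * ρ * (t ^ (n + 2))⁻¹) := by gcongr
      _ = _ := by rw [h8]; ring
  · rw [indicator_of_notMem h]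
    have ht : ‖x - b‖ < R / 2 := by
      simp only [mem_compl_iff, not_not, mem_ball] at h
      rwa [← dist_eq_norm, dist_comm]
    unfold tailK
    rw [tail_w_zero hR0 hRR (t := ‖a - b‖) (by linarith),
      tail_w_zero hR0 hRR (t := ‖x - b‖) (by linarith)]
    simp

theorem tail_int_prod {μ : Measure X} [SFinite μ] {f : X × X → ℝ} (hf : Measurable f)
    {a b : X → ℝ} (ha : Integrable a μ) (hb : Integrable b μ)
    (h : ∀ p, |f p| ≤ a p.1 * b p.2) : Integrable f (μ.prod μ) :=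
  (ha.mul_prod hb).mono' hf.aestronglyMeasurable (Eventually.of_forall h)

theorem tail_abs_prod {μ : Measure X} [SFinite μ] {f : X × X → ℝ}
    {a b : X → ℝ} (ha : Integrable a μ) (hb : Integrable b μ)
    (h : ∀ p, |f p| ≤ a p.1 * b p.2) :
    |∫ p, f p ∂(μ.prod μ)| ≤ (∫ y, a y ∂μ) * ∫ y, b y ∂μ := by
  rw [← integral_prod_mul]
  rw [← Real.norm_eq_abs]
  exact norm_integral_le_of_norm_le (ha.mul_prod hb) (Eventually.of_forall h)

/-- Let `w = cut R' - cut R` (values in `[0,1]`, zero for `t ≤ R`, `2/R`-Lipschitz),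
`k z = w |z| J z`. By `En_sub_w` and `En_sym1` the difference is
`2 ∬ k(a-b) ⟪u a, ψ a⟫ - 2 ∬ k(a-b) ⟪u b, ψ a⟫`. First term: `ann_far` at radius `R`.
Second term: since `∫ ψ = 0`, replace `k(a-b)` by `k(a-b) - k(x-b)`; for `|a-x| < ρ ≤ R/4` this
vanishes unless `|x-b| ≥ R/2` and is at most `C_n ρ |x-b|^(-n-2)` (mean value bound for
`t ↦ w t t^(-n-1)` on `t ≥ |x-b|/2`; use `|w'| ≤ 1/R + 1/R'` only where `t ≤ 2R` resp. `t ≤ 2R'`,
that is `|cut S s - cut S t| ≤ 4 |s-t| / max s t` when `|s-t| ≤ max s t / 2`). Then `ann_gr` at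
radius `R/2`. Everything is integrable since `w` has bounded support away from `0`. -/
theorem tail (n : ℕ) {C : ℝ} (hC : 0 < C) : ∃ Ct : ℝ, 0 < Ct ∧ ∀ μ : Measure X, Up n μ C →
    ∀ u : X → F, LocLip u → ∀ (x : X) (ρ G : ℝ), 0 < ρ → 0 ≤ G → Gr n μ u x ρ G →
    ∀ ψ : X → F, Test μ ψ x ρ → ∀ R R' : ℝ, 4 * ρ ≤ R → R ≤ R' →
    |En n μ (cut R') u ψ - En n μ (cut R) u ψ| ≤
      Ct * (R⁻¹ * ∫ y, ‖u y‖ * ‖ψ y‖ ∂μ +
        √G * ρ⁻¹ * (ρ / R) ^ (3 / 4 : ℝ) * ∫ y, ‖ψ y‖ ∂μ) := by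
  obtain ⟨C1, hC1, H1⟩ := ann_far (X := X) n hC
  obtain ⟨C2, hC2, H2⟩ := ann_gr (X := X) (F := F) n hC
  set Cn : ℝ := 8 + (n + 1) * 2 ^ (2 * n + 1) with hCn
  have hCn0 : 0 < Cn := by positivity
  refine ⟨2 * C1 + 4 * Cn * C2, by positivity, ?_⟩
  intro μ hU u hu x ρ G hρ hG hGr ψ hψ R R' hR hRR
  have := hU.locFin
  have hR0 : 0 < R := by linarith
  obtain ⟨L, hL⟩ := hψ.lip
  have huc : Continuous u := hu.continuous
  have hψc : Continuous ψ := hL.continuous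
  have hψs : HasCompactSupport ψ := hasCompactSupport_of_zero hψ.zero
  have hψi : Integrable ψ μ := hψc.integrable_of_hasCompactSupport hψs
  have huψi : Integrable (fun y => ‖u y‖ * ‖ψ y‖) μ :=
    (huc.norm.mul hψc.norm).integrable_of_hasCompactSupport (hψs.norm.mul_left)
  have hkm := tailK_meas (X := X) n R R'
  set B := ball x (ρ + 2 * R') with hB
  have hBm : MeasurableSet B := measurableSet_ball
  have hI1 : Integrable (B.indicator fun _ : X => (R ^ (n + 1))⁻¹) μ :=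
    (integrable_indicator_iff hBm).2 (integrableOn_ball_of_continuous continuous_const _ _)
  have hI2 : Integrable (B.indicator fun y : X => (R ^ (n + 1))⁻¹ * ‖u y‖) μ :=
    (integrable_indicator_iff hBm).2
      (integrableOn_ball_of_continuous (continuous_const.mul huc.norm) _ _)
  have hkB : ∀ a b : X, dist a x < ρ → b ∉ B → tailK n R R' (a - b) = 0 := by
    intro a b ha hb
    apply tailK_far n hR0 hRR
    simp only [hB, mem_ball, not_lt] at hb
    have := dist_triangle b a x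
    rw [← dist_eq_norm, dist_comm]
    linarith
  have hf1 : Integrable (fun p : X × X => tailK n R R' (p.1 - p.2) * ⟪u p.1, ψ p.1⟫)
      (μ.prod μ) := by
    refine tail_int_prod ((hkm.comp (measurable_fst.sub measurable_snd)).mul
      ((huc.comp continuous_fst).inner (hψc.comp continuous_fst)).measurable) huψi hI1 ?_
    intro p
    by_cases ha : dist p.1 x < ρ
    · by_cases hb : p.2 ∈ B
      · rw [indicator_of_mem hb, abs_mul, mul_comm]
        exact mul_le_mul (abs_real_inner_le_norm _ _) (tailK_le n hR0 hRR _) (abs_nonneg _)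
          (by positivity)
      · rw [indicator_of_notMem hb, hkB _ _ ha hb]
        simp
    · rw [hψ.zero _ (not_lt.1 ha)]
      simp
  have hf23 : ∀ c : X × X → X, Measurable c → (∀ p, dist p.1 x < ρ → dist (c p) x < ρ) →
      Integrable (fun p : X × X => tailK n R R' (c p - p.2) * ⟪u p.2, ψ p.1⟫) (μ.prod μ) := by
    intro c hc hcx
    refine tail_int_prod ((hkm.comp (hc.sub measurable_snd)).mul
      ((huc.comp continuous_snd).inner (hψc.comp continuous_fst)).measurable) hψi.norm hI2 ?_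
    intro p
    by_cases ha : dist p.1 x < ρ
    · by_cases hb : p.2 ∈ B
      · rw [indicator_of_mem hb, abs_mul]
        have h1 := abs_real_inner_le_norm (u p.2) (ψ p.1)
        have h2 := tailK_le n hR0 hRR (c p - p.2)
        calc _ ≤ (R ^ (n + 1))⁻¹ * (‖u p.2‖ * ‖ψ p.1‖) := by gcongr
          _ = _ := by ring
      · rw [indicator_of_notMem hb, hkB _ _ (hcx p ha) hb]
        simp
    · rw [hψ.zero _ (not_lt.1 ha)]
      simp
  have hf2 := hf23 Prod.fst measurable_fst (fun p h => h)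
  have hf3 := hf23 (fun _ => x) measurable_const (fun p h => by simpa using hρ)
  have e3 : ∫ p : X × X, tailK n R R' (x - p.2) * ⟪u p.2, ψ p.1⟫ ∂(μ.prod μ) = 0 := by
    rw [integral_prod_symm _ hf3]
    simp only [integral_const_mul, integral_inner hψi, hψ.mean, inner_zero_right, mul_zero,
      integral_zero]
  have eq : ∀ p : X × X, (cut R' ‖p.1 - p.2‖ - cut R ‖p.1 - p.2‖) *
      (J n (p.1 - p.2) * ⟪u p.1 - u p.2, ψ p.1⟫) =
      tailK n R R' (p.1 - p.2) * ⟪u p.1, ψ p.1⟫ - tailK n R R' (p.1 - p.2) * ⟪u p.2, ψ p.1⟫ := by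
    intro p
    rw [inner_sub_left]
    unfold tailK
    ring
  have hsym := En_sym1 (n := n) (μ := μ) (w := fun t => cut R' t - cut R t) (u := u) (ψ := ψ)
    (by simp only [eq]; exact hf1.sub hf2)
  rw [← En_sub_w hU hC hu hL hψ.zero (by linarith) hR0, hsym]
  simp only [eq]
  rw [integral_sub hf1 hf2]
  have b1 : |∫ p : X × X, tailK n R R' (p.1 - p.2) * ⟪u p.1, ψ p.1⟫ ∂(μ.prod μ)| ≤
      C1 * (R⁻¹ * ∫ y, ‖u y‖ * ‖ψ y‖ ∂μ) := by
    rw [integral_prod _ hf1, ← mul_assoc, ← integral_const_mul, ← Real.norm_eq_abs]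
    refine norm_integral_le_of_norm_le (huψi.const_mul _) (Eventually.of_forall fun a => ?_)
    simp only [integral_mul_const, Real.norm_eq_abs, abs_mul]
    obtain ⟨h1, h2⟩ := H1 μ hU a R hR0
    have h3 : |∫ b, tailK n R R' (a - b) ∂μ| ≤ C1 * R⁻¹ := by
      rw [← div_eq_mul_inv]
      refine le_trans ?_ h2
      rw [← integral_indicator measurableSet_ball.compl, ← Real.norm_eq_abs]
      exact norm_integral_le_of_norm_le ((integrable_indicator_iff measurableSet_ball.compl).2 h1)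
        (Eventually.of_forall fun b => tailK_le_ind n hR0 hRR a b)
    exact mul_le_mul h3 (abs_real_inner_le_norm _ _) (abs_nonneg _) (by positivity)
  have b2 : |∫ p : X × X, tailK n R R' (p.1 - p.2) * ⟪u p.2, ψ p.1⟫ ∂(μ.prod μ)| ≤
      2 * Cn * C2 * (√G * ρ⁻¹ * (ρ / R) ^ (3 / 4 : ℝ) * ∫ y, ‖ψ y‖ ∂μ) := by
    obtain ⟨h1, h2⟩ := H2 μ hU u huc x ρ G hρ hG hGr (R / 2) (by linarith)
    have hI3 : Integrable ((ball x (R / 2))ᶜ.indicator
        fun y => Cn * ρ * (‖u y‖ * (‖x - y‖ ^ (n + 2))⁻¹)) μ :=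
      (integrable_indicator_iff measurableSet_ball.compl).2 (h1.const_mul _)
    rw [← sub_zero (∫ p : X × X, tailK n R R' (p.1 - p.2) * ⟪u p.2, ψ p.1⟫ ∂(μ.prod μ)), ← e3,
      ← integral_sub hf2 hf3]
    refine (tail_abs_prod hψi.norm hI3 ?_).trans ?_
    · intro p
      by_cases ha : dist p.1 x < ρ
      · have h3 := tailK_diff n hρ hR hRR ha p.2
        have h4 := abs_real_inner_le_norm (u p.2) (ψ p.1)
        rw [← sub_mul, abs_mul]
        by_cases hb : p.2 ∈ (ball x (R / 2))ᶜ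
        · rw [indicator_of_mem hb] at h3 ⊢
          calc _ ≤ (Cn * ρ * (‖x - p.2‖ ^ (n + 2))⁻¹) * (‖u p.2‖ * ‖ψ p.1‖) := by gcongr
            _ = _ := by ring
        · rw [indicator_of_notMem hb] at h3 ⊢
          rw [abs_nonpos_iff.1 h3]
          simp
      · rw [hψ.zero _ (not_lt.1 ha)]
        simp
    · rw [integral_indicator measurableSet_ball.compl, integral_const_mul]
      have h5 : (ρ / (R / 2)) ^ (3 / 4 : ℝ) ≤ 2 * (ρ / R) ^ (3 / 4 : ℝ) := by
        have e : ρ / (R / 2) = 2 * (ρ / R) := by field_simp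
        rw [e, Real.mul_rpow (by norm_num) (by positivity)]
        have : (2 : ℝ) ^ (3 / 4 : ℝ) ≤ 2 := by
          calc (2 : ℝ) ^ (3 / 4 : ℝ) ≤ 2 ^ (1 : ℝ) :=
                Real.rpow_le_rpow_of_exponent_le (by norm_num) (by norm_num)
            _ = 2 := Real.rpow_one 2
        gcongr
      have h6 : 0 ≤ ∫ y, ‖ψ y‖ ∂μ := integral_nonneg fun y => norm_nonneg _
      calc _ ≤ (∫ y, ‖ψ y‖ ∂μ) *
            (Cn * ρ * (C2 * √G * (ρ ^ 2)⁻¹ * (2 * (ρ / R) ^ (3 / 4 : ℝ)))) := by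
            gcongr
            refine h2.trans ?_
            gcongr
        _ = _ := by field_simp
  have p1 : 0 ≤ R⁻¹ * ∫ y, ‖u y‖ * ‖ψ y‖ ∂μ :=
    mul_nonneg (by positivity) (integral_nonneg fun y => by positivity)
  have p2 : 0 ≤ √G * ρ⁻¹ * (ρ / R) ^ (3 / 4 : ℝ) * ∫ y, ‖ψ y‖ ∂μ :=
    mul_nonneg (by positivity) (integral_nonneg fun y => by positivity)
  rw [abs_mul, abs_two]
  have b3 := abs_sub
    (∫ p : X × X, tailK n R R' (p.1 - p.2) * ⟪u p.1, ψ p.1⟫ ∂(μ.prod μ))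
    (∫ p : X × X, tailK n R R' (p.1 - p.2) * ⟪u p.2, ψ p.1⟫ ∂(μ.prod μ))
  have q1 : 0 ≤ Cn * C2 * (R⁻¹ * ∫ y, ‖u y‖ * ‖ψ y‖ ∂μ) := by positivity
  have q2 : 0 ≤ C1 * (√G * ρ⁻¹ * (ρ / R) ^ (3 / 4 : ℝ) * ∫ y, ‖ψ y‖ ∂μ) := by positivity
  nlinarith

/-- Corollary of `tail` and the definition of `Osc`. -/
theorem osc_bound (n : ℕ) {C : ℝ} (hC : 0 < C) : ∃ Ct : ℝ, 0 < Ct ∧ ∀ μ : Measure X, Up n μ C →
    ∀ u : X → F, LocLip u → ∀ (x : X) (ρ G D : ℝ), 0 < ρ → 0 ≤ G → Gr n μ u x ρ G →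
    Osc n μ u x ρ D → ∀ ψ : X → F, Test μ ψ x ρ → ∀ R : ℝ, 4 * ρ ≤ R →
    |En n μ (cut R) u ψ| ≤ √(D * EE n μ ψ) +
      Ct * (R⁻¹ * ∫ y, ‖u y‖ * ‖ψ y‖ ∂μ +
        √G * ρ⁻¹ * (ρ / R) ^ (3 / 4 : ℝ) * ∫ y, ‖ψ y‖ ∂μ) := by
  obtain ⟨Ct, hCt, H⟩ := tail (X := X) (F := F) n hC
  refine ⟨Ct, hCt, ?_⟩
  intro μ hU u hu x ρ G D hρ hG hGr hO ψ hψ R hR
  refine le_of_forall_pos_le_add fun η hη => ?_
  obtain ⟨R0, h0⟩ := hO ψ hψ η hη
  have h1 := h0 (max R0 R) (le_max_left _ _)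
  have h2 := H μ hU u hu x ρ G hρ hG hGr ψ hψ R (max R0 R) hR (le_max_right _ _)
  have h3 := abs_sub (En n μ (cut (max R0 R)) u ψ)
    (En n μ (cut (max R0 R)) u ψ - En n μ (cut R) u ψ)
  rw [sub_sub_cancel] at h3
  linarith

end Vale.Agent.P120
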