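import Vale.Agent.P120.Tail

/-!
The touching lemma: at a point where a ball touches the support of a reflectionless measure from
outside, the measure flattens along the tangent hyperplane.
-/

open MeasureTheory Metric Set Filter Topology
open scoped RealInnerProductSpace ENNReal NNReal

noncomputable section

namespace Vale.Agent.P120

variable {X : Type} [NormedAddCommGroup X] [InnerProductSpace ℝ X] [FiniteDimensional ℝ X]
  [MeasurableSpace X] [BorelSpace X]
variable {F : Type} [NormedAddCommGroup F] [InnerProductSpace ℝ F] [FiniteDimensional ℝ F]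


lemma Touch_prod {μ : Measure X} [SFinite μ] {f : X → ℝ} {k : X × X → ℝ} (hf : Integrable f μ)
    (hfm : Measurable f) (hf0 : ∀ a, 0 ≤ f a) (hk : Measurable k) (hk0 : ∀ p, 0 ≤ k p) {M : ℝ}
    (hi : ∀ a, Integrable (fun b => k (a, b)) μ ∧ ∫ b, k (a, b) ∂μ ≤ M) :
    Integrable (fun p : X × X => f p.1 * k p) (μ.prod μ) ∧
      ∫ p : X × X, f p.1 * k p ∂(μ.prod μ) ≤ M * ∫ a, f a ∂μ := by
  have hm : Measurable fun p : X × X => f p.1 * k p := (hfm.comp measurable_fst).mul hk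
  have hb : ∀ a, ∫ b, f a * k (a, b) ∂μ ≤ M * f a := fun a => by
    rw [integral_const_mul, mul_comm]
    exact mul_le_mul_of_nonneg_right (hi a).2 (hf0 a)
  have h1 : Integrable (fun p : X × X => f p.1 * k p) (μ.prod μ) := by
    refine (integrable_prod_iff hm.aestronglyMeasurable).2
      ⟨Eventually.of_forall fun a => (hi a).1.const_mul (f a), ?_⟩
    refine (hf.const_mul M).mono' hm.aestronglyMeasurable.norm.integral_prod_right'
      (Eventually.of_forall fun a => ?_)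
    rw [Real.norm_of_nonneg (integral_nonneg fun _ => norm_nonneg _)]
    refine le_trans (le_of_eq ?_) (hb a)
    exact integral_congr_ae (Eventually.of_forall fun b =>
      Real.norm_of_nonneg (mul_nonneg (hf0 a) (hk0 _)))
  refine ⟨h1, ?_⟩
  rw [integral_prod _ h1, ← integral_const_mul]
  exact integral_mono h1.integral_prod_left (hf.const_mul M) hb

/-- Near kernel. -/
def touchK1 (n : ℕ) (ρ : ℝ) (p : X × X) : ℝ :=
  (ball p.1 ρ).indicator (fun y => J n (p.1 - y) * ‖p.1 - y‖ ^ 2) p.2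

/-- Far kernel. -/
def touchK2 (n : ℕ) (ρ : ℝ) (p : X × X) : ℝ :=
  (ball p.1 ρ)ᶜ.indicator (fun y => J n (p.1 - y)) p.2

lemma touchK1_nonneg (n : ℕ) (ρ : ℝ) (p : X × X) : 0 ≤ touchK1 n ρ p :=
  indicator_nonneg (fun _ _ => mul_nonneg (J_nonneg _ _) (sq_nonneg _)) _

lemma touchK2_nonneg (n : ℕ) (ρ : ℝ) (p : X × X) : 0 ≤ touchK2 n ρ p :=
  indicator_nonneg (fun _ _ => J_nonneg _ _) _

lemma touchK1_meas (n : ℕ) (ρ : ℝ) : Measurable (touchK1 n ρ : X × X → ℝ) := by
  have : (touchK1 n ρ : X × X → ℝ) = {p : X × X | dist p.2 p.1 < ρ}.indicator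
      fun p => J n (p.1 - p.2) * ‖p.1 - p.2‖ ^ 2 := by
    ext p
    by_cases h : dist p.2 p.1 < ρ <;> simp [touchK1, indicator, h]
  rw [this]
  exact (((measurable_J n).comp (measurable_fst.sub measurable_snd)).mul
    ((measurable_fst.sub measurable_snd).norm.pow_const 2)).indicator
    (measurableSet_lt (measurable_snd.dist measurable_fst) measurable_const)

lemma touchK2_meas (n : ℕ) (ρ : ℝ) : Measurable (touchK2 n ρ : X × X → ℝ) := by
  have : (touchK2 n ρ : X × X → ℝ) = {p : X × X | dist p.2 p.1 < ρ}ᶜ.indicator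
      fun p => J n (p.1 - p.2) := by
    ext p
    by_cases h : dist p.2 p.1 < ρ <;> simp [touchK2, indicator, h]
  rw [this]
  exact ((measurable_J n).comp (measurable_fst.sub measurable_snd)).indicator
    (measurableSet_lt (measurable_snd.dist measurable_fst) measurable_const).compl

/-- The truncated target integrand. -/
def touchG (n : ℕ) (e x0 : X) (r : ℝ) : X → ℝ :=
  (ball x0 2 \ ball x0 (4 * r)).indicator fun y => |⟪e, y - x0⟫| * J n (x0 - y)

lemma touchG_nonneg (n : ℕ) (e x0 : X) (r : ℝ) (y : X) : 0 ≤ touchG n e x0 r y :=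
  indicator_nonneg (fun _ _ => mul_nonneg (abs_nonneg _) (J_nonneg _ _)) _

lemma Touch_mixed (n : ℕ) {x0 e : X} (he : ‖e‖ = 1) {t r : ℝ} (ht : 0 < t) (hr : 0 < r)
    {a b : X} (hb : 4 * r ≤ dist b x0) (hh : -(‖b - x0‖ ^ 2 / (2 * t)) ≤ ⟪e, b - x0⟫) :
    cut 8 ‖a - b‖ * (J n (a - b) * ((⟪e, a - x0⟫ - ⟪e, b - x0⟫) * cut r (dist a x0))) +
      cut r (dist a x0) * ((2 ^ (n + 1))⁻¹ * touchG n e x0 r b) ≤
      cut r (dist a x0) * (2 * r * touchK2 n (2 * r) (a, b) + 4 / t * touchK1 n 16 (a, b)) := by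
  by_cases ha : 2 * r ≤ dist a x0
  · simp [cut_eq_zero hr ha]
  rw [not_le, dist_eq_norm] at ha
  rw [dist_eq_norm] at hb
  have t1 : ‖b - x0‖ ≤ ‖a - b‖ + ‖a - x0‖ := by
    have := dist_triangle_left b x0 a
    simpa only [dist_eq_norm] using this
  have t2 : ‖a - b‖ ≤ ‖a - x0‖ + ‖b - x0‖ := by
    have := dist_triangle_right a b x0
    simpa only [dist_eq_norm] using this
  have hd : 0 < ‖a - b‖ := by linarith
  have hw0 := cut_nonneg 8 ‖a - b‖
  have hw1 := cut_le_one 8 ‖a - b‖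
  have hJ := J_nonneg n (a - b)
  have hdist : dist b a = ‖a - b‖ := by rw [dist_comm, dist_eq_norm]
  have h1 : ⟪e, a - x0⟫ ≤ 2 * r := by
    have := real_inner_le_norm e (a - x0)
    rw [he, one_mul] at this
    linarith
  have h2 : -⟪e, b - x0⟫ ≤ 4 / t * ‖a - b‖ ^ 2 - |⟪e, b - x0⟫| := by
    have e1 : ‖b - x0‖ ^ 2 ≤ 4 * ‖a - b‖ ^ 2 := by nlinarith [norm_nonneg (b - x0)]
    have e2 : 2 * (‖b - x0‖ ^ 2 / (2 * t)) ≤ 4 / t * ‖a - b‖ ^ 2 := by
      calc 2 * (‖b - x0‖ ^ 2 / (2 * t)) = ‖b - x0‖ ^ 2 / t := by field_simp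
        _ ≤ 4 * ‖a - b‖ ^ 2 / t := by gcongr
        _ = _ := by ring
    have e3 : 0 ≤ 4 / t * ‖a - b‖ ^ 2 := by positivity
    rcases abs_cases ⟪e, b - x0⟫ with h | h <;> linarith [h.1, h.2]
  have h3 : cut 8 ‖a - b‖ * J n (a - b) ≤ touchK2 n (2 * r) (a, b) := by
    have : b ∈ (ball a (2 * r))ᶜ := by
      rw [mem_compl_iff, mem_ball, hdist]
      linarith
    rw [touchK2, indicator_of_mem this]
    exact mul_le_of_le_one_left hJ hw1
  have h4 : cut 8 ‖a - b‖ * J n (a - b) * ‖a - b‖ ^ 2 ≤ touchK1 n 16 (a, b) := by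
    by_cases h16 : ‖a - b‖ < 16
    · have : b ∈ ball a 16 := by rwa [mem_ball, hdist]
      rw [touchK1, indicator_of_mem this, mul_assoc]
      exact mul_le_of_le_one_left (by positivity) hw1
    · rw [cut_eq_zero (by norm_num) (by linarith), zero_mul, zero_mul]
      exact touchK1_nonneg _ _ _
  have h5 : (2 ^ (n + 1))⁻¹ * touchG n e x0 r b ≤
      cut 8 ‖a - b‖ * J n (a - b) * |⟪e, b - x0⟫| := by
    by_cases hb2 : b ∈ ball x0 2 \ ball x0 (4 * r)
    · have hb3 : ‖b - x0‖ < 2 := by simpa only [mem_ball, dist_eq_norm] using hb2.1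
      rw [touchG, indicator_of_mem hb2, cut_eq_one (by norm_num) (by linarith), one_mul,
        mul_left_comm, mul_comm (J n (a - b))]
      refine mul_le_mul_of_nonneg_left ?_ (abs_nonneg _)
      rw [J, J, ← mul_inv, ← mul_pow, norm_sub_rev x0]
      exact inv_anti₀ (by positivity) (pow_le_pow_left₀ hd.le (by linarith) _)
    · rw [touchG, indicator_of_notMem hb2, mul_zero]
      positivity
  have h6 : cut 8 ‖a - b‖ * J n (a - b) * (⟪e, a - x0⟫ - ⟪e, b - x0⟫) ≤
      cut 8 ‖a - b‖ * J n (a - b) * (2 * r + (4 / t * ‖a - b‖ ^ 2 - |⟪e, b - x0⟫|)) :=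
    mul_le_mul_of_nonneg_left (by linarith) (by positivity)
  have h7 := mul_le_mul_of_nonneg_left h3 (by positivity : 0 ≤ 2 * r)
  have h8 := mul_le_mul_of_nonneg_left h4 (by positivity : 0 ≤ 4 / t)
  have h9 : cut 8 ‖a - b‖ * J n (a - b) * (⟪e, a - x0⟫ - ⟪e, b - x0⟫) +
      (2 ^ (n + 1))⁻¹ * touchG n e x0 r b ≤
      2 * r * touchK2 n (2 * r) (a, b) + 4 / t * touchK1 n 16 (a, b) := by linarith
  have := mul_le_mul_of_nonneg_left h9 (cut_nonneg r (dist a x0))
  linarith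

/-- The majorant of the mixed part. -/
def touchV (n : ℕ) (x0 : X) (t r : ℝ) (p : X × X) : ℝ :=
  cut r (dist p.1 x0) * (2 * r * touchK2 n (2 * r) p + 4 / t * touchK1 n 16 p)

lemma Touch_point (n : ℕ) {x0 e : X} (he : ‖e‖ = 1) {t r : ℝ} (ht : 0 < t) (hr : 0 < r)
    {a b : X} (ha : -(‖a - x0‖ ^ 2 / (2 * t)) ≤ ⟪e, a - x0⟫)
    (hb : -(‖b - x0‖ ^ 2 / (2 * t)) ≤ ⟪e, b - x0⟫) :
    cut 8 ‖a - b‖ * (J n (a - b) *
      ⟪(a - x0) - (b - x0), cut r (dist a x0) • e - cut r (dist b x0) • e⟫) +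
      cut r (dist a x0) * ((2 ^ (n + 1))⁻¹ * touchG n e x0 r b) ≤
      (ball x0 (4 * r)).indicator (fun _ => r⁻¹) a * touchK1 n (8 * r) (a, b) +
        touchV n x0 t r (a, b) + touchV n x0 t r (b, a) := by
  have hV : ∀ p, 0 ≤ touchV n x0 t r p := fun p => by
    have := touchK1_nonneg n 16 p
    have := touchK2_nonneg n (2 * r) p
    have := cut_nonneg r (dist p.1 x0)
    unfold touchV
    positivity
  have hU : 0 ≤ (ball x0 (4 * r)).indicator (fun _ => r⁻¹) a * touchK1 n (8 * r) (a, b) :=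
    mul_nonneg (indicator_nonneg (fun _ _ => by positivity) _) (touchK1_nonneg _ _ _)
  have e1 : ⟪(a - x0) - (b - x0), cut r (dist a x0) • e - cut r (dist b x0) • e⟫ =
      (⟪e, a - x0⟫ - ⟪e, b - x0⟫) * (cut r (dist a x0) - cut r (dist b x0)) := by
    rw [← sub_smul, inner_smul_right, real_inner_comm, inner_sub_right, mul_comm]
  rw [e1]
  by_cases hbB : 4 * r ≤ dist b x0
  · have h1 := Touch_mixed n he ht hr (a := a) hbB hb
    rw [cut_eq_zero hr (by linarith : 2 * r ≤ dist b x0), sub_zero]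
    have := hV (b, a)
    unfold touchV at *
    linarith
  have hG : touchG n e x0 r b = 0 :=
    indicator_of_notMem (fun h => h.2 (mem_ball.2 (not_le.1 hbB))) _
  rw [hG, mul_zero, mul_zero, add_zero]
  by_cases haB : 4 * r ≤ dist a x0
  · have h1 := Touch_mixed n he ht hr (a := b) haB ha
    rw [cut_eq_zero hr (by linarith : 2 * r ≤ dist a x0), norm_sub_rev a, J_sub_comm n a]
    have h2 : 0 ≤ cut r (dist b x0) * ((2 ^ (n + 1))⁻¹ * touchG n e x0 r a) :=
      mul_nonneg (cut_nonneg _ _) (mul_nonneg (by positivity) (touchG_nonneg _ _ _ _ _))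
    have := hV (a, b)
    unfold touchV at *
    linarith
  rw [not_le] at haB hbB
  have hab : b ∈ ball a (8 * r) := by
    rw [mem_ball]
    linarith [dist_triangle_right b a x0]
  rw [indicator_of_mem (mem_ball.2 haB), touchK1, indicator_of_mem hab]
  have h1 : |⟪e, a - x0⟫ - ⟪e, b - x0⟫| ≤ ‖a - b‖ := by
    rw [← inner_sub_right, sub_sub_sub_cancel_right]
    simpa [he] using abs_real_inner_le_norm e (a - b)
  have h2 : |cut r (dist a x0) - cut r (dist b x0)| ≤ ‖a - b‖ / r := by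
    refine (cut_lip hr _ _).trans (div_le_div_of_nonneg_right ?_ hr.le)
    rw [← dist_eq_norm]
    exact abs_dist_sub_le a b x0
  have h3 : (⟪e, a - x0⟫ - ⟪e, b - x0⟫) * (cut r (dist a x0) - cut r (dist b x0)) ≤
      ‖a - b‖ * (‖a - b‖ / r) := by
    refine (le_abs_self _).trans ?_
    rw [abs_mul]
    exact mul_le_mul h1 h2 (abs_nonneg _) (norm_nonneg _)
  have hJ := J_nonneg n (a - b)
  have h4 := mul_le_mul_of_nonneg_left (mul_le_mul_of_nonneg_left h3 hJ) (cut_nonneg 8 ‖a - b‖)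
  have h5 := mul_le_of_le_one_left (by positivity : 0 ≤ J n (a - b) * (‖a - b‖ * (‖a - b‖ / r)))
    (cut_le_one 8 ‖a - b‖)
  have h6 : J n (a - b) * (‖a - b‖ * (‖a - b‖ / r)) = r⁻¹ * (J n (a - b) * ‖a - b‖ ^ 2) := by
    ring
  linarith [hV (a, b), hV (b, a)]

lemma Touch_phi {μ : Measure X} [IsLocallyFiniteMeasure μ] (x0 : X) {r : ℝ} (hr : 0 < r) :
    Integrable (fun y => cut r (dist y x0)) μ :=
  (lipschitz_cut_dist hr x0).continuous.integrable_of_hasCompactSupport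
    (hasCompactSupport_of_zero (x := x0) (ρ := 2 * r) fun _ hy => cut_eq_zero hr hy)

lemma Touch_mass {n : ℕ} {ν : Measure X} {C : ℝ} (hreg : ∀ W, Reg n ν C 0 W) {x0 : X}
    (hx0 : x0 ∈ ν.support) {r : ℝ} (hr : 0 < r) : r ^ n / C ≤ ∫ y, cut r (dist y x0) ∂ν := by
  have := (hreg 0).up.locFin
  have h1 := (hreg (dist x0 0 + r)).real_ge hx0 (by linarith) hr
    (by linarith [dist_nonneg (x := x0) (y := 0)])
  refine h1.trans ?_
  rw [← integral_indicator_one measurableSet_ball]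
  refine integral_mono_of_nonneg (Eventually.of_forall fun y => indicator_nonneg (by simp) _)
    (Touch_phi x0 hr) (Eventually.of_forall fun y => ?_)
  by_cases hy : y ∈ ball x0 r
  · simp [indicator_of_mem hy, cut_eq_one hr (mem_ball.1 hy).le]
  · simp [indicator_of_notMem hy, cut_nonneg]

lemma Touch_lip (x0 e : X) {r : ℝ} (hr : 0 < r) (c : ℝ) :
    ∃ L, LipschitzWith L fun y => c • cut r (dist y x0) • e := by
  obtain ⟨L, hL⟩ := lipschitz_smul_of_locLip (lipschitz_cut_dist hr x0) (x := x0) (ρ := 2 * r)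
    (fun _ hy => cut_eq_zero hr hy) (locLip_of_lipschitz (LipschitzWith.const (α := X) e))
  exact ⟨_, (lipschitzWith_smul c).comp hL⟩

lemma Touch_low {n : ℕ} {ν : Measure X} {C : ℝ} (hC : 0 < C) (hreg : ∀ W, Reg n ν C 0 W)
    (hR : Ref n ν) {x0 : X} (hx0 : x0 ∈ ν.support) {e : X} (he : ‖e‖ = 1) :
    ∃ K : ℝ, ∀ r : ℝ, 0 < r → r ≤ 1 → -(K * ∫ y, cut r (dist y x0) ∂ν) ≤
      En n ν (cut 8) (fun y => y - x0) (fun y => cut r (dist y x0) • e) := by
  have hU := (hreg 0).up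
  have := hU.locFin
  obtain ⟨Ct, hCt, hosc⟩ := osc_bound (X := X) (F := X) n hC
  have hu : LocLip fun y : X => y - x0 :=
    (locLip_of_lipschitz LipschitzWith.id).sub (locLip_of_lipschitz (LipschitzWith.const x0))
  have hgr : Gr n ν (fun y : X => y - x0) x0 2 (4 * C) := by
    intro s hs
    have h1 : ∫ y in ball x0 s, ‖y - x0‖ ^ 2 ∂ν ≤ ∫ _ in ball x0 s, s ^ 2 ∂ν := by
      refine setIntegral_mono_on (integrableOn_ball_of_continuous (by fun_prop) _ _)
        (integrableOn_ball_of_continuous continuous_const _ _) measurableSet_ball fun y hy => ?_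
      rw [mem_ball, dist_eq_norm] at hy
      exact pow_le_pow_left₀ (norm_nonneg _) hy.le 2
    rw [setIntegral_const, smul_eq_mul] at h1
    have h2 := hU.real_le hC x0 (by linarith : 0 < s)
    have h3 : (s / 2) ^ 2 ≤ (s / 2) ^ (5 / 2 : ℝ) := by
      rw [← Real.rpow_natCast]
      exact Real.rpow_le_rpow_of_exponent_le (by linarith) (by norm_num)
    have h4 : 0 ≤ C * s ^ n := by have : 0 < s := by linarith
                                  positivity
    calc _ ≤ C * s ^ n * s ^ 2 := h1.trans (mul_le_mul_of_nonneg_right h2 (sq_nonneg _))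
      _ = 4 * (C * s ^ n) * (s / 2) ^ 2 := by ring
      _ ≤ 4 * (C * s ^ n) * (s / 2) ^ (5 / 2 : ℝ) := by gcongr
      _ = _ := by ring
  have hos : Osc n ν (fun y : X => y - x0) x0 2 0 := by
    intro ψ hψ η hη
    simpa only [En_sub_const n ν _ (fun y : X => y)] using hR.osc x0 2 ψ hψ η hη
  set m : ℝ → ℝ := fun r => ∫ y, cut r (dist y x0) ∂ν with hm
  have hm0 : ∀ r, 0 < r → 0 < m r := fun r hr =>
    lt_of_lt_of_le (by positivity) (Touch_mass hreg hx0 hr)
  set T : ℝ → ℝ := fun r => En n ν (cut 8) (fun y => y - x0) (fun y => cut r (dist y x0) • e)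
  set K0 := Ct * (8⁻¹ * 4 + √(4 * C) * 2⁻¹ * (2 / 8) ^ (3 / 4 : ℝ) * 2)
  refine ⟨K0 - (m 1)⁻¹ * T 1, fun r hr hr1 => ?_⟩
  obtain ⟨L, hL⟩ := Touch_lip x0 e hr (m r)⁻¹
  obtain ⟨L', hL'⟩ := Touch_lip x0 e one_pos (m 1)⁻¹
  have hz : ∀ s c : ℝ, 0 < s → s ≤ 1 → ∀ y, 2 ≤ dist y x0 → c • cut s (dist y x0) • e = 0 :=
    fun s c hs hs1 y hy => by rw [cut_eq_zero hs (by linarith), zero_smul, smul_zero]
  have hi : ∀ s c : ℝ, 0 < s → Integrable (fun y => c • cut s (dist y x0) • e) ν :=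
    fun s c hs => ((Touch_phi x0 hs).smul_const e).smul c
  have hmean : ∀ s : ℝ, 0 < s → ∫ y, (m s)⁻¹ • cut s (dist y x0) • e ∂ν = e := fun s hs => by
    rw [integral_smul, integral_smul_const, smul_smul, inv_mul_cancel₀ (hm0 s hs).ne', one_smul]
  set ψ : X → X := fun y => (m r)⁻¹ • cut r (dist y x0) • e - (m 1)⁻¹ • cut 1 (dist y x0) • e
    with hψ
  have hT : Test ν ψ x0 2 := by
    refine ⟨⟨_, hL.sub hL'⟩, fun y hy => ?_, ?_⟩
    · simp only [hψ, hz r _ hr hr1 y hy, hz 1 _ one_pos le_rfl y hy, sub_zero]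
    · rw [integral_sub (hi _ _ hr) (hi _ _ one_pos), hmean r hr, hmean 1 one_pos, sub_self]
  have hψi : Integrable ψ ν := (hi _ _ hr).sub (hi _ _ one_pos)
  have h1 : ∫ y, ‖ψ y‖ ∂ν ≤ 2 := by
    have e1 : ∫ y, ‖ψ y‖ ∂ν ≤
        ∫ y, ((m r)⁻¹ * cut r (dist y x0) + (m 1)⁻¹ * cut 1 (dist y x0)) ∂ν := by
      refine integral_mono hψi.norm (((Touch_phi x0 hr).const_mul _).add
        ((Touch_phi x0 one_pos).const_mul _)) fun y => (norm_sub_le _ _).trans (le_of_eq ?_)
      simp only [norm_smul, he, mul_one, Real.norm_of_nonneg (cut_nonneg _ _),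
        Real.norm_of_nonneg (inv_pos.2 (hm0 r hr)).le,
        Real.norm_of_nonneg (inv_pos.2 (hm0 1 one_pos)).le]
    rw [integral_add ((Touch_phi x0 hr).const_mul _) ((Touch_phi x0 one_pos).const_mul _),
      integral_const_mul, integral_const_mul, inv_mul_cancel₀ (hm0 r hr).ne',
      inv_mul_cancel₀ (hm0 1 one_pos).ne'] at e1
    linarith
  have h2 : ∫ y, ‖y - x0‖ * ‖ψ y‖ ∂ν ≤ 4 := by
    have e1 : ∫ y, ‖y - x0‖ * ‖ψ y‖ ∂ν ≤ ∫ y, 2 * ‖ψ y‖ ∂ν := by
      refine integral_mono_of_nonneg (Eventually.of_forall fun y => by positivity)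
        (hψi.norm.const_mul 2) (Eventually.of_forall fun y => ?_)
      by_cases hy : 2 ≤ dist y x0
      · simp [hT.zero y hy]
      · rw [not_le, dist_eq_norm] at hy
        exact mul_le_mul_of_nonneg_right hy.le (norm_nonneg _)
    rw [integral_const_mul] at e1
    linarith
  have h3 := hosc ν hU _ hu x0 2 (4 * C) 0 two_pos (by positivity) hgr hos ψ hT 8 (by norm_num)
  rw [zero_mul, Real.sqrt_zero, zero_add] at h3
  have h4 : |En n ν (cut 8) (fun y => y - x0) ψ| ≤ K0 := by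
    refine h3.trans (mul_le_mul_of_nonneg_left (add_le_add ?_ ?_) hCt.le)
    · linarith
    · exact mul_le_mul_of_nonneg_left h1 (by positivity)
  rw [hψ, En_sub_right hU hC hu hL hL' (hz r _ hr hr1) (hz 1 _ one_pos le_rfl)
    (continuous_cut 8).measurable
    (fun s => by rw [abs_of_nonneg (cut_nonneg _ _)]; exact cut_le_one _ _) (R := 16)
    (fun s hs => cut_eq_zero (by norm_num) (by linarith)), En_smul_right, En_smul_right] at h4
  have h5 : -(K0 - (m 1)⁻¹ * T 1) ≤ (m r)⁻¹ * T r := by linarith [(abs_le.1 h4).1]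
  have h6 := mul_le_mul_of_nonneg_left h5 (hm0 r hr).le
  rw [← mul_assoc, mul_inv_cancel₀ (hm0 r hr).ne', one_mul] at h6
  change -(_ * m r) ≤ T r
  linarith

lemma Touch_G_int {n : ℕ} {ν : Measure X} {C : ℝ} (hC : 0 < C) (hU : Up n ν C) (x0 : X) {e : X}
    (he : ‖e‖ = 1) {r : ℝ} (hr : 0 < r) : IntegrableOn
      (fun y => |⟪e, y - x0⟫| * J n (x0 - y)) (ball x0 2 \ ball x0 (4 * r)) ν := by
  obtain ⟨Ca, -, h⟩ := ann_far (X := X) n hC
  have h1 := ((h ν hU x0 (4 * r) (by positivity)).1.mono_set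
    (fun y (hy : y ∈ ball x0 2 \ ball x0 (4 * r)) => hy.2)).const_mul 2
  have hm : Measurable fun y => |⟪e, y - x0⟫| * J n (x0 - y) :=
    (by fun_prop : Continuous fun y => |⟪e, y - x0⟫|).measurable.mul
      ((measurable_J n).comp (measurable_const.sub measurable_id))
  refine Integrable.mono' h1 hm.aestronglyMeasurable ?_
  refine (ae_restrict_iff' (measurableSet_ball.diff measurableSet_ball)).2
    (Eventually.of_forall fun y hy => ?_)
  rw [Real.norm_of_nonneg (mul_nonneg (abs_nonneg _) (J_nonneg _ _))]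
  refine mul_le_mul_of_nonneg_right ?_ (J_nonneg _ _)
  have h2 := abs_real_inner_le_norm e (y - x0)
  have h3 : ‖y - x0‖ < 2 := by simpa only [mem_ball, dist_eq_norm] using hy.1
  rw [he, one_mul] at h2
  linarith

lemma Touch_bound {n : ℕ} {ν : Measure X} {C : ℝ} (hC : 0 < C)
    (hreg : ∀ W, Reg n ν C 0 W) (hR : Ref n ν) {x0 : X} (hx0 : x0 ∈ ν.support) {e : X}
    (he : ‖e‖ = 1) {t : ℝ} (ht : 0 < t)
    (h : ∀ y ∈ ν.support, -(‖y - x0‖ ^ 2 / (2 * t)) ≤ ⟪e, y - x0⟫) :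
    ∃ K : ℝ, ∀ r : ℝ, 0 < r → r ≤ 1 →
      ∫ y in ball x0 2 \ ball x0 (4 * r), |⟪e, y - x0⟫| * J n (x0 - y) ∂ν ≤ K := by
  have hU := (hreg 0).up
  have := hU.locFin
  obtain ⟨K1, hK1⟩ := Touch_low hC hreg hR hx0 he
  obtain ⟨Ca, hCa, hnear⟩ := ann_near (X := X) n hC
  obtain ⟨Cb, hCb, hfar⟩ := ann_far (X := X) n hC
  have k1 : ∀ ρ : ℝ, 0 < ρ → ∀ a, Integrable (fun b => touchK1 n ρ (a, b)) ν ∧
      ∫ b, touchK1 n ρ (a, b) ∂ν ≤ Ca * ρ := fun ρ hρ a =>
    ⟨(hnear ν hU a ρ hρ).1.integrable_indicator measurableSet_ball,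
      (integral_indicator measurableSet_ball).trans_le (hnear ν hU a ρ hρ).2⟩
  have k2 : ∀ ρ : ℝ, 0 < ρ → ∀ a, Integrable (fun b => touchK2 n ρ (a, b)) ν ∧
      ∫ b, touchK2 n ρ (a, b) ∂ν ≤ Cb / ρ := fun ρ hρ a =>
    ⟨(hfar ν hU a ρ hρ).1.integrable_indicator measurableSet_ball.compl,
      (integral_indicator measurableSet_ball.compl).trans_le (hfar ν hU a ρ hρ).2⟩
  refine ⟨2 ^ (n + 1) * (K1 + 8 * Ca * C * 4 ^ n * C + 2 * (Cb + 4 / t * (Ca * 16))),
    fun r hr hr1 => ?_⟩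
  have hφ := Touch_phi (μ := ν) x0 hr
  have hm := Touch_mass hreg hx0 hr
  have hT := hK1 r hr hr1
  set m := ∫ y, cut r (dist y x0) ∂ν
  have hm0 : 0 < m := lt_of_lt_of_le (by positivity) hm
  obtain ⟨iV, hV⟩ := Touch_prod hφ (lipschitz_cut_dist hr x0).continuous.measurable
    (fun a => cut_nonneg _ _)
    (k := fun p => 2 * r * touchK2 n (2 * r) p + 4 / t * touchK1 n 16 p)
    (((touchK2_meas n _).const_mul _).add ((touchK1_meas n _).const_mul _))
    (fun p => by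
      have := touchK1_nonneg n 16 p
      have := touchK2_nonneg n (2 * r) p
      positivity) (M := Cb + 4 / t * (Ca * 16)) (fun a => by
      have e1 := k1 16 (by norm_num) a
      have e2 := k2 (2 * r) (by positivity) a
      refine ⟨(e2.1.const_mul _).add (e1.1.const_mul _), ?_⟩
      rw [integral_add (e2.1.const_mul _) (e1.1.const_mul _), integral_const_mul,
        integral_const_mul]
      have e3 := mul_le_mul_of_nonneg_left e1.2 (by positivity : 0 ≤ 4 / t)
      have e4 := mul_le_mul_of_nonneg_left e2.2 (by positivity : 0 ≤ 2 * r)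
      rw [mul_div_cancel₀ _ (by positivity)] at e4
      linarith)
  have iV1 : Integrable (touchV n x0 t r) (ν.prod ν) := iV
  have hV1 : ∫ p, touchV n x0 t r p ∂(ν.prod ν) ≤ (Cb + 4 / t * (Ca * 16)) * m := hV
  have iV2 : Integrable (fun p : X × X => touchV n x0 t r p.swap) (ν.prod ν) := iV1.swap
  obtain ⟨iU, hU1⟩ := Touch_prod (μ := ν) (f := (ball x0 (4 * r)).indicator fun _ => r⁻¹)
    ((integrableOn_ball_of_continuous continuous_const _ _).integrable_indicator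
      measurableSet_ball) (measurable_const.indicator measurableSet_ball)
    (fun a => indicator_nonneg (fun _ _ => by positivity) _) (touchK1_meas n (8 * r))
    (touchK1_nonneg n _) (k1 (8 * r) (by positivity))
  rw [integral_indicator_const _ measurableSet_ball, smul_eq_mul] at hU1
  have hU2 : Ca * (8 * r) * (ν.real (ball x0 (4 * r)) * r⁻¹) ≤ 8 * Ca * C * 4 ^ n * C * m := by
    have e1 := hU.real_le hC x0 (by positivity : 0 < 4 * r)
    have e2 : r ^ n ≤ C * m := by rwa [div_le_iff₀ hC, mul_comm] at hm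
    calc _ = 8 * Ca * ν.real (ball x0 (4 * r)) := by field_simp
      _ ≤ 8 * Ca * (C * (4 * r) ^ n) := by gcongr
      _ = 8 * Ca * C * 4 ^ n * r ^ n := by rw [mul_pow]; ring
      _ ≤ 8 * Ca * C * 4 ^ n * (C * m) := by gcongr
      _ = _ := by ring
  have iG : Integrable (touchG n e x0 r) ν := (Touch_G_int hC hU x0 he hr).integrable_indicator
    (measurableSet_ball.diff measurableSet_ball)
  have iG2 := hφ.mul_prod (iG.const_mul (2 ^ (n + 1))⁻¹)
  obtain ⟨L, hL⟩ := Touch_lip x0 e hr 1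
  simp only [one_smul] at hL
  have hu : LocLip fun y : X => y - x0 :=
    (locLip_of_lipschitz LipschitzWith.id).sub (locLip_of_lipschitz (LipschitzWith.const x0))
  have iI := En_integrable hU hC hu hL (x := x0) (ρ := 2 * r)
    (fun y hy => by rw [cut_eq_zero hr hy, zero_smul]) (continuous_cut 8).measurable
    (fun s => by rw [abs_of_nonneg (cut_nonneg _ _)]; exact cut_le_one _ _) (R := 16)
    (fun s hs => cut_eq_zero (by norm_num) (by linarith))
  have hae : ∀ᵐ y ∂ν, y ∈ ν.support := ν.support_mem_ae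
  have key := integral_mono_ae (iI.add iG2) ((iU.add iV1).add iV2) (by
    filter_upwards [Measure.quasiMeasurePreserving_fst.ae hae,
      Measure.quasiMeasurePreserving_snd.ae hae] with p h1 h2
    exact Touch_point n he ht hr (h _ h1) (h _ h2))
  rw [integral_add' iI iG2, integral_add' (iU.add iV1) iV2, integral_add' iU iV1,
    integral_prod_swap, integral_prod_mul (fun y => cut r (dist y x0))
      (fun y => (2 ^ (n + 1))⁻¹ * touchG n e x0 r y), integral_const_mul, touchG,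
    integral_indicator (measurableSet_ball.diff measurableSet_ball)] at key
  unfold En at hT
  rw [← inv_mul_le_iff₀ (by positivity)]
  refine le_of_mul_le_mul_left ?_ hm0
  linarith



/-- Let `h y = ⟪e, y - x0⟫`, `φ r y = cut r (dist y x0)`, `m r = ∫ φ r ∈ [r^n/C, C (2r)^n]`.
For `0 < r ≤ 1/4` the map `ψ y = ((m r)⁻¹ φ r y - (m 1)⁻¹ φ 1 y) • e` is a test function in
`ball x0 2` with `∫‖ψ‖ ≤ 2`. `osc_bound` for `u y = y - x0` (`En_sub_const`, `Ref.osc`,
`Gr … x0 2 (4C)`) at `R = 8` bounds `En (cut 8) u ψ` uniformly in `r`; so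
`|En (cut 8) u (φ r • e)| ≤ C' m r`. The integrand is `cut J (h a - h b)(φ a - φ b)`.
Split the product space by `B = ball x0 (4r)`: on `B × B` the integral is `≲ r⁻¹ μ(B) r`
(`ann_near`); on `Bᶜ × Bᶜ` it vanishes; the two mixed parts are equal (`integral_prod_swap`) to
`∬_{B × Bᶜ} cut J (h a - h b) φ a`. There `|a-b| ≥ 2r` on the support of `φ a`, so the `h a` part
is `≲ m r · 2r · Ca/(2r)` (`ann_far`). Since `|h| = h + 2 h⁻`, `h⁻ b ≤ |b-x0|²/(2t)` and
`|b - x0| ≤ 2 |a-b|`, the `h⁻` part is `≲ m r · Ca 16/t` (`ann_near`). For `4r ≤ |b-x0| < 2`: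
`cut 8 = 1` and `J(a-b) ≥ 2^(-n-1) J(x0-b)`. Dividing by `m r`:
`∫_{4r ≤ |b-x0| < 2} |h| J(x0-b) ≤ C''`. Monotone convergence gives the claim. -/
theorem touch_integrable {n : ℕ} {ν : Measure X} {C : ℝ} (hC : 0 < C)
    (hreg : ∀ W, Reg n ν C 0 W) (hR : Ref n ν) {x0 : X} (hx0 : x0 ∈ ν.support) {e : X}
    (he : ‖e‖ = 1) {t : ℝ} (ht : 0 < t)
    (h : ∀ y ∈ ν.support, -(‖y - x0‖ ^ 2 / (2 * t)) ≤ ⟪e, y - x0⟫) :
    IntegrableOn (fun y => |⟪e, y - x0⟫| * J n (x0 - y)) (ball x0 2) ν := by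
  obtain ⟨K, hK⟩ := Touch_bound hC hreg hR hx0 he ht h
  have hU := (hreg 0).up
  have hr : ∀ i : ℕ, (0 : ℝ) < 1 / ((i : ℝ) + 1) := fun i => Nat.one_div_pos_of_nat
  have hm : Measurable fun y => |⟪e, y - x0⟫| * J n (x0 - y) :=
    (by fun_prop : Continuous fun y => |⟪e, y - x0⟫|).measurable.mul
      ((measurable_J n).comp (measurable_const.sub measurable_id))
  have h0 : ∀ y, 0 ≤ |⟪e, y - x0⟫| * J n (x0 - y) := fun y =>
    mul_nonneg (abs_nonneg _) (J_nonneg _ _)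
  have hmono : Monotone fun i : ℕ => ball x0 2 \ ball x0 (4 * (1 / ((i : ℝ) + 1))) := by
    intro i j hij
    refine sdiff_subset_sdiff_right (ball_subset_ball ?_)
    have := Nat.one_div_le_one_div (α := ℝ) hij
    linarith
  have h1 : IntegrableOn (fun y => |⟪e, y - x0⟫| * J n (x0 - y))
      (⋃ i : ℕ, ball x0 2 \ ball x0 (4 * (1 / ((i : ℝ) + 1)))) ν := by
    refine ⟨hm.aestronglyMeasurable,
      (hasFiniteIntegral_iff_ofReal (Eventually.of_forall h0)).2 ?_⟩
    rw [setLIntegral_iUnion_of_directed _ hmono.directed_le]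
    refine lt_of_le_of_lt (iSup_le fun i => ?_) (ENNReal.ofReal_lt_top (r := K))
    rw [← ofReal_integral_eq_lintegral_ofReal (Touch_G_int hC hU x0 he (hr i))
      (Eventually.of_forall h0)]
    refine ENNReal.ofReal_le_ofReal (hK _ (hr i) ?_)
    rw [div_le_one (by positivity)]
    linarith [Nat.cast_nonneg (α := ℝ) i]
  refine h1.of_forall_sdiff_eq_zero measurableSet_ball fun y hy => ?_
  by_cases hy0 : y = x0
  · simp [hy0]
  · exfalso
    obtain ⟨i, hi⟩ := exists_nat_one_div_lt (div_pos (dist_pos.2 hy0) four_pos)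
    refine hy.2 (mem_iUnion.2 ⟨i, hy.1, fun h' => ?_⟩)
    rw [mem_ball] at h'
    linarith

/-- Take a nearest point `x0` of the (closed, nonempty) support, `t = dist x0 z`. On `ball x0 ρ`:
`h² ≤ ρ^(n+2) |h| J`, and `∫_{ball x0 ρ} |h| J → 0` as `ρ → 0` (dominated convergence; the
integrand vanishes at `x0`). -/
theorem touch_out {n : ℕ} {ν : Measure X} {C : ℝ} (hC : 0 < C) (hreg : ∀ W, Reg n ν C 0 W)
    (hR : Ref n ν) {z : X} (hz : z ∉ ν.support) :
    ∃ x0 ∈ ν.support, dist x0 z ≤ ‖z‖ ∧ x0 ≠ z ∧ ∀ ε : ℝ, 0 < ε → ∃ ρ0 : ℝ, 0 < ρ0 ∧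
      ∀ ρ : ℝ, 0 < ρ → ρ ≤ ρ0 →
        ∫ y in ball x0 ρ, ⟪‖x0 - z‖⁻¹ • (x0 - z), y - x0⟫ ^ 2 ∂ν ≤ ε * ρ ^ (n + 2) := by
  have := (hreg 0).up.locFin
  obtain ⟨x0, hx0, hd⟩ := ν.isClosed_support.exists_infDist_eq_dist ⟨0, (hreg 0).mem⟩ z
  have hmin : ∀ y ∈ ν.support, ‖x0 - z‖ ≤ ‖y - z‖ := fun y hy => by
    rw [← dist_eq_norm, ← dist_eq_norm, dist_comm x0, dist_comm y, ← hd]
    exact infDist_le_dist_of_mem hy
  have hne : x0 ≠ z := fun h => hz (h ▸ hx0)
  have ht : 0 < ‖x0 - z‖ := norm_pos_iff.2 (sub_ne_zero.2 hne)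
  refine ⟨x0, hx0, by simpa [dist_eq_norm] using hmin 0 (hreg 0).mem, hne, fun ε hε => ?_⟩
  set e := ‖x0 - z‖⁻¹ • (x0 - z) with he
  have he1 : ‖e‖ = 1 := by rw [he, norm_smul, norm_inv, norm_norm, inv_mul_cancel₀ ht.ne']
  have hi := touch_integrable hC hreg hR hx0 he1 ht fun y hy => by
    have h1 := pow_le_pow_left₀ ht.le (hmin y hy) 2
    rw [← sub_add_sub_cancel y x0 z, norm_add_sq_real] at h1
    rw [he, real_inner_smul_left, real_inner_comm, neg_le, ← mul_neg,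
      inv_mul_eq_div, div_le_div_iff₀ ht (by positivity)]
    nlinarith
  have h0 : ∀ y, 0 ≤ |⟪e, y - x0⟫| * J n (x0 - y) := fun y =>
    mul_nonneg (abs_nonneg _) (J_nonneg _ _)
  have hr : ∀ i : ℕ, (0 : ℝ) < 1 / ((i : ℝ) + 1) := fun i => Nat.one_div_pos_of_nat
  have hi2 : ∀ i : ℕ, IntegrableOn (fun y => |⟪e, y - x0⟫| * J n (x0 - y))
      (ball x0 (1 / ((i : ℝ) + 1))) ν := fun i => hi.mono_set (ball_subset_ball (by
    rw [div_le_iff₀ (by positivity)]
    linarith [Nat.cast_nonneg (α := ℝ) i]))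
  have hlim := tendsto_setIntegral_of_antitone (μ := ν)
    (f := fun y => |⟪e, y - x0⟫| * J n (x0 - y))
    (s := fun i : ℕ => ball x0 (1 / ((i : ℝ) + 1))) (fun _ => measurableSet_ball)
    (fun i j hij => ball_subset_ball (Nat.one_div_le_one_div hij)) ⟨0, hi2 0⟩
  rw [setIntegral_eq_zero_of_forall_eq_zero (fun y hy => by
    by_cases hy0 : y = x0
    · simp [hy0]
    · obtain ⟨i, hi⟩ := exists_nat_one_div_lt (dist_pos.2 hy0)
      exact absurd (mem_ball.1 (mem_iInter.1 hy i)) hi.not_gt)] at hlim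
  obtain ⟨i, hlt⟩ := (hlim.eventually (gt_mem_nhds hε)).exists
  refine ⟨_, hr i, fun ρ hρ hρi => ?_⟩
  have hi3 := (hi2 i).mono_set (ball_subset_ball hρi)
  have h1 : ∫ y in ball x0 ρ, ⟪e, y - x0⟫ ^ 2 ∂ν ≤
      ∫ y in ball x0 ρ, |⟪e, y - x0⟫| * J n (x0 - y) * ρ ^ (n + 2) ∂ν := by
    refine setIntegral_mono_on (integrableOn_ball_of_continuous (by fun_prop) _ _)
      (hi3.mul_const _) measurableSet_ball fun y hy => ?_
    by_cases hy0 : y = x0
    · simp [hy0]
    have hd0 : 0 < ‖y - x0‖ := norm_pos_iff.2 (sub_ne_zero.2 hy0)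
    rw [mem_ball, dist_eq_norm] at hy
    rw [← sq_abs, sq, mul_assoc]
    refine mul_le_mul_of_nonneg_left ?_ (abs_nonneg _)
    have h2 := abs_real_inner_le_norm e (y - x0)
    rw [he1, one_mul] at h2
    refine h2.trans ?_
    rw [J, norm_sub_rev x0, le_inv_mul_iff₀ (by positivity), ← pow_succ]
    exact pow_le_pow_left₀ hd0.le hy.le _
  rw [integral_mul_const] at h1
  have h2 := setIntegral_mono_set (hi2 i) (Eventually.of_forall h0)
    (ball_subset_ball hρi : ball x0 ρ ⊆ _).eventuallyLE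
  exact h1.trans (mul_le_mul_of_nonneg_right (h2.trans hlt.le) (by positivity))

end Vale.Agent.P120
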