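import Vale.Agent.P120.Geo
import Vale.Agent.P120.CubeApi

/-!
Geometry inside a tree: slopes, the cone property and the anchor maps.
-/

open MeasureTheory Metric Set Filter Topology
open scoped RealInnerProductSpace ENNReal NNReal

noncomputable section

namespace Vale.Agent.P120

variable {X : Type} [NormedAddCommGroup X] [InnerProductSpace ℝ X] [FiniteDimensional ℝ X]
  [MeasurableSpace X] [BorelSpace X]
variable {F : Type} [NormedAddCommGroup F] [InnerProductSpace ℝ F] [FiniteDimensional ℝ F]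

/-- Induction on `k` with `cone_self`, `tp_inside`, `cone_child` (at `x = ad k y`, `r = θ^k`,
`x' = ad (k+1) y`; `Flat.mono`, `Low.mono`, `Cubes.norm_le`). -/
theorem tree_slope (n : ℕ) {C θ : ℝ} (hC : 0 < C) (hθ : 0 < θ) (hθ1 : θ ≤ 1 / 20) :
    ∃ ε0 : ℝ, 0 < ε0 ∧ ∀ ε : ℝ, ε ≤ ε0 → ∀ (μ : Measure X) (W : ℝ), 200 ≤ W → Reg n μ C 0 W →
    ∀ (Q : Cubes μ.support θ) (V : ℕ → X → Submodule ℝ X) (p : ℕ → X → X) (β : ℕ → X → ℝ),
    FlatData n μ Q V p β → ∀ y ∈ Q.Z, ∀ k,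
      Cone (V (tp Q V β ε y k) (Q.ad (tp Q V β ε y k) y)) (1 / 2) (V k (Q.ad k y)) := by
  obtain ⟨ε0, hε0, h⟩ := cone_child (X := X) n hC hθ (show θ ≤ 1 by linarith)
  refine ⟨ε0, hε0, fun ε hε μ W hW hreg Q V p β hF y hy k => ?_⟩
  cases k with
  | zero => exact cone_self _ (by norm_num)
  | succ k =>
    rcases tp_succ Q V β ε y k with h1 | h1
    · have h2 := tp_le Q V β ε y k
      obtain ⟨a1, a2, a3⟩ := tp_inside Q V β ε y (k := k + 1) (i := k) (h1 ▸ h2) (Nat.lt_succ_self k)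
      have hp := pow_pos hθ k
      have hp1 : θ ^ k ≤ 1 := pow_le_one₀ hθ.le (by linarith)
      have m1 := Q.ad_mem k y hy
      have m2 := Q.ad_mem (k + 1) y hy
      have b1 := hF.flat (k + 1) _ m2
      rw [pow_succ'] at b1
      refine h μ (Q.ad k y) (Q.ad (k + 1) y) (θ ^ k) hp hreg.up (hreg.low.mono ?_)
        (Q.Z_sub (Q.ad_mem_Z _ hy)) ?_ _ _ _ _ _ (hF.rank _ _ (Q.ad_mem _ y hy)) (hF.rank _ _ m1)
        (hF.rank _ _ m2) ((hF.flat k _ m1).mono hp (a2.trans hε))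
        (b1.mono (mul_pos hθ hp) (a1.trans hε)) a3
      · have := Q.norm_le (Q.ad_mem_Z k hy)
        rw [dist_zero_right]
        linarith
      · have := Q.dist_le k _ (Q.ad_mem_Z (k + 1) hy)
        rwa [Q.nest k (k + 1) (Nat.le_succ k) y hy] at this
    · rw [h1]
      exact cone_self _ (by norm_num)

theorem tree_aux {V W : Submodule ℝ X} (h : Cone V (1 / 2) W) (u : X) :
    ‖u‖ ≤ 3 / 2 * ‖Pr V u‖ + 5 / 2 * ‖Nm W u‖ := by
  have a1 := Pr_add_Nm W u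
  have a2 := h _ (Pr W u).2
  have a3 := norm_add_le (Pr W u : X) (Nm W u)
  have a4 := norm_add_le (Pr V (Pr W u) : X) (Nm V (Pr W u))
  have a5 : Pr V (Pr W u) = Pr V u - Pr V (Nm W u) := by
    rw [← map_sub]
    exact congrArg _ (eq_sub_of_add_eq a1)
  have a6 := norm_sub_le (Pr V u) (Pr V (Nm W u))
  have a7 := norm_Pr_le V (Nm W u)
  rw [a1] at a3
  rw [Pr_add_Nm, ← Submodule.coe_norm (Pr V (Pr W u))] at a4
  rw [← a5] at a6
  linarith

/-- Let `j = tp y k`, `i` the largest level in `[j, k]` with `dist y y' ≤ 50 θ^i`. The cube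
`P = ad i y` is flat with slope `≤ 1/2`, and `y, y'` are within `52 θ^i` of its centre, so by
`flat_sup` with `η = θ/200`: `y - y' = w + z`, `w ∈ V i P`, `‖z‖ ≤ 2 η θ^i`, whence
`dist y y' ≤ (3/2) ‖Pr (y - y')‖ + 3 η θ^i`. Either `i = k` or `θ^(i+1) < dist y y'/50`. -/
theorem tree_cone (n : ℕ) {C θ : ℝ} (hC : 0 < C) (hθ : 0 < θ) (hθ1 : θ ≤ 1 / 20) :
    ∃ ε0 : ℝ, 0 < ε0 ∧ ∀ ε : ℝ, ε ≤ ε0 → ∀ (μ : Measure X) (W : ℝ), 200 ≤ W → Reg n μ C 0 W →
    ∀ (Q : Cubes μ.support θ) (V : ℕ → X → Submodule ℝ X) (p : ℕ → X → X) (β : ℕ → X → ℝ),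
    FlatData n μ Q V p β → ∀ y ∈ Q.Z, ∀ k, β k (Q.ad k y) ≤ ε → ∀ y' ∈ μ.support,
      dist y y' ≤ 50 * θ ^ (tp Q V β ε y k) →
      dist y y' ≤ 2 * ‖Pr (V (tp Q V β ε y k) (Q.ad (tp Q V β ε y k) y)) (y - y')‖ +
        θ ^ (k + 1) / 16 := by
  classical
  obtain ⟨ε1, hε1, h1⟩ := tree_slope (X := X) n hC hθ hθ1
  obtain ⟨ε2, hε2, h2⟩ := flat_sup (X := X) n (Λ := 52) (η := θ / 200) hC (by norm_num)
    (by positivity)
  refine ⟨min ε1 ε2, lt_min hε1 hε2, fun ε hε μ W hW hreg Q V p β hF y hy k hk y' hy' hd => ?_⟩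
  have a0 := tp_le Q V β ε y k
  obtain ⟨i, i1, i2, i3, i4⟩ : ∃ i, tp Q V β ε y k ≤ i ∧ i ≤ k ∧ dist y y' ≤ 50 * θ ^ i ∧
      (i < k → 50 * θ ^ (i + 1) < dist y y') :=
    ⟨Nat.findGreatest (fun i => dist y y' ≤ 50 * θ ^ i) k, Nat.le_findGreatest a0 hd,
      Nat.findGreatest_le k, Nat.findGreatest_spec (P := fun i => dist y y' ≤ 50 * θ ^ i) a0 hd,
      fun h => not_le.1 (Nat.findGreatest_is_greatest (Nat.lt_succ_self _) h)⟩
  have a1 : β i (Q.ad i y) ≤ ε := by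
    rcases eq_or_lt_of_le i2 with h | h
    · rwa [h]
    · exact (tp_inside Q V β ε y i1 h).2.1
  have a2 := h1 ε (hε.trans (min_le_left _ _)) μ W hW hreg Q V p β hF y hy i
  rw [tp_between Q V β ε y i1 i2] at a2
  have hp := pow_pos hθ i
  have hp1 : θ ^ i ≤ 1 := pow_le_one₀ hθ.le (by linarith)
  have a3 := h2 μ hreg.up (Q.ad i y) (θ ^ i) hp (hreg.low.mono (by
      have := Q.norm_le (Q.ad_mem_Z i hy)
      rw [dist_zero_right]
      linarith)) _ _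
    ((hF.flat i _ (Q.ad_mem i y hy)).mono hp (a1.trans (hε.trans (min_le_right _ _))))
  have d1 := Q.dist_le i y hy
  have a4 := a3 y (Q.Z_sub hy) (by linarith)
  have a5 := a3 y' hy' (by linarith [dist_triangle_left y' (Q.ad i y) y])
  have a6 := tree_aux a2 (y - y')
  have a7 : Nm (V i (Q.ad i y)) (y - y') = Nm (V i (Q.ad i y)) (y - p i (Q.ad i y)) -
      Nm (V i (Q.ad i y)) (y' - p i (Q.ad i y)) := by
    rw [← map_sub, sub_sub_sub_cancel_right]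
  have a8 := norm_sub_le (Nm (V i (Q.ad i y)) (y - p i (Q.ad i y)))
    (Nm (V i (Q.ad i y)) (y' - p i (Q.ad i y)))
  rw [← a7] at a8
  rw [← dist_eq_norm] at a6
  have a9 := norm_nonneg (Pr (V (tp Q V β ε y k) (Q.ad (tp Q V β ε y k) y)) (y - y'))
  have b1 : θ ^ (i + 1) = θ * θ ^ i := pow_succ' θ i
  have b2 := pow_pos hθ (k + 1)
  rcases eq_or_lt_of_le i2 with h | h
  · rw [← h] at b2 ⊢
    rw [← h] at a6 a9
    linarith
  · have := i4 h
    linarith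

/-- The hypothesis of the gluing lemma. -/
def Anchor {E : Set X} {θ : ℝ} (Q : Cubes E θ) (top : ℕ → X → Prop) (Y : Type)
    [NormedAddCommGroup Y] (c0 : ℝ) : Prop :=
  ∀ j, ∀ c ∈ Q.N j, top j c → ∃ g : X → Y, (∀ a ∈ Q.fib j c, ‖g a‖ ≤ 2 * θ ^ j) ∧
    ∀ a ∈ Q.fib j c, ∀ a' ∈ Q.fib j c, ∀ k, j < k → (∀ i, j < i → i < k → ¬ top i (Q.ad i a)) →
      Q.ad k a ≠ Q.ad k a' → θ ^ k / 4 ≤ dist a a' → c0 * dist a a' ≤ ‖g a - g a'‖

/-- Flat top (`β j c ≤ ε`): `g a = ι (Pr (V j c) (a - c))` for a linear isometry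
`ι : V j c ≃ₗᵢ EuclideanSpace ℝ (Fin n)` (`stdOrthonormalBasis`, `OrthonormalBasis.repr`,
`LinearIsometryEquiv.piLpCongrLeft` or `LinearIsometryEquiv.ofFinrankEq`); `tp_eq_of_no_top`,
`tp_inside`, `tree_cone` at level `k - 1` give the bound with `3/8`.
Non flat top: all children are tops (`top_succ_of`), so `k = j + 1`. At most `Nc` children
(`packing` with `δ = θ^(j+1)/4`, `Λ = 8/θ`); number them injectively by `idx < Nc` and put
`g a = (idx (ad (j+1) a) · θ^j/Nc) • e0`. `c0 = min (3/8) (1/(4 (Nc+1)))`. -/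
theorem tree_anchor {n : ℕ} (hn : 1 ≤ n) {C θ : ℝ} (hC : 0 < C) (hθ : 0 < θ) (hθ1 : θ ≤ 1 / 20) :
    ∃ ε0 c0 : ℝ, 0 < ε0 ∧ 0 < c0 ∧ c0 ≤ 1 ∧ ∀ ε : ℝ, ε ≤ ε0 → ∀ (μ : Measure X) (W : ℝ),
    200 ≤ W → Reg n μ C 0 W → ∀ (Q : Cubes μ.support θ) (V : ℕ → X → Submodule ℝ X)
    (p : ℕ → X → X) (β : ℕ → X → ℝ), FlatData n μ Q V p β →
      Anchor Q (fun k c => tp Q V β ε c k = k) (EuclideanSpace ℝ (Fin n)) c0 := by
  classical
  obtain ⟨ε0, hε0, h⟩ := tree_cone (X := X) n hC hθ hθ1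
  obtain ⟨Nc, hNc⟩ := packing X (8 / θ)
  refine ⟨ε0, min (3 / 8) (1 / (4 * (Nc + 1))), hε0, by positivity,
    (min_le_left _ _).trans (by norm_num),
    fun ε hε μ W hW hreg Q V p β hF j c hc htop => ?_⟩
  have hp := pow_pos hθ j
  have d1 : ∀ a ∈ Q.fib j c, dist a c ≤ 2 * θ ^ j := fun a ha => by
    have := Q.dist_le j a ha.1
    rwa [ha.2] at this
  have d2 : ∀ a ∈ Q.fib j c, ∀ a' ∈ Q.fib j c, dist a a' ≤ 4 * θ ^ j := fun a ha a' ha' => by
    linarith [d1 a ha, d1 a' ha', dist_triangle_right a a' c]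
  rcases le_or_gt (β j c) ε with hb | hb
  · let ι : V j c ≃ₗᵢ[ℝ] EuclideanSpace ℝ (Fin n) :=
      ((stdOrthonormalBasis ℝ (V j c)).reindex (finCongr (hF.rank j c hc))).repr
    refine ⟨fun a => ι (Pr (V j c) (a - c)), fun a ha => ?_,
      fun a ha a' ha' k hk hno _ hd => ?_⟩
    · rw [ι.norm_map]
      refine (norm_Pr_le _ _).trans ?_
      rw [← dist_eq_norm]
      exact d1 a ha
    · obtain ⟨k, rfl⟩ : ∃ k', k = k' + 1 := ⟨k - 1, by omega⟩
      have a1 : tp Q V β ε a j = j := by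
        rw [← tp_ad Q V β ε ha.1 (le_refl j), ha.2]
        exact htop
      have a2 : tp Q V β ε a k = j := tp_eq_of_no_top Q V β ε a a1 (by omega) fun i i1 i2 => by
        rw [← tp_ad Q V β ε ha.1 (le_refl i)]
        exact hno i i1 (by omega)
      have a3 : β k (Q.ad k a) ≤ ε := by
        rcases eq_or_lt_of_le (show j ≤ k by omega) with b | b
        · rwa [← b, ha.2]
        · obtain ⟨k, rfl⟩ : ∃ k', k = k' + 1 := ⟨k - 1, by omega⟩
          exact (tp_inside Q V β ε a (k := k + 1) (i := k) (by omega) (Nat.lt_succ_self k)).1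
      have a4 := h ε hε μ W hW hreg Q V p β hF a ha.1 k a3 a' (Q.Z_sub ha'.1)
        (by rw [a2]; linarith [d2 a ha a' ha'])
      rw [a2, ha.2] at a4
      rw [← map_sub, ι.norm_map, ← map_sub, sub_sub_sub_cancel_right]
      have a5 := mul_le_mul_of_nonneg_right (min_le_left (3 / 8 : ℝ) (1 / (4 * (Nc + 1))))
        (dist_nonneg (x := a) (y := a'))
      linarith
  · let S := (Q.N (j + 1)).filter (fun c' => Q.ad j c' = c)
    have hS : S.card ≤ Nc := by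
      refine hNc S c (θ ^ (j + 1) / 4) (by positivity) (fun c' hc' => ?_) fun c1 h1 c2 h2 hne =>
        Q.sep hθ (Finset.mem_filter.1 h1).1 (Finset.mem_filter.1 h2).1 hne
      obtain ⟨b1, b2⟩ := Finset.mem_filter.1 hc'
      refine (d1 c' ⟨Q.N_sub _ _ b1, b2⟩).trans (le_of_eq ?_)
      rw [pow_succ]
      field_simp
      norm_num
    have hm : ∀ a ∈ Q.fib j c, Q.ad (j + 1) a ∈ S := fun a ha =>
      Finset.mem_filter.2 ⟨Q.ad_mem _ a ha.1, by rw [Q.nest j (j + 1) (Nat.le_succ j) a ha.1, ha.2]⟩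
    obtain ⟨idx, x1, x2⟩ : ∃ idx : X → ℕ, (∀ c' ∈ S, idx c' ≤ Nc) ∧
        ∀ c1 ∈ S, ∀ c2 ∈ S, idx c1 = idx c2 → c1 = c2 := by
      refine ⟨fun c' => if h : c' ∈ S then (S.equivFin ⟨c', h⟩ : ℕ) else 0, fun c' h => ?_,
        fun c1 h1 c2 h2 he => ?_⟩
      · simp only [dif_pos h]
        exact (Fin.is_lt _).le.trans hS
      · simp only [dif_pos h1, dif_pos h2] at he
        exact congrArg Subtype.val (S.equivFin.injective (Fin.ext he))
    let e0 : EuclideanSpace ℝ (Fin n) := EuclideanSpace.single ⟨0, hn⟩ 1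
    have he0 : ‖e0‖ = 1 := by simp [e0]
    have hN : (0 : ℝ) < Nc + 1 := by positivity
    refine ⟨fun a => (idx (Q.ad (j + 1) a) * (θ ^ j / (Nc + 1))) • e0, fun a ha => ?_,
      fun a ha a' ha' k hk hno hne _ => ?_⟩
    · rw [norm_smul, he0, mul_one, Real.norm_of_nonneg (by positivity), ← mul_div_assoc,
        div_le_iff₀ hN]
      have b1 : (idx (Q.ad (j + 1) a) : ℝ) ≤ Nc := Nat.cast_le.2 (x1 _ (hm a ha))
      have b2 : (0 : ℝ) ≤ Nc := Nat.cast_nonneg _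
      nlinarith
    · obtain rfl : k = j + 1 := by
        by_contra hk'
        refine hno (j + 1) (Nat.lt_succ_self j) (by omega) ?_
        show tp Q V β ε (Q.ad (j + 1) a) (j + 1) = j + 1
        rw [tp_ad Q V β ε ha.1 le_rfl]
        exact top_succ_of Q V β ε a (Or.inl (by rwa [ha.2]))
      have b1 : (idx (Q.ad (j + 1) a) : ℤ) - idx (Q.ad (j + 1) a') ≠ 0 := fun b =>
        hne (x2 _ (hm a ha) _ (hm a' ha') (by omega))
      have b2 : (1 : ℝ) ≤ |(idx (Q.ad (j + 1) a) : ℝ) - idx (Q.ad (j + 1) a')| := by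
        exact_mod_cast Int.one_le_abs b1
      rw [← sub_smul, norm_smul, he0, mul_one, ← sub_mul, norm_mul, Real.norm_eq_abs,
        Real.norm_of_nonneg (by positivity)]
      have b3 := mul_le_mul (min_le_right (3 / 8 : ℝ) (1 / (4 * (Nc + 1)))) (d2 a ha a' ha')
        dist_nonneg (by positivity)
      have b4 : 1 / (4 * ((Nc : ℝ) + 1)) * (4 * θ ^ j) = θ ^ j / (Nc + 1) := by field_simp
      have b5 := mul_le_mul_of_nonneg_right b2 (div_pos hp hN).le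
      linarith

end Vale.Agent.P120
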