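import Vale.Agent.P120.Ann

/-!
Turning lemma, part 1: a measurable function that is close to all the affine maps of a tree.
-/

open MeasureTheory Metric Set Filter Topology
open scoped RealInnerProductSpace ENNReal NNReal

noncomputable section

namespace Vale.Agent.P120

variable {X : Type} [NormedAddCommGroup X] [InnerProductSpace ℝ X] [FiniteDimensional ℝ X]
  [MeasurableSpace X] [BorelSpace X]
variable {F : Type} [NormedAddCommGroup F] [InnerProductSpace ℝ F] [FiniteDimensional ℝ F]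

/-- The hypotheses on a tree of balls in `Y` with affine maps; `ℓ θ^k` is the size at level `k`. -/
structure TreeData {Y ι : Type} [NormedAddCommGroup Y] [NormedSpace ℝ Y] (ℓ θ : ℝ)
    (T : ℕ → Finset ι) (c : ℕ → ι → Y) (a : ℕ → ι → F) (M : ℕ → ι → Y →L[ℝ] F)
    (β : ℕ → ι → ℝ) : Prop where
  nonneg : ∀ k i, 0 ≤ β k i
  anc : ∀ j k, j ≤ k → ∀ i ∈ T k, ∃ i' ∈ T j, dist (c k i) (c j i') ≤ 2 * (ℓ * θ ^ j)
  close : ∀ j k, j ≤ k → k ≤ j + 1 → ∀ i ∈ T k, ∀ i' ∈ T j, ∀ q : Y,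
    dist q (c k i) < 10 * (ℓ * θ ^ k) → dist q (c j i') < 10 * (ℓ * θ ^ j) →
    ‖(a k i + M k i q) - (a j i' + M j i' q)‖ ^ 2 ≤ (β k i + β j i') * (ℓ * θ ^ j) ^ 2

theorem turn1_sel {Y ι G : Type} [MeasurableSpace Y] [TopologicalSpace G] (s : Finset ι)
    (U : ι → Set Y) (hU : ∀ i, MeasurableSet (U i)) (f : ι → Y → G)
    (hf : ∀ i, StronglyMeasurable (f i)) (g : Y → G) (hg : StronglyMeasurable g) :
    ∃ A : Y → G, StronglyMeasurable A ∧ ∀ q, (∃ i ∈ s, q ∈ U i ∧ A q = f i q) ∨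
      ((∀ i ∈ s, q ∉ U i) ∧ A q = g q) := by
  classical
  induction s using Finset.induction_on with
  | empty => exact ⟨g, hg, fun q => Or.inr ⟨fun i hi => absurd hi (Finset.notMem_empty i), rfl⟩⟩
  | insert j s _ ih =>
    obtain ⟨A, hA, h⟩ := ih
    refine ⟨(U j).piecewise (f j) A, (hf j).piecewise (hU j) hA, fun q => ?_⟩
    by_cases hq : q ∈ U j
    · exact Or.inl ⟨j, Finset.mem_insert_self _ _, hq, Set.piecewise_eq_of_mem _ _ _ hq⟩
    · rw [Set.piecewise_eq_of_notMem _ _ _ hq]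
      rcases h q with ⟨i, hi, h⟩ | ⟨h1, h2⟩
      · exact Or.inl ⟨i, Finset.mem_insert_of_mem hi, h⟩
      · refine Or.inr ⟨fun i hi => ?_, h2⟩
        rcases Finset.mem_insert.1 hi with rfl | hi
        · exact hq
        · exact h1 i hi

theorem turn1_top {Y ι G : Type} [MeasurableSpace Y] [TopologicalSpace G] [Zero G]
    (T : ℕ → Finset ι) (U : ℕ → ι → Set Y) (hU : ∀ k i, MeasurableSet (U k i))
    (f : ℕ → ι → Y → G) (hf : ∀ k i, StronglyMeasurable (f k i)) (K : ℕ) :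
    ∃ A : Y → G, StronglyMeasurable A ∧ ∀ q, (∃ m, m < K ∧ (∃ i ∈ T m, q ∈ U m i ∧ A q = f m i q) ∧
      ∀ k, k < K → ∀ i ∈ T k, q ∈ U k i → k ≤ m) ∨
      ((∀ k, k < K → ∀ i ∈ T k, q ∉ U k i) ∧ A q = 0) := by
  induction K with
  | zero => exact ⟨0, stronglyMeasurable_zero, fun q => Or.inr ⟨fun k hk => by omega, rfl⟩⟩
  | succ K ih =>
    obtain ⟨g, hg, h⟩ := ih
    obtain ⟨A, hA, h'⟩ := turn1_sel (T K) (U K) (hU K) (f K) (hf K) g hg
    refine ⟨A, hA, fun q => ?_⟩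
    rcases h' q with h1 | ⟨h1, h2⟩
    · exact Or.inl ⟨K, by omega, h1, fun k hk _ _ _ => by omega⟩
    · have key : ∀ k, k < K + 1 → ∀ i ∈ T k, q ∈ U k i → k < K := fun k hk i hi hq => by
        rcases Nat.lt_succ_iff_lt_or_eq.1 hk with h3 | rfl
        · exact h3
        · exact absurd hq (h1 i hi)
      rw [h2]
      rcases h q with ⟨m, hm, h3, h4⟩ | ⟨h3, h4⟩
      · exact Or.inl ⟨m, by omega, h3, fun k hk i hi hq => h4 k (key k hk i hi hq) i hi hq⟩
      · exact Or.inr ⟨fun k hk i hi hq => h3 k (key k hk i hi hq) i hi hq, h4⟩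

theorem turn1_geom {θ : ℝ} (hθ : 0 < θ) (hθ1 : θ ≤ 1 / 2) (N : ℕ) :
    ∑ i ∈ Finset.range N, θ ^ i ≤ 2 :=
  (Finset.sum_le_sum fun i _ => pow_le_pow_left₀ hθ.le hθ1 i).trans (sum_geometric_two_le N)

theorem turn1_sqrt {x u v s t r : ℝ} (hx : 0 ≤ x) (hr : 0 ≤ r) (hs : 0 ≤ s) (ht : 0 ≤ t)
    (hu : u ≤ s ^ 2) (hv : v ≤ t ^ 2) (h : x ^ 2 ≤ (u + v) * r ^ 2) : x ≤ (s + t) * r := by
  refine (pow_le_pow_iff_left₀ hx (by positivity) two_ne_zero).1 (h.trans ?_)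
  rw [mul_pow]
  exact mul_le_mul_of_nonneg_right (by nlinarith [mul_nonneg hs ht]) (sq_nonneg r)

/-- telescoping along a chain of balls that contain a given point -/
theorem turn1_chain {Y ι : Type} [NormedAddCommGroup Y] [NormedSpace ℝ Y] {ℓ θ : ℝ} (hℓ : 0 < ℓ)
    (hθ : 0 < θ) (hθ1 : θ ≤ 1 / 2) {T : ℕ → Finset ι} {c : ℕ → ι → Y} {a : ℕ → ι → F}
    {M : ℕ → ι → Y →L[ℝ] F} {β : ℕ → ι → ℝ} (h : TreeData ℓ θ T c a M β) {K m : ℕ} (hm : m < K)
    {i' : ι} (hi' : i' ∈ T m) {q : Y} (hq : dist q (c m i') < 10 * (ℓ * θ ^ m)) {b : ℕ → ℝ}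
    (hb0 : ∀ t, 0 ≤ b t)
    (hb : ∀ t, ∀ i ∈ T t, dist q (c t i) < 10 * (ℓ * θ ^ t) → β t i ≤ b t ^ 2) (d : ℕ) :
    ∀ j, j + d = m → ∀ i ∈ T j, dist q (c j i) < 10 * (ℓ * θ ^ j) →
      ‖(a m i' + M m i' q) - (a j i + M j i q)‖ ≤ 2 * (b j * (ℓ * θ ^ j)) +
        (2 + θ⁻¹) * ∑ t ∈ Finset.Ico (j + 1) K, b t * (ℓ * θ ^ t) := by
  have hs : ∀ j, 0 ≤ (2 + θ⁻¹) * ∑ t ∈ Finset.Ico j K, b t * (ℓ * θ ^ t) := fun j =>
    mul_nonneg (by positivity) (Finset.sum_nonneg fun t _ => mul_nonneg (hb0 t) (by positivity))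
  induction d with
  | zero =>
    rintro j rfl i hi hqi
    have h1 := turn1_sqrt (norm_nonneg _) (by positivity) (hb0 j) (hb0 j) (hb j i' hi' hq)
      (hb j i hi hqi) (h.close j j le_rfl (by omega) i' hi' i hi q hq hqi)
    have h2 := hs (j + 1)
    simp only [add_zero] at *
    linarith
  | succ d ih =>
    intro j hj i hi hqi
    obtain ⟨i2, hi2, hq2⟩ : ∃ i2 ∈ T (j + 1), dist q (c (j + 1) i2) < 10 * (ℓ * θ ^ (j + 1)) := by
      rcases Nat.eq_zero_or_pos d with rfl | hd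
      · have : j + 1 = m := hj
        subst this
        exact ⟨i', hi', hq⟩
      · obtain ⟨i2, hi2, h2⟩ := h.anc (j + 1) m (by omega) i' hi'
        refine ⟨i2, hi2, ?_⟩
        have h3 : θ ^ m ≤ θ ^ (j + 1 + 1) := pow_le_pow_of_le_one hθ.le (by linarith) (by omega)
        have h4 : θ ^ (j + 1 + 1) ≤ θ ^ (j + 1) * (1 / 2) := by
          rw [pow_succ θ (j + 1)]
          exact mul_le_mul_of_nonneg_left hθ1 (by positivity)
        have h5 := mul_le_mul_of_nonneg_left (h3.trans h4) hℓ.le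
        have h6 := dist_triangle q (c m i') (c (j + 1) i2)
        have h7 : 0 < ℓ * θ ^ (j + 1) := by positivity
        linarith
    have h1 := ih (j + 1) (by omega) i2 hi2 hq2
    have h2 := turn1_sqrt (norm_nonneg _) (by positivity) (hb0 (j + 1)) (hb0 j)
      (hb (j + 1) i2 hi2 hq2) (hb j i hi hqi)
      (h.close j (j + 1) (by omega) le_rfl i2 hi2 i hi q hq2 hqi)
    have h3 := norm_sub_le_norm_sub_add_norm_sub (a m i' + M m i' q)
      (a (j + 1) i2 + M (j + 1) i2 q) (a j i + M j i q)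
    rw [Finset.sum_eq_sum_Ico_succ_bot (show j + 1 < K by omega), mul_add]
    have h4 : θ⁻¹ * (b (j + 1) * (ℓ * θ ^ (j + 1))) = b (j + 1) * (ℓ * θ ^ j) := by
      field_simp
      ring
    have h5 : 0 ≤ b j * (ℓ * θ ^ j) := mul_nonneg (hb0 j) (by positivity)
    linarith

/-- `ℓk = ℓ θ^k`, `U k = ⋃_{i ∈ T k} ball (c k i) (10 ℓk)` decreases in `k` (`anc`, `θ ≤ 1/2`).
`A' k q` = average of `a k i + M k i q` over the `i` whose ball contains `q` (finite sums of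
indicators, so measurable), `A q = A' k q` for the largest `k < K` with `q ∈ U k` and `0` if there
is none (`A = ∑_{k<K} indicator (U k \ U' (k+1)) (A' k)` with `U' K = ∅`).
`b k q = √(∑_{i : q ∈ ball} β k i)`, so `∫ b k² = 10^n ℓk^n vol(B_1) ∑ β k i`. On `U k`:
`‖A' k q - A_{k,i} q‖ ≤ 2 b k ℓk`, on `U (j+1)`: `‖A' (j+1) q - A' j q‖ ≤ (b (j+1) + b j) ℓj`.
Take `e k q = (3 + θ⁻¹) ∑_{k ≤ j < K} θ^(j-k) b j q`; Cauchy-Schwarz and `∑ θ^i ≤ 2`. -/
theorem turn_fun (n : ℕ) {θ : ℝ} (hθ : 0 < θ) (hθ1 : θ ≤ 1 / 2) : ∃ C1 : ℝ, 0 < C1 ∧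
    ∀ (Y ι : Type) [NormedAddCommGroup Y] [InnerProductSpace ℝ Y] [FiniteDimensional ℝ Y]
      [MeasurableSpace Y] [BorelSpace Y], Module.finrank ℝ Y = n → ∀ (ℓ : ℝ), 0 < ℓ →
    ∀ (T : ℕ → Finset ι) (c : ℕ → ι → Y) (a : ℕ → ι → F) (M : ℕ → ι → Y →L[ℝ] F)
      (β : ℕ → ι → ℝ), TreeData ℓ θ T c a M β → ∀ K : ℕ,
    ∃ (A : Y → F) (e : ℕ → Y → ℝ) (B : ℝ), StronglyMeasurable A ∧ (∀ q, ‖A q‖ ≤ B) ∧
      (∀ k q, 0 ≤ e k q) ∧ (∀ k, Integrable (fun q => e k q ^ 2)) ∧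
      (∀ k, k < K → ∀ i ∈ T k, ∀ q, dist q (c k i) < 10 * (ℓ * θ ^ k) →
        ‖A q - (a k i + M k i q)‖ ≤ e k q * (ℓ * θ ^ k)) ∧
      ∑ k ∈ Finset.range K, (∫ q, e k q ^ 2) ≤ C1 * (volume : Measure Y).real (ball 0 1) *
        ∑ k ∈ Finset.range K, ∑ i ∈ T k, β k i * (ℓ * θ ^ k) ^ n := by
  refine ⟨4 * (2 + θ⁻¹) ^ 2 * 10 ^ n, by positivity, ?_⟩
  intro Y ι _ _ _ _ _ hn ℓ hℓ T c a M β h K
  obtain ⟨A, hA, hA'⟩ := turn1_top T (fun k i => ball (c k i) (10 * (ℓ * θ ^ k)))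
    (fun k i => measurableSet_ball) (fun k i q => a k i + M k i q)
    (fun k i => (continuous_const.add (M k i).continuous).stronglyMeasurable) K
  let g : ℕ → Y → ℝ := fun t q =>
    ∑ i ∈ T t, (ball (c t i) (10 * (ℓ * θ ^ t))).indicator (fun _ => β t i) q
  have hi0 : ∀ t i q, 0 ≤ (ball (c t i) (10 * (ℓ * θ ^ t))).indicator (fun _ => β t i) q :=
    fun t i q => Set.indicator_nonneg (fun _ _ => h.nonneg t i) q
  have hg0 : ∀ t q, 0 ≤ g t q := fun t q => Finset.sum_nonneg fun i _ => hi0 t i q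
  have hii : ∀ t i, Integrable ((ball (c t i) (10 * (ℓ * θ ^ t))).indicator fun _ => β t i) :=
    fun t i => (integrable_indicator_iff measurableSet_ball).2
      (integrableOn_const measure_ball_lt_top.ne)
  have hgi : ∀ t, Integrable (g t) := fun t => integrable_finsetSum _ fun i _ => hii t i
  have hgI : ∀ t, ∫ q, g t q = 10 ^ n * (volume : Measure Y).real (ball 0 1) *
      ∑ i ∈ T t, β t i * (ℓ * θ ^ t) ^ n := by
    intro t
    rw [integral_finsetSum _ fun i _ => hii t i, Finset.mul_sum]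
    refine Finset.sum_congr rfl fun i _ => ?_
    rw [integral_indicator_const _ measurableSet_ball, smul_eq_mul, Measure.real,
      Measure.addHaar_ball_of_pos _ _ (by positivity), ENNReal.toReal_mul,
      ENNReal.toReal_ofReal (by positivity), hn, mul_pow, Measure.real]
    ring
  let E : ℕ → Y → ℝ := fun k q =>
    2 * (2 + θ⁻¹) ^ 2 * ∑ t ∈ Finset.Ico k K, θ ^ (t - k) * g t q
  have hE0 : ∀ k q, 0 ≤ E k q := fun k q => mul_nonneg (by positivity)
    (Finset.sum_nonneg fun t _ => mul_nonneg (by positivity) (hg0 t q))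
  have hEi : ∀ k, Integrable (E k) := fun k =>
    (integrable_finsetSum _ fun t _ => (hgi t).const_mul _).const_mul _
  have hE2 : ∀ k, (fun q => √(E k q) ^ 2) = E k := fun k => funext fun q => Real.sq_sqrt (hE0 k q)
  let B : ℕ → ι → ℝ := fun k i => ‖a k i‖ + ‖M k i‖ * (‖c k i‖ + 10 * (ℓ * θ ^ k))
  have hB0 : ∀ k i, 0 ≤ B k i := fun k i => by positivity
  refine ⟨A, fun k q => √(E k q), ∑ k ∈ Finset.range K, ∑ i ∈ T k, B k i, hA, fun q => ?_,
    fun k q => Real.sqrt_nonneg _, fun k => (hE2 k).symm ▸ hEi k, fun k hk i hi q hq => ?_, ?_⟩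
  · rcases hA' q with ⟨m, hm, ⟨i, hi, hq, h1⟩, -⟩ | ⟨-, h1⟩
    · refine le_trans ?_ ((Finset.single_le_sum (f := B m) (fun i _ => hB0 m i) hi).trans
        (Finset.single_le_sum (f := fun k => ∑ i ∈ T k, B k i)
          (fun k _ => Finset.sum_nonneg fun i _ => hB0 k i) (Finset.mem_range.2 hm)))
      rw [h1]
      refine (norm_add_le _ _).trans (add_le_add le_rfl (((M m i).le_opNorm q).trans
        (mul_le_mul_of_nonneg_left ?_ (norm_nonneg _))))
      have h2 := norm_le_norm_add_norm_sub' q (c m i)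
      rw [mem_ball, dist_eq_norm] at hq
      linarith
    · rw [h1, norm_zero]
      exact Finset.sum_nonneg fun k _ => Finset.sum_nonneg fun i _ => hB0 k i
  · rcases hA' q with ⟨m, hm, ⟨i', hi', hq', h1⟩, h2⟩ | ⟨h1, -⟩
    swap
    · exact absurd hq (h1 k hk i hi)
    obtain ⟨d, hd⟩ := Nat.exists_eq_add_of_le (h2 k hk i hi hq)
    have h3 := turn1_chain hℓ hθ hθ1 h hm hi' hq' (b := fun t => √(g t q))
      (fun t => Real.sqrt_nonneg _) (fun t i hi hq => by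
        rw [Real.sq_sqrt (hg0 t q)]
        refine le_trans (le_of_eq ?_) (Finset.single_le_sum (fun i _ => hi0 t i q) hi)
        exact (Set.indicator_of_mem (mem_ball.2 hq) fun _ => β t i).symm) d k hd.symm i hi hq
    rw [h1]
    refine h3.trans ?_
    have h4 : ∑ t ∈ Finset.Ico k K, √(g t q) * (ℓ * θ ^ t) =
        (∑ t ∈ Finset.Ico k K, θ ^ (t - k) * √(g t q)) * (ℓ * θ ^ k) := by
      rw [Finset.sum_mul]
      refine Finset.sum_congr rfl fun t ht => ?_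
      obtain ⟨u, rfl⟩ := Nat.exists_eq_add_of_le (Finset.mem_Ico.1 ht).1
      rw [Nat.add_sub_cancel_left, pow_add]
      ring
    have h5 : (2 + θ⁻¹) * ∑ t ∈ Finset.Ico k K, θ ^ (t - k) * √(g t q) ≤ √(E k q) := by
      refine Real.le_sqrt_of_sq_le ?_
      have h6 := Finset.sum_sq_le_sum_mul_sum_of_sq_le_mul (Finset.Ico k K)
        (r := fun t => θ ^ (t - k) * √(g t q)) (f := fun t => θ ^ (t - k))
        (g := fun t => θ ^ (t - k) * g t q) (fun t _ => by positivity)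
        (fun t _ => mul_nonneg (by positivity) (hg0 t q)) fun t _ => by
          rw [mul_pow, Real.sq_sqrt (hg0 t q)]
          exact le_of_eq (by ring)
      have h7 : ∑ t ∈ Finset.Ico k K, θ ^ (t - k) ≤ 2 := by
        rw [Finset.sum_Ico_eq_sum_range]
        simp only [Nat.add_sub_cancel_left]
        exact turn1_geom hθ hθ1 _
      have h8 := h6.trans (mul_le_mul_of_nonneg_right h7
        (Finset.sum_nonneg fun t _ => mul_nonneg (by positivity) (hg0 t q)))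
      have h9 := mul_le_mul_of_nonneg_left h8 (sq_nonneg (2 + θ⁻¹))
      rw [mul_pow]
      exact h9.trans_eq (by simp only [E]; ring)
    have h6 := mul_le_mul_of_nonneg_right h5 (show 0 ≤ ℓ * θ ^ k by positivity)
    rw [mul_assoc, ← h4, Finset.sum_eq_sum_Ico_succ_bot hk, mul_add] at h6
    have h7 : 0 ≤ θ⁻¹ * (√(g k q) * (ℓ * θ ^ k)) := by positivity
    linarith
  · have h1 : ∀ k, ∫ q, √(E k q) ^ 2 =
        2 * (2 + θ⁻¹) ^ 2 * ∑ t ∈ Finset.Ico k K, θ ^ (t - k) * ∫ q, g t q := by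
      intro k
      rw [hE2, integral_const_mul, integral_finsetSum _ fun t _ => (hgi t).const_mul _]
      simp only [integral_const_mul]
    simp only [h1]
    rw [← Finset.mul_sum, Finset.sum_comm' (t' := Finset.range K)
      (s' := fun t => Finset.range (t + 1)) fun k t => by
        simp only [Finset.mem_range, Finset.mem_Ico]
        omega]
    have h2 : ∑ t ∈ Finset.range K, ∑ k ∈ Finset.range (t + 1), θ ^ (t - k) * ∫ q, g t q ≤
        ∑ t ∈ Finset.range K, 2 * ∫ q, g t q := by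
      refine Finset.sum_le_sum fun t _ => ?_
      rw [← Finset.sum_mul, Finset.sum_flip (fun k => θ ^ k)]
      exact mul_le_mul_of_nonneg_right (turn1_geom hθ hθ1 _) (integral_nonneg (hg0 t))
    refine (mul_le_mul_of_nonneg_left h2 (by positivity)).trans_eq ?_
    simp only [hgI]
    rw [← Finset.mul_sum, ← Finset.mul_sum]
    ring

end Vale.Agent.P120
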