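import Vale.Agent.P120.WeakA

/-!
Reflectionlessness tested against bounded measurable (not Lipschitz) mean zero fields.
-/

open MeasureTheory Metric Set Filter Topology
open scoped RealInnerProductSpace ENNReal NNReal

noncomputable section

namespace Vale.Agent.P120

variable {X : Type} [NormedAddCommGroup X] [InnerProductSpace ℝ X] [FiniteDimensional ℝ X]
  [MeasurableSpace X] [BorelSpace X]
variable {F : Type} [NormedAddCommGroup F] [InnerProductSpace ℝ F] [FiniteDimensional ℝ F]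

theorem weak_memLp {σ : Measure X} [IsLocallyFiniteMeasure σ] {f : X → X} (hf : Measurable f)
    {B ρ : ℝ} (hB : ∀ y, ‖f y‖ ≤ B) (hz : ∀ y, ρ ≤ ‖y‖ → f y = 0) (p : ℝ≥0∞) : MemLp f p σ := by
  refine (memLp_indicator_const p (measurableSet_ball (x := (0 : X)) (ε := ρ)) B
    (Or.inr measure_ball_lt_top.ne)).mono' hf.aestronglyMeasurable (ae_of_all _ fun y => ?_)
  by_cases hy : ρ ≤ ‖y‖
  · rw [hz y hy, indicator_of_notMem (by simpa using hy), norm_zero]
  · rw [indicator_of_mem (by simpa using hy)]; exact hB y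

theorem weak_sq_int {σ : Measure X} {f g : X → X} (hf : MemLp f 2 σ) (hg : MemLp g 2 σ) :
    Integrable (fun y => ‖f y - g y‖ ^ 2) σ :=
  (memLp_two_iff_integrable_sq_norm (hf.sub hg).1).1 (hf.sub hg)

/-- Mean zero Lipschitz approximation in L2. -/
theorem test_approx {n : ℕ} {σ : Measure X} {C : ℝ} (hU : Up n σ C) (hC : 0 < C)
    (h0 : (0 : X) ∈ σ.support) {f : X → X} (hf : Measurable f) {B ρ : ℝ} (hρ : 0 < ρ)
    (hB : ∀ y, ‖f y‖ ≤ B) (hz : ∀ y, ρ ≤ ‖y‖ → f y = 0) (hm : ∫ y, f y ∂σ = 0) {η : ℝ}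
    (hη : 0 < η) : ∃ ψ : X → X, Test σ ψ 0 (2 * ρ) ∧ ∫ y, ‖ψ y - f y‖ ^ 2 ∂σ ≤ η := by
  have := hU.locFin
  have f2 := weak_memLp (σ := σ) hf hB hz 2
  have f1 := memLp_one_iff_integrable.1 (weak_memLp (σ := σ) hf hB hz 1)
  obtain ⟨g, g1, g2, g3⟩ := f2.exist_eLpNorm_sub_le (by simp) (by simp)
    (Real.sqrt_pos.2 (by positivity : 0 < η / 4))
  obtain ⟨K, hK⟩ := ContDiff.lipschitzWith_of_hasCompactSupport g1 g2 (by simp)
  have g4 : MemLp g 2 σ := g2.continuous.memLp_of_hasCompactSupport g1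
  have i1 := weak_sq_int g4 f2
  have hδ : ∫ y, ‖g y - f y‖ ^ 2 ∂σ ≤ η / 4 := by
    rw [eLpNorm_sub_comm, (g4.sub f2).eLpNorm_eq_integral_rpow_norm (by simp) (by simp),
      ENNReal.ofReal_le_ofReal_iff (Real.sqrt_nonneg _), ENNReal.toReal_ofNat, ← one_div,
      ← Real.sqrt_eq_rpow, Real.sqrt_le_sqrt_iff (by positivity)] at g3
    simpa using g3
  set χ : X → ℝ := fun y => cut ρ ‖y‖
  have cχ : Continuous χ := weak_cut_cont ρ
  have sχ : HasCompactSupport χ := weak_cut_supp hρ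
  have iχ : Integrable χ σ := cχ.integrable_of_hasCompactSupport sχ
  have iχ2 : Integrable (fun y => χ y ^ 2) σ :=
    by simp only [sq]; exact (cχ.mul cχ).integrable_of_hasCompactSupport sχ.mul_left
  have b0 : ∀ y, 0 ≤ χ y := fun y => cut_nonneg _ _
  have b1 : ∀ y, χ y ≤ 1 := fun y => cut_le_one _ _
  set m := ∫ y, χ y ∂σ
  have m0 : 0 < m := (integral_pos_iff_support_of_nonneg b0 iχ).2
    (((Measure.mem_support_iff_forall _).1 h0 _ (ball_mem_nhds 0 hρ)).trans_le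
      (measure_mono fun y hy => by
        simp [χ, cut_eq_one hρ (mem_ball_zero_iff.1 hy).le]))
  have m2 : ∫ y, χ y ^ 2 ∂σ ≤ m := integral_mono iχ2 iχ fun y => by nlinarith [b0 y, b1 y]
  have ig : Integrable (fun y => χ y • g y) σ :=
    (cχ.smul g2.continuous).integrable_of_hasCompactSupport sχ.smul_right
  have ef : ∀ y, χ y • f y = f y := fun y => by
    by_cases hy : ρ ≤ ‖y‖
    · simp [hz y hy]
    · simp [χ, cut_eq_one hρ (not_le.1 hy).le]
  set c := ∫ y, χ y • g y ∂σ with hc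
  have c1 : ‖c‖ ^ 2 ≤ m * (η / 4) := by
    have e : c = ∫ y, χ y • (g y - f y) ∂σ := by
      simp only [smul_sub, ef]
      rw [integral_sub ig f1, hm, sub_zero]
    have i2 : Integrable (fun y => ‖χ y • (g y - f y)‖) σ := by
      simp only [smul_sub, ef]; exact (ig.sub f1).norm
    have h1 := ann_cs iχ2 i1 i2 fun y => ⟨sq_nonneg _, sq_nonneg _, by
      rw [norm_smul, mul_pow, Real.norm_eq_abs, sq_abs]⟩
    have h2 := (norm_integral_le_integral_norm _).trans ((le_abs_self _).trans h1)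
    rw [← e, ← Real.sqrt_mul (integral_nonneg fun _ => sq_nonneg _)] at h2
    exact (Real.le_sqrt (norm_nonneg _) (by positivity)).1 (h2.trans (Real.sqrt_le_sqrt
      (mul_le_mul m2 hδ (integral_nonneg fun _ => sq_nonneg _) m0.le)))
  refine ⟨fun y => χ y • (g y - m⁻¹ • c), ⟨?_, fun y hy => ?_, ?_⟩, ?_⟩
  · have h := lipschitz_smul_of_locLip (lipschitz_cut_dist hρ (0 : X)) (x := 0) (ρ := 2 * ρ)
      (fun y hy => cut_eq_zero hρ hy) ((locLip_of_lipschitz hK).sub
      (locLip_of_lipschitz (LipschitzWith.const (m⁻¹ • c))))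
    simpa only [dist_zero_right] using h
  · simp [χ, cut_eq_zero hρ (show 2 * ρ ≤ ‖y‖ by simpa using hy)]
  · simp only [smul_sub]
    rw [integral_sub ig (iχ.smul_const _), integral_smul_const, smul_inv_smul₀ m0.ne', sub_self]
  · refine (integral_mono_of_nonneg (ae_of_all _ fun _ => sq_nonneg _) ((i1.const_mul 2).add
      (iχ2.const_mul (2 * ‖m⁻¹ • c‖ ^ 2))) (ae_of_all _ fun y => ?_)).trans ?_
    · have e : χ y • (g y - m⁻¹ • c) - f y = χ y • (g y - f y) - χ y • m⁻¹ • c := by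
        simp only [smul_sub, ef]; abel
      have h1 := norm_sub_le (χ y • (g y - f y)) (χ y • m⁻¹ • c)
      rw [norm_smul, norm_smul, Real.norm_of_nonneg (b0 y)] at h1
      have h2 := mul_le_of_le_one_left (norm_nonneg (g y - f y)) (b1 y)
      simp only [Pi.add_apply, e]
      refine (pow_le_pow_left₀ (norm_nonneg _) (h1.trans (add_le_add_left h2 _)) 2).trans ?_
      nlinarith [sq_nonneg (‖g y - f y‖ - χ y * ‖m⁻¹ • c‖)]
    · simp only [Pi.add_apply]
      rw [integral_add (i1.const_mul 2) (iχ2.const_mul _), integral_const_mul, integral_const_mul,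
        norm_smul, mul_pow, Real.norm_of_nonneg (by positivity)]
      calc _ ≤ 2 * (η / 4) + 2 * (m⁻¹ ^ 2 * (m * (η / 4))) * m := by gcongr
        _ = η := by field_simp; ring

theorem weak_approx {n : ℕ} {σ : Measure X} {C : ℝ} (hU : Up n σ C) (hC : 0 < C)
    (h0 : (0 : X) ∈ σ.support) {f : X → X} (hf : Measurable f) {B ρ : ℝ} (hρ : 0 < ρ)
    (hB : ∀ y, ‖f y‖ ≤ B) (hz : ∀ y, ρ ≤ ‖y‖ → f y = 0) (hm : ∫ y, f y ∂σ = 0) {η : ℝ}
    (hη : 0 < η) : ∃ ψ : X → X, Test σ ψ 0 (2 * ρ) ∧ Continuous ψ ∧ HasCompactSupport ψ ∧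
      ∫ y, ‖ψ y - f y‖ ^ 2 ∂σ ≤ η ∧ ∫ y, ‖ψ y - f y‖ ∂σ ≤ η := by
  have := hU.locFin
  set θ := η / (2 * (C * (2 * ρ) ^ n)) with hθ
  have θ0 : 0 < θ := by positivity
  obtain ⟨ψ, h1, h2⟩ := test_approx hU hC h0 hf hρ hB hz hm (lt_min hη (by positivity : 0 < θ * η / 2))
  obtain ⟨L, hL⟩ := h1.lip
  have s1 := hasCompactSupport_of_zero h1.zero
  refine ⟨ψ, h1, hL.continuous, s1, h2.trans (min_le_left _ _), ?_⟩
  have i1 := (weak_sq_int (hL.continuous.memLp_of_hasCompactSupport s1)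
    (weak_memLp (σ := σ) hf hB hz 2)).div_const θ
  have i2 : Integrable ((ball (0 : X) (2 * ρ)).indicator fun _ => θ) σ :=
    (integrable_indicator_iff measurableSet_ball).2
      (integrableOn_ball_of_continuous continuous_const _ _)
  refine (integral_mono_of_nonneg (ae_of_all _ fun _ => norm_nonneg _) (i1.add i2)
    (ae_of_all _ fun y => ?_)).trans ?_
  · simp only [Pi.add_apply]
    by_cases hy : 2 * ρ ≤ ‖y‖
    · simp [h1.zero y (by simpa using hy), hz y (by linarith), indicator_nonneg, θ0.le]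
    · rw [indicator_of_mem (by simpa using hy), ← sub_le_iff_le_add, le_div_iff₀ θ0]
      nlinarith [sq_nonneg (‖ψ y - f y‖ - θ), mul_nonneg θ0.le (norm_nonneg (ψ y - f y))]
  · simp only [Pi.add_apply]
    rw [integral_add i1 i2, integral_div, integral_indicator measurableSet_ball, setIntegral_const,
      smul_eq_mul]
    calc _ ≤ θ * η / 2 / θ + C * (2 * ρ) ^ n * θ := by
          gcongr
          · exact h2.trans (min_le_right _ _)
          · exact hU.real_le hC 0 (by positivity)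
      _ = η := by rw [hθ]; field_simp; ring

/-- For fixed `ε` the kernel is bounded, so `RB` extends from test functions to `ψ - f`. -/
theorem weak_zero {n : ℕ} {σ : Measure X} {C : ℝ} (hU : Up n σ C) (hC : 0 < C) (hRB : RB n σ C)
    (hR : Ref n σ) (h0 : (0 : X) ∈ σ.support) {f : X → X} (hf : Measurable f) {B ρ : ℝ}
    (hρ : 0 < ρ) (hB : ∀ y, ‖f y‖ ≤ B) (hz : ∀ y, ρ ≤ ‖y‖ → f y = 0) (hm : ∫ y, f y ∂σ = 0)
    {η : ℝ} (hη : 0 < η) : ∃ S0 : ℝ, ∀ S : ℝ, S0 ≤ S → ∀ᶠ ε in 𝓝[>] (0 : ℝ),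
      |∫ p : X × X, cut S ‖p.2‖ * ⟪f p.1, Ke n ε (p.1 - p.2)⟫ ∂(σ.prod σ)| ≤ η := by
  have := hU.locFin
  obtain ⟨Cw, hCw, Hw⟩ := weak_test (X := X) n hC
  have f2 := weak_memLp (σ := σ) hf hB hz 2
  have f1 := memLp_one_iff_integrable.1 (weak_memLp (σ := σ) hf hB hz 1)
  have t1 : Tendsto (fun S : ℝ => Cw * (2 * ρ / S) ^ (3 / 4 : ℝ) * (∫ y, ‖f y‖ ∂σ + 1)) atTop
      (𝓝 (Cw * 0 * _)) := (((tendsto_const_nhds.div_atTop tendsto_id).rpow_const_nhds_zero
    (by norm_num)).const_mul Cw).mul_const _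
  obtain ⟨S0, hS0⟩ := eventually_atTop.1 ((t1.eventually_le_const
    (by simpa using hη : Cw * 0 * _ < η / 4)).and (eventually_ge_atTop (16 * (2 * ρ))))
  refine ⟨S0, fun S hS => ?_⟩
  obtain ⟨s1, s2⟩ := hS0 S hS
  have cχ := weak_cut_cont (X := X) S
  have sχ := weak_cut_supp (X := X) (by linarith : 0 < S)
  have iχ : Integrable _ σ := cχ.integrable_of_hasCompactSupport sχ
  set K := √(∫ y : X, cut S ‖y‖ ^ 2 ∂σ)
  have K0 : 0 ≤ K := Real.sqrt_nonneg _
  set δ := min 1 (η / (8 * (C * (K + 1)))) with hδ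
  have δ0 : 0 < δ := by positivity
  have δ1 : δ ≤ 1 := min_le_left _ _
  obtain ⟨ψ, a1, a2, a3, a4, a5⟩ := weak_approx hU hC h0 hf hρ hB hz hm (pow_pos δ0 2)
  have iψ : Integrable ψ σ := a2.integrable_of_hasCompactSupport a3
  have s3 : ∫ y, ‖ψ y‖ ∂σ ≤ ∫ y, ‖f y‖ ∂σ + 1 := by
    have h := integral_mono iψ.norm (f1.norm.add (iψ.sub f1).norm) fun y => norm_le_insert' _ (f y)
    simp only [Pi.add_apply] at h
    rw [integral_add f1.norm (iψ.sub f1).norm] at h
    exact h.trans (add_le_add_right (a5.trans (pow_le_one₀ δ0.le δ1)) _)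
  filter_upwards [self_mem_nhdsWithin, Hw σ hU hR ψ _ (by positivity) a1 S s2 (η / 4)
    (by positivity)] with ε (hε : 0 < ε) h1
  have hK : ∀ {g : X → X}, Integrable g σ → Measurable g → _ := fun a b =>
    weak_int a b iχ cχ.measurable (K := fun p => Ke n ε (p.1 - p.2))
      ((weak_Ke_meas n ε).comp (measurable_fst.sub measurable_snd)) fun _ => weak_Ke_bd n hε _
  set M := ∫ y : X, (ε ^ n)⁻¹ * |cut S ‖y‖| ∂σ
  have M0 : 0 ≤ M := integral_nonneg fun _ => by positivity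
  obtain ⟨ψ', b1, b2, b3, b4, b5⟩ := weak_approx hU hC h0 hf hρ hB hz hm
    (lt_min (pow_pos δ0 2) (by positivity : 0 < η / (4 * (M + 1))))
  have iψ' : Integrable ψ' σ := b2.integrable_of_hasCompactSupport b3
  have h2 := hRB ε hε (fun y => ψ y - ψ' y) _ (a2.sub b2) (a3.sub b3) cχ sχ
  have h3 := (hK (iψ'.sub f1) (b2.measurable.sub hf)).2
  simp only [Pi.sub_apply, inner_sub_left, mul_sub] at h2 h3
  rw [integral_sub (hK iψ a2.measurable).1 (hK iψ' b2.measurable).1] at h2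
  rw [integral_sub (hK iψ' b2.measurable).1 (hK f1 hf).1] at h3
  have j1 := weak_sq_int (a2.memLp_of_hasCompactSupport a3) f2
  have j2 := weak_sq_int (b2.memLp_of_hasCompactSupport b3) f2
  have h4 : √(∫ y, ‖ψ y - ψ' y‖ ^ 2 ∂σ) ≤ 2 * δ := by
    refine Real.sqrt_le_iff.2 ⟨by positivity, (integral_mono_of_nonneg (ae_of_all _ fun _ =>
      sq_nonneg _) ((j1.const_mul 2).add (j2.const_mul 2)) (ae_of_all _ fun y => ?_)).trans ?_⟩
    · have := norm_sub_le (ψ y - f y) (ψ' y - f y)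
      rw [sub_sub_sub_cancel_right] at this
      simp only [Pi.add_apply]
      refine (pow_le_pow_left₀ (norm_nonneg _) this 2).trans ?_
      nlinarith [sq_nonneg (‖ψ y - f y‖ - ‖ψ' y - f y‖)]
    · simp only [Pi.add_apply]
      rw [integral_add (j1.const_mul 2) (j2.const_mul 2), integral_const_mul, integral_const_mul]
      linarith [b4.trans (min_le_left _ _)]
  have h5 : C * √(∫ y, ‖ψ y - ψ' y‖ ^ 2 ∂σ) * K ≤ η / 4 :=
    calc _ ≤ C * (2 * (η / (8 * (C * (K + 1))))) * (K + 1) := by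
          gcongr
          · exact h4.trans (by gcongr; exact min_le_right _ _)
          · linarith
      _ = _ := by field_simp; ring
  have h6 : (∫ y, ‖ψ' y - f y‖ ∂σ) * M ≤ η / 4 :=
    calc _ ≤ η / (4 * (M + 1)) * (M + 1) := by
          gcongr
          · exact b5.trans (min_le_right _ _)
          · linarith
      _ = _ := by field_simp
  have h7 : Cw * (2 * ρ / S) ^ (3 / 4 : ℝ) * ∫ y, ‖ψ y‖ ∂σ ≤ η / 4 :=
    le_trans (mul_le_mul_of_nonneg_left s3 (mul_nonneg hCw.le (Real.rpow_nonneg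
      (div_nonneg (by positivity) (by linarith)) _))) s1
  obtain ⟨c1, c2⟩ := abs_le.1 (h1.trans (add_le_add_left h7 _))
  obtain ⟨c3, c4⟩ := abs_le.1 (h2.trans h5)
  obtain ⟨c5, c6⟩ := abs_le.1 (h3.trans h6)
  exact abs_le.2 ⟨by linarith, by linarith⟩

end Vale.Agent.P120
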