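import Vale.Agent.P120.Tail

/-!
The smoothed kernel tested against Lipschitz mean zero fields.
-/

open MeasureTheory Metric Set Filter Topology
open scoped RealInnerProductSpace ENNReal NNReal

noncomputable section

namespace Vale.Agent.P120

variable {X : Type} [NormedAddCommGroup X] [InnerProductSpace ℝ X] [FiniteDimensional ℝ X]
  [MeasurableSpace X] [BorelSpace X]
variable {F : Type} [NormedAddCommGroup F] [InnerProductSpace ℝ F] [FiniteDimensional ℝ F]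

theorem weak_sqrt_lip (ε s t : ℝ) : |√(ε ^ 2 + s ^ 2) - √(ε ^ 2 + t ^ 2)| ≤ |s - t| := by
  have h : ∀ s t : ℝ, √(ε ^ 2 + s ^ 2) ≤ √(ε ^ 2 + t ^ 2) + |s - t| := fun s t => by
    have h1 : |t| ≤ √(ε ^ 2 + t ^ 2) := Real.abs_le_sqrt (by nlinarith [sq_nonneg ε])
    have h2 := Real.sq_sqrt (by positivity : 0 ≤ ε ^ 2 + t ^ 2)
    have h3 : t * (s - t) ≤ |t| * |s - t| := (le_abs_self _).trans_eq (abs_mul _ _)
    refine Real.sqrt_le_iff.2 ⟨by positivity, ?_⟩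
    nlinarith [sq_abs (s - t), mul_le_mul_of_nonneg_right h1 (abs_nonneg (s - t))]
  have h2 := h t s
  rw [abs_sub_comm] at h2
  exact abs_le.2 ⟨by linarith, by linarith [h s t]⟩

theorem weak_norm_le (ε : ℝ) (z : X) : ‖z‖ ≤ √(ε ^ 2 + ‖z‖ ^ 2) :=
  Real.le_sqrt_of_sq_le (by nlinarith [sq_nonneg ε])

theorem weak_coef_le (n : ℕ) (ε : ℝ) {z : X} (hz : z ≠ 0) :
    (√(ε ^ 2 + ‖z‖ ^ 2) ^ (n + 1))⁻¹ ≤ J n z :=
  inv_anti₀ (pow_pos (norm_pos_iff.2 hz) _) (pow_le_pow_left₀ (norm_nonneg _) (weak_norm_le ε z) _)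

theorem weak_Ke_le (n : ℕ) (ε : ℝ) (z : X) : ‖Ke n ε z‖ ≤ J n z * ‖z‖ := by
  rcases eq_or_ne z 0 with rfl | hz
  · simp [Ke]
  rw [Ke, norm_smul, Real.norm_of_nonneg (by positivity)]
  exact mul_le_mul_of_nonneg_right (weak_coef_le n ε hz) (norm_nonneg _)

theorem weak_Ke_bd (n : ℕ) {ε : ℝ} (hε : 0 < ε) (z : X) : ‖Ke n ε z‖ ≤ (ε ^ n)⁻¹ := by
  have h1 : ε ≤ √(ε ^ 2 + ‖z‖ ^ 2) := Real.le_sqrt_of_sq_le (by nlinarith [sq_nonneg ‖z‖])
  have h2 := hε.trans_le h1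
  rw [Ke, norm_smul, Real.norm_of_nonneg (by positivity)]
  refine (mul_le_mul_of_nonneg_left (weak_norm_le ε z) (by positivity)).trans ?_
  rw [pow_succ, mul_inv, mul_assoc, inv_mul_cancel₀ h2.ne', mul_one]
  exact inv_anti₀ (by positivity) (pow_le_pow_left₀ hε.le h1 n)

theorem weak_Ke_meas (n : ℕ) (ε : ℝ) : Measurable (Ke n ε : X → X) := by
  unfold Ke; fun_prop

theorem weak_Ke_neg (n : ℕ) (ε : ℝ) (z : X) : Ke n ε (-z) = -Ke n ε z := by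
  simp [Ke]

/-- `‖Ke z - Ke z'‖ ≤ C_n ‖z - z'‖ / ‖z'‖^(n+1)` when `‖z - z'‖ ≤ ‖z'‖/2`, uniformly in `ε`. -/
theorem Ke_lip (n : ℕ) : ∃ Ck : ℝ, 0 < Ck ∧ ∀ ε : ℝ, 0 < ε → ∀ z z' : X, ‖z - z'‖ ≤ ‖z'‖ / 2 →
    ‖Ke n ε z - Ke n ε z'‖ ≤ Ck * ‖z - z'‖ * J n z' := by
  refine ⟨2 ^ (n + 1) + (n + 1) * 2 ^ (2 * n + 1), by positivity, fun ε hε z z' h => ?_⟩
  rcases eq_or_ne z' 0 with rfl | hz
  · obtain rfl : z = 0 := by simpa using h
    simp
  have h1 := weak_norm_le ε z'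
  have h2 := weak_coef_le n ε hz
  have h3 := (weak_sqrt_lip ε ‖z‖ ‖z'‖).trans ((abs_abs _).symm.trans_le
    ((abs_abs _).trans_le (abs_norm_sub_norm_le z z')))
  have h0 := norm_pos_iff.2 hz
  unfold Ke
  generalize √(ε ^ 2 + ‖z‖ ^ 2) = a at *
  generalize √(ε ^ 2 + ‖z'‖ ^ 2) = b at *
  have b0 : 0 < b := h0.trans_le h1
  have a0 : b / 2 ≤ a := by linarith [(abs_le.1 h3).1]
  have h4 := tail_inv_diff n b0 h3 (by linarith)
  have h5 : (a ^ (n + 1))⁻¹ ≤ 2 ^ (n + 1) * (b ^ (n + 1))⁻¹ := by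
    rw [← div_eq_mul_inv, ← div_pow, ← inv_pow, ← inv_div]
    exact pow_le_pow_left₀ (inv_nonneg.2 (by linarith)) (inv_anti₀ (by positivity) a0) _
  rw [show (a ^ (n + 1))⁻¹ • z - (b ^ (n + 1))⁻¹ • z' = (a ^ (n + 1))⁻¹ • (z - z') +
    ((a ^ (n + 1))⁻¹ - (b ^ (n + 1))⁻¹) • z' by rw [smul_sub, sub_smul]; abel]
  refine (norm_add_le _ _).trans ?_
  rw [norm_smul, norm_smul, Real.norm_of_nonneg (inv_nonneg.2 (pow_nonneg (by linarith) _)),
    Real.norm_eq_abs]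
  calc _ ≤ 2 ^ (n + 1) * (b ^ (n + 1))⁻¹ * ‖z - z'‖ +
        (n + 1) * 2 ^ (2 * n + 1) * ‖z - z'‖ * (b ^ (n + 2))⁻¹ * b := by gcongr
    _ = (2 ^ (n + 1) + (n + 1) * 2 ^ (2 * n + 1)) * ‖z - z'‖ * (b ^ (n + 1))⁻¹ := by
        field_simp; ring
    _ ≤ _ := by gcongr

theorem weak_int {σ : Measure X} [SFinite σ] {f : X → X} {g : X → ℝ} (hf : Integrable f σ)
    (mf : Measurable f) (hg : Integrable g σ) (mg : Measurable g) {K : X × X → X}
    (mK : Measurable K) {M : ℝ} (hK : ∀ p, ‖K p‖ ≤ M) :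
    Integrable (fun p : X × X => g p.2 * ⟪f p.1, K p⟫) (σ.prod σ) ∧
      |∫ p : X × X, g p.2 * ⟪f p.1, K p⟫ ∂(σ.prod σ)| ≤ (∫ y, ‖f y‖ ∂σ) * ∫ y, M * |g y| ∂σ := by
  have h : ∀ p : X × X, |g p.2 * ⟪f p.1, K p⟫| ≤ ‖f p.1‖ * (M * |g p.2|) := fun p => by
    rw [abs_mul]
    calc _ ≤ |g p.2| * (‖f p.1‖ * M) := by
          gcongr
          exact (abs_real_inner_le_norm _ _).trans (by gcongr; exact hK p)
      _ = _ := by ring
  exact ⟨tail_int_prod ((mg.comp measurable_snd).mul ((mf.comp measurable_fst).inner mK)) hf.norm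
    (hg.abs.const_mul M) h, tail_abs_prod hf.norm (hg.abs.const_mul M) h⟩

theorem weak_cut_cont (S : ℝ) : Continuous fun y : X => cut S ‖y‖ :=
  (continuous_cut S).comp continuous_norm

theorem weak_cut_supp {S : ℝ} (hS : 0 < S) : HasCompactSupport fun y : X => cut S ‖y‖ :=
  hasCompactSupport_of_zero (x := 0) (ρ := 2 * S) fun y hy => cut_eq_zero hS (by simpa using hy)

/-- the far part of the kernel -/
def weakK (n : ℕ) (ε R : ℝ) (z : X) : X := (1 - cut R ‖z‖) • Ke n ε z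

theorem weakK_meas (n : ℕ) (ε R : ℝ) : Measurable (weakK n ε R : X → X) :=
  (measurable_const.sub (weak_cut_cont R).measurable).smul (weak_Ke_meas n ε)

theorem weak_one_sub (R t : ℝ) : |1 - cut R t| ≤ 1 :=
  abs_le.2 ⟨by linarith [cut_le_one R t], by linarith [cut_nonneg R t]⟩

theorem weakK_bd (n : ℕ) {ε : ℝ} (hε : 0 < ε) (R : ℝ) (z : X) : ‖weakK n ε R z‖ ≤ (ε ^ n)⁻¹ := by
  rw [weakK, norm_smul]
  exact (mul_le_of_le_one_left (norm_nonneg _) (weak_one_sub _ _)).trans (weak_Ke_bd n hε z)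

theorem weakK_diff {n : ℕ} {Ck ε R ρ : ℝ} (hC : 0 < Ck) (hρ : 0 < ρ) (hR : 4 * ρ ≤ R)
    (H : ∀ z z' : X, ‖z - z'‖ ≤ ‖z'‖ / 2 → ‖Ke n ε z - Ke n ε z'‖ ≤ Ck * ‖z - z'‖ * J n z')
    {a : X} (ha : ‖a‖ < ρ) (b : X) : ‖weakK n ε R (a - b) - weakK n ε R (0 - b)‖ ≤
      (ball (0 : X) (R / 2))ᶜ.indicator (fun y => (Ck + 4) * ρ * J n (0 - y)) b := by
  have hR0 : 0 < R := by linarith
  have h1 : ‖0 - b‖ = ‖b‖ := by simp
  have h2 : |‖a - b‖ - ‖0 - b‖| ≤ ρ := (abs_norm_sub_norm_le _ _).trans (by simpa using ha.le)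
  by_cases hb : b ∈ (ball (0 : X) (R / 2))ᶜ
  · rw [indicator_of_mem hb]
    have h3 : R / 2 ≤ ‖b‖ := by simpa using hb
    have h4 := H (a - b) (0 - b) (by rw [h1]; simp only [sub_sub_sub_cancel_right, sub_zero]; linarith)
    have h5 := tail_cut_diff hR0 (by linarith : 0 < ‖0 - b‖) h2 (by linarith)
    have h6 := weak_Ke_le n ε (0 - b)
    have h7 := J_nonneg n (0 - b)
    have h8 : 0 < ‖0 - b‖ := by linarith
    rw [sub_sub_sub_cancel_right, sub_zero] at h4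
    rw [show weakK n ε R (a - b) - weakK n ε R (0 - b) = (1 - cut R ‖a - b‖) •
      (Ke n ε (a - b) - Ke n ε (0 - b)) - (cut R ‖a - b‖ - cut R ‖0 - b‖) • Ke n ε (0 - b) by
        simp only [weakK, sub_smul, smul_sub]; abel]
    refine (norm_sub_le _ _).trans ?_
    rw [norm_smul, norm_smul, Real.norm_eq_abs, Real.norm_eq_abs]
    calc _ ≤ 1 * (Ck * ρ * J n (0 - b)) + 4 * ρ / ‖0 - b‖ * (J n (0 - b) * ‖0 - b‖) := by
          gcongr
          · exact weak_one_sub _ _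
          · exact h4.trans (by gcongr)
      _ = _ := by field_simp
  · have h3 : ‖b‖ < R / 2 := by simpa using hb
    rw [indicator_of_notMem hb, weakK, weakK, cut_eq_one hR0 (by linarith [(abs_le.1 h2).2]),
      cut_eq_one hR0 (by linarith)]
    simp

theorem weak_lim {n : ℕ} {σ : Measure X} {C : ℝ} (hU : Up n σ C) (hC : 0 < C) {ψ : X → X}
    {ρ R : ℝ} (hψ : Test σ ψ 0 ρ) (hR : 0 < R) : Tendsto (fun ε => ∫ p : X × X,
      cut R ‖p.1 - p.2‖ * ⟪ψ p.1 - ψ p.2, Ke n ε (p.1 - p.2)⟫ ∂(σ.prod σ)) (𝓝[>] 0)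
      (𝓝 (En n σ (cut R) (fun y : X => y) ψ)) := by
  obtain ⟨L, hL⟩ := hψ.lip
  have hi := En_integrable hU hC (locLip_of_lipschitz LipschitzWith.id) hL hψ.zero
    (continuous_cut R).measurable (fun t => abs_le.2 ⟨by linarith [cut_nonneg R t], cut_le_one R t⟩)
    (R := 2 * R) fun t => cut_eq_zero hR
  have mψ := hL.continuous.measurable
  refine tendsto_integral_filter_of_dominated_convergence _ (Eventually.of_forall fun ε =>
    (((weak_cut_cont R).measurable.comp (measurable_fst.sub measurable_snd)).mul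
      (((mψ.comp measurable_fst).sub (mψ.comp measurable_snd)).inner ((weak_Ke_meas n ε).comp
      (measurable_fst.sub measurable_snd)))).aestronglyMeasurable)
    (Eventually.of_forall fun ε => ae_of_all _ fun p => ?_) hi.norm (ae_of_all _ fun p => ?_)
  all_goals
    rcases eq_or_ne (p.1 - p.2) 0 with h | h
    · simp [h, Ke]
    simp only [Ke, id, inner_smul_right, real_inner_comm (p.1 - p.2)]
  · simp only [norm_mul]
    gcongr
    rw [Real.norm_of_nonneg (by positivity), Real.norm_of_nonneg (J_nonneg _ _)]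
    exact weak_coef_le n ε h
  · refine (tendsto_nhdsWithin_of_tendsto_nhds ?_)
    refine (Tendsto.mul_const _ ?_).const_mul _
    have hc : ContinuousAt (fun ε : ℝ => (√(ε ^ 2 + ‖p.1 - p.2‖ ^ 2) ^ (n + 1))⁻¹) 0 :=
      ContinuousAt.inv₀ (by fun_prop) (by simpa using h)
    simpa [J] using hc.tendsto

theorem weak_gr {n : ℕ} {σ : Measure X} {C ρ : ℝ} (hU : Up n σ C) (hC : 0 < C) (hρ : 0 < ρ) :
    Gr n σ (fun y : X => y) 0 ρ (C * ρ ^ 2) := fun t ht => by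
  have := hU.locFin
  have t0 := hρ.trans_le ht
  have h1 := setIntegral_mono_on (integrableOn_ball_of_continuous (μ := σ)
    (continuous_norm.pow 2) (0 : X) t) (integrableOn_ball_of_continuous
    (continuous_const (y := t ^ 2)) 0 t) measurableSet_ball fun y hy =>
    pow_le_pow_left₀ (norm_nonneg _) (mem_ball_zero_iff.1 hy).le 2
  rw [setIntegral_const, smul_eq_mul] at h1
  have h2 : (t / ρ) ^ 2 ≤ (t / ρ) ^ (5 / 2 : ℝ) := by
    rw [← Real.rpow_natCast]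
    exact Real.rpow_le_rpow_of_exponent_le ((one_le_div hρ).2 ht) (by norm_num)
  calc _ ≤ C * t ^ n * t ^ 2 := h1.trans (by gcongr; exact hU.real_le hC 0 t0)
    _ = C * ρ ^ 2 * t ^ n * (t / ρ) ^ 2 := by field_simp
    _ ≤ _ := by gcongr

theorem weak_split {n : ℕ} {σ : Measure X} [SFinite σ] {ψ : X → X} (hψi : Integrable ψ σ)
    (mψ : Measurable ψ) {ρ R ε : ℝ} (hz : ∀ y, ρ ≤ ‖y‖ → ψ y = 0) (hρ : 0 < ρ) (hR : 4 * ρ ≤ R)
    (hε : 0 < ε) (hχ : Integrable (fun y : X => cut (4 * R) ‖y‖) σ) :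
    ∫ p : X × X, cut (4 * R) ‖p.2‖ * ⟪ψ p.1, Ke n ε (p.1 - p.2)⟫ ∂(σ.prod σ) =
      (∫ p : X × X, cut R ‖p.1 - p.2‖ * ⟪ψ p.1 - ψ p.2, Ke n ε (p.1 - p.2)⟫ ∂(σ.prod σ)) / 2 +
      ∫ p : X × X, cut (4 * R) ‖p.2‖ * ⟪ψ p.1, weakK n ε R (p.1 - p.2)⟫ ∂(σ.prod σ) := by
  have hR0 : 0 < R := by linarith
  have mχ := (weak_cut_cont (X := X) (4 * R)).measurable
  have i0 := (weak_int hψi mψ hχ mχ (K := fun p => Ke n ε (p.1 - p.2)) ((weak_Ke_meas n ε).comp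
    (measurable_fst.sub measurable_snd)) fun _ => weak_Ke_bd n hε _).1
  have i2 := (weak_int hψi mψ hχ mχ (K := fun p => weakK n ε R (p.1 - p.2))
    ((weakK_meas n ε R).comp (measurable_fst.sub measurable_snd)) fun _ => weakK_bd n hε R _).1
  have e1 : ∀ p : X × X, cut (4 * R) ‖p.2‖ * ⟪ψ p.1, Ke n ε (p.1 - p.2)⟫ -
      cut (4 * R) ‖p.2‖ * ⟪ψ p.1, weakK n ε R (p.1 - p.2)⟫ =
      cut R ‖p.1 - p.2‖ * ⟪ψ p.1, Ke n ε (p.1 - p.2)⟫ := fun p => by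
    by_cases ha : ρ ≤ ‖p.1‖
    · simp [hz _ ha]
    by_cases hb : 2 * R ≤ ‖p.1 - p.2‖
    · simp [weakK, cut_eq_zero hR0 hb]
    rw [cut_eq_one (by linarith) (by linarith [norm_sub_norm_le p.2 p.1, norm_sub_rev p.1 p.2]),
      weakK, inner_smul_right]
    ring
  have i1 := (i0.sub i2).congr (ae_of_all _ e1)
  have e2 := integral_sub i0 i2
  simp only [e1] at e2
  have e3 := integral_prod_swap (μ := σ) (ν := σ)
    fun p : X × X => cut R ‖p.1 - p.2‖ * ⟪ψ p.1, Ke n ε (p.1 - p.2)⟫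
  have e4 : ∀ p : X × X, cut R ‖p.1 - p.2‖ * ⟪ψ p.1, Ke n ε (p.1 - p.2)⟫ +
      cut R ‖p.2 - p.1‖ * ⟪ψ p.2, Ke n ε (p.2 - p.1)⟫ =
      cut R ‖p.1 - p.2‖ * ⟪ψ p.1 - ψ p.2, Ke n ε (p.1 - p.2)⟫ := fun p => by
    rw [← neg_sub p.1, norm_neg, weak_Ke_neg, inner_neg_right, inner_sub_left]
    ring
  have e5 := integral_add i1 i1.swap
  simp only [Function.comp_def, Prod.fst_swap, Prod.snd_swap, e4] at e3 e5
  linarith

theorem weak_far (n : ℕ) {C : ℝ} (hC : 0 < C) : ∃ Cw : ℝ, 0 < Cw ∧ ∀ σ : Measure X, Up n σ C →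
    ∀ (ψ : X → X) (ρ : ℝ), 0 < ρ → Test σ ψ 0 ρ → ∀ R : ℝ, 4 * ρ ≤ R → ∀ ε : ℝ, 0 < ε →
      |∫ p : X × X, cut (4 * R) ‖p.2‖ * ⟪ψ p.1, weakK n ε R (p.1 - p.2)⟫ ∂(σ.prod σ)| ≤
        Cw * (ρ / (4 * R)) * ∫ y, ‖ψ y‖ ∂σ := by
  obtain ⟨Ck, hCk, Hk⟩ := Ke_lip (X := X) n
  obtain ⟨Ca, hCa, Ha⟩ := ann_far (X := X) n hC
  refine ⟨8 * Ca * (Ck + 4), by positivity, fun σ hU ψ ρ hρ hψ R hR ε hε => ?_⟩
  have := hU.locFin
  have hR0 : 0 < R := by linarith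
  obtain ⟨L, hL⟩ := hψ.lip
  have mψ := hL.continuous.measurable
  have hψi : Integrable ψ σ :=
    hL.continuous.integrable_of_hasCompactSupport (hasCompactSupport_of_zero hψ.zero)
  have hχ : Integrable (fun y : X => cut (4 * R) ‖y‖) σ :=
    (weak_cut_cont _).integrable_of_hasCompactSupport (weak_cut_supp (by linarith))
  have mχ := (weak_cut_cont (X := X) (4 * R)).measurable
  have i2 := (weak_int hψi mψ hχ mχ (K := fun p => weakK n ε R (p.1 - p.2))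
    ((weakK_meas n ε R).comp (measurable_fst.sub measurable_snd)) fun _ => weakK_bd n hε R _).1
  have i3 := (weak_int hψi mψ hχ mχ (K := fun p => weakK n ε R (0 - p.2))
    ((weakK_meas n ε R).comp (measurable_const.sub measurable_snd)) fun _ => weakK_bd n hε R _).1
  have e5 : ∫ p : X × X, cut (4 * R) ‖p.2‖ * ⟪ψ p.1, weakK n ε R (0 - p.2)⟫ ∂(σ.prod σ) = 0 := by
    rw [integral_prod_symm _ i3]
    simp only [integral_const_mul, real_inner_comm (weakK n ε R _), integral_inner hψi, hψ.mean,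
      inner_zero_right, mul_zero, integral_zero]
  obtain ⟨a1, a2⟩ := Ha σ hU 0 (R / 2) (by positivity)
  have b2 := tail_abs_prod (f := fun p : X × X => cut (4 * R) ‖p.2‖ *
      ⟪ψ p.1, weakK n ε R (p.1 - p.2)⟫ - cut (4 * R) ‖p.2‖ * ⟪ψ p.1, weakK n ε R (0 - p.2)⟫)
    hψi.norm ((integrable_indicator_iff measurableSet_ball.compl).2 (a1.const_mul ((Ck + 4) * ρ)))
    fun p => by
      by_cases ha : ρ ≤ ‖p.1‖
      · simp [hψ.zero p.1 (by simpa using ha)]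
      rw [← mul_sub, ← inner_sub_right, abs_mul, abs_of_nonneg (cut_nonneg _ _)]
      exact (mul_le_of_le_one_left (abs_nonneg _) (cut_le_one _ _)).trans
        ((abs_real_inner_le_norm _ _).trans (mul_le_mul_of_nonneg_left
        (weakK_diff hCk hρ hR (Hk ε hε) (not_le.1 ha) _) (norm_nonneg _)))
  rw [integral_sub i2 i3, e5, sub_zero, integral_indicator measurableSet_ball.compl,
    integral_const_mul] at b2
  have I0 : 0 ≤ ∫ y, ‖ψ y‖ ∂σ := integral_nonneg fun _ => norm_nonneg _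
  calc _ ≤ (∫ y, ‖ψ y‖ ∂σ) * ((Ck + 4) * ρ * (Ca / (R / 2))) := b2.trans (by gcongr)
    _ = _ := by field_simp; ring

/-- For a test function `ψ` in `ball 0 ρ` and `S ≥ 16 ρ`, `R = S/4`: split `1 = cut R |a-b| + rest`. -/
theorem weak_test (n : ℕ) {C : ℝ} (hC : 0 < C) : ∃ Cw : ℝ, 0 < Cw ∧ ∀ σ : Measure X, Up n σ C →
    Ref n σ → ∀ (ψ : X → X) (ρ : ℝ), 0 < ρ → Test σ ψ 0 ρ → ∀ S : ℝ, 16 * ρ ≤ S →
    ∀ η : ℝ, 0 < η → ∀ᶠ ε in 𝓝[>] (0 : ℝ),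
      |∫ p : X × X, cut S ‖p.2‖ * ⟪ψ p.1, Ke n ε (p.1 - p.2)⟫ ∂(σ.prod σ)| ≤
        Cw * (ρ / S) ^ (3 / 4 : ℝ) * ∫ y, ‖ψ y‖ ∂σ + η := by
  obtain ⟨Ca, hCa, Ha⟩ := weak_far (X := X) n hC
  obtain ⟨Ct, hCt, Ht⟩ := osc_bound (X := X) (F := X) n hC
  refine ⟨4 * Ct * (1 + √C) + Ca, by positivity, fun σ hU hR ψ ρ hρ hψ S hS η hη => ?_⟩
  have := hU.locFin
  obtain ⟨R, rfl⟩ : ∃ R, S = 4 * R := ⟨S / 4, by ring⟩
  have hR0 : 0 < R := by linarith
  obtain ⟨L, hL⟩ := hψ.lip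
  have hψi : Integrable ψ σ :=
    hL.continuous.integrable_of_hasCompactSupport (hasCompactSupport_of_zero hψ.zero)
  have hz : ∀ y, ρ ≤ ‖y‖ → ψ y = 0 := fun y hy => hψ.zero y (by simpa using hy)
  have h := Ht σ hU (fun y => y) (locLip_of_lipschitz LipschitzWith.id) 0 ρ (C * ρ ^ 2) 0 hρ
    (by positivity) (weak_gr hU hC hρ) (hR.osc 0 ρ) ψ hψ R (by linarith)
  have h1 : ∫ y, ‖y‖ * ‖ψ y‖ ∂σ ≤ ρ * ∫ y, ‖ψ y‖ ∂σ := by
    rw [← integral_const_mul]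
    refine integral_mono_of_nonneg (ae_of_all _ fun _ => by positivity) (hψi.norm.const_mul _)
      (ae_of_all _ fun y => ?_)
    by_cases hy : ρ ≤ ‖y‖
    · simp [hz y hy]
    · exact mul_le_mul_of_nonneg_right (not_le.1 hy).le (norm_nonneg _)
  have I0 : 0 ≤ ∫ y, ‖ψ y‖ ∂σ := integral_nonneg fun _ => norm_nonneg _
  have q1 : ρ / (4 * R) ≤ (ρ / (4 * R)) ^ (3 / 4 : ℝ) := by
    refine (Real.rpow_one _).symm.trans_le (Real.rpow_le_rpow_of_exponent_ge (by positivity) ?_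
      (by norm_num))
    rw [div_le_one (by positivity)]; linarith
  have q2 : (ρ / R) ^ (3 / 4 : ℝ) ≤ 4 * (ρ / (4 * R)) ^ (3 / 4 : ℝ) := by
    rw [show ρ / R = 4 * (ρ / (4 * R)) by field_simp, Real.mul_rpow (by norm_num) (by positivity)]
    gcongr
    exact (Real.rpow_le_rpow_of_exponent_le (by norm_num) (by norm_num)).trans_eq (Real.rpow_one 4)
  filter_upwards [self_mem_nhdsWithin, (Metric.tendsto_nhds.1 (weak_lim hU hC hψ hR0)) η hη]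
    with ε (hε : 0 < ε) h2
  have h3 := Ha σ hU ψ ρ hρ hψ R (by linarith) ε hε
  rw [weak_split hψi hL.continuous.measurable hz hρ (by linarith) hε
    ((weak_cut_cont _).integrable_of_hasCompactSupport (weak_cut_supp (by linarith)))]
  have q0 := le_trans (by positivity) q1
  generalize (ρ / (4 * R)) ^ (3 / 4 : ℝ) = q at *
  generalize ∫ y, ‖ψ y‖ ∂σ = I at *
  have hE : |En n σ (cut R) (fun y : X => y) ψ| ≤ 4 * Ct * (1 + √C) * q * I := by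
    rw [zero_mul, Real.sqrt_zero, zero_add, Real.sqrt_mul hC.le, Real.sqrt_sq hρ.le,
      mul_inv_cancel_right₀ hρ.ne'] at h
    calc _ ≤ Ct * (R⁻¹ * (ρ * I) + √C * (4 * q) * I) := h.trans (by gcongr)
      _ = Ct * (4 * (ρ / (4 * R)) * I + √C * (4 * q) * I) := by field_simp
      _ ≤ Ct * (4 * q * I + √C * (4 * q) * I) := by gcongr
      _ = _ := by ring
  rw [Real.dist_eq] at h2
  have b4 : 0 ≤ 4 * Ct * (1 + √C) * q * I := by positivity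
  obtain ⟨c1, c2⟩ := abs_le.1 hE
  obtain ⟨c3, c4⟩ := abs_lt.1 h2
  obtain ⟨c5, c6⟩ := abs_le.1 (h3.trans (show _ ≤ Ca * q * I by gcongr))
  exact abs_le.2 ⟨by linarith, by linarith⟩

end Vale.Agent.P120
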